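import Mathlib

namespace Vale.Agent.P203

/-- A finite multigraph with labelled vertices and no edges inside a label class. -/
structure Gr (B : Type) where
  N : Type
  [fin : Fintype N]
  [dec : DecidableEq N]
  lab : N → B
  mu : N → N → ℕ
  mu_symm : ∀ i j, mu i j = mu j i
  mu_lab : ∀ i j, lab i = lab j → mu i j = 0

attribute [instance] Gr.fin Gr.dec

variable {B : Type}

/-- The numerical shadow of the category of dg modules with its twist functors. -/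
structure Cat (Γ : Gr B) where
  Ob : Type 1
  h : Ob → ℤ → Γ.N → ℕ
  b : Ob → ℤ → Γ.N → ℕ
  up : B → Ob → Ob
  dn : B → Ob → Ob
  SES : Ob → Ob → Ob → Prop
  Iso : Ob → Ob → Prop
  bdd : ∀ E, ∃ n : ℕ, ∀ k : ℤ, (n : ℤ) < |k| → ∀ j, h E k j = 0
  les : ∀ A E C, SES A E C → ∃ α β γ : ℤ → Γ.N → ℕ, ∀ k j,
    h A k j = α k j + γ (k - 1) j ∧ h E k j = α k j + β k j ∧ h C k j = β k j + γ k j
  ses_up : ∀ s A E C, SES A E C → SES (up s A) (up s E) (up s C)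
  ses_dn : ∀ s A E C, SES A E C → SES (dn s A) (dn s E) (dn s C)
  iso_h : ∀ X Y, Iso X Y → h X = h Y
  iso_up : ∀ s X Y, Iso X Y → Iso (up s X) (up s Y)
  iso_dn : ∀ s X Y, Iso X Y → Iso (dn s X) (dn s Y)
  up_off : ∀ s E k j, Γ.lab j ≠ s → h (up s E) k j = h E k j
  up_on : ∀ s E k j, Γ.lab j = s →
    h (up s E) k j + h E k j = ∑ i, Γ.mu j i * h E k i + b E k j + b E (k - 1) j
  b_le : ∀ E k j, b E k j ≤ h E k j
  le_b : ∀ E k j, h E k j ≤ ∑ i, Γ.mu j i * h E k i + b E k j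
  fac : ∀ s E k j, Γ.lab j = s → h (up s E) k j + b E k j ≤ h E k j + b (up s E) k j
  inv1 : ∀ s E, ∃ A C, SES A (up s (dn s E)) C ∧ Iso E A ∧ ∀ k j, h C k j = 0
  inv2 : ∀ s E, ∃ A C, SES A (dn s (up s E)) C ∧ Iso C E ∧ ∀ k j, h A k j = 0
  trunc : ∀ E (K : ℤ), ∃ A C, SES A E C ∧ (∀ k, K ≤ k → ∀ j, h A k j = 0) ∧
    ∀ k, k < K → ∀ j, h C k j = 0
  peel : ∀ E (K : ℤ) j, (∀ k, K < k → ∀ i, h E k i = 0) → b E K j ≠ 0 →
    ∃ A C, SES A E C ∧ (∀ k, K < k → ∀ i, h A k i = 0) ∧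
      ∀ k i, h C k i = if k = K ∧ i = j then 1 else 0
  nil : ∀ E k, (∀ j, b E k j = 0) → ∀ j, h E k j = 0
  oct : ∀ A' A C' E C, SES A' A C' → SES A E C → ∃ C'', SES A' E C'' ∧ SES C' C'' C
  simple : ∀ j, ∃ E, ∀ k i, h E k i = if k = 0 ∧ i = j then 1 else 0

end Vale.Agent.P203
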