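import Vale.Agent.P203.ModelUpAux

namespace Vale.Agent.P203

open LinearMap

variable {B : Type} {Γ : Gr B} [DecidableEq B]

namespace Pre

section defs

variable (F : Pre Γ) (s : B)

/-- The differential of the lowering twist, on the plain product. -/
def dnD (i : Γ.N) : F.V i × F.NV i →ₗ[K2] F.V i × F.NV i := (F.dn s).d i

/-- The homotopy of the lowering twist, on the plain product. -/
def dnL (i : Γ.N) : F.V i × F.NV i →ₗ[K2] F.V i × F.NV i := (F.dn s).l i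

/-- The grading of the lowering twist, on the plain product. -/
def dnP (G : F.Gd) (i : Γ.N) (k : ℤ) : Submodule K2 (F.V i × F.NV i) := F.dnG s G i k

/-- The element of the neighbour space supported on one edge. -/
def dnS (j i : Γ.N) (e : Fin (Γ.mu j i)) (v : F.V i) : F.NV j :=
  Pi.single (M := fun i' => Fin (Γ.mu j i') → F.V i') i (Pi.single e v)

end defs

variable {F : Pre Γ} {s : B}

omit [DecidableEq B] in
theorem dnS_same (j i : Γ.N) (e : Fin (Γ.mu j i)) (v : F.V i) : F.dnS j i e v i e = v := by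
  simp [dnS]

omit [DecidableEq B] in
theorem dnS_ne (j i : Γ.N) (e : Fin (Γ.mu j i)) (v : F.V i) {i' : Γ.N} (h : i' ≠ i)
    (e' : Fin (Γ.mu j i')) : F.dnS j i e v i' e' = 0 := by
  simp [dnS, h]

omit [DecidableEq B] in
theorem dnS_ne' (j i : Γ.N) (e : Fin (Γ.mu j i)) (v : F.V i) {e' : Fin (Γ.mu j i)} (h : e' ≠ e) :
    F.dnS j i e v i e' = 0 := by
  simp [dnS, h]

omit [DecidableEq B] in
theorem dnS_map {F' : Pre Γ} (g : ∀ i, F.V i →ₗ[K2] F'.V i) (j i : Γ.N) (e : Fin (Γ.mu j i))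
    (v : F.V i) (i' : Γ.N) (e' : Fin (Γ.mu j i')) :
    g i' (F.dnS j i e v i' e') = F'.dnS j i e (g i v) i' e' := by
  by_cases h : i' = i
  · subst h
    by_cases h' : e' = e
    · subst h'
      rw [dnS_same, dnS_same]
    · rw [dnS_ne' _ _ _ _ h', dnS_ne' _ _ _ _ h', map_zero]
  · rw [dnS_ne _ _ _ _ h, dnS_ne _ _ _ _ h, map_zero]

omit [DecidableEq B] in
theorem dnS_inn (j i : Γ.N) (e : Fin (Γ.mu j i)) (v : F.V i) :
    F.inn j (F.dnS j i e v) = F.a i j (Γ.rev e) v := by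
  rw [inn_apply, Finset.sum_eq_single i, Finset.sum_eq_single e, dnS_same]
  · intro e' _ h
    rw [dnS_ne' _ _ _ _ h, map_zero]
  · simp
  · intro i' _ h
    exact Finset.sum_eq_zero fun e' _ => by rw [dnS_ne _ _ _ _ h, map_zero]
  · simp

omit [DecidableEq B] in
theorem dnS_sum (j : Γ.N) (f : F.NV j) : ∑ i, ∑ e, F.dnS j i e (f i e) = f := by
  funext i' e'
  rw [Finset.sum_apply, Finset.sum_apply, Finset.sum_eq_single i', Finset.sum_apply,
    Finset.sum_apply, Finset.sum_eq_single e', dnS_same]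
  · intro e _ h
    exact dnS_ne' _ _ _ _ h.symm
  · simp
  · intro i _ h
    rw [Finset.sum_apply, Finset.sum_apply]
    exact Finset.sum_eq_zero fun e _ => dnS_ne _ _ _ _ h.symm _
  · simp

omit [DecidableEq B] in
theorem dnS_mem {G : F.Gd} (j : Γ.N) {i : Γ.N} (e : Fin (Γ.mu j i)) {k : ℤ} {v : F.V i}
    (hv : v ∈ G i k) : F.dnS j i e v ∈ F.gN G j k := by
  refine F.mem_gN.2 fun i' e' => ?_
  by_cases h : i' = i
  · subst h
    by_cases h' : e' = e
    · subst h'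
      rwa [dnS_same]
    · rw [dnS_ne' _ _ _ _ h']
      exact zero_mem _
  · rw [dnS_ne _ _ _ _ h]
    exact zero_mem _

theorem dn_psi_on {i : Γ.N} (h : Γ.lab i = s) (x : F.V i × F.NV i) :
    F.psi s i x = F.l i x.1 + F.inn i x.2 := by
  simp [psi, h]

theorem dn_psi_off {i : Γ.N} (h : Γ.lab i ≠ s) (x : F.V i × F.NV i) : F.psi s i x = x.1 := by
  simp [psi, h]

theorem dn_co_on {i j : Γ.N} (h : Γ.lab j = s) (e : Fin (Γ.mu i j)) (v : F.V i) :
    F.co s i j e v = (0, F.dnS j i (Γ.rev e) v) :=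
  LinearMap.congr_fun (if_pos h) v

theorem dn_co_off {i j : Γ.N} (h : Γ.lab j ≠ s) (e : Fin (Γ.mu i j)) (v : F.V i) :
    F.co s i j e v = (F.a i j e v, 0) :=
  LinearMap.congr_fun (if_neg h) v

theorem dnD_on {i : Γ.N} (h : Γ.lab i = s) (x : F.V i × F.NV i) :
    F.dnD s i x = (F.d i x.1, F.out i x.1 + F.dN i x.2) :=
  LinearMap.congr_fun (if_pos h) x

theorem dnD_off {i : Γ.N} (h : Γ.lab i ≠ s) (x : F.V i × F.NV i) :
    F.dnD s i x = (F.d i x.1, 0) :=
  LinearMap.congr_fun (if_neg h) x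

theorem dnL_on {i : Γ.N} (h : Γ.lab i = s) (x : F.V i × F.NV i) :
    F.dnL s i x = (F.psi s i x, 0) :=
  LinearMap.congr_fun (if_pos h) x

theorem dnL_off {i : Γ.N} (h : Γ.lab i ≠ s) (x : F.V i × F.NV i) :
    F.dnL s i x = (F.l i x.1, 0) :=
  LinearMap.congr_fun (if_neg h) x

theorem dnP_on (G : F.Gd) {i : Γ.N} (h : Γ.lab i = s) (k : ℤ) :
    F.dnP s G i k = (G i (k + 1)).prod (F.gN G i k) := if_pos h

theorem dnP_off (G : F.Gd) {i : Γ.N} (h : Γ.lab i ≠ s) (k : ℤ) :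
    F.dnP s G i k = (G i k).prod ⊥ := if_neg h

theorem dn_psi_co (i j : Γ.N) (e : Fin (Γ.mu i j)) (v : F.V i) :
    F.psi s j (F.co s i j e v) = F.a i j e v := by
  by_cases h : Γ.lab j = s
  · rw [dn_psi_on h, dn_co_on h, map_zero, zero_add, dnS_inn, Gr.rev_rev]
  · rw [dn_psi_off h, dn_co_off h]

theorem Good.dn_psi_d (hF : F.Good) (i : Γ.N) (x : F.V i × F.NV i) :
    F.psi s i (F.dnD s i x) = F.d i (F.psi s i x) := by
  by_cases h : Γ.lab i = s
  · rw [dnD_on h, dn_psi_on h, dn_psi_on h, map_add, map_add, ← add_assoc, hF.tw_rel',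
      hF.tw_d_inn]
  · rw [dnD_off h, dn_psi_off h, dn_psi_off h]

theorem Good.dnD_co (hF : F.Good) (i j : Γ.N) (e : Fin (Γ.mu i j)) (v : F.V i) :
    F.dnD s j (F.co s i j e v) = F.co s i j e (F.d i v) := by
  by_cases h : Γ.lab j = s
  · rw [dnD_on h, dn_co_on h, dn_co_on h, map_zero, map_zero, zero_add]
    refine Prod.ext rfl ?_
    funext i' e'
    exact dnS_map F.d j i _ v i' e'
  · rw [dnD_off h, dn_co_off h, dn_co_off h, hF.da]

theorem dn_inn_out (i : Γ.N) (x : F.V i × F.NV i) : (F.dn s).inn i ((F.dn s).out i x) =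
    (∑ j, ∑ e : Fin (Γ.mu i j), F.co s j i (Γ.rev e) (F.a i j e (F.psi s i x)) :
      F.V i × F.NV i) := by
  refine ((F.dn s).inn_apply i _).trans ?_
  change (∑ j, ∑ e : Fin (Γ.mu i j), F.co s j i (Γ.rev e) (F.psi s j
    (F.co s i j e (F.psi s i x))) : F.V i × F.NV i) = _
  simp only [dn_psi_co]

theorem dn_sum_on {i : Γ.N} (h : Γ.lab i = s) (v : F.V i) :
    ∑ j, ∑ e : Fin (Γ.mu i j), F.co s j i (Γ.rev e) (F.a i j e v) = (0, F.out i v) := by
  simp only [dn_co_on h, Gr.rev_rev]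
  refine Prod.ext ?_ ?_
  · simp [Prod.fst_sum]
  · simp only [Prod.snd_sum]
    exact dnS_sum i (F.out i v)

theorem dn_sum_off {i : Γ.N} (h : Γ.lab i ≠ s) (v : F.V i) :
    ∑ j, ∑ e : Fin (Γ.mu i j), F.co s j i (Γ.rev e) (F.a i j e v) = (F.inn i (F.out i v), 0) := by
  simp only [dn_co_off h]
  refine Prod.ext ?_ ?_
  · simp only [Prod.fst_sum, inn_apply, out_apply]
  · simp [Prod.snd_sum]

theorem dn_mem_on {G : F.Gd} {i : Γ.N} (h : Γ.lab i = s) {k : ℤ} {x : F.V i × F.NV i} :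
    x ∈ F.dnP s G i k ↔ x.1 ∈ G i (k + 1) ∧ x.2 ∈ F.gN G i k := by
  rw [dnP_on G h]
  exact Iff.rfl

theorem dn_mem_off {G : F.Gd} {i : Γ.N} (h : Γ.lab i ≠ s) {k : ℤ} {x : F.V i × F.NV i} :
    x ∈ F.dnP s G i k ↔ x.1 ∈ G i k ∧ x.2 = 0 := by
  rw [dnP_off G h]
  exact Iff.rfl

theorem IsFam.dn_psi {G : F.Gd} (hG : F.IsFam G) {i : Γ.N} {k : ℤ} {x : F.V i × F.NV i}
    (hx : x ∈ F.dnP s G i k) : F.psi s i x ∈ G i k := by
  by_cases h : Γ.lab i = s
  · obtain ⟨h1, h2⟩ := (dn_mem_on h).1 hx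
    have h3 := hG.l_mem _ _ _ h1
    rw [add_sub_cancel_right] at h3
    rw [dn_psi_on h]
    exact add_mem h3 (hG.tw_inn h2)
  · rw [dn_psi_off h]
    exact ((dn_mem_off h).1 hx).1

theorem IsFam.dn_co {G : F.Gd} (hG : F.IsFam G) {i : Γ.N} (j : Γ.N) (e : Fin (Γ.mu i j)) {k : ℤ}
    {v : F.V i} (hv : v ∈ G i k) : F.co s i j e v ∈ F.dnP s G j k := by
  by_cases h : Γ.lab j = s
  · rw [dn_co_on h]
    exact (dn_mem_on h).2 ⟨zero_mem _, dnS_mem j _ hv⟩
  · rw [dn_co_off h]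
    exact (dn_mem_off h).2 ⟨hG.a_mem _ _ _ _ _ hv, rfl⟩

end Pre

theorem Pre.Good.dn {F : Pre Γ} (hF : F.Good) (s : B) : (F.dn s).Good := by
  refine ⟨hF.tw_fd, fun i (x : F.V i × F.NV i) => ?_, fun i j e (x : F.V i × F.NV i) => ?_,
    fun i (x : F.V i × F.NV i) => ?_, ?_⟩
  · change F.dnD s i (F.dnD s i x) = 0
    by_cases h : Γ.lab i = s
    · rw [dnD_on h, dnD_on h]
      refine Prod.ext (hF.dd i _) ?_
      change F.out i (F.d i x.1) + F.dN i (F.out i x.1 + F.dN i x.2) = 0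
      rw [map_add, hF.tw_dN_dN, add_zero, hF.tw_dN_out, add_self2]
    · rw [dnD_off h, dnD_off h]
      exact Prod.ext (hF.dd i _) rfl
  · change F.dnD s j (F.co s i j e (F.psi s i x)) = F.co s i j e (F.psi s i (F.dnD s i x))
    rw [hF.dnD_co, hF.dn_psi_d]
  · rw [dn_inn_out]
    change F.dnD s i (F.dnL s i x) + F.dnL s i (F.dnD s i x) +
      ∑ j, ∑ e : Fin (Γ.mu i j), F.co s j i (Γ.rev e) (F.a i j e (F.psi s i x)) = 0
    by_cases h : Γ.lab i = s
    · rw [dnL_on h, dnL_on h, hF.dn_psi_d, dnD_on h, dn_sum_on h, map_zero, add_zero]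
      refine Prod.ext ?_ ?_
      · exact (add_zero _).trans (add_self2 _)
      · exact (congrArg (· + _) (add_zero _)).trans (add_self2 _)
    · rw [dnL_off h, dnL_off h, dnD_off h, dnD_off h, dn_sum_off h, dn_psi_off h]
      exact Prod.ext (hF.rel i x.1) ((add_zero _).trans (add_zero _))
  · obtain ⟨n, hn⟩ := hF.nil
    have key : ∀ m i (x : F.V i × F.NV i), x ∈ (F.dn s).Phi^[m] (fun _ => ⊤) i →
        x ∈ (F.Phi^[m] (fun _ => ⊤) i).comap (F.psi s i) := by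
      intro m
      induction m with
      | zero => exact fun i x _ => trivial
      | succ m ih =>
        intro i
        rw [Function.iterate_succ_apply', Function.iterate_succ_apply' F.Phi]
        refine (iSup_le fun j => iSup_le fun e => ?_ :
          (F.dn s).Phi ((F.dn s).Phi^[m] (fun _ => ⊤)) i ≤
            (F.Phi (F.Phi^[m] (fun _ => ⊤)) i).comap (F.psi s i))
        rintro _ ⟨x, hx, rfl⟩
        change F.psi s i (F.co s j i e (F.psi s j x)) ∈ F.Phi (F.Phi^[m] (fun _ => ⊤)) i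
        rw [dn_psi_co]
        exact Submodule.mem_iSup_of_mem j (Submodule.mem_iSup_of_mem e ⟨_, ih j x hx, rfl⟩)
    refine ⟨n + 1, funext fun i => eq_bot_iff.2 ?_⟩
    rw [Function.iterate_succ_apply']
    refine iSup_le fun j => iSup_le fun e => ?_
    rintro _ ⟨x, hx, rfl⟩
    have hv : F.psi s j x ∈ F.Phi^[n] (fun _ => ⊤) j := key n j x hx
    rw [hn] at hv
    change F.co s j i e (F.psi s j x) = 0
    rw [(Submodule.mem_bot K2).1 hv, map_zero]

theorem Pre.IsFam.dn {F : Pre Γ} {G : F.Gd} (hG : F.IsFam G) (s : B) :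
    (F.dn s).IsFam (F.dnG s G) := by
  refine ⟨fun i k (x : F.V i × F.NV i) (hx : x ∈ F.dnP s G i k) => ?_,
    fun i k (x : F.V i × F.NV i) (hx : x ∈ F.dnP s G i k) => ?_,
    fun i j e k (x : F.V i × F.NV i) (hx : x ∈ F.dnP s G i k) => hG.dn_co j e (hG.dn_psi hx)⟩
  · change F.dnD s i x ∈ F.dnP s G i (k + 1)
    by_cases h : Γ.lab i = s
    · obtain ⟨h1, h2⟩ := (dn_mem_on h).1 hx
      rw [dnD_on h]
      exact (dn_mem_on h).2 ⟨hG.d_mem _ _ _ h1, add_mem (hG.tw_out h1) (hG.tw_dN h2)⟩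
    · rw [dnD_off h]
      exact (dn_mem_off h).2 ⟨hG.d_mem _ _ _ ((dn_mem_off h).1 hx).1, rfl⟩
  · change F.dnL s i x ∈ F.dnP s G i (k - 1)
    by_cases h : Γ.lab i = s
    · rw [dnL_on h]
      refine (dn_mem_on h).2 ⟨?_, zero_mem _⟩
      rw [sub_add_cancel]
      exact hG.dn_psi hx
    · rw [dnL_off h]
      exact (dn_mem_off h).2 ⟨hG.l_mem _ _ _ ((dn_mem_off h).1 hx).1, rfl⟩

theorem PHom.dn_psi {F F' : Pre Γ} (f : PHom F F') (s : B) (i : Γ.N) (x : F.V i × F.NV i) :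
    f.f i (F.psi s i x) = F'.psi s i ((f.f i).prodMap (f.twN i) x) := by
  by_cases h : Γ.lab i = s
  · rw [Pre.dn_psi_on h, Pre.dn_psi_on h, map_add, f.f_l, f.tw_inn]
    rfl
  · rw [Pre.dn_psi_off h, Pre.dn_psi_off h]
    rfl

/-- The twist of a morphism. -/
def PHom.dnTw {F F' : Pre Γ} (f : PHom F F') (s : B) : PHom (F.dn s) (F'.dn s) where
  f i := (f.f i).prodMap (f.twN i)
  f_d i (x : F.V i × F.NV i) := by
    change (f.f i).prodMap (f.twN i) (F.dnD s i x) = F'.dnD s i ((f.f i).prodMap (f.twN i) x)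
    by_cases h : Γ.lab i = s
    · rw [Pre.dnD_on h, Pre.dnD_on h]
      exact Prod.ext (f.f_d i _)
        ((map_add (f.twN i) _ _).trans (congrArg₂ (· + ·) (f.tw_out i _) (f.tw_dN i _)))
    · rw [Pre.dnD_off h, Pre.dnD_off h]
      exact Prod.ext (f.f_d i _) (map_zero (f.twN i))
  f_l i (x : F.V i × F.NV i) := by
    change (f.f i).prodMap (f.twN i) (F.dnL s i x) = F'.dnL s i ((f.f i).prodMap (f.twN i) x)
    by_cases h : Γ.lab i = s
    · rw [Pre.dnL_on h, Pre.dnL_on h]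
      exact Prod.ext (f.dn_psi s i _) (map_zero (f.twN i))
    · rw [Pre.dnL_off h, Pre.dnL_off h]
      exact Prod.ext (f.f_l i _) (map_zero (f.twN i))
  f_a i j e (x : F.V i × F.NV i) := by
    change (f.f j).prodMap (f.twN j) (F.co s i j e (F.psi s i x)) =
      F'.co s i j e (F'.psi s i ((f.f i).prodMap (f.twN i) x))
    rw [← f.dn_psi]
    by_cases h : Γ.lab j = s
    · rw [Pre.dn_co_on h, Pre.dn_co_on h]
      refine Prod.ext (map_zero (f.f j)) ?_
      funext i' e'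
      exact Pre.dnS_map f.f j i _ _ i' e'
    · rw [Pre.dn_co_off h, Pre.dn_co_off h]
      exact Prod.ext (f.f_a i j e _) (map_zero (f.twN j))

namespace Raw

theorem Ok.dn {E : Raw Γ} (hE : E.Ok) (s : B) : (E.dn s).Ok := by
  refine ⟨hE.good.dn s, hE.ft.dn s, hE.fb.dn s, fun i k => ?_, ?_⟩
  · change E.F.dnP s E.bot i k ≤ E.F.dnP s E.top i k
    by_cases h : Γ.lab i = s
    · rw [Pre.dnP_on _ h, Pre.dnP_on _ h]
      exact Submodule.prod_mono (hE.le _ _) (Pre.tw_gN_mono (fun j => hE.le j k) i)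
    · rw [Pre.dnP_off _ h, Pre.dnP_off _ h]
      exact Submodule.prod_mono (hE.le _ _) le_rfl
  · obtain ⟨n, hn⟩ := hE.bdd
    refine ⟨n + 1, fun i k hk => ?_⟩
    have h1 : (n : ℤ) < |k| := by push_cast at hk; omega
    have h2 : (n : ℤ) < |k + 1| := by
      push_cast at hk
      rw [lt_abs] at hk ⊢
      omega
    change E.F.dnP s E.top i k = E.F.dnP s E.bot i k
    by_cases h : Γ.lab i = s
    · rw [Pre.dnP_on _ h, Pre.dnP_on _ h, hn i _ h2, Pre.tw_gN_congr (fun j => hn j k h1) i]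
    · rw [Pre.dnP_off _ h, Pre.dnP_off _ h, hn i _ h1]

theorem ses_dn {A E C : Raw Γ} (h : SES A E C) (s : B) : SES (A.dn s) (E.dn s) (C.dn s) := by
  obtain ⟨F, G₀, G₁, G₂, rfl, rfl, rfl⟩ := h
  exact ⟨F.dn s, F.dnG s G₀, F.dnG s G₁, F.dnG s G₂, rfl, rfl, rfl⟩

theorem iso_dn {X Y : Raw Γ} (h : Iso X Y) (s : B) : Iso (X.dn s) (Y.dn s) := by
  obtain ⟨f, hf⟩ := h
  refine ⟨f.dnTw s, fun i k => ?_⟩
  change Submodule.map ((f.f i).prodMap (f.twN i)) (X.F.dnP s X.top i k) ⊔ Y.F.dnP s Y.bot i k =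
      Y.F.dnP s Y.top i k ∧ X.F.dnP s X.top i k ⊓
      Submodule.comap ((f.f i).prodMap (f.twN i)) (Y.F.dnP s Y.bot i k) = X.F.dnP s X.bot i k
  by_cases h : Γ.lab i = s
  · simp only [Pre.dnP_on _ h]
    rw [prodMap_map_prod, Submodule.prod_sup_prod, prodMap_comap_prod, Submodule.prod_inf_prod,
      (hf i _).1, (hf i _).2, f.tw_sup fun j => (hf j k).1, f.tw_inf fun j => (hf j k).2]
    exact ⟨rfl, rfl⟩
  · simp only [Pre.dnP_off _ h]
    rw [prodMap_map_prod, Submodule.prod_sup_prod, prodMap_comap_prod, Submodule.prod_inf_prod,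
      (hf i _).1, (hf i _).2, Submodule.map_bot, bot_sup_eq, bot_inf_eq]
    exact ⟨rfl, rfl⟩

end Raw

end Vale.Agent.P203
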