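import Vale.Agent.P203.ModelUpAux

namespace Vale.Agent.P203

open LinearMap

variable {B : Type} {Γ : Gr B} [DecidableEq B]

namespace Pre

section defs

variable (F : Pre Γ) (s : B)

/-- The differential of the raising twist, on the plain product. -/
def upD (i : Γ.N) : F.V i × F.NV i →ₗ[K2] F.V i × F.NV i := (F.up s).d i

/-- The homotopy of the raising twist, on the plain product. -/
def upL (i : Γ.N) : F.V i × F.NV i →ₗ[K2] F.V i × F.NV i := (F.up s).l i

/-- The grading of the raising twist, on the plain product. -/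
def upP (G : F.Gd) (i : Γ.N) (k : ℤ) : Submodule K2 (F.V i × F.NV i) := F.upG s G i k

end defs

variable {F : Pre Γ} {s : B}

theorem up_phi_on {i : Γ.N} (h : Γ.lab i = s) (v : F.V i) : F.phi s i v = (F.l i v, F.out i v) := by
  simp [phi, h]

theorem up_phi_off {i : Γ.N} (h : Γ.lab i ≠ s) (v : F.V i) : F.phi s i v = (v, 0) := by
  simp [phi, h]

theorem up_ev_on {i j : Γ.N} (h : Γ.lab i = s) (e : Fin (Γ.mu i j)) (x : F.V i × F.NV i) :
    F.ev s i j e x = x.2 j e := by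
  simp [ev, h]

theorem up_ev_off {i j : Γ.N} (h : Γ.lab i ≠ s) (e : Fin (Γ.mu i j)) (x : F.V i × F.NV i) :
    F.ev s i j e x = F.a i j e x.1 := by
  simp [ev, h]

theorem upD_on {i : Γ.N} (h : Γ.lab i = s) (x : F.V i × F.NV i) :
    F.upD s i x = (F.d i x.1 + F.inn i x.2, F.dN i x.2) :=
  LinearMap.congr_fun (if_pos h) x

theorem upD_off {i : Γ.N} (h : Γ.lab i ≠ s) (x : F.V i × F.NV i) :
    F.upD s i x = (F.d i x.1, 0) :=
  LinearMap.congr_fun (if_neg h) x

theorem upL_on {i : Γ.N} (h : Γ.lab i = s) (x : F.V i × F.NV i) :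
    F.upL s i x = F.phi s i x.1 :=
  LinearMap.congr_fun (if_pos h) x

theorem upL_off {i : Γ.N} (h : Γ.lab i ≠ s) (x : F.V i × F.NV i) :
    F.upL s i x = (F.l i x.1, 0) :=
  LinearMap.congr_fun (if_neg h) x

theorem upP_on (G : F.Gd) {i : Γ.N} (h : Γ.lab i = s) (k : ℤ) :
    F.upP s G i k = (G i (k - 1)).prod (F.gN G i k) := if_pos h

theorem upP_off (G : F.Gd) {i : Γ.N} (h : Γ.lab i ≠ s) (k : ℤ) :
    F.upP s G i k = (G i k).prod ⊥ := if_neg h

theorem up_ev_phi (i j : Γ.N) (e : Fin (Γ.mu i j)) (v : F.V i) :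
    F.ev s i j e (F.phi s i v) = F.a i j e v := by
  by_cases h : Γ.lab i = s
  · rw [up_ev_on h, up_phi_on h]
    rfl
  · rw [up_ev_off h, up_phi_off h]

theorem Good.upD_phi (hF : F.Good) (i : Γ.N) (v : F.V i) :
    F.upD s i (F.phi s i v) = F.phi s i (F.d i v) := by
  by_cases h : Γ.lab i = s
  · rw [upD_on h, up_phi_on h, up_phi_on h, hF.tw_rel, hF.tw_dN_out]
  · rw [upD_off h, up_phi_off h, up_phi_off h]

theorem Good.up_ev_d (hF : F.Good) (i j : Γ.N) (e : Fin (Γ.mu i j)) (x : F.V i × F.NV i) :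
    F.ev s i j e (F.upD s i x) = F.d j (F.ev s i j e x) := by
  by_cases h : Γ.lab i = s
  · rw [upD_on h, up_ev_on h, up_ev_on h]
    rfl
  · rw [upD_off h, up_ev_off h, up_ev_off h, hF.da]

theorem up_inn_out (i : Γ.N) (x : F.V i × F.NV i) : (F.up s).inn i ((F.up s).out i x) =
    F.phi s i (F.inn i fun j e => F.ev s i j e x) := by
  refine ((F.up s).inn_apply i _).trans ?_
  change (∑ j, ∑ e : Fin (Γ.mu i j), F.phi s i (F.ev s j i (Γ.rev e)
    (F.phi s j (F.ev s i j e x))) : F.V i × F.NV i) = _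
  simp only [up_ev_phi, inn_apply, map_sum]

theorem up_mem_on {G : F.Gd} {i : Γ.N} (h : Γ.lab i = s) {k : ℤ} {x : F.V i × F.NV i} :
    x ∈ F.upP s G i k ↔ x.1 ∈ G i (k - 1) ∧ x.2 ∈ F.gN G i k := by
  rw [upP_on G h]
  exact Iff.rfl

theorem up_mem_off {G : F.Gd} {i : Γ.N} (h : Γ.lab i ≠ s) {k : ℤ} {x : F.V i × F.NV i} :
    x ∈ F.upP s G i k ↔ x.1 ∈ G i k ∧ x.2 = 0 := by
  rw [upP_off G h]
  exact Iff.rfl

theorem IsFam.up_phi {G : F.Gd} (hG : F.IsFam G) {i : Γ.N} {k : ℤ} {v : F.V i} (hv : v ∈ G i k) :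
    F.phi s i v ∈ F.upP s G i k := by
  by_cases h : Γ.lab i = s
  · rw [up_phi_on h]
    exact (up_mem_on h).2 ⟨hG.l_mem _ _ _ hv, hG.tw_out hv⟩
  · rw [up_phi_off h]
    exact (up_mem_off h).2 ⟨hv, rfl⟩

end Pre

theorem Pre.Good.up {F : Pre Γ} (hF : F.Good) (s : B) : (F.up s).Good := by
  refine ⟨hF.tw_fd, fun i (x : F.V i × F.NV i) => ?_, fun i j e (x : F.V i × F.NV i) => ?_,
    fun i (x : F.V i × F.NV i) => ?_, ?_⟩
  · change F.upD s i (F.upD s i x) = 0
    by_cases h : Γ.lab i = s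
    · rw [upD_on h, upD_on h]
      refine Prod.ext ?_ (hF.tw_dN_dN i _)
      change F.d i (F.d i x.1 + F.inn i x.2) + F.inn i (F.dN i x.2) = 0
      rw [map_add, hF.dd, zero_add, hF.tw_d_inn, add_self2]
    · rw [upD_off h, upD_off h]
      exact Prod.ext (hF.dd i _) rfl
  · change F.upD s j (F.phi s j (F.ev s i j e x)) = F.phi s j (F.ev s i j e (F.upD s i x))
    rw [hF.upD_phi, hF.up_ev_d]
  · rw [up_inn_out]
    change F.upD s i (F.upL s i x) + F.upL s i (F.upD s i x) +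
      F.phi s i (F.inn i fun j e => F.ev s i j e x) = 0
    by_cases h : Γ.lab i = s
    · rw [upL_on h, upL_on h, hF.upD_phi, upD_on h]
      simp only [up_ev_on h]
      rw [← map_add, ← map_add, ← add_assoc, add_self2, zero_add, add_self2, map_zero]
    · rw [upL_off h, upL_off h, upD_off h, upD_off h, up_phi_off h]
      simp only [up_ev_off h]
      exact Prod.ext (hF.rel i x.1) ((add_zero _).trans (add_zero _))
  · obtain ⟨n, hn⟩ := hF.nil
    have key : ∀ m i (x : F.V i × F.NV i), x ∈ (F.up s).Phi^[m + 1] (fun _ => ⊤) i →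
        x ∈ (F.Phi^[m] (fun _ => ⊤) i).map (F.phi s i) := by
      intro m
      induction m with
      | zero =>
        intro i
        refine (iSup_le fun j => iSup_le fun e => ?_ :
          (F.up s).Phi (fun _ => ⊤) i ≤ (⊤ : Submodule K2 (F.V i)).map (F.phi s i))
        rintro _ ⟨x, -, rfl⟩
        exact ⟨_, trivial, rfl⟩
      | succ m ih =>
        intro i
        rw [Function.iterate_succ_apply', Function.iterate_succ_apply' F.Phi]
        refine (iSup_le fun j => iSup_le fun e => ?_ :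
          (F.up s).Phi ((F.up s).Phi^[m + 1] (fun _ => ⊤)) i ≤
            (F.Phi (F.Phi^[m] (fun _ => ⊤)) i).map (F.phi s i))
        rintro _ ⟨x, hx, rfl⟩
        obtain ⟨v, hv, rfl⟩ := ih j x hx
        refine ⟨F.a j i e v, ?_, (congrArg (F.phi s i) (up_ev_phi j i e v)).symm⟩
        exact Submodule.mem_iSup_of_mem j (Submodule.mem_iSup_of_mem e ⟨v, hv, rfl⟩)
    refine ⟨n + 1, funext fun i => eq_bot_iff.2 fun x hx => ?_⟩
    obtain ⟨v, hv, rfl⟩ := key n i x hx
    rw [hn] at hv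
    rw [(Submodule.mem_bot K2).1 hv]
    exact (Submodule.mem_bot K2).2 (map_zero (F.phi s i))

theorem Pre.IsFam.up {F : Pre Γ} {G : F.Gd} (hG : F.IsFam G) (s : B) :
    (F.up s).IsFam (F.upG s G) := by
  refine ⟨fun i k (x : F.V i × F.NV i) (hx : x ∈ F.upP s G i k) => ?_,
    fun i k (x : F.V i × F.NV i) (hx : x ∈ F.upP s G i k) => ?_,
    fun i j e k (x : F.V i × F.NV i) (hx : x ∈ F.upP s G i k) => ?_⟩
  · change F.upD s i x ∈ F.upP s G i (k + 1)
    by_cases h : Γ.lab i = s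
    · obtain ⟨h1, h2⟩ := (up_mem_on h).1 hx
      have h3 := hG.d_mem _ _ _ h1
      rw [sub_add_cancel] at h3
      rw [upD_on h]
      refine (up_mem_on h).2 ⟨?_, hG.tw_dN h2⟩
      rw [add_sub_cancel_right]
      exact add_mem h3 (hG.tw_inn h2)
    · rw [upD_off h]
      exact (up_mem_off h).2 ⟨hG.d_mem _ _ _ ((up_mem_off h).1 hx).1, rfl⟩
  · change F.upL s i x ∈ F.upP s G i (k - 1)
    by_cases h : Γ.lab i = s
    · rw [upL_on h]
      exact hG.up_phi ((up_mem_on h).1 hx).1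
    · rw [upL_off h]
      exact (up_mem_off h).2 ⟨hG.l_mem _ _ _ ((up_mem_off h).1 hx).1, rfl⟩
  · change F.phi s j (F.ev s i j e x) ∈ F.upP s G j k
    refine hG.up_phi ?_
    by_cases h : Γ.lab i = s
    · rw [up_ev_on h]
      exact F.mem_gN.1 ((up_mem_on h).1 hx).2 j e
    · rw [up_ev_off h]
      exact hG.a_mem _ _ _ _ _ ((up_mem_off h).1 hx).1

theorem PHom.up_phi {F F' : Pre Γ} (f : PHom F F') (s : B) (i : Γ.N) (v : F.V i) :
    (f.f i).prodMap (f.twN i) (F.phi s i v) = F'.phi s i (f.f i v) := by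
  by_cases h : Γ.lab i = s
  · rw [Pre.up_phi_on h, Pre.up_phi_on h, prodMap_apply, f.f_l, f.tw_out]
  · rw [Pre.up_phi_off h, Pre.up_phi_off h, prodMap_apply, map_zero]

/-- The twist of a morphism. -/
def PHom.upTw {F F' : Pre Γ} (f : PHom F F') (s : B) : PHom (F.up s) (F'.up s) where
  f i := (f.f i).prodMap (f.twN i)
  f_d i (x : F.V i × F.NV i) := by
    change (f.f i).prodMap (f.twN i) (F.upD s i x) = F'.upD s i ((f.f i).prodMap (f.twN i) x)
    by_cases h : Γ.lab i = s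
    · rw [Pre.upD_on h, Pre.upD_on h]
      exact Prod.ext ((map_add _ _ _).trans (congrArg₂ (· + ·) (f.f_d i _) (f.tw_inn i _)))
        (f.tw_dN i _)
    · rw [Pre.upD_off h, Pre.upD_off h]
      exact Prod.ext (f.f_d i _) (map_zero (f.twN i))
  f_l i (x : F.V i × F.NV i) := by
    change (f.f i).prodMap (f.twN i) (F.upL s i x) = F'.upL s i ((f.f i).prodMap (f.twN i) x)
    by_cases h : Γ.lab i = s
    · rw [Pre.upL_on h, Pre.upL_on h]
      exact f.up_phi s i _
    · rw [Pre.upL_off h, Pre.upL_off h]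
      exact Prod.ext (f.f_l i _) (map_zero (f.twN i))
  f_a i j e (x : F.V i × F.NV i) := by
    change (f.f j).prodMap (f.twN j) (F.phi s j (F.ev s i j e x)) =
      F'.phi s j (F'.ev s i j e ((f.f i).prodMap (f.twN i) x))
    refine (f.up_phi s j _).trans (congrArg (F'.phi s j) ?_)
    by_cases h : Γ.lab i = s
    · rw [Pre.up_ev_on h, Pre.up_ev_on h]
      rfl
    · rw [Pre.up_ev_off h, Pre.up_ev_off h, f.f_a]
      rfl

namespace Raw

theorem Ok.up {E : Raw Γ} (hE : E.Ok) (s : B) : (E.up s).Ok := by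
  refine ⟨hE.good.up s, hE.ft.up s, hE.fb.up s, fun i k => ?_, ?_⟩
  · change E.F.upP s E.bot i k ≤ E.F.upP s E.top i k
    by_cases h : Γ.lab i = s
    · rw [Pre.upP_on _ h, Pre.upP_on _ h]
      exact Submodule.prod_mono (hE.le _ _) (Pre.tw_gN_mono (fun j => hE.le j k) i)
    · rw [Pre.upP_off _ h, Pre.upP_off _ h]
      exact Submodule.prod_mono (hE.le _ _) le_rfl
  · obtain ⟨n, hn⟩ := hE.bdd
    refine ⟨n + 1, fun i k hk => ?_⟩
    have h1 : (n : ℤ) < |k| := by push_cast at hk; omega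
    have h2 : (n : ℤ) < |k - 1| := by
      push_cast at hk
      rw [lt_abs] at hk ⊢
      omega
    change E.F.upP s E.top i k = E.F.upP s E.bot i k
    by_cases h : Γ.lab i = s
    · rw [Pre.upP_on _ h, Pre.upP_on _ h, hn i _ h2, Pre.tw_gN_congr (fun j => hn j k h1) i]
    · rw [Pre.upP_off _ h, Pre.upP_off _ h, hn i _ h1]

theorem ses_up {A E C : Raw Γ} (h : SES A E C) (s : B) : SES (A.up s) (E.up s) (C.up s) := by
  obtain ⟨F, G₀, G₁, G₂, rfl, rfl, rfl⟩ := h
  exact ⟨F.up s, F.upG s G₀, F.upG s G₁, F.upG s G₂, rfl, rfl, rfl⟩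

theorem iso_up {X Y : Raw Γ} (h : Iso X Y) (s : B) : Iso (X.up s) (Y.up s) := by
  obtain ⟨f, hf⟩ := h
  refine ⟨f.upTw s, fun i k => ?_⟩
  change Submodule.map ((f.f i).prodMap (f.twN i)) (X.F.upP s X.top i k) ⊔ Y.F.upP s Y.bot i k =
      Y.F.upP s Y.top i k ∧ X.F.upP s X.top i k ⊓
      Submodule.comap ((f.f i).prodMap (f.twN i)) (Y.F.upP s Y.bot i k) = X.F.upP s X.bot i k
  by_cases h : Γ.lab i = s
  · simp only [Pre.upP_on _ h]
    rw [prodMap_map_prod, Submodule.prod_sup_prod, prodMap_comap_prod, Submodule.prod_inf_prod,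
      (hf i _).1, (hf i _).2, f.tw_sup fun j => (hf j k).1, f.tw_inf fun j => (hf j k).2]
    exact ⟨rfl, rfl⟩
  · simp only [Pre.upP_off _ h]
    rw [prodMap_map_prod, Submodule.prod_sup_prod, prodMap_comap_prod, Submodule.prod_inf_prod,
      (hf i _).1, (hf i _).2, Submodule.map_bot, bot_sup_eq, bot_inf_eq]
    exact ⟨rfl, rfl⟩

end Raw

end Vale.Agent.P203
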