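import Vale.Agent.P203.ModelLES
import Vale.Agent.P203.ModelUp

namespace Vale.Agent.P203

open Module LinearMap

variable {B : Type} {Γ : Gr B} [DecidableEq B]

theorem mr_split {V W : Type} [AddCommGroup V] [Module K2 V] [AddCommGroup W] [Module K2 W]
    [Module.Finite K2 V] [Module.Finite K2 W] (X : Submodule K2 (V × W)) {Y : Submodule K2 V}
    {Z : Submodule K2 W} (hY : ∀ v, v ∈ Y ↔ (v, 0) ∈ X) (hZ : ∀ w, w ∈ Z ↔ ∃ v, (v, w) ∈ X) :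
    finrank K2 X = finrank K2 Y + finrank K2 Z := by
  have h := finrank_rel (snd K2 V W) X ⊥
  have h1 : X ⊓ (⊥ : Submodule K2 W).comap (snd K2 V W) = Y.map (inl K2 V W) := by
    ext ⟨v, w⟩
    constructor
    · rintro ⟨h1, h2⟩
      obtain rfl : w = 0 := h2
      exact ⟨v, (hY v).2 h1, rfl⟩
    · rintro ⟨x, h1, h2⟩
      rw [← h2]
      exact ⟨(hY x).1 h1, rfl⟩
  have h2 : X.map (snd K2 V W) = Z := by
    ext w
    rw [hZ]
    exact ⟨fun ⟨x, h1, h2⟩ => ⟨x.1, h2 ▸ h1⟩, fun ⟨v, h1⟩ => ⟨_, h1, rfl⟩⟩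
  rw [h1, sup_bot_eq, h2, finrank_bot, add_zero,
    ← (Submodule.equivMapOfInjective _ inl_injective Y).finrank_eq] at h
  exact h

omit [DecidableEq B] in
theorem mr_gN {F : Pre Γ} (hF : ∀ i, Module.Finite K2 (F.V i)) (G : F.Gd) (j : Γ.N) (k : ℤ) :
    finrank K2 (F.gN G j k) = ∑ i, Γ.mu j i * finrank K2 (G i k) := by
  let e : F.gN G j k ≃ₗ[K2] ∀ i, Fin (Γ.mu j i) → G i k :=
    { toFun := fun f i e => ⟨f.1 i e, (Pre.mem_gN _).1 f.2 i e⟩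
      map_add' := fun _ _ => rfl
      map_smul' := fun _ _ => rfl
      invFun := fun f => ⟨fun i e => f i e, (Pre.mem_gN _).2 fun i e => (f i e).2⟩
      left_inv := fun _ => rfl
      right_inv := fun _ => rfl }
  rw [e.finrank_eq, finrank_pi_fintype]
  refine Finset.sum_congr rfl fun i _ => ?_
  rw [finrank_pi_fintype]
  simp

omit [DecidableEq B] in
theorem mr_inn_single (F : Pre Γ) (i j : Γ.N) (e : Fin (Γ.mu i j)) (v : F.V i) :
    F.inn j (Pi.single i (Pi.single (Γ.rev e) v)) = F.a i j e v := by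
  rw [Pre.inn_apply, Finset.sum_eq_single i, Finset.sum_eq_single (Γ.rev e)]
  · simp
  · intro e' _ h
    simp [Pi.single_eq_of_ne h]
  · simp
  · intro i' _ h
    simp [Pi.single_eq_of_ne h]
  · simp

omit [DecidableEq B] in
theorem mr_map_inn (F : Pre Γ) (G : F.Gd) (j : Γ.N) (k : ℤ) :
    (F.gN G j k).map (F.inn j) = F.Phi (fun i => G i k) j := by
  apply le_antisymm
  · rintro _ ⟨f, hf, rfl⟩
    rw [Pre.inn_apply]
    refine Submodule.sum_mem _ fun i _ => Submodule.sum_mem _ fun e _ => ?_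
    exact Submodule.mem_iSup_of_mem i (Submodule.mem_iSup_of_mem (Γ.rev e)
      ⟨_, (Pre.mem_gN _).1 hf i e, rfl⟩)
  · refine iSup_le fun i => iSup_le fun e => ?_
    rintro _ ⟨v, hv, rfl⟩
    refine ⟨_, (Pre.mem_gN _).2 fun i' e' => ?_, mr_inn_single F i j e v⟩
    by_cases h : i' = i
    · subst h
      by_cases h' : e' = Γ.rev e
      · subst h'
        simpa using hv
      · simp [Pi.single_eq_of_ne h']
    · simp [Pi.single_eq_of_ne h]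

theorem mr_d_on (F : Pre Γ) {s : B} {j : Γ.N} (hj : Γ.lab j = s) (x : F.V j × F.NV j) :
    (F.up s).d j x = (F.d j x.1 + F.inn j x.2, F.dN j x.2) :=
  congrArg (fun g : F.V j × F.NV j →ₗ[K2] F.V j × F.NV j => g x) (if_pos hj)

theorem mr_d_off (F : Pre Γ) {s : B} {j : Γ.N} (hj : Γ.lab j ≠ s) (x : F.V j × F.NV j) :
    (F.up s).d j x = (F.d j x.1, 0) :=
  congrArg (fun g : F.V j × F.NV j →ₗ[K2] F.V j × F.NV j => g x) (if_neg hj)

theorem mr_G_on (F : Pre Γ) {s : B} {j : Γ.N} (hj : Γ.lab j = s) (G : F.Gd) (k : ℤ)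
    (x : F.V j × F.NV j) : x ∈ F.upG s G j k ↔ x.1 ∈ G j (k - 1) ∧ ∀ i e, x.2 i e ∈ G i k := by
  rw [← Pre.mem_gN]
  exact iff_of_eq (congrArg (fun g : Submodule K2 (F.V j × F.NV j) => x ∈ g) (if_pos hj))

theorem mr_G_off (F : Pre Γ) {s : B} {j : Γ.N} (hj : Γ.lab j ≠ s) (G : F.Gd) (k : ℤ)
    (x : F.V j × F.NV j) : x ∈ F.upG s G j k ↔ x.1 ∈ G j k ∧ x.2 = 0 :=
  iff_of_eq (congrArg (fun g : Submodule K2 (F.V j × F.NV j) => x ∈ g) (if_neg hj))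

namespace Raw

omit [DecidableEq B] in
theorem mr_mem_Z (E : Raw Γ) (k : ℤ) (j : Γ.N) (v : E.F.V j) :
    v ∈ E.Z k j ↔ v ∈ E.top j k ∧ E.F.d j v ∈ E.bot j (k + 1) := Iff.rfl

omit [DecidableEq B] in
theorem mr_mem_Bd (E : Raw Γ) (k : ℤ) (j : Γ.N) (v : E.F.V j) :
    v ∈ E.Bd k j ↔ ∃ x ∈ E.top j (k - 1), E.F.d j x + v ∈ E.bot j k := by
  constructor
  · intro h
    obtain ⟨_, ⟨x, hx, rfl⟩, b, hb, rfl⟩ := Submodule.mem_sup.1 h
    exact ⟨x, hx, by rwa [← add_assoc, add_self2, zero_add]⟩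
  · rintro ⟨x, hx, h⟩
    exact Submodule.mem_sup.2 ⟨_, ⟨x, hx, rfl⟩, _, h, by rw [← add_assoc, add_self2, zero_add]⟩

theorem mr_Z_on (E : Raw Γ) {s : B} {j : Γ.N} (hj : Γ.lab j = s) (k : ℤ)
    (x : E.F.V j × E.F.NV j) : x ∈ (E.up s).Z k j ↔ (x.1 ∈ E.top j (k - 1) ∧
      E.F.d j x.1 + E.F.inn j x.2 ∈ E.bot j k) ∧ ∀ i e, x.2 i e ∈ E.Z k i := by
  refine ((E.up s).mr_mem_Z k j x).trans ?_
  refine (and_congr (mr_G_on E.F hj E.top k x) ((iff_of_eq (congrArg (· ∈ E.F.upG s E.bot j (k + 1))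
    (mr_d_on E.F hj x))).trans (mr_G_on E.F hj E.bot (k + 1) _))).trans ?_
  rw [add_sub_cancel_right]
  exact ⟨fun h => ⟨⟨h.1.1, h.2.1⟩, fun i e => ⟨h.1.2 i e, h.2.2 i e⟩⟩,
    fun h => ⟨⟨h.1.1, fun i e => (h.2 i e).1⟩, h.1.2, fun i e => (h.2 i e).2⟩⟩

theorem mr_Bd_on (E : Raw Γ) {s : B} {j : Γ.N} (hj : Γ.lab j = s) (k : ℤ)
    (x : E.F.V j × E.F.NV j) : x ∈ (E.up s).Bd k j ↔ ∃ (v : E.F.V j) (f : E.F.NV j),
      (v ∈ E.top j (k - 1 - 1) ∧ ∀ i e, f i e ∈ E.top i (k - 1)) ∧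
      E.F.d j v + E.F.inn j f + x.1 ∈ E.bot j (k - 1) ∧
        ∀ i e, E.F.d i (f i e) + x.2 i e ∈ E.bot i k := by
  refine ((E.up s).mr_mem_Bd k j x).trans (Iff.trans (exists_congr fun y : E.F.V j × E.F.NV j =>
    and_congr (mr_G_on E.F hj E.top (k - 1) y) ((iff_of_eq (congrArg
      (fun z : E.F.V j × E.F.NV j => z + x ∈ E.F.upG s E.bot j k) (mr_d_on E.F hj y))).trans
      (mr_G_on E.F hj E.bot k _))) Prod.exists)

theorem mr_Z_off (E : Raw Γ) {s : B} {j : Γ.N} (hj : Γ.lab j ≠ s) (k : ℤ)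
    (x : E.F.V j × E.F.NV j) : x ∈ (E.up s).Z k j ↔ x.1 ∈ E.Z k j ∧ x.2 = 0 := by
  refine ((E.up s).mr_mem_Z k j x).trans ?_
  refine (and_congr (mr_G_off E.F hj E.top k x) ((iff_of_eq
    (congrArg (· ∈ E.F.upG s E.bot j (k + 1))
    (mr_d_off E.F hj x))).trans (mr_G_off E.F hj E.bot (k + 1) _))).trans ?_
  exact ⟨fun h => ⟨⟨h.1.1, h.2.1⟩, h.1.2⟩, fun h => ⟨⟨h.1.1, h.2⟩, h.1.2, rfl⟩⟩

theorem mr_Bd_off (E : Raw Γ) {s : B} {j : Γ.N} (hj : Γ.lab j ≠ s) (k : ℤ)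
    (x : E.F.V j × E.F.NV j) : x ∈ (E.up s).Bd k j ↔ x.1 ∈ E.Bd k j ∧ x.2 = 0 := by
  refine ((E.up s).mr_mem_Bd k j x).trans (Iff.trans (exists_congr fun y : E.F.V j × E.F.NV j =>
    and_congr (mr_G_off E.F hj E.top (k - 1) y) ((iff_of_eq (congrArg
      (fun z : E.F.V j × E.F.NV j => z + x ∈ E.F.upG s E.bot j k) (mr_d_off E.F hj y))).trans
      (mr_G_off E.F hj E.bot k _))) ?_)
  rw [mr_mem_Bd]
  exact ⟨fun ⟨y, h1, h2, h3⟩ => ⟨⟨y.1, h1.1, h2⟩, (zero_add _).symm.trans h3⟩,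
    fun ⟨⟨v, h1, h2⟩, h3⟩ => ⟨(v, 0), ⟨h1, rfl⟩, h2, (zero_add _).trans h3⟩⟩

theorem Ok.up_off {E : Raw Γ} (hE : E.Ok) (s : B) (k : ℤ) (j : Γ.N) (hj : Γ.lab j ≠ s) :
    (E.up s).h k j = E.h k j := by
  have := hE.good.fd
  have h1 := mr_split (V := E.F.V j) (W := E.F.NV j) ((E.up s).Z k j) (Y := E.Z k j) (Z := ⊥)
    (fun v => ⟨fun h => (mr_Z_off E hj k (v, 0)).2 ⟨h, rfl⟩, fun h => ((mr_Z_off E hj _ _).1 h).1⟩)
    (fun w => ⟨fun h => ⟨0, (mr_Z_off E hj _ _).2 ⟨Submodule.zero_mem _, h⟩⟩,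
      fun ⟨v, h⟩ => ((mr_Z_off E hj _ _).1 h).2⟩)
  have h2 := mr_split (V := E.F.V j) (W := E.F.NV j) ((E.up s).Bd k j) (Y := E.Bd k j) (Z := ⊥)
    (fun v => ⟨fun h => (mr_Bd_off E hj k (v, 0)).2 ⟨h, rfl⟩,
      fun h => ((mr_Bd_off E hj _ _).1 h).1⟩)
    (fun w => ⟨fun h => ⟨0, (mr_Bd_off E hj _ _).2 ⟨Submodule.zero_mem _, h⟩⟩,
      fun ⟨v, h⟩ => ((mr_Bd_off E hj _ _).1 h).2⟩)
  rw [finrank_bot, add_zero] at h1 h2
  exact congrArg₂ (· - ·) h1 h2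

omit [DecidableEq B] in
theorem mr_mem_In (E : Raw Γ) (k : ℤ) (j : Γ.N) (v : E.F.V j) :
    v ∈ E.In k j ↔ ∃ f : E.F.NV j, (∀ i e, f i e ∈ E.Z k i) ∧ E.F.inn j f + v ∈ E.Bd k j := by
  rw [In, ← mr_map_inn E.F (fun i k => E.Z k i) j k]
  constructor
  · intro h
    obtain ⟨_, ⟨x, hx, rfl⟩, b, hb, rfl⟩ := Submodule.mem_sup.1 h
    exact ⟨x, (Pre.mem_gN _).1 hx, by rwa [← add_assoc, add_self2, zero_add]⟩
  · rintro ⟨x, hx, h⟩
    exact Submodule.mem_sup.2 ⟨_, ⟨x, (Pre.mem_gN _).2 hx, rfl⟩, _, h,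
      by rw [← add_assoc, add_self2, zero_add]⟩

theorem Ok.up_on {E : Raw Γ} (hE : E.Ok) (s : B) (k : ℤ) (j : Γ.N) (hj : Γ.lab j = s) :
    (E.up s).h k j + E.h k j = ∑ i, Γ.mu j i * E.h k i + E.b k j + E.b (k - 1) j := by
  have := hE.good.fd
  have h1 := mr_split (V := E.F.V j) (W := E.F.NV j) ((E.up s).Z k j) (Y := E.Z (k - 1) j)
    (Z := E.F.gN (fun i k => E.Z k i) j k ⊓ (E.Bd k j).comap (E.F.inn j))
    (fun v => by
      refine Iff.trans ?_ (mr_Z_on E hj k (v, 0)).symm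
      rw [mr_mem_Z, sub_add_cancel, map_zero, add_zero]
      exact ⟨fun h => ⟨h, fun i e => Submodule.zero_mem _⟩, fun h => h.1⟩)
    (fun w => ⟨fun h => let ⟨v, hv⟩ := (mr_mem_Bd E _ _ _).1 h.2
        ⟨v, (mr_Z_on E hj _ _).2 ⟨hv, (Pre.mem_gN _).1 h.1⟩⟩,
      fun ⟨v, h⟩ => let h' := (mr_Z_on E hj _ _).1 h
        ⟨(Pre.mem_gN _).2 h'.2, (mr_mem_Bd E _ _ _).2 ⟨v, h'.1⟩⟩⟩)
  have h2 := mr_split (V := E.F.V j) (W := E.F.NV j) ((E.up s).Bd k j) (Y := E.In (k - 1) j)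
    (Z := E.F.gN (fun i k => E.Bd k i) j k)
    (fun v => by
      refine Iff.trans ?_ (mr_Bd_on E hj k (v, 0)).symm
      rw [mr_mem_In]
      simp only [mr_mem_Bd, mr_mem_Z, sub_add_cancel, Pi.zero_apply, add_zero, ← add_assoc]
      exact ⟨fun ⟨f, h1, x, h2, h3⟩ => ⟨x, f, ⟨h2, fun i e => (h1 i e).1⟩, h3,
        fun i e => (h1 i e).2⟩, fun ⟨x, f, h1, h2, h3⟩ =>
          ⟨f, fun i e => ⟨h1.2 i e, h3 i e⟩, x, h1.1, h2⟩⟩)
    (fun w => by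
      simp only [Pre.mem_gN, mr_mem_Bd]
      constructor
      · intro h
        choose f h1 h2 using h
        refine ⟨E.F.inn j f, (mr_Bd_on E hj _ _).2 ⟨0, f, ⟨Submodule.zero_mem _, h1⟩, ?_, h2⟩⟩
        rw [map_zero, zero_add, add_self2]
        exact Submodule.zero_mem _
      · rintro ⟨v, h⟩ i e
        obtain ⟨x, f, h1, -, h3⟩ := (mr_Bd_on E hj _ _).1 h
        exact ⟨f i e, h1.2 i e, h3 i e⟩)
  have h3 := finrank_rel (E.F.inn j) (E.F.gN (fun i k => E.Z k i) j k) (E.Bd k j)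
  rw [mr_map_inn, mr_gN this] at h3
  rw [mr_gN this] at h2
  have h4 : ∑ i, Γ.mu j i * E.h k i + ∑ i, Γ.mu j i * finrank K2 (E.Bd k i) =
      ∑ i, Γ.mu j i * finrank K2 (E.Z k i) := by
    rw [← Finset.sum_add_distrib]
    refine Finset.sum_congr rfl fun i _ => ?_
    rw [← mul_add, h, Nat.sub_add_cancel (Submodule.finrank_mono (hE.bd_le_z k i))]
  have h5 := Submodule.finrank_mono (hE.in_le_z k j)
  have h6 := Submodule.finrank_mono (hE.in_le_z (k - 1) j)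
  have h7 := Submodule.finrank_mono (Ok.bd_le_in (E := E) k j)
  have h8 := (hE.up s).good.fd j
  have h9 := Submodule.finrank_mono ((hE.up s).bd_le_z k j)
  change finrank K2 ((E.up s).Z k j) = _ at h1
  change finrank K2 ((E.up s).Bd k j) = _ at h2
  change _ = _ + finrank K2 (E.In k j) at h3
  generalize ∑ i, Γ.mu j i * E.h k i = S at h4 ⊢
  unfold h b
  omega

theorem Ok.fac {E : Raw Γ} (hE : E.Ok) (s : B) (k : ℤ) (j : Γ.N) (hj : Γ.lab j = s) :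
    (E.up s).h k j + E.b k j ≤ E.h k j + (E.up s).b k j := by
  have := hE.good.fd
  have h8 : Module.Finite K2 ((E.up s).F.V j) := (hE.up s).good.fd j
  let φ : E.F.V j →ₗ[K2] (E.up s).F.V j := E.F.phi s j
  have hφ : ∀ v, φ v = (E.F.l j v, E.F.out j v) := fun v =>
    congrArg (fun g : E.F.V j →ₗ[K2] E.F.V j × E.F.NV j => g v) (if_pos hj)
  have h1 := finrank_rel φ (E.In k j) ((E.up s).Bd k j)
  have h2 : E.Bd k j ≤ E.In k j ⊓ ((E.up s).Bd k j).comap φ := by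
    refine le_inf (Ok.bd_le_in k j) fun v hv => ?_
    obtain ⟨x, hx, h⟩ := (mr_mem_Bd E _ _ _).1 hv
    rw [Submodule.mem_comap, hφ]
    refine (mr_Bd_on E hj _ (E.F.l j v, E.F.out j v)).2 ⟨E.F.l j x, E.F.out j x,
      ⟨hE.ft.l_mem _ _ _ hx, fun i e => hE.ft.a_mem _ _ _ _ _ hx⟩, ?_, fun i e => ?_⟩
    · have h3 : E.F.d j (E.F.l j x) + E.F.inn j (E.F.out j x) = E.F.l j (E.F.d j x) := by
        rw [← add_right_inj (E.F.l j (E.F.d j x)), add_self2, add_left_comm, ← add_assoc,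
          hE.good.rel j x]
      rw [h3, ← map_add]
      exact hE.fb.l_mem _ _ _ h
    · simp only [Pre.out_apply]
      rw [hE.good.da, ← map_add]
      exact hE.fb.a_mem _ _ _ _ _ h
  have h3 : (E.up s).In k j ≤ (E.In k j).map φ ⊔ (E.up s).Bd k j := by
    refine sup_le_sup_right (iSup_le fun i => iSup_le fun e => ?_) _
    rintro _ ⟨x, hx, rfl⟩
    have hi : Γ.lab i ≠ s := hj ▸ Γ.lab_ne e
    refine ⟨E.F.a i j e x.1, Submodule.mem_sup_left (Submodule.mem_iSup_of_mem i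
      (Submodule.mem_iSup_of_mem e ⟨_, ((mr_Z_off E hi k x).1 hx).1, rfl⟩)), ?_⟩
    have h4 : E.F.ev s i j e = E.F.a i j e ∘ₗ fst K2 _ _ := if_neg hi
    exact congrArg (fun g : E.F.V i × E.F.NV i →ₗ[K2] E.F.V j => φ (g x)) h4.symm
  have h4 := Submodule.finrank_mono h2
  have h5 := Submodule.finrank_mono h3
  have h6 := Submodule.finrank_mono (hE.in_le_z k j)
  have h7 := Submodule.finrank_mono (Ok.bd_le_in (E := E) k j)
  have h9 := Submodule.finrank_mono ((hE.up s).in_le_z k j)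
  have h10 := Submodule.finrank_mono (Ok.bd_le_in (E := E.up s) k j)
  have h11 := (add_le_add h4 h5).trans h1.ge
  unfold h b
  omega

end Raw

end Vale.Agent.P203
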