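import Vale.Agent.P203.ModelLES
import Vale.Agent.P203.ModelUp
import Vale.Agent.P203.ModelDn
import Vale.Agent.P203.ModelRefl

namespace Vale.Agent.P203

open LinearMap

variable {B : Type} {Γ : Gr B}

namespace Raw

theorem mi_ok {E : Raw Γ} (hE : E.Ok) {G : E.F.Gd} (hG : E.F.IsFam G)
    (h1 : ∀ i k, E.bot i k ≤ G i k) (h2 : ∀ i k, G i k ≤ E.top i k) :
    Ok ⟨E.F, G, E.bot⟩ ∧ Ok ⟨E.F, E.top, G⟩ := by
  obtain ⟨n, hn⟩ := hE.bdd
  exact ⟨⟨hE.good, hG, hE.fb, h1, n, fun i k h => le_antisymm ((h2 i k).trans (hn i k h).le) (h1 i k)⟩,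
    ⟨hE.good, hE.ft, hG, h2, n, fun i k h => le_antisymm ((hn i k h).le.trans (h1 i k)) (h2 i k)⟩⟩

theorem mi_gen1 {E X : Raw Γ} (hE : E.Ok) (hX : X.Ok) (χ : PHom E.F X.F)
    (h1 : ∀ i k v, v ∈ E.top i k → χ.f i v ∈ X.top i k)
    (h2 : ∀ i k v, χ.f i v ∈ X.bot i k ↔ v ∈ E.bot i k)
    (h3 : ∀ i k, ∀ x ∈ X.top i k, ∀ w, X.F.d i x + χ.f i w ∈ X.bot i (k + 1) →
      ∃ y ∈ X.top i (k - 1), ∃ v ∈ E.top i k, X.F.d i y + x + χ.f i v ∈ X.bot i k) :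
    ∃ A C : Raw Γ, A.Ok ∧ C.Ok ∧ SES A X C ∧ Iso E A ∧ ∀ k j, C.h k j = 0 := by
  have hm : ∀ i k x, x ∈ (E.top i k).map (χ.f i) ⊔ X.bot i k ↔
      ∃ v ∈ E.top i k, x + χ.f i v ∈ X.bot i k := by
    intro i k x
    constructor
    · intro h
      obtain ⟨_, ⟨v, hv, rfl⟩, b, hb, rfl⟩ := Submodule.mem_sup.1 h
      exact ⟨v, hv, by rwa [add_right_comm, add_self2, zero_add]⟩
    · rintro ⟨v, hv, h⟩
      exact Submodule.mem_sup.2 ⟨_, ⟨v, hv, rfl⟩, _, h, by rw [add_left_comm, add_self2, add_zero]⟩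
  have hG : X.F.IsFam fun i k => (E.top i k).map (χ.f i) ⊔ X.bot i k := by
    refine ⟨fun i k x hx => ?_, fun i k x hx => ?_, fun i j e k x hx => ?_⟩ <;>
      obtain ⟨v, hv, h⟩ := (hm _ _ _).1 hx
    · exact (hm _ _ _).2 ⟨_, hE.ft.d_mem _ _ _ hv, by
        rw [χ.f_d, ← map_add]; exact hX.fb.d_mem _ _ _ h⟩
    · exact (hm _ _ _).2 ⟨_, hE.ft.l_mem _ _ _ hv, by
        rw [χ.f_l, ← map_add]; exact hX.fb.l_mem _ _ _ h⟩
    · exact (hm _ _ _).2 ⟨_, hE.ft.a_mem _ _ e _ _ hv, by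
        rw [χ.f_a, ← map_add]; exact hX.fb.a_mem _ _ _ _ _ h⟩
  obtain ⟨hA, hC⟩ := mi_ok hX hG (fun _ _ => le_sup_right) fun i k =>
    sup_le (Submodule.map_le_iff_le_comap.2 fun v hv => h1 i k v hv) (hX.le i k)
  refine ⟨_, _, hA, hC, ⟨_, _, _, _, rfl, rfl, rfl⟩, ⟨χ, fun i k => ⟨rfl, ?_⟩⟩, fun k j => ?_⟩
  · ext v
    exact ⟨fun h => (h2 i k v).1 h.2, fun h => ⟨hE.le i k h, (h2 i k v).2 h⟩⟩
  · refine (hC.h_eq_zero_iff k j).2 fun x hx => ?_
    obtain ⟨w, -, hw⟩ := (hm _ _ _).1 hx.2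
    obtain ⟨y, hy, hv⟩ := h3 j k x hx.1 w hw
    exact (mr_mem_Bd _ _ _ _).2 ⟨y, hy, (hm _ _ _).2 hv⟩

theorem mi_gen2 {E X : Raw Γ} (hE : E.Ok) (hX : X.Ok) (φ : PHom X.F E.F)
    (h1 : ∀ i k x, x ∈ X.top i k → φ.f i x ∈ E.top i k)
    (h2 : ∀ i k x, x ∈ X.bot i k → φ.f i x ∈ E.bot i k)
    (h3 : ∀ i k, ∀ v ∈ E.top i k, ∃ x ∈ X.top i k, φ.f i x = v)
    (h4 : ∀ i k, ∀ x ∈ X.top i k, φ.f i x ∈ E.bot i k → X.F.d i x ∈ X.bot i (k + 1) →
      ∃ y ∈ X.top i (k - 1), φ.f i y = 0 ∧ X.F.d i y + x ∈ X.bot i k) :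
    ∃ A C : Raw Γ, A.Ok ∧ C.Ok ∧ SES A X C ∧ Iso C E ∧ ∀ k j, A.h k j = 0 := by
  have hG : X.F.IsFam fun i k => X.top i k ⊓ (E.bot i k).comap (φ.f i) := by
    refine ⟨fun i k x hx => ⟨hX.ft.d_mem _ _ _ hx.1, ?_⟩, fun i k x hx => ⟨hX.ft.l_mem _ _ _ hx.1, ?_⟩,
      fun i j e k x hx => ⟨hX.ft.a_mem _ _ _ _ _ hx.1, ?_⟩⟩
    · exact (φ.f_d i x ▸ hE.fb.d_mem _ _ _ hx.2 : φ.f i (X.F.d i x) ∈ _)
    · exact (φ.f_l i x ▸ hE.fb.l_mem _ _ _ hx.2 : φ.f i (X.F.l i x) ∈ _)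
    · exact (φ.f_a i j e x ▸ hE.fb.a_mem _ _ _ _ _ hx.2 : φ.f j (X.F.a i j e x) ∈ _)
  obtain ⟨hA, hC⟩ := mi_ok hX hG (fun i k => le_inf (hX.le i k) fun x hx => h2 i k x hx)
    fun _ _ => inf_le_left
  refine ⟨_, _, hA, hC, ⟨_, _, _, _, rfl, rfl, rfl⟩, ⟨φ, fun i k => ⟨?_, rfl⟩⟩, fun k j => ?_⟩
  · exact le_antisymm (sup_le (Submodule.map_le_iff_le_comap.2 fun v hv => h1 i k v hv) (hE.le i k))
      fun v hv => Submodule.mem_sup_left (h3 i k v hv)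
  · refine (hA.h_eq_zero_iff k j).2 fun x hx => ?_
    obtain ⟨y, hy, h5, h6⟩ := h4 j k x hx.1.1 hx.1.2 hx.2
    exact (mr_mem_Bd _ _ _ _).2 ⟨y, ⟨hy, (h5 ▸ Submodule.zero_mem _ : φ.f j y ∈ _)⟩, h6⟩

end Raw

/-- The neighbour space of a twisted module. -/
abbrev MiN (F : Pre Γ) (i : Γ.N) : Type := ∀ j, Fin (Γ.mu i j) → F.V j × F.NV j

/-- The space of a doubly twisted module. -/
abbrev MiW (F : Pre Γ) (i : Γ.N) : Type := (F.V i × F.NV i) × MiN F i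

theorem mi_d_inn {F : Pre Γ} (hF : F.Good) (i : Γ.N) (f : F.NV i) :
    F.d i (F.inn i f) = F.inn i (F.dN i f) := by
  simp only [Pre.inn_apply, map_sum, hF.da, Pre.dN_apply]

theorem mi_inn_mem {F : Pre Γ} {G : F.Gd} (hG : F.IsFam G) {i : Γ.N} {k : ℤ} {f : F.NV i}
    (hf : ∀ j e, f j e ∈ G j k) : F.inn i f ∈ G i k := by
  rw [Pre.inn_apply]
  exact Submodule.sum_mem _ fun j _ => Submodule.sum_mem _ fun e _ => hG.a_mem _ _ _ _ _ (hf j e)

variable [DecidableEq B] (F : Pre Γ) {s : B} {i j : Γ.N}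

omit [DecidableEq B] in
theorem mi_ne (hi : Γ.lab i = s) (e : Fin (Γ.mu i j)) : Γ.lab j ≠ s := hi ▸ (Γ.lab_ne e).symm

theorem mi_phi_on (hi : Γ.lab i = s) (v : F.V i) : F.phi s i v = (F.l i v, F.out i v) :=
  congrArg (fun g : F.V i →ₗ[K2] F.V i × F.NV i => g v) (if_pos hi)

theorem mi_phi_off (hi : Γ.lab i ≠ s) (v : F.V i) : F.phi s i v = (v, 0) :=
  congrArg (fun g : F.V i →ₗ[K2] F.V i × F.NV i => g v) (if_neg hi)

theorem mi_ua_on (hi : Γ.lab i = s) (e : Fin (Γ.mu i j)) (x : F.V i × F.NV i) :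
    (F.up s).a i j e x = (x.2 j e, 0) :=
  (congrArg (fun g : F.V i × F.NV i →ₗ[K2] F.V j => F.phi s j (g x)) (if_pos hi)).trans
    (mi_phi_off F (mi_ne hi e) _)

theorem mi_ua_off (hi : Γ.lab i ≠ s) (e : Fin (Γ.mu i j)) (x : F.V i × F.NV i) :
    (F.up s).a i j e x = F.phi s j (F.a i j e x.1) :=
  congrArg (fun g : F.V i × F.NV i →ₗ[K2] F.V j => F.phi s j (g x)) (if_neg hi)

theorem mi_ul_on (hi : Γ.lab i = s) (x : F.V i × F.NV i) : (F.up s).l i x = F.phi s i x.1 :=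
  congrArg (fun g : F.V i × F.NV i →ₗ[K2] F.V i × F.NV i => g x) (if_pos hi)

theorem mi_ul_off (hi : Γ.lab i ≠ s) (x : F.V i × F.NV i) : (F.up s).l i x = (F.l i x.1, 0) :=
  congrArg (fun g : F.V i × F.NV i →ₗ[K2] F.V i × F.NV i => g x) (if_neg hi)

theorem mi_psi_on (hi : Γ.lab i = s) (x : F.V i × F.NV i) :
    F.psi s i x = F.l i x.1 + F.inn i x.2 :=
  congrArg (fun g : F.V i × F.NV i →ₗ[K2] F.V i => g x) (if_pos hi)

theorem mi_psi_off (hi : Γ.lab i ≠ s) (x : F.V i × F.NV i) : F.psi s i x = x.1 :=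
  congrArg (fun g : F.V i × F.NV i →ₗ[K2] F.V i => g x) (if_neg hi)

theorem mi_da_on (hj : Γ.lab j = s) (e : Fin (Γ.mu i j)) (x : F.V i × F.NV i) :
    (F.dn s).a i j e x = (0, Pi.single i (Pi.single (Γ.rev e) x.1)) :=
  (congrArg (F.co s i j e) (mi_psi_off F (mi_ne hj (Γ.rev e)) x)).trans
    (congrArg (fun g : F.V i →ₗ[K2] F.V j × F.NV j => g x.1) (if_pos hj))

theorem mi_da_off (hj : Γ.lab j ≠ s) (e : Fin (Γ.mu i j)) (x : F.V i × F.NV i) :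
    (F.dn s).a i j e x = (F.a i j e (F.psi s i x), 0) :=
  congrArg (fun g : F.V i →ₗ[K2] F.V j × F.NV j => g (F.psi s i x)) (if_neg hj)

theorem mi_dd_on (hi : Γ.lab i = s) (x : F.V i × F.NV i) :
    (F.dn s).d i x = (F.d i x.1, F.out i x.1 + F.dN i x.2) :=
  congrArg (fun g : F.V i × F.NV i →ₗ[K2] F.V i × F.NV i => g x) (if_pos hi)

theorem mi_dd_off (hi : Γ.lab i ≠ s) (x : F.V i × F.NV i) : (F.dn s).d i x = (F.d i x.1, 0) :=
  congrArg (fun g : F.V i × F.NV i →ₗ[K2] F.V i × F.NV i => g x) (if_neg hi)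

theorem mi_dl_on (hi : Γ.lab i = s) (x : F.V i × F.NV i) : (F.dn s).l i x = (F.psi s i x, 0) :=
  congrArg (fun g : F.V i × F.NV i →ₗ[K2] F.V i × F.NV i => g x) (if_pos hi)

theorem mi_dl_off (hi : Γ.lab i ≠ s) (x : F.V i × F.NV i) : (F.dn s).l i x = (F.l i x.1, 0) :=
  congrArg (fun g : F.V i × F.NV i →ₗ[K2] F.V i × F.NV i => g x) (if_neg hi)

theorem mi_dG_on (hi : Γ.lab i = s) (G : F.Gd) (k : ℤ) (x : F.V i × F.NV i) :
    x ∈ F.dnG s G i k ↔ x.1 ∈ G i (k + 1) ∧ ∀ j e, x.2 j e ∈ G j k := by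
  rw [← Pre.mem_gN]
  exact iff_of_eq (congrArg (fun g : Submodule K2 (F.V i × F.NV i) => x ∈ g) (if_pos hi))

theorem mi_dG_off (hi : Γ.lab i ≠ s) (G : F.Gd) (k : ℤ) (x : F.V i × F.NV i) :
    x ∈ F.dnG s G i k ↔ x.1 ∈ G i k ∧ x.2 = 0 :=
  iff_of_eq (congrArg (fun g : Submodule K2 (F.V i × F.NV i) => x ∈ g) (if_neg hi))

/-! ### First `dn`, then `up` -/

theorem mi_dinn (hi : Γ.lab i = s) (m : MiN F i) :
    (F.dn s).inn i m = (0, fun j e => (m j e).1) := by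
  have h1 : ∑ j, ∑ e : Fin (Γ.mu i j), ((0, Pi.single j (Pi.single e (m j e).1)) : F.V i × F.NV i) =
      (0, fun j e => (m j e).1) := by
    simp only [← prod_mk_sum, Finset.sum_const_zero]
    congr 1
    have h2 : ∀ j, ∑ e : Fin (Γ.mu i j), (Pi.single j (Pi.single e (m j e).1) : F.NV i) =
        Pi.single j fun e => (m j e).1 := fun j => by
      rw [← Finset.univ_sum_single fun e => (m j e).1]
      exact (map_sum (single K2 (fun j => Fin (Γ.mu i j) → F.V j) j) _ _).symm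
    simp only [h2]
    exact Finset.univ_sum_single _
  refine ((F.dn s).inn_apply i m).trans (Eq.trans ?_ h1)
  exact Finset.sum_congr rfl fun j _ => Finset.sum_congr rfl fun e _ => mi_da_on F hi _ _

theorem mi_d1_on (hi : Γ.lab i = s) (x : MiW F i) : ((F.dn s).up s).d i x =
    ((F.d i x.1.1, fun j e => F.a i j e x.1.1 + F.d j (x.1.2 j e) + (x.2 j e).1),
      fun j e => (F.d j (x.2 j e).1, 0)) := by
  refine (mr_d_on (F.dn s) hi x).trans (Prod.ext ?_ (funext fun j => funext fun e =>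
    mi_dd_off F (mi_ne hi e) _))
  refine (congrArg₂ (fun a b : F.V i × F.NV i => a + b) (mi_dd_on F hi _) (mi_dinn F hi _)).trans ?_
  exact Prod.ext (add_zero _) rfl

theorem mi_G1_on (hi : Γ.lab i = s) (G : F.Gd) (k : ℤ) (x : MiW F i) :
    x ∈ (F.dn s).upG s (F.dnG s G) i k ↔ (x.1.1 ∈ G i k ∧ ∀ j e, x.1.2 j e ∈ G j (k - 1)) ∧
      ∀ j e, (x.2 j e).1 ∈ G j k ∧ (x.2 j e).2 = 0 := by
  refine (mr_G_on (F.dn s) hi _ k x).trans (and_congr ((mi_dG_on F hi G _ _).trans ?_)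
    (forall₂_congr fun j e => mi_dG_off F (mi_ne hi e) G _ _))
  rw [sub_add_cancel]

theorem mi_G1_off (hi : Γ.lab i ≠ s) (G : F.Gd) (k : ℤ) (x : MiW F i) :
    x ∈ (F.dn s).upG s (F.dnG s G) i k ↔ (x.1.1 ∈ G i k ∧ x.1.2 = 0) ∧ x.2 = 0 :=
  (mr_G_off (F.dn s) hi _ k x).trans (and_congr (mi_dG_off F hi G _ _) Iff.rfl)

/-- The unit. -/
def miChi (s : B) (i : Γ.N) : F.V i →ₗ[K2] MiW F i :=
  (inl K2 _ _).prod (if Γ.lab i = s then pi fun j => pi fun e => inl K2 _ _ ∘ₗ F.a i j e else 0)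

theorem mi_chi_on (hi : Γ.lab i = s) (v : F.V i) :
    miChi F s i v = ((v, 0), fun j e => (F.a i j e v, 0)) :=
  congrArg (fun g : F.V i →ₗ[K2] MiN F i => (((v, 0), g v) : MiW F i)) (if_pos hi)

theorem mi_chi_off (hi : Γ.lab i ≠ s) (v : F.V i) : miChi F s i v = ((v, 0), 0) :=
  congrArg (fun g : F.V i →ₗ[K2] MiN F i => (((v, 0), g v) : MiW F i)) (if_neg hi)

theorem mi_phi_dn (hi : Γ.lab i = s) (x : F.V i × F.NV i) :
    (F.dn s).phi s i x = miChi F s i (F.l i x.1 + F.inn i x.2) := by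
  rw [← mi_psi_on F hi]
  exact (mi_phi_on (F.dn s) hi x).trans ((Prod.ext (mi_dl_on F hi x) (funext fun j =>
    funext fun e => mi_da_off F (mi_ne hi e) e x)).trans (mi_chi_on F hi _).symm)

/-- The unit as a strict morphism. -/
def miUnit {F : Pre Γ} (hF : F.Good) (s : B) : PHom F ((F.dn s).up s) where
  f := miChi F s
  f_d i v := by
    by_cases hi : Γ.lab i = s
    · refine (mi_chi_on F hi _).trans (Eq.trans ?_
        ((congrArg (((F.dn s).up s).d i) (mi_chi_on F hi v)).trans (mi_d1_on F hi _)).symm)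
      refine Prod.ext (Prod.ext rfl (funext fun j => funext fun e => ?_))
        (funext fun j => funext fun e => Prod.ext (hF.da _ _ _ _).symm rfl)
      exact ((congrArg (F.a i j e v + · + F.a i j e v) (map_zero (F.d j))).trans
        ((congrArg (· + F.a i j e v) (add_zero _)).trans (add_self2 _))).symm
    · refine (mi_chi_off F hi _).trans (Eq.trans ?_ (mr_d_off (F.dn s) hi _).symm)
      exact Prod.ext (mi_dd_off F hi (v, 0)).symm rfl
  f_l i v := by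
    by_cases hi : Γ.lab i = s
    · refine Eq.trans ?_ ((mi_ul_on (F.dn s) hi _).trans (mi_phi_dn F hi (v, 0))).symm
      exact congrArg (miChi F s i) (by rw [map_zero, add_zero])
    · refine (mi_chi_off F hi _).trans (Eq.trans ?_ (mi_ul_off (F.dn s) hi _).symm)
      exact Prod.ext (mi_dl_off F hi (v, 0)).symm rfl
  f_a i j e v := by
    by_cases hi : Γ.lab i = s
    · refine (mi_chi_off F (mi_ne hi e) _).trans (Eq.trans ?_ (mi_ua_on (F.dn s) hi e _).symm)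
      exact congrArg (fun x : MiW F i => ((x.2 j e, 0) : MiW F j)) (mi_chi_on F hi v).symm
    refine Eq.trans ?_ (mi_ua_off (F.dn s) hi e _).symm
    by_cases hj : Γ.lab j = s
    · refine Eq.trans ?_ ((congrArg ((F.dn s).phi s j) (mi_da_on F hj e (v, 0))).trans
        (mi_phi_dn F hj _)).symm
      exact congrArg (miChi F s j) (by rw [map_zero, zero_add, mr_inn_single])
    · refine (mi_chi_off F hj _).trans (Eq.trans ?_ (mi_phi_off (F.dn s) hj _).symm)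
      refine Prod.ext (Eq.trans ?_ (mi_da_off F hj e (v, 0)).symm) rfl
      rw [mi_psi_off F hi]

/-! ### First `up`, then `dn` -/

/-- The counit. -/
def miPh (s : B) (i : Γ.N) : MiW F i →ₗ[K2] F.V i :=
  fst K2 _ _ ∘ₗ fst K2 _ _ + if Γ.lab i = s then
    F.inn i ∘ₗ (pi fun j => pi fun e => fst K2 _ _ ∘ₗ proj e ∘ₗ proj j) ∘ₗ snd K2 _ _ else 0

theorem mi_ph_on (hi : Γ.lab i = s) (x : MiW F i) :
    miPh F s i x = x.1.1 + F.inn i fun j e => (x.2 j e).1 :=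
  congrArg (fun g : MiW F i →ₗ[K2] F.V i => x.1.1 + g x) (if_pos hi)

theorem mi_ph_off (hi : Γ.lab i ≠ s) (x : MiW F i) : miPh F s i x = x.1.1 :=
  (congrArg (fun g : MiW F i →ₗ[K2] F.V i => x.1.1 + g x) (if_neg hi)).trans (add_zero _)

theorem mi_d2_on (hi : Γ.lab i = s) (x : MiW F i) : ((F.up s).dn s).d i x =
    ((F.d i x.1.1 + F.inn i x.1.2, F.dN i x.1.2),
      fun j e => (x.1.2 j e + F.d j (x.2 j e).1, 0)) := by
  refine (mi_dd_on (F.up s) hi x).trans (Prod.ext (mr_d_on F hi _)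
    (funext fun j => funext fun e => ?_))
  refine (congrArg₂ (fun a b : F.V j × F.NV j => a + b) (mi_ua_on F hi e _)
    (mr_d_off F (mi_ne hi e) _)).trans ?_
  exact Prod.ext rfl (add_zero _)

theorem mi_G2_on (hi : Γ.lab i = s) (G : F.Gd) (k : ℤ) (x : MiW F i) :
    x ∈ (F.up s).dnG s (F.upG s G) i k ↔ (x.1.1 ∈ G i k ∧ ∀ j e, x.1.2 j e ∈ G j (k + 1)) ∧
      ∀ j e, (x.2 j e).1 ∈ G j k ∧ (x.2 j e).2 = 0 := by
  refine (mi_dG_on (F.up s) hi _ k x).trans (and_congr ((mr_G_on F hi G _ _).trans ?_)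
    (forall₂_congr fun j e => mr_G_off F (mi_ne hi e) G _ _))
  rw [add_sub_cancel_right]

theorem mi_G2_off (hi : Γ.lab i ≠ s) (G : F.Gd) (k : ℤ) (x : MiW F i) :
    x ∈ (F.up s).dnG s (F.upG s G) i k ↔ (x.1.1 ∈ G i k ∧ x.1.2 = 0) ∧ x.2 = 0 :=
  (mi_dG_off (F.up s) hi _ k x).trans (and_congr (mr_G_off F hi G _ _) Iff.rfl)

theorem mi_psi_up (hi : Γ.lab i = s) (x : MiW F i) :
    (F.up s).psi s i x = F.phi s i (miPh F s i x) := by
  rw [mi_ph_on F hi, map_add, Pre.inn_apply]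
  simp only [map_sum]
  refine (mi_psi_on (F.up s) hi x).trans (congrArg₂ (fun a b : F.V i × F.NV i => a + b)
    (mi_ul_on F hi _) (((F.up s).inn_apply i _).trans ?_))
  exact Finset.sum_congr rfl fun j _ => Finset.sum_congr rfl fun e _ =>
    mi_ua_off F (mi_ne hi e) _ _

/-- The counit as a strict morphism. -/
def miCounit {F : Pre Γ} (hF : F.Good) (s : B) : PHom ((F.up s).dn s) F where
  f := miPh F s
  f_d i x := by
    by_cases hi : Γ.lab i = s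
    · refine (congrArg (miPh F s i) (mi_d2_on F hi x)).trans ((mi_ph_on F hi _).trans
        (Eq.trans ?_ (congrArg (F.d i) (mi_ph_on F hi x)).symm))
      rw [map_add, mi_d_inn hF]
      refine (congrArg (_ + ·) (map_add (F.inn i) x.1.2 (F.dN i fun j e => (x.2 j e).1))).trans ?_
      rw [add_assoc, ← add_assoc (F.inn i _), add_self2, zero_add]
    · refine (congrArg (miPh F s i) (mi_dd_off (F.up s) hi x)).trans ((mi_ph_off F hi _).trans
        (Eq.trans ?_ (congrArg (F.d i) (mi_ph_off F hi x)).symm))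
      exact congrArg Prod.fst (mr_d_off F hi x.1)
  f_l i x := by
    by_cases hi : Γ.lab i = s
    · refine (congrArg (miPh F s i) (mi_dl_on (F.up s) hi x)).trans ((mi_ph_on F hi _).trans ?_)
      exact (congrArg₂ (· + ·) (congrArg Prod.fst ((mi_psi_up F hi x).trans (mi_phi_on F hi _)))
        (map_zero (F.inn i))).trans (add_zero _)
    · refine (congrArg (miPh F s i) (mi_dl_off (F.up s) hi x)).trans ((mi_ph_off F hi _).trans
        (Eq.trans ?_ (congrArg (F.l i) (mi_ph_off F hi x)).symm))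
      exact congrArg Prod.fst (mi_ul_off F hi x.1)
  f_a i j e x := by
    by_cases hj : Γ.lab j = s
    · refine (congrArg (miPh F s j) (mi_da_on (F.up s) hj e x)).trans ((mi_ph_on F hj _).trans
        (Eq.trans ?_ (congrArg (F.a i j e) (mi_ph_off F (mi_ne hj (Γ.rev e)) x)).symm))
      refine (zero_add _).trans ((congrArg (F.inn j) ?_).trans (mr_inn_single F i j e x.1.1))
      funext i' e'
      exact (Pi.apply_single (fun (i' : Γ.N) (g : Fin (Γ.mu j i') → F.V i' × F.NV i') =>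
        fun e' => (g e').1) (fun _ => rfl) i _ i').trans (congrArg (fun g => Pi.single i g i')
          (funext fun e'' => Pi.apply_single (fun _ (y : F.V i × F.NV i) => y.1) (fun _ => rfl)
            (Γ.rev e) x.1 e'')) |> fun h => congrFun h e'
    refine (congrArg (miPh F s j) (mi_da_off (F.up s) hj e x)).trans ((mi_ph_off F hj _).trans ?_)
    by_cases hi : Γ.lab i = s
    · exact congrArg Prod.fst ((congrArg ((F.up s).a i j e)
        ((mi_psi_up F hi x).trans (mi_phi_on F hi _))).trans (mi_ua_on F hi e _))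
    · refine Eq.trans ?_ (congrArg (F.a i j e) (mi_ph_off F hi x)).symm
      exact congrArg Prod.fst ((congrArg ((F.up s).a i j e) (mi_psi_off (F.up s) hi x)).trans
        ((mi_ua_off F hi e _).trans (mi_phi_off F hj _)))

namespace Raw

theorem Ok.inv1 {E : Raw Γ} (hE : E.Ok) (s : B) :
    ∃ A C : Raw Γ, A.Ok ∧ C.Ok ∧ SES A ((E.dn s).up s) C ∧ Iso E A ∧ ∀ k j, C.h k j = 0 := by
  have key : ∀ G : E.F.Gd, E.F.IsFam G → ∀ i k v,
      miChi E.F s i v ∈ (E.F.dn s).upG s (E.F.dnG s G) i k ↔ v ∈ G i k := by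
    intro G hG i k v
    by_cases hi : Γ.lab i = s
    · refine (mi_G1_on E.F hi G k _).trans ⟨fun h => h.1.1, fun h => ?_⟩
      rw [mi_chi_on E.F hi]
      exact ⟨⟨h, fun _ _ => Submodule.zero_mem _⟩, fun j e => ⟨hG.a_mem _ _ _ _ _ h, rfl⟩⟩
    · refine (mi_G1_off E.F hi G k _).trans ⟨fun h => h.1.1, fun h => ?_⟩
      rw [mi_chi_off E.F hi]
      exact ⟨⟨h, rfl⟩, rfl⟩
  refine mi_gen1 hE ((hE.dn s).up s) (miUnit hE.good s)
    (fun i k v h => (key _ hE.ft i k v).2 h) (key _ hE.fb) fun i k (x : MiW E.F i) hx w hw => ?_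
  by_cases hi : Γ.lab i = s
  · obtain ⟨⟨h1, h2⟩, h3⟩ := (mi_G1_on E.F hi _ _ _).1 hx
    have h4 := ((mi_G1_on E.F hi _ _ _).1 ((congrArg₂ (fun a b : MiW E.F i => a + b)
      (mi_d1_on E.F hi x) (mi_chi_on E.F hi w)) ▸ hw :)).1.2
    refine ⟨(((0, 0), fun j e => (x.1.2 j e, 0)) : MiW E.F i), (mi_G1_on E.F hi _ _ _).2
      ⟨⟨Submodule.zero_mem _, fun _ _ => Submodule.zero_mem _⟩, fun j e => ⟨h2 j e, rfl⟩⟩,
      x.1.1, h1, ?_⟩
    refine (congrArg₂ (fun a b : MiW E.F i => a + x + b ∈ (E.F.dn s).upG s (E.F.dnG s E.bot) i k)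
      (mi_d1_on E.F hi _) (mi_chi_on E.F hi _)).mpr ((mi_G1_on E.F hi _ _ _).2 ?_)
    simp only [Prod.fst_add, Prod.snd_add, Pi.add_apply, Pi.zero_apply, map_zero, zero_add,
      add_zero, add_self2, add_sub_cancel_right, Submodule.zero_mem, implies_true, true_and] at h4 ⊢
    exact fun j e => ⟨by rw [add_comm, ← add_assoc]; exact h4 j e, (h3 j e).2⟩
  · obtain ⟨⟨h1, h2⟩, h3⟩ := (mi_G1_off E.F hi _ _ _).1 hx
    refine ⟨0, Submodule.zero_mem _, x.1.1, h1, ?_⟩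
    have h4 : miChi E.F s i x.1.1 = x :=
      (mi_chi_off E.F hi _).trans (Prod.ext (Prod.ext rfl h2.symm) h3.symm)
    rw [map_zero]
    exact (congrArg (· ∈ ((E.dn s).up s).bot i k)
      ((congrArg₂ (· + ·) (zero_add x) h4).trans (add_self2 x))).mpr (Submodule.zero_mem _)

theorem Ok.inv2 {E : Raw Γ} (hE : E.Ok) (s : B) :
    ∃ A C : Raw Γ, A.Ok ∧ C.Ok ∧ SES A ((E.up s).dn s) C ∧ Iso C E ∧ ∀ k j, A.h k j = 0 := by
  have key : ∀ G : E.F.Gd, E.F.IsFam G → ∀ i k (x : MiW E.F i),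
      x ∈ (E.F.up s).dnG s (E.F.upG s G) i k → miPh E.F s i x ∈ G i k := by
    intro G hG i k x hx
    by_cases hi : Γ.lab i = s
    · obtain ⟨h1, h2⟩ := (mi_G2_on E.F hi G k _).1 hx
      rw [mi_ph_on E.F hi]
      exact Submodule.add_mem _ h1.1 (mi_inn_mem hG fun j e => (h2 j e).1)
    · rw [mi_ph_off E.F hi]
      exact ((mi_G2_off E.F hi G k _).1 hx).1.1
  refine mi_gen2 hE ((hE.up s).dn s) (miCounit hE.good s) (key _ hE.ft) (key _ hE.fb)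
    (fun i k v hv => ⟨(((v, 0), 0) : MiW E.F i), ?_⟩) fun i k (x : MiW E.F i) hx h1 h2 => ?_
  · by_cases hi : Γ.lab i = s
    · exact ⟨(mi_G2_on E.F hi _ _ _).2 ⟨⟨hv, fun _ _ => Submodule.zero_mem _⟩,
        fun _ _ => ⟨Submodule.zero_mem _, rfl⟩⟩, (mi_ph_on E.F hi _).trans
          ((congrArg (v + ·) (map_zero (E.F.inn i))).trans (add_zero v))⟩
    · exact ⟨(mi_G2_off E.F hi _ _ _).2 ⟨⟨hv, rfl⟩, rfl⟩, mi_ph_off E.F hi _⟩
  by_cases hi : Γ.lab i = s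
  · obtain ⟨-, h3⟩ := (mi_G2_on E.F hi _ _ _).1 hx
    have h4 := ((mi_G2_on E.F hi _ _ _).1 ((mi_d2_on E.F hi x) ▸ h2 :)).2
    have h5 : _ ∈ E.bot i k := mi_ph_on E.F hi x ▸ h1
    refine ⟨(((0, fun j e => (x.2 j e).1), 0) : MiW E.F i), (mi_G2_on E.F hi _ _ _).2
      ⟨⟨Submodule.zero_mem _, fun j e => ?_⟩, fun _ _ => ⟨Submodule.zero_mem _, rfl⟩⟩,
      (mi_ph_on E.F hi _).trans ((zero_add _).trans (map_zero (E.F.inn i))), ?_⟩
    · rw [sub_add_cancel]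
      exact (h3 j e).1
    refine (congrArg (fun a : MiW E.F i => a + x ∈ (E.F.up s).dnG s (E.F.upG s E.bot) i k)
      (mi_d2_on E.F hi _)).mpr ((mi_G2_on E.F hi _ _ _).2 ?_)
    simp only [Prod.fst_add, Prod.snd_add, Pi.add_apply, Pi.zero_apply, Prod.fst_zero, map_zero,
      zero_add, add_zero, add_self2, Submodule.zero_mem, true_and, Pre.dN_apply]
    exact ⟨⟨add_comm x.1.1 _ ▸ h5, fun j e => add_comm (x.1.2 j e) _ ▸ (h4 j e).1⟩,
      fun j e => (h3 j e).2⟩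
  · obtain ⟨⟨-, h3⟩, h4⟩ := (mi_G2_off E.F hi _ _ _).1 hx
    refine ⟨0, Submodule.zero_mem _, map_zero _, ?_⟩
    rw [map_zero]
    exact (congrArg (· ∈ ((E.up s).dn s).bot i k) (zero_add x)).mpr
      ((mi_G2_off E.F hi _ _ _).2 ⟨⟨mi_ph_off E.F hi x ▸ h1, h3⟩, h4⟩)

end Raw

end Vale.Agent.P203
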