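import Vale.Agent.P203.ModelCut
import Vale.Agent.P203.ModelRefl
import Vale.Agent.P203.ModelInv

namespace Vale.Agent.P203

variable {B : Type} [DecidableEq B]

theorem cat_exists (Γ : Gr B) : Nonempty (Cat Γ) :=
  ⟨{ Ob := {E : Raw Γ // E.Ok}
     h := fun E => E.1.h
     b := fun E => E.1.b
     up := fun s E => ⟨E.1.up s, E.2.up s⟩
     dn := fun s E => ⟨E.1.dn s, E.2.dn s⟩
     SES := fun A E C => Raw.SES A.1 E.1 C.1
     Iso := fun X Y => Raw.Iso X.1 Y.1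
     bdd := fun E => E.2.h_bdd
     les := fun A E C h => Raw.les A.2 E.2 C.2 h
     ses_up := fun s _ _ _ h => Raw.ses_up h s
     ses_dn := fun s _ _ _ h => Raw.ses_dn h s
     iso_h := fun X Y h => Raw.iso_h X.2 Y.2 h
     iso_up := fun s _ _ h => Raw.iso_up h s
     iso_dn := fun s _ _ h => Raw.iso_dn h s
     up_off := fun s E k j h => E.2.up_off s k j h
     up_on := fun s E k j h => E.2.up_on s k j h
     b_le := fun E k j => E.2.b_le k j
     le_b := fun E k j => E.2.le_b k j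
     fac := fun s E k j h => E.2.fac s k j h
     inv1 := fun s E => by
       obtain ⟨A, C, hA, hC, h⟩ := E.2.inv1 s
       exact ⟨⟨A, hA⟩, ⟨C, hC⟩, h⟩
     inv2 := fun s E => by
       obtain ⟨A, C, hA, hC, h⟩ := E.2.inv2 s
       exact ⟨⟨A, hA⟩, ⟨C, hC⟩, h⟩
     trunc := fun E K => by
       obtain ⟨A, C, hA, hC, h⟩ := E.2.trunc K
       exact ⟨⟨A, hA⟩, ⟨C, hC⟩, h⟩
     peel := fun E K j h1 h2 => by
       obtain ⟨A, C, hA, hC, h⟩ := E.2.peel K j h1 h2
       exact ⟨⟨A, hA⟩, ⟨C, hC⟩, h⟩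
     nil := fun E k h => E.2.nil k h
     oct := fun _ _ C' _ C₀ h1 h2 => by
       obtain ⟨C, hC, h⟩ := Raw.oct C'.2 C₀.2 h1 h2
       exact ⟨⟨C, hC⟩, h⟩
     simple := fun j => by
       obtain ⟨E, hE, h⟩ := Raw.exists_simple j
       exact ⟨⟨E, hE⟩, h⟩ }⟩

end Vale.Agent.P203
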