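import Mathlib

namespace Vale.Agent.P203

open Function

variable {α : Type}

/-- Realization of the flag complex of the relation `R` on the vertex set `F`. -/
def geo (R : α → α → Prop) (F : Set α) : Set (α → ℝ) :=
  {x | (∀ a, 0 ≤ x a) ∧ (support x).Finite ∧ support x ⊆ F ∧ (support x).Pairwise R ∧
    ∑ᶠ a, x a = 1}

theorem geo_mono (R : α → α → Prop) {F F' : Set α} (h : F ⊆ F') : geo R F ⊆ geo R F' :=
  fun _ hx => ⟨hx.1, hx.2.1, hx.2.2.1.trans h, hx.2.2.2⟩

/-- The inclusion of realizations. -/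
def ginc (R : α → α → Prop) {F F' : Set α} (h : F ⊆ F') : C(geo R F, geo R F') :=
  ContinuousMap.inclusion (geo_mono R h)

/-- Weak contractibility: nonempty, and each finite subcomplex is nullhomotopic in a larger
finite subcomplex. -/
def WC (R : α → α → Prop) (P : Set α) : Prop :=
  P.Nonempty ∧ ∀ F : Set α, F.Finite → F ⊆ P →
    ∃ F' : Set α, F'.Finite ∧ F' ⊆ P ∧ ∃ h : F ⊆ F', (ginc R h).Nullhomotopic

/-- Every finite subcomplex of `Q` can be pushed into `P`. -/
def Push (R : α → α → Prop) (P Q : Set α) : Prop :=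
  ∀ F : Set α, F.Finite → F ⊆ Q → ∃ F' : Set α, F'.Finite ∧ F' ⊆ Q ∧ ∃ h : F ⊆ F',
    ∃ r : C(geo R F, geo R (F' ∩ P)),
      (∀ x : geo R F, support x.1 ⊆ P → (r x).1 = x.1) ∧
      (ginc R h).Homotopic ((ginc R Set.inter_subset_left).comp r)

/-- Comparability in a partial order. -/
def Cmp [PartialOrder α] (a b : α) : Prop := a ≤ b ∨ b ≤ a

theorem cmp_symm [PartialOrder α] : ∀ a b : α, Cmp a b → Cmp b a := fun _ _ h => h.symm

end Vale.Agent.P203
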