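import Vale.Agent.P203.FamDefs
import Vale.Agent.P203.TopDefs

namespace Vale.Agent.P203

variable {B W : Type} [Group W] {M : CoxeterMatrix B} [Fintype B] [DecidableEq B]
variable {cs : CoxeterSystem M W}

namespace Core

variable {D : Dat cs} (C : Core D)

/-- The coset `x P T`. -/
def cos (x : C.G) (T : Finset B) : Set C.G := {y | x⁻¹ * y ∈ C.P T}

/-- The cells of the Artin complex of the coset `x₀ P T` all of whose vertices are good. -/
def XX (x₀ : C.G) (T : Finset B) (Good : C.G → B → Prop) : Set (Finset B × Set C.G) :=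
  {σ | σ.1 ⊂ T ∧ ∃ x, x₀⁻¹ * x ∈ C.P T ∧ σ.2 = C.cos x σ.1 ∧ ∀ t ∈ T, t ∉ σ.1 → Good x t}

/-- Good complexes are empty or weakly contractible. -/
def WcS (T : Finset B) : Prop :=
  ∀ (F : Fam C) (K : ℤ) (κ : B → ℝ) (x₀ : C.G), F.Adm T K κ x₀ →
    (C.XX x₀ T (F.good K κ)).Nonempty → WC Cmp (C.XX x₀ T (F.good K κ))

/-- The whole Artin complex is weakly contractible. -/
def ArtS (T : Finset B) : Prop := ∀ x₀, WC Cmp (C.XX x₀ T fun _ _ => True)

/-- The order of the Salvetti cover. -/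
def sle (a b : C.G × Finset B) : Prop :=
  a.2 ⊆ b.2 ∧ ∃ w ∈ WP cs b.2, (∀ t ∈ a.2, cs.length w < cs.length (w * cs.simple t)) ∧
    a.1 = b.1 * C.lift w

/-- Comparability in the Salvetti cover. -/
def scmp (a b : C.G × Finset B) : Prop := C.sle a b ∨ C.sle b a

/-- The part of the Salvetti cover over the coset `x₀ P T`. -/
def SS (x₀ : C.G) (T : Finset B) : Set (C.G × Finset B) :=
  {a | x₀⁻¹ * a.1 ∈ C.P T ∧ a.2 ⊆ T ∧ Sph cs a.2}

end Core

end Vale.Agent.P203
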