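import Vale.Agent.P203.Cox

namespace Vale.Agent.P203

variable {B W : Type} [Group W] {M : CoxeterMatrix B} [Fintype B] [DecidableEq B]
variable {cs : CoxeterSystem M W}

namespace Dat

variable (D : Dat cs)

theorem pf_avg {T : Finset B} (hT : Sph cs T) {v : B → ℝ} (hv : ∀ r ∉ T, v r = 0) :
    ∑ w ∈ hT.toFinset, D.fr w v = 0 := by
  have h1 : ∀ s ∈ T, ∑ w ∈ hT.toFinset, D.fr w (al s) = 0 := fun s hs => by
    have h2 : ∑ w ∈ hT.toFinset, D.fr w (al s) =
        ∑ w ∈ hT.toFinset, D.fr (w * cs.simple s) (al s) := by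
      refine Finset.sum_nbij' (· * cs.simple s) (· * cs.simple s) ?_ ?_ ?_ ?_ ?_
      · exact fun w hw => hT.mem_toFinset.2 (mul_mem (hT.mem_toFinset.1 hw) (simple_mem_WP hs))
      · exact fun w hw => hT.mem_toFinset.2 (mul_mem (hT.mem_toFinset.1 hw) (simple_mem_WP hs))
      · exact fun w _ => cs.simple_mul_simple_cancel_right s
      · exact fun w _ => cs.simple_mul_simple_cancel_right s
      · exact fun w _ => by rw [cs.simple_mul_simple_cancel_right]
    simp only [cox_fr_mul, cox_fr_self, map_neg, Finset.sum_neg_distrib] at h2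
    funext r
    have h3 := congrFun h2 r
    rw [Pi.neg_apply] at h3
    rw [Pi.zero_apply]
    linarith
  simp only [fun w => D.cox_expand w v]
  rw [Finset.sum_comm]
  refine Finset.sum_eq_zero fun s _ => ?_
  rw [← Finset.smul_sum]
  by_cases hs : s ∈ T
  · rw [h1 s hs, smul_zero]
  · rw [hv s hs, zero_smul]

theorem pf_nondeg {T : Finset B} (hT : Sph cs T) {v : B → ℝ} (hv : ∀ r ∉ T, v r = 0)
    (h : ∀ s ∈ T, D.bf v (al s) = 0) : v = 0 := by
  have h1 : ∀ w ∈ WP cs T, D.fr w v = v := fun w hw => by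
    refine D.WP_induction (T := T) (p := fun w => D.fr w v = v) (by simp) ?_ hw
    intro w _ s hs _ ih
    rw [cox_fr_mul, fr_simple', h s hs, zero_smul, sub_zero, ih]
  have h2 := D.pf_avg hT hv
  rw [Finset.sum_congr rfl fun w hw => h1 w (hT.mem_toFinset.1 hw), Finset.sum_const] at h2
  have h3 : hT.toFinset.card ≠ 0 :=
    Finset.card_ne_zero.2 ⟨1, hT.mem_toFinset.2 (one_mem (WP cs T))⟩
  exact (smul_eq_zero.1 h2).resolve_left h3

theorem exists_rho {T : Finset B} (hT : Sph cs T) :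
    ∃ ρ : B → ℝ, (∀ s ∈ T, 0 < ρ s) ∧ (∀ r ∉ T, ρ r = 0) ∧ ∀ s ∈ T, D.bf ρ (al s) = 1 := by
  let L : (B → ℝ) →ₗ[ℝ] (B → ℝ) :=
    { toFun := fun v r => if r ∈ T then D.bf (al r) v else v r
      map_add' := fun x y => by
        funext r
        by_cases h : r ∈ T <;> simp [h, cox_bf_add]
      map_smul' := fun c x => by
        funext r
        by_cases h : r ∈ T <;> simp [h, cox_bf_smul] }
  have hL : Function.Injective L := by
    rw [injective_iff_map_eq_zero]
    intro v hv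
    refine D.pf_nondeg hT (fun r hr => ?_) fun s hs => ?_
    · simpa [L, hr] using congrFun hv r
    · rw [bf_symm]
      simpa [L, hs] using congrFun hv s
  obtain ⟨ρ, hρ⟩ := LinearMap.injective_iff_surjective.1 hL (fun r => if r ∈ T then 1 else 0)
  have h1 : ∀ r ∉ T, ρ r = 0 := fun r hr => by simpa [L, hr] using congrFun hρ r
  have h2 : ∀ s ∈ T, D.bf ρ (al s) = 1 := fun s hs => by
    rw [bf_symm]
    simpa [L, hs] using congrFun hρ s
  refine ⟨ρ, fun t ht => ?_, h1, h2⟩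
  have h3 : ∀ w ∈ WP cs T, 0 ≤ ρ - D.fr w ρ := fun w hw => by
    refine D.WP_induction (T := T) (p := fun w => 0 ≤ ρ - D.fr w ρ) (by simp) ?_ hw
    intro w _ s hs hl ih
    rw [cox_fr_mul, fr_simple', h2 s hs, one_smul, map_sub, ← sub_add]
    exact add_nonneg ih (D.fsign_pos hl)
  have h4 := Finset.single_le_sum (s := hT.toFinset) (f := fun w => (ρ - D.fr w ρ) t)
    (fun w hw => h3 w (hT.mem_toFinset.1 hw) t) (hT.mem_toFinset.2 (simple_mem_WP ht))
  have h5 := congrFun (D.pf_avg hT h1) t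
  rw [fr_simple', h2 t ht, one_smul, sub_sub_cancel] at h4
  simp only [Pi.sub_apply, Finset.sum_sub_distrib, Finset.sum_const, nsmul_eq_mul] at h4
  rw [Finset.sum_apply] at h5
  rw [h5] at h4
  have h6 : (0 : ℝ) < hT.toFinset.card * ρ t := by
    simp only [al, Pi.single_eq_same, Pi.zero_apply, sub_zero] at h4
    linarith
  exact pos_of_mul_pos_right h6 (Nat.cast_nonneg _)

theorem pf_min {T : Finset B} (hne : T.Nonempty) : ∃ (v : B → ℝ) (lam : ℝ), (∀ r ∉ T, v r = 0) ∧
    ∑ s, v s * v s = 1 ∧ D.bf v v = lam ∧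
    ∀ x : B → ℝ, (∀ r ∉ T, x r = 0) → lam * ∑ s, x s * x s ≤ D.bf x x := by
  let K : Set (B → ℝ) := {v | (∀ r ∉ T, v r = 0) ∧ ∑ s, v s * v s = 1}
  have hK : IsCompact K := by
    refine (isCompact_Icc (a := fun _ : B => (-1 : ℝ)) (b := fun _ => 1)).of_isClosed_subset ?_ ?_
    · refine IsClosed.inter ?_ (isClosed_eq (by fun_prop) continuous_const)
      change IsClosed {v : B → ℝ | ∀ r ∉ T, v r = 0}
      simp only [Set.ofPred_forall]
      exact isClosed_iInter fun r => isClosed_iInter fun _ =>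
        isClosed_eq (continuous_apply r) continuous_const
    · intro v hv
      have h1 : ∀ s, v s * v s ≤ 1 := fun s => hv.2 ▸ Finset.single_le_sum
        (f := fun s => v s * v s) (fun s _ => mul_self_nonneg _) (Finset.mem_univ s)
      exact ⟨fun s => by nlinarith [h1 s], fun s => by nlinarith [h1 s]⟩
  obtain ⟨t, ht⟩ := hne
  have hK0 : K.Nonempty := ⟨al t, fun r hr => by
    have : r ≠ t := fun h => hr (h ▸ ht)
    simp [al, this], by simp [al, Pi.single_apply]⟩
  have hc : Continuous fun v : B → ℝ => D.bf v v := by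
    unfold bf
    fun_prop
  obtain ⟨v, hv, hm⟩ := hK.exists_isMinOn hK0 hc.continuousOn
  refine ⟨v, _, hv.1, hv.2, rfl, fun x hx => ?_⟩
  have h0 : 0 ≤ ∑ s, x s * x s := Finset.sum_nonneg fun s _ => mul_self_nonneg _
  rcases h0.eq_or_lt with h1 | h1
  · have h2 : x = 0 := funext fun s => mul_self_eq_zero.1
      ((Finset.sum_eq_zero_iff_of_nonneg fun s _ => mul_self_nonneg _).1 h1.symm s
        (Finset.mem_univ s))
    simp [h2, bf]
  · obtain ⟨n, hn⟩ : ∃ n, n = ∑ s, x s * x s := ⟨_, rfl⟩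
    rw [← hn] at h1 ⊢
    have h2 : (√n)⁻¹ * (√n)⁻¹ * n = 1 := by
      rw [← mul_inv, Real.mul_self_sqrt h1.le, inv_mul_cancel₀ h1.ne']
    have h3 : (√n)⁻¹ • x ∈ K := ⟨fun r hr => by simp [hx r hr], by
      rw [← h2, hn, Finset.mul_sum]
      exact Finset.sum_congr rfl fun s _ => by simp only [Pi.smul_apply, smul_eq_mul]; ring⟩
    have h4 : D.bf v v ≤ D.bf ((√n)⁻¹ • x) ((√n)⁻¹ • x) := hm h3
    rw [cox_bf_smul, D.bf_symm _ x, cox_bf_smul] at h4
    calc D.bf v v * n ≤ (√n)⁻¹ * ((√n)⁻¹ * D.bf x x) * n := mul_le_mul_of_nonneg_right h4 h1.le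
      _ = (√n)⁻¹ * (√n)⁻¹ * n * D.bf x x := by ring
      _ = D.bf x x := by rw [h2, one_mul]

theorem pf_sph {T : Finset B} {lam : ℝ} (hlam : 0 < lam)
    (h : ∀ x : B → ℝ, (∀ r ∉ T, x r = 0) → lam * ∑ s, x s * x s ≤ D.bf x x) : Sph cs T := by
  have h1 : ∀ w ∈ WP cs T, ∀ s ∈ T, ∀ u, |D.fr w (al s) u| ≤ 1 + 2 / lam := fun w hw s hs u => by
    have h2 := h _ (D.cox_supp hw hs)
    rw [bf_fr, bf_al_al, if_pos rfl, mul_comm, ← le_div_iff₀ hlam] at h2
    have h3 := Finset.single_le_sum (f := fun u => D.fr w (al s) u * D.fr w (al s) u)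
      (fun s _ => mul_self_nonneg _) (Finset.mem_univ u)
    rw [← abs_mul_abs_self] at h3
    nlinarith [sq_nonneg (|D.fr w (al s) u| - 1), abs_nonneg (D.fr w (al s) u)]
  have h4 : ∀ w ∈ WP cs T, ∀ j : B × D.I, j.1 ∈ T → ∀ i : B × D.I,
      |(D.rho w (D.e j) i : ℝ)| ≤ D.pf j.2 * (1 + 2 / lam) / D.pf i.2 := fun w hw j hj i => by
    have h5 := congrFun (D.proj_rho w (D.e j)) i.1
    rw [proj_e, map_smul, Pi.smul_apply, smul_eq_mul] at h5
    have h6 : |D.proj (D.rho w (D.e j)) i.1| ≤ D.pf j.2 * (1 + 2 / lam) := by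
      rw [h5, abs_mul, abs_of_pos (D.pf_pos _)]
      exact mul_le_mul_of_nonneg_left (h1 w hw _ hj _) (D.pf_pos _).le
    rw [le_div_iff₀ (D.pf_pos _), mul_comm]
    refine le_trans ?_ h6
    rcases length_lt_or (cs := cs) w j.1 with h7 | h7
    · have h8 : ∀ b, (0 : ℝ) ≤ D.rho w (D.e j) (i.1, b) := fun b => by
        exact_mod_cast D.sign_pos h7 (i.1, b)
      rw [abs_of_nonneg (h8 i.2)]
      exact (Finset.single_le_sum (f := fun b => D.pf b * (D.rho w (D.e j) (i.1, b) : ℝ))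
        (fun b _ => mul_nonneg (D.pf_pos b).le (h8 b)) (Finset.mem_univ i.2)).trans (le_abs_self _)
    · have h8 : ∀ b, (D.rho w (D.e j) (i.1, b) : ℝ) ≤ 0 := fun b => by
        exact_mod_cast D.sign_neg h7 (i.1, b)
      rw [abs_of_nonpos (h8 i.2)]
      refine (Finset.single_le_sum (f := fun b => D.pf b * -(D.rho w (D.e j) (i.1, b) : ℝ))
        (fun b _ => mul_nonneg (D.pf_pos b).le (neg_nonneg.2 (h8 b)))
        (Finset.mem_univ i.2)).trans ?_
      simp only [mul_neg, Finset.sum_neg_distrib]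
      exact neg_le_abs _
  let C : B × D.I → B × D.I → ℤ := fun j i => ⌈D.pf j.2 * (1 + 2 / lam) / D.pf i.2⌉
  let φ : W → B × D.I → B × D.I → ℤ := fun w j => if j.1 ∈ T then D.rho w (D.e j) else 0
  refine Set.Finite.of_finite_image (f := φ)
    ((Set.finite_Icc (fun j i => -|C j i|) (fun j i => |C j i|)).subset ?_) ?_
  · rintro _ ⟨w, hw, rfl⟩
    have h9 : ∀ j i, |φ w j i| ≤ |C j i| := fun j i => by
      by_cases hj : j.1 ∈ T
      · simp only [φ, if_pos hj]
        refine le_trans ?_ (le_abs_self _)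
        have := (h4 w hw j hj i).trans (Int.le_ceil _)
        exact_mod_cast this
      · simp [φ, hj]
    exact ⟨fun j i => (abs_le.1 (h9 j i)).1, fun j i => (abs_le.1 (h9 j i)).2⟩
  · intro u hu w hw huw
    by_contra hne
    obtain ⟨s, hs, hd⟩ := D.exists_desc (mul_mem (inv_mem hu) hw)
      (fun h => hne (inv_mul_eq_one.1 h))
    obtain ⟨a⟩ := D.ne
    have h5 := D.sign_neg (j := (s, a)) hd (s, a)
    have h6 := congrFun huw (s, a)
    simp only [φ, if_pos hs] at h6
    rw [cox_rho_mul, ← h6, cox_rho_inv] at h5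
    norm_num [e] at h5

theorem exists_delta {T : Finset B} (hT : ¬ Sph cs T) (hI : D.Irr T) :
    ∃ δ : B → ℝ, (∀ s ∈ T, 0 < δ s) ∧ (∀ r ∉ T, δ r = 0) ∧ ∀ s ∈ T, D.bf δ (al s) ≤ 0 := by
  have hne : T.Nonempty := by
    rw [Finset.nonempty_iff_ne_empty]
    rintro rfl
    exact hT sph_empty
  obtain ⟨v, lam, hv1, hv2, hv3, hmin⟩ := D.pf_min hne
  have hlam : lam ≤ 0 := by
    by_contra h
    exact hT (D.pf_sph (not_le.1 h) hmin)
  let δ : B → ℝ := fun s => |v s|
  have d0 : ∀ s, 0 ≤ δ s := fun s => abs_nonneg _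
  have d1 : ∀ r ∉ T, δ r = 0 := fun r hr => by simp [δ, hv1 r hr]
  have d2 : ∑ s, δ s * δ s = 1 := by simpa only [δ, abs_mul_abs_self] using hv2
  have d3 : D.bf δ δ ≤ lam := by
    rw [← hv3]
    unfold bf
    rw [d2, hv2]
    refine sub_le_sub_left (Finset.sum_le_sum fun s _ => Finset.sum_le_sum fun u _ => ?_) _
    rw [mul_assoc, mul_assoc]
    refine mul_le_mul_of_nonneg_left ?_ (D.c_nonneg s u)
    rw [← abs_mul]
    exact le_abs_self _
  have d4 : ∀ s ∈ T, D.bf δ (al s) = lam * δ s := fun s hs => by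
    have h1 : ∀ ε : ℝ, 0 ≤ (2 - lam) * (ε * ε) + 2 * (D.bf δ (al s) - lam * δ s) * ε + 0 := by
      intro ε
      have h2 := hmin (δ + ε • al s) fun r hr => by
        have : r ≠ s := fun h => hr (h ▸ hs)
        simp [d1 r hr, al, this]
      have h3 : ∑ r, (δ + ε • al s) r * (δ + ε • al s) r = 1 + 2 * ε * δ s + ε * ε := by
        have h4 : ∀ r, (δ + ε • al s) r * (δ + ε • al s) r =
            δ r * δ r + if r = s then 2 * ε * δ s + ε * ε else 0 := fun r => by
          by_cases h : r = s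
          · simp [h, al]
            ring
          · simp [h, al]
        simp only [h4, Finset.sum_add_distrib, d2, Finset.sum_ite_eq', Finset.mem_univ, if_true]
        ring
      rw [h3, cox_bf_add, cox_bf_smul, D.bf_symm _ δ, D.bf_symm _ (al s), cox_bf_add, cox_bf_add,
        cox_bf_smul, cox_bf_smul, bf_al_al, if_pos rfl, D.bf_symm (al s) δ] at h2
      linarith
    have h5 := discrim_le_zero h1
    rw [discrim, mul_zero, sub_zero] at h5
    have h6 := pow_eq_zero_iff (two_ne_zero) |>.1 (le_antisymm h5 (sq_nonneg _))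
    linarith
  refine ⟨δ, ?_, d1, fun s hs => (d4 s hs).le.trans (mul_nonpos_of_nonpos_of_nonneg hlam (d0 s))⟩
  by_contra hc
  push Not at hc
  obtain ⟨t₀, ht₀, ht₁⟩ := hc
  obtain ⟨s, hs, t, ht, ht', hst⟩ := hI (T.filter fun s => 0 < δ s) (Finset.filter_subset _ _)
    (by
      by_contra h
      rw [Finset.not_nonempty_iff_eq_empty, Finset.filter_eq_empty_iff] at h
      have h1 : ∀ r, δ r = 0 := fun r => by
        by_cases hr : r ∈ T
        · exact le_antisymm (not_lt.1 (h hr)) (d0 r)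
        · exact d1 r hr
      simp [h1] at d2)
    (fun h => by
      rw [← h, Finset.mem_filter] at ht₀
      linarith [ht₀.2])
  have h1 : δ t = 0 := le_antisymm (not_lt.1 fun h => ht' (Finset.mem_filter.2 ⟨ht, h⟩)) (d0 t)
  have h2 := d4 t ht
  rw [bf_al, h1] at h2
  have h3 := Finset.single_le_sum (f := fun u => D.c t u * δ u)
    (fun u _ => mul_nonneg (D.c_nonneg t u) (d0 u)) (Finset.mem_univ s)
  have h4 : 0 < D.c t s * δ s :=
    mul_pos (lt_of_le_of_ne (D.c_nonneg t s) (by rw [D.c_symm]; exact hst.symm))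
      (Finset.mem_filter.1 hs).2
  linarith

theorem orbit_span {T : Finset B} (hI : D.Irr T) {t : B} (ht : t ∈ T) {k : B → ℝ}
    (h : ∀ w ∈ WP cs T, D.bf (al t) (D.fr w k) = 0) : ∀ s ∈ T, D.bf k (al s) = 0 := by
  classical
  have h1 : (T.filter fun s => ∀ w ∈ WP cs T, D.bf (al s) (D.fr w k) = 0) = T := by
    by_contra hne
    obtain ⟨s, hs, u, hu, hu', hc⟩ := hI _ (Finset.filter_subset _ _)
      ⟨t, Finset.mem_filter.2 ⟨ht, h⟩⟩ hne
    have hsu : s ≠ u := fun e => hu' (e ▸ hs)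
    rw [Finset.mem_filter] at hs
    refine hu' (Finset.mem_filter.2 ⟨hu, fun w hw => ?_⟩)
    have h2 := hs.2 _ (mul_mem (simple_mem_WP hu) hw)
    rw [cox_fr_mul, fr_simple', cox_bf_sub, cox_bf_smul, hs.2 w hw, bf_al_al, if_neg hsu,
      zero_sub, mul_neg, neg_neg] at h2
    rw [bf_symm]
    exact (mul_eq_zero.1 h2).resolve_right hc
  intro s hs
  rw [← h1, Finset.mem_filter] at hs
  have h2 := hs.2 1 (one_mem _)
  rwa [map_one, Module.End.one_apply, bf_symm] at h2

end Dat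

end Vale.Agent.P203
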