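import Vale.Agent.P203.FamBasic

namespace Vale.Agent.P203

variable {B W : Type} [Group W] {M : CoxeterMatrix B} [Fintype B] [DecidableEq B]
variable {cs : CoxeterSystem M W}

namespace Fam

variable {D : Dat cs} {C : Core D} (F : Fam C)

/-- A value function for raising the thresholds along `δ` and then the degree. -/
theorem exists_val {T : Finset B} {δ : B → ℝ} (hpos : ∀ s ∈ T, 0 < δ s)
    (hsupp : ∀ r ∉ T, δ r = 0) (hanti : ∀ t ∈ T, D.bf δ (al t) ≤ 0)
    {K : ℤ} {κ : B → ℝ} {x₀ : C.G} (h : F.Adm T K κ x₀) :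
    ∃ val : C.G → B → ℤ ×ₗ ℝ,
      (∀ x s t, s ≠ t → val (x * C.gen s) t = val x t) ∧
      {l | ∃ x, ∃ t ∈ T, val x t = l}.IsWF ∧
      (∀ x, ∀ t ∈ T, val x t < toLex (K, 0) ↔ F.good K κ x t) ∧
      (∀ x, ∀ t ∈ T, val x t = toLex (K, 0) ↔ F.hor K κ x t) ∧
      ∀ x₁, ∀ t₁ ∈ T, toLex (K, 0) ≤ val x₁ t₁ → ∃ (K' : ℤ) (κ' : B → ℝ), F.Adm T K' κ' x₀ ∧
        (∀ x, ∀ t ∈ T, val x t < val x₁ t₁ ↔ F.good K' κ' x t) ∧
        (∀ x, ∀ t ∈ T, val x t = val x₁ t₁ ↔ F.hor K' κ' x t) := by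
  have ex : ∀ x t, ∃ L, (K ≤ L ∧ F.van L x t) ∧ ∀ z, (K ≤ z ∧ F.van z x t) → L ≤ z := fun x t => by
    obtain ⟨L, hL⟩ := F.exists_van x
    exact Int.exists_least_of_bdd ⟨K, fun z hz => hz.1⟩
      ⟨max K L, le_max_left _ _, F.van_mono (le_max_right _ _) (hL t)⟩
  choose lev l1 l2 using ex
  have l3 : ∀ x t K', K ≤ K' → (F.van K' x t ↔ lev x t ≤ K') := fun x t K' hK =>
    ⟨fun h => l2 x t K' ⟨hK, h⟩, fun h => F.van_mono h (l1 x t).2⟩
  have l4 : ∀ x t K', lev x t < K' → F.hv K' x t = 0 := fun x t K' hK =>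
    (F.hv_eq_zero_iff _ _ _).2 fun i a => (l1 x t).2 i K' hK a
  have l5 : ∀ x t, lev x t ≠ K → 0 < F.hv (lev x t) x t := fun x t hK => by
    refine lt_of_le_of_ne (F.hv_nonneg _ _ _) fun h0 => ?_
    have h1 := (l1 x t).1
    have h2 := (l3 x t (lev x t - 1) (by omega)).1 fun i k hk a => by
      by_cases h' : k = lev x t
      · rw [h']
        exact (F.hv_eq_zero_iff _ _ _).1 h0.symm i a
      · exact (l1 x t).2 i k (by omega) a
    omega
  have main : ∀ (K' : ℤ) (θ : ℝ), K ≤ K' → (K' ≠ K → 0 < θ) → ∀ x, ∀ t ∈ T,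
      (toLex (lev x t, (F.hv (lev x t) x t - if lev x t = K then κ t else 0) / δ t) <
        toLex (K', θ) ↔ F.good K' (fun t => (if K' = K then κ t else 0) + θ * δ t) x t) ∧
      (toLex (lev x t, (F.hv (lev x t) x t - if lev x t = K then κ t else 0) / δ t) =
        toLex (K', θ) ↔ F.hor K' (fun t => (if K' = K then κ t else 0) + θ * δ t) x t) := by
    intro K' θ hK hθ x t ht
    rw [Prod.Lex.toLex_lt_toLex, toLex_inj, Prod.mk.injEq, good, hor, l3 x t K' hK]
    dsimp only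
    rw [div_lt_iff₀ (hpos t ht), div_eq_iff (hpos t ht).ne', sub_lt_iff_lt_add',
      sub_eq_iff_eq_add']
    rcases lt_trichotomy (lev x t) K' with h1 | h1 | h1
    · have h2 : K' ≠ K := by
        have := (l1 x t).1
        omega
      have h3 := mul_pos (hθ h2) (hpos t ht)
      rw [l4 x t K' h1, if_neg h2, zero_add]
      simp [h1, h1.le, h1.ne, h3, h3.ne]
    · simp [h1]
    · simp [h1.ne', h1.le.not_gt, h1.not_ge]
  refine ⟨fun x t => toLex (lev x t, (F.hv (lev x t) x t - if lev x t = K then κ t else 0) / δ t),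
    fun x s t hst => ?_, ?_, fun x t ht => ?_, fun x t ht => ?_, fun x₁ t₁ ht₁ hle => ?_⟩
  · have h1 : x⁻¹ * (x * C.gen s) ∈ C.P {s} := by
      simpa using C.gen_mem (Finset.mem_singleton_self s)
    have h2 : t ∉ ({s} : Finset B) := by simpa using hst.symm
    have h3 : lev (x * C.gen s) t = lev x t := le_antisymm
      (l2 _ _ _ ⟨(l1 x t).1, (F.van_off h1 _ h2).2 (l1 x t).2⟩)
      (l2 _ _ _ ⟨(l1 _ t).1, (F.van_off h1 _ h2).1 (l1 _ t).2⟩)
    simp only [h3, F.hv_off h1 _ h2]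
  · refine (Set.PartiallyWellOrderedOn.subsetProdLex (BddBelow.isWF ⟨K, ?_⟩).isPWO
      fun k => Set.IsWF.isPWO ?_).isWF
    · rintro _ ⟨_, ⟨x, t, -, rfl⟩, rfl⟩
      exact (l1 x t).1
    · rw [Set.isWF_iff_no_descending_seq]
      intro f hf hf'
      refine Set.infinite_range_of_injective hf.injective ((T.finite_toSet.biUnion fun t _ =>
        (F.hv_finite ((if k = K then κ t else 0) + f 0 * δ t)).image
          fun v => (v - if k = K then κ t else 0) / δ t).subset ?_)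
      rintro _ ⟨n, rfl⟩
      obtain ⟨x, t, ht, e⟩ := hf' n
      rw [toLex_inj, Prod.mk.injEq] at e
      obtain ⟨e1, e2⟩ := e
      rw [e1] at e2
      refine Set.mem_biUnion ht ⟨_, ⟨⟨k, x, t, rfl⟩, ?_⟩, e2⟩
      have h1 := hf.antitone (Nat.zero_le n)
      rwa [← e2, div_le_iff₀ (hpos t ht), sub_le_iff_le_add'] at h1
  · simpa using (main K 0 le_rfl (fun h => absurd rfl h) x t ht).1
  · simpa using (main K 0 le_rfl (fun h => absurd rfl h) x t ht).2
  · have h1 := (l1 x₁ t₁).1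
    have h2 : lev x₁ t₁ ≠ K → 0 < (F.hv (lev x₁ t₁) x₁ t₁ -
        if lev x₁ t₁ = K then κ t₁ else 0) / δ t₁ := fun h' => by
      rw [if_neg h', sub_zero]
      exact div_pos (l5 _ _ h') (hpos t₁ ht₁)
    rw [Prod.Lex.toLex_le_toLex'] at hle
    refine ⟨_, _, ?_, fun x t ht => (main _ _ h1 h2 x t ht).1,
      fun x t ht => (main _ _ h1 h2 x t ht).2⟩
    have h3 := hle.2
    dsimp only at h3
    generalize (F.hv (lev x₁ t₁) x₁ t₁ - if lev x₁ t₁ = K then κ t₁ else 0) / δ t₁ = θ at h2 h3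
    generalize lev x₁ t₁ = K' at h1 h2 h3
    refine ⟨fun r hr h' => F.van_mono h1 (h.1 r hr h'), fun t ht => ?_⟩
    have h4 := hanti t ht
    by_cases hK : K' = K
    · have h5 := h.2 t ht
      have e : (fun u => if u ∈ T then (if K' = K then κ u else 0) + θ * δ u else F.hv K' x₀ u) =
          (fun u => if u ∈ T then κ u else F.hv K x₀ u) + θ • δ := by
        funext u
        by_cases hu : u ∈ T <;> simp [hu, hK, hsupp]
      rw [e, D.bf_symm, D.cox_bf_add, D.cox_bf_smul, D.bf_symm, D.bf_symm _ δ]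
      nlinarith [h3 hK.symm]
    · have e : ∑ u, D.c t u * (if u ∈ T then (if K' = K then κ u else 0) + θ * δ u
          else F.hv K' x₀ u) = θ * ∑ u, D.c t u * δ u := by
        rw [Finset.mul_sum]
        refine Finset.sum_congr rfl fun u _ => ?_
        by_cases hu : u ∈ T
        · rw [if_pos hu, if_neg hK]
          ring
        · rw [if_neg hu, hsupp u hu]
          by_cases hc : D.c t u = 0
          · simp [hc]
          · rw [(F.hv_eq_zero_iff _ _ _).2 fun i a =>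
              h.1 u hu ⟨t, ht, by rwa [D.c_symm]⟩ i K' (by omega) a]
            simp
      rw [D.bf_al] at h4 ⊢
      dsimp only
      rw [e, if_pos ht, if_neg hK]
      nlinarith [h2 hK]

theorem val_gap (a : ℝ) : ∃ ε > 0, ∀ K x t, a < F.hv K x t → a + ε ≤ F.hv K x t := by
  obtain ⟨m, hm, hm'⟩ := Set.exists_min_image _ id
    (((F.hv_finite (a + 1)).inter_of_left (Set.Ioi a)).insert (a + 1)) (Set.insert_nonempty _ _)
  refine ⟨m - a, ?_, fun K x t h => ?_⟩
  · rcases hm with hm | hm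
    · linarith
    · exact sub_pos.2 hm.2
  · rw [add_sub_cancel]
    by_cases h' : F.hv K x t ≤ a + 1
    · exact hm' _ (Or.inr ⟨⟨⟨K, x, t, rfl⟩, h'⟩, h⟩)
    · exact (hm' _ (Or.inl rfl)).trans (not_le.1 h').le

theorem val_eps {T : Finset B} {ρ : B → ℝ} (hsupp : ∀ r ∉ T, ρ r = 0)
    (hdom : ∀ t ∈ T, D.bf ρ (al t) = 1) {K : ℤ} {κ : B → ℝ} {x₀ : C.G} (h : F.Adm T K κ x₀)
    {m : ℝ} (hm : m < 0) (U : B → Prop) :
    ∃ κ' : B → ℝ, F.Adm T K κ' x₀ ∧ (∀ t, ¬ U t → κ' t = κ t + m * ρ t) ∧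
      ∀ x t, F.hv K x t < κ' t ↔
        (F.hv K x t < κ t + m * ρ t ∨ F.hv K x t = κ t + m * ρ t ∧ U t) := by
  classical
  choose ε h1 h2 using fun t => F.val_gap (κ t + m * ρ t)
  have h3 : ∀ t, 0 < min (ε t) (-m / 2) := fun t => lt_min (h1 t) (by linarith)
  refine ⟨fun t => κ t + m * ρ t + if U t then min (ε t) (-m / 2) else 0,
    ⟨h.1, fun t ht => ?_⟩, fun t ht => by simp [ht], fun x t => ?_⟩
  · have e : (fun u => if u ∈ T then κ u + m * ρ u + if U u then min (ε u) (-m / 2) else 0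
        else F.hv K x₀ u) = (fun u => if u ∈ T then κ u else F.hv K x₀ u) + m • ρ +
          fun u => if u ∈ T ∧ U u then min (ε u) (-m / 2) else 0 := by
      funext u
      by_cases hu : u ∈ T <;> simp [hu, hsupp]
    have h4 : D.bf (fun u => if u ∈ T ∧ U u then min (ε u) (-m / 2) else 0) (al t) ≤ -m := by
      rw [D.bf_al]
      have h5 : 0 ≤ ∑ u, D.c t u * if u ∈ T ∧ U u then min (ε u) (-m / 2) else 0 :=
        Finset.sum_nonneg fun u _ => mul_nonneg (D.c_nonneg _ _) (by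
          split_ifs
          exacts [(h3 u).le, le_rfl])
      have h6 := min_le_right (ε t) (-m / 2)
      split_ifs <;> linarith
    have h5 := h.2 t ht
    rw [e, D.bf_symm, D.cox_bf_add, D.cox_bf_add, D.cox_bf_smul, D.bf_symm _ ρ, hdom t ht]
    rw [D.bf_symm] at h4 h5
    linarith
  · by_cases hU : U t
    · simp only [hU, if_true, and_true, ← le_iff_lt_or_eq]
      refine ⟨fun h' => not_lt.1 fun h'' => ?_, fun h' => by linarith [h3 t]⟩
      linarith [h2 t K x t h'', min_le_left (ε t) (-m / 2)]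
    · simp [hU]

/-- A value function for lowering the thresholds along `ρ`, with ties broken by the type. -/
theorem exists_val_sph {T : Finset B} {ρ : B → ℝ} (hpos : ∀ s ∈ T, 0 < ρ s)
    (hsupp : ∀ r ∉ T, ρ r = 0) (hdom : ∀ t ∈ T, D.bf ρ (al t) = 1)
    {K : ℤ} {κ : B → ℝ} {x₀ : C.G} (h : F.Adm T K κ x₀) :
    ∃ val : C.G → B → ℝ ×ₗ ℕ,
      (∀ x s t, s ≠ t → val (x * C.gen s) t = val x t) ∧
      {l | ∃ x, ∃ t ∈ T, val x t = l}.IsWF ∧
      (∀ x x', ∀ t ∈ T, ∀ t' ∈ T, val x t = val x' t' → t = t') ∧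
      (∀ x, ∀ t ∈ T, val x t < toLex (0, 0) ↔ F.good K κ x t) ∧
      ∀ x₁, ∀ t₁ ∈ T, val x₁ t₁ < toLex (0, 0) →
        (∃ κ' : B → ℝ, F.Adm T K κ' x₀ ∧
          (∀ x, ∀ t ∈ T, val x t ≤ val x₁ t₁ ↔ F.good K κ' x t)) ∧
        ∃ κ' : B → ℝ, F.Adm T K κ' x₀ ∧
          (∀ x, ∀ t ∈ T, val x t < val x₁ t₁ ↔ F.good K κ' x t) ∧
          ∀ x, val x t₁ = val x₁ t₁ → F.hor K κ' x t₁ := by
  classical
  let idx : B → ℕ := fun t => Fintype.equivFin B t
  have hidx : Function.Injective idx := fun a b e => (Fintype.equivFin B).injective (Fin.ext e)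
  refine ⟨fun x t => toLex (if F.good K κ x t then (F.hv K x t - κ t) / ρ t else 1, idx t),
    fun x s t hst => ?_, Set.Finite.isWF ?_, fun x x' t _ t' _ e => ?_, fun x t ht => ?_,
    fun x₁ t₁ ht₁ hlt => ?_⟩
  · have h1 : x⁻¹ * (x * C.gen s) ∈ C.P {s} := by
      simpa using C.gen_mem (Finset.mem_singleton_self s)
    have h2 : t ∉ ({s} : Finset B) := by simpa using hst.symm
    simp only [F.good_off h1 _ _ h2, F.hv_off h1 _ h2]
  · refine (T.finite_toSet.biUnion fun t _ => (((F.hv_finite (κ t)).image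
      fun v => (v - κ t) / ρ t).insert 1).image fun v => toLex (v, idx t)).subset ?_
    rintro _ ⟨x, t, ht, rfl⟩
    refine Set.mem_biUnion ht ⟨_, ?_, rfl⟩
    split_ifs with hg
    · exact Or.inr ⟨_, ⟨⟨K, x, t, rfl⟩, hg.2.le⟩, rfl⟩
    · exact Or.inl rfl
  · rw [toLex_inj, Prod.mk.injEq] at e
    exact hidx e.2
  · rw [Prod.Lex.toLex_lt_toLex]
    by_cases hg : F.good K κ x t
    · simp [hg, div_neg_of_neg_of_pos (sub_neg.2 hg.2) (hpos t ht)]
    · simp [hg]
  · have hg : F.good K κ x₁ t₁ := by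
      by_contra hg
      rw [Prod.Lex.toLex_lt_toLex] at hlt
      norm_num [hg] at hlt
    simp only [if_pos hg]
    have hm := div_neg_of_neg_of_pos (sub_neg.2 hg.2) (hpos t₁ ht₁)
    generalize (F.hv K x₁ t₁ - κ t₁) / ρ t₁ = m at hm
    have key : ∀ (P : Prop) x, ∀ t ∈ T,
        ((if F.good K κ x t then (F.hv K x t - κ t) / ρ t else 1) < m ∨
          (if F.good K κ x t then (F.hv K x t - κ t) / ρ t else 1) = m ∧ P) ↔
        F.van K x t ∧ (F.hv K x t < κ t + m * ρ t ∨ F.hv K x t = κ t + m * ρ t ∧ P) := by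
      intro P x t ht
      have h1 := mul_neg_of_neg_of_pos hm (hpos t ht)
      split_ifs with hg
      · rw [div_lt_iff₀ (hpos t ht), div_eq_iff (hpos t ht).ne', sub_lt_iff_lt_add',
          sub_eq_iff_eq_add', and_iff_right hg.1]
      · refine ⟨fun h' => ?_, fun h' => absurd ⟨h'.1, ?_⟩ hg⟩
        · rcases h' with h' | h'
          · linarith
          · linarith [h'.1]
        · rcases h'.2 with h' | h'
          · linarith
          · linarith [h'.1]
    constructor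
    · obtain ⟨κ', h1, -, h3⟩ := F.val_eps hsupp hdom h hm fun t => idx t ≤ idx t₁
      refine ⟨κ', h1, fun x t ht => ?_⟩
      rw [Prod.Lex.toLex_le_toLex]
      exact (key _ x t ht).trans (and_congr_right fun _ => (h3 x t).symm)
    · obtain ⟨κ', h1, h2, h3⟩ := F.val_eps hsupp hdom h hm fun t => idx t < idx t₁
      refine ⟨κ', h1, fun x t ht => ?_, fun x e => ?_⟩
      · rw [Prod.Lex.toLex_lt_toLex]
        exact (key _ x t ht).trans (and_congr_right fun _ => (h3 x t).symm)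
      · rw [toLex_inj, Prod.mk.injEq] at e
        have h4 := (key True x t₁ ht₁).1 (Or.inr ⟨e.1, trivial⟩)
        refine ⟨h4.1, ?_⟩
        rw [h2 t₁ (lt_irrefl _)]
        by_cases hg : F.good K κ x t₁
        · have h5 := e.1
          rwa [if_pos hg, div_eq_iff (hpos t₁ ht₁).ne', sub_eq_iff_eq_add'] at h5
        · have h5 := e.1
          rw [if_neg hg] at h5
          linarith

end Fam

end Vale.Agent.P203
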