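import Vale.Agent.P203.CombRed
import Vale.Agent.P203.Val
import Vale.Agent.P203.CoxPF

namespace Vale.Agent.P203

variable {B W : Type} [Group W] {M : CoxeterMatrix B} [Fintype B] [DecidableEq B]
variable {cs : CoxeterSystem M W}

namespace Core

variable {D : Dat cs} (C : Core D)

theorem nm_coset {C : Core D} {T : Finset B} {Good : C.G → B → Prop} {v v' : C.G × B}
    (h : C.Conn T Good v v') : v.1⁻¹ * v'.1 ∈ C.P T := by
  induction h with
  | refl => simp
  | tail _ h ih =>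
    obtain ⟨-, -, -, -, z, h1, h2⟩ := h
    exact C.cr_trans (C.cr_trans ih (C.P_mono (Finset.erase_subset _ _) h1))
      (C.cr_inv (C.P_mono (Finset.erase_subset _ _) h2))

theorem nm_link {C : Core D} {F : Fam C} {T : Finset B} {K : ℤ} {κ : B → ℝ} {x : C.G}
    (h : F.Adm T K κ x) {t : B} (ht : t ∈ T) (hh : F.hor K κ x t) : F.Adm (T.erase t) K κ x := by
  rw [← Finset.sdiff_singleton_eq_erase]
  exact h.link (Finset.singleton_subset_iff.2 ht) fun j hj => by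
    rw [Finset.mem_singleton.1 hj]
    exact hh

/-- Adding horizontal vertices does not merge components. -/
theorem conn_step {F : Fam C} {T : Finset B} (ihc : ∀ T' ⊂ T, C.ConnS T')
    (ihm : ∀ T' ⊂ T, C.MinS T') {K : ℤ} {κ : B → ℝ} {x₀ : C.G} (h : F.Adm T K κ x₀)
    {v v' : C.G × B} (hv0 : x₀⁻¹ * v.1 ∈ C.P T) (hvT : v.2 ∈ T) (hv : F.good K κ v.1 v.2)
    (hc : C.Conn T (fun x t => F.good K κ x t ∨ F.hor K κ x t) v v') :
    (F.good K κ v'.1 v'.2 ∧ C.Conn T (F.good K κ) v v') ∨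
      (F.hor K κ v'.1 v'.2 ∧ ∃ z, ∃ u ∈ T.erase v'.2, v'.1⁻¹ * z ∈ C.P (T.erase v'.2) ∧
        F.good K κ z u ∧ C.Conn T (F.good K κ) v (z, u)) := by
  induction hc with
  | refl => exact Or.inl ⟨hv, Relation.ReflTransGen.refl⟩
  | @tail a b hab hadj ih =>
    obtain ⟨ha, hb, -, hgb, z₀, hza, hzb⟩ := hadj
    have hz₀ : x₀⁻¹ * z₀ ∈ C.P T := C.cr_trans (C.cr_trans hv0 (nm_coset hab))
      (C.P_mono (Finset.erase_subset _ _) hza)
    have ga := F.good_off hza K κ (Finset.notMem_erase _ _)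
    have gb := F.good_off hzb K κ (Finset.notMem_erase _ _)
    have oa := F.hor_off hza K κ (Finset.notMem_erase _ _)
    have ob := F.hor_off hzb K κ (Finset.notMem_erase _ _)
    rcases ih with ⟨h1, h2⟩ | ⟨h1, z, u, hu, hz, h2, h3⟩
    · rcases hgb with h4 | h4
      · exact Or.inl ⟨h4, h2.tail ⟨ha, hb, h1, h4, z₀, hza, hzb⟩⟩
      · refine Or.inr ⟨h4, z₀, a.2, Finset.mem_erase.2 ⟨fun e => ?_, ha⟩, hzb, ga.2 h1,
          h2.tail ⟨ha, ha, h1, ga.2 h1, z₀, hza, by simp⟩⟩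
        have h5 := (ga.2 h1).2
        rw [e, (ob.2 h4).2] at h5
        exact lt_irrefl _ h5
    · have hA : F.Adm (T.erase a.2) K κ z₀ := nm_link (h.coset hz₀) ha (oa.2 h1)
      have hs := Finset.erase_ssubset ha
      have hzz := C.cr_coset hza hz
      have con : ∀ y, ∀ r ∈ T.erase a.2, z₀⁻¹ * y ∈ C.P (T.erase a.2) → F.good K κ y r →
          C.Conn T (F.good K κ) v (y, r) := fun y r hr hy hg =>
        h3.trans (Conn.mono hs.subset (fun _ _ _ h => h)
          (ihc _ hs F K κ z₀ hA z y u r hzz hy hu hr h2 hg))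
      by_cases e : b.2 = a.2
      · rcases hgb with h4 | h4
        · have h5 := (gb.2 h4).2
          rw [e, (oa.2 h1).2] at h5
          exact absurd h5 (lt_irrefl _)
        · rw [← e] at hu hzz
          exact Or.inr ⟨h4, z, u, hu, C.cr_trans hzb hzz, h2, h3⟩
      have hb' : b.2 ∈ T.erase a.2 := Finset.mem_erase.2 ⟨e, hb⟩
      rcases hgb with h4 | h4
      · exact Or.inl ⟨h4, (con z₀ _ hb' (by simp) (gb.2 h4)).tail
          ⟨hb, hb, gb.2 h4, h4, z₀, by simp, hzb⟩⟩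
      · have h5 := ihm _ hs F K κ z₀ hA {b.2} (Finset.singleton_subset_iff.2 hb')
          (Finset.singleton_nonempty _) fun j hj => by
            rw [Finset.mem_singleton.1 hj]
            exact ob.2 h4
        by_contra h6
        refine h5 (fun y hy r hr hg => h6 (Or.inr ⟨h4, y, r, ?_, ?_, hg, ?_⟩)) z hzz u hu h2
        · simp only [Finset.mem_sdiff, Finset.mem_erase, Finset.mem_singleton] at hr ⊢
          exact ⟨hr.2, hr.1.2⟩
        · refine C.cr_trans hzb (C.P_mono (fun r hr => ?_) hy)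
          simp only [Finset.mem_sdiff, Finset.mem_erase, Finset.mem_singleton] at hr ⊢
          exact ⟨hr.2, hr.1.2⟩
        · exact con y r (Finset.mem_sdiff.1 hr).1 (C.P_mono Finset.sdiff_subset hy) hg

theorem nm_all {T : Finset B} (hT : ¬ Sph cs T) {v v' : C.G × B} (h : v.1⁻¹ * v'.1 ∈ C.P T)
    (hv : v.2 ∈ T) (hv' : v'.2 ∈ T) : C.Conn T (fun _ _ => True) v v' := by
  have key := C.P_induction (T := T)
    (p := fun g => ∀ t ∈ T, C.Conn T (fun _ _ => True) v (v.1 * g, t))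
    (fun t ht => Relation.ReflTransGen.single ⟨hv, ht, trivial, trivial, v.1, by simp, by simp⟩)
    (fun g _ s hs => ?_) h v'.2 hv'
  · rwa [mul_inv_cancel_left] at key
  obtain ⟨u, hu, hus⟩ : ∃ u ∈ T, u ≠ s := by
    by_contra h'
    push Not at h'
    exact hT (Sph.mono (fun u hu => Finset.mem_singleton.2 (h' u hu)) (sph_single s))
  have h1 : C.gen s ∈ C.P (T.erase u) := C.gen_mem (Finset.mem_erase.2 ⟨hus.symm, hs⟩)
  constructor
  · exact fun h' t ht => (h' u hu).tail ⟨hu, ht, trivial, trivial, v.1 * (g * C.gen s),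
      by simpa [mul_assoc] using h1, by simp⟩
  · exact fun h' t ht => (h' u hu).tail ⟨hu, ht, trivial, trivial, v.1 * g,
      by simpa [mul_assoc] using h1, by simp⟩

theorem nm_att {C : Core D} {T : Finset B} {Good : C.G → B → Prop} {L : Type} [LinearOrder L]
    (val : C.G → B → L) {v v' : C.G × B} (h : C.Conn T Good v v') (hv : v.2 ∈ T)
    (hg : Good v.1 v.2) : ∃ x, ∃ t ∈ T, Good x t ∧ val v'.1 v'.2 ≤ val x t ∧
      C.Conn T (fun y r => val y r ≤ val x t) v v' := by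
  induction h with
  | refl => exact ⟨v.1, v.2, hv, hg, le_rfl, Relation.ReflTransGen.refl⟩
  | @tail a b _ h ih =>
    obtain ⟨x, t, ht, h1, h2, h3⟩ := ih
    obtain ⟨ha, hb, -, hgb, hz⟩ := h
    rcases le_total (val b.1 b.2) (val x t) with h4 | h4
    · exact ⟨x, t, ht, h1, h4, h3.tail ⟨ha, hb, h2, h4, hz⟩⟩
    · exact ⟨b.1, b.2, hb, hgb, le_rfl, Relation.ReflTransGen.tail
        (h3.mono (Finset.Subset.refl T) fun _ _ _ h => h.trans h4)
        ⟨ha, hb, h2.trans h4, le_rfl, hz⟩⟩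

/-- No merging: the good or horizontal vertices span a connected complex. -/
theorem conn_le {F : Fam C} {T : Finset B} (hT : ¬ Sph cs T) (hI : D.Irr T)
    (ihc : ∀ T' ⊂ T, C.ConnS T') (ihm : ∀ T' ⊂ T, C.MinS T') {K : ℤ} {κ : B → ℝ} {x₀ : C.G}
    (h : F.Adm T K κ x₀) {v v' : C.G × B} (hv0 : x₀⁻¹ * v.1 ∈ C.P T)
    (hv0' : x₀⁻¹ * v'.1 ∈ C.P T) (hvT : v.2 ∈ T) (hvT' : v'.2 ∈ T)
    (hv : F.good K κ v.1 v.2 ∨ F.hor K κ v.1 v.2)
    (hv' : F.good K κ v'.1 v'.2 ∨ F.hor K κ v'.1 v'.2) :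
    C.Conn T (fun x t => F.good K κ x t ∨ F.hor K κ x t) v v' := by
  obtain ⟨δ, d1, d2, d3⟩ := D.exists_delta hT hI
  obtain ⟨val, -, wf, v1, v2, v3⟩ := F.exists_val d1 d2 d3 h
  have v4 : ∀ x, ∀ t ∈ T, val x t ≤ toLex (K, 0) ↔ F.good K κ x t ∨ F.hor K κ x t :=
    fun x t ht => by rw [le_iff_lt_or_eq, v1 x t ht, v2 x t ht]
  obtain ⟨x₁, t₁, ht₁, -, -, hc⟩ := nm_att val (C.nm_all hT (C.cr_coset hv0 hv0') hvT hvT') hvT
    trivial
  refine Set.WellFoundedOn.induction wf (x := val x₁ t₁) ⟨x₁, t₁, ht₁, rfl⟩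
    (P := fun l => C.Conn T (fun x t => val x t ≤ l) v v' →
      C.Conn T (fun x t => F.good K κ x t ∨ F.hor K κ x t) v v') ?_ hc
  rintro _ ⟨y, r, hr, rfl⟩ ih hc
  rcases le_or_gt (val y r) (toLex (K, 0)) with h1 | h1
  · exact hc.mono (Finset.Subset.refl T) fun x t ht h2 => (v4 x t ht).1 (h2.trans h1)
  obtain ⟨K', κ', hA, w1, w2⟩ := v3 y r hr h1.le
  have g1 := (w1 _ _ hvT).1 (((v4 _ _ hvT).2 hv).trans_lt h1)
  rcases C.conn_step ihc ihm hA hv0 hvT g1 (hc.mono (Finset.Subset.refl T) fun x t ht h2 => by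
    rwa [le_iff_lt_or_eq, w1 x t ht, w2 x t ht] at h2) with ⟨-, h2⟩ | ⟨h2, -⟩
  · obtain ⟨y', r', hr', h3, -, h4⟩ := nm_att val h2 hvT g1
    exact ih _ ⟨y', r', hr', rfl⟩ ((w1 _ _ hr').2 h3) h4
  · exact absurd ((w2 _ _ hvT').2 h2) (((v4 _ _ hvT').2 hv').trans_lt h1).ne

theorem connS_non {T : Finset B} (hT : ¬ Sph cs T) (hI : D.Irr T)
    (ihc : ∀ T' ⊂ T, C.ConnS T') (ihm : ∀ T' ⊂ T, C.MinS T') : C.ConnS T := by
  intro F K κ x₀ hA x x' t t' hx hx' ht ht' hg hg'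
  rcases C.conn_step ihc ihm hA (v := (x, t)) hx ht hg (C.conn_le hT hI ihc ihm hA (v := (x, t))
    (v' := (x', t')) hx hx' ht ht' (Or.inl hg) (Or.inl hg')) with h | h
  · exact h.2
  · exact absurd h.1.2 hg'.2.ne

theorem minS_non {T : Finset B} (hT : ¬ Sph cs T) (hI : D.Irr T)
    (ihc : ∀ T' ⊂ T, C.ConnS T') (ihm : ∀ T' ⊂ T, C.MinS T') : C.MinS T := by
  rintro F K κ x hA J hJ ⟨j, hj⟩ hh hno x' hx' u hu hg
  rcases C.conn_step ihc ihm hA (v := (x', u)) hx' hu hg (C.conn_le hT hI ihc ihm hA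
    (v := (x', u)) (v' := (x, j)) hx' (by simp) hu (hJ hj) (Or.inl hg) (Or.inr (hh j hj))) with
    h | ⟨-, z, r, hr, hz, hg', -⟩
  · exact absurd (hh j hj).2 h.1.2.ne
  have h1 : T.erase j \ J.erase j ⊆ T \ J := fun s hs => by
    simp only [Finset.mem_sdiff, Finset.mem_erase] at hs ⊢
    tauto
  rcases (J.erase j).eq_empty_or_nonempty with h2 | h2
  · rw [h2, Finset.sdiff_empty] at h1
    exact hno z (C.P_mono h1 hz) r (h1 hr) hg'
  · exact ihm _ (Finset.erase_ssubset (hJ hj)) F K κ x (nm_link hA (hJ hj) (hh j hj)) (J.erase j)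
      (Finset.erase_subset_erase _ hJ) h2 (fun s hs => hh s (Finset.mem_of_mem_erase hs))
      (fun y hy s hs => hno y (C.P_mono h1 hy) s (h1 hs)) z hz r hr hg'

theorem baseS_non {F : Fam C} {δ : B → ℝ} {T₀ T : Finset B} (hF : F.Special T₀ δ) (hT₀ : T ⊆ T₀)
    (hT : ¬ Sph cs T) (hI : D.Irr T) (ihc : ∀ T' ⊂ T, C.ConnS T') (ihm : ∀ T' ⊆ T, C.MinS T')
    (ih : ∀ T' ⊂ T, C.BaseS F δ T') : C.BaseS F δ T := by
  intro x hx t ht hh
  have hA := hF.adm hT₀
  have hno := ihm T (Finset.Subset.refl T) F 0 δ 1 hA T (Finset.Subset.refl T) ⟨t, ht⟩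
    (fun j _ => hF.hor j) (fun _ _ u hu => absurd hu (by simp))
  have hc := C.conn_le hT hI ihc (fun T' h => ihm T' h.subset) hA (v := (1, t)) (v' := (x, t))
    (by simp) (by simpa using hx) ht ht (Or.inr (hF.hor t)) (Or.inr hh)
  change (x, t).1 ∈ C.P (T.erase (x, t).2)
  generalize (x, t) = v at hc
  induction hc with
  | refl => exact one_mem _
  | @tail a b hab hadj ih' =>
    obtain ⟨ha, hb, -, hgb, z, hza, hzb⟩ := hadj
    have h1 : z ∈ C.P (T.erase a.2) := by simpa using mul_mem ih' hza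
    have h2 : z ∈ C.P (T.erase b.2) := by
      by_cases e : b.2 = a.2
      · rwa [e]
      refine C.P_mono (Finset.erase_subset_erase _ (Finset.erase_subset a.2 T))
        (ih _ (Finset.erase_ssubset ha) z h1 b.2 (Finset.mem_erase.2 ⟨e, hb⟩) ?_)
      rcases hgb with h3 | h3
      · exact absurd ((F.good_off hzb 0 δ (Finset.notMem_erase _ _)).2 h3)
          (hno z (by simpa using C.P_mono (Finset.erase_subset _ _) h1) _ hb)
      · exact (F.hor_off hzb 0 δ (Finset.notMem_erase _ _)).2 h3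
    simpa using mul_mem h2 (inv_mem hzb)

end Core

end Vale.Agent.P203
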