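import Vale.Agent.P203.CombSph
import Vale.Agent.P203.CombNM

namespace Vale.Agent.P203

variable {B W : Type} [Group W] {M : CoxeterMatrix B} [Fintype B] [DecidableEq B]
variable {cs : CoxeterSystem M W}

namespace Core

variable {D : Dat cs} (C : Core D)

theorem conn_min_all (T : Finset B) : C.ConnS T ∧ C.MinS T := by
  induction T using Finset.strongInduction with
  | H T ih =>
    by_cases hI : D.Irr T
    · by_cases hT : Sph cs T
      · rcases Nat.lt_or_ge T.card 2 with h2 | h2
        · rcases Nat.lt_or_ge T.card 1 with h1 | h1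
          · have h0 : T = ∅ := Finset.card_eq_zero.1 (by omega)
            subst h0
            refine ⟨fun F K κ x₀ _ x x' t t' _ _ ht => absurd ht (by simp), ?_⟩
            intro F K κ x _ J _ _ _ _ x' _ u hu
            exact absurd hu (by simp)
          · obtain ⟨t, rfl⟩ := Finset.card_eq_one.1 (show T.card = 1 by omega)
            exact ⟨C.connS_one t, C.minS_one t⟩
        · exact ⟨C.connS_sph hT hI h2, C.minS_sph hT hI h2 fun T' h => (ih T' h).2⟩
      · exact ⟨C.connS_non hT hI (fun T' h => (ih T' h).1) fun T' h => (ih T' h).2,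
          C.minS_non hT hI (fun T' h => (ih T' h).1) fun T' h => (ih T' h).2⟩
    · exact ⟨C.connS_red hI fun T' h => (ih T' h).1, C.minS_red hI fun T' h => (ih T' h).2⟩

theorem baseS_all {F : Fam C} {δ : B → ℝ} {T₀ : Finset B} (hF : F.Special T₀ δ) (T : Finset B) :
    T ⊆ T₀ → C.BaseS F δ T := by
  induction T using Finset.strongInduction with
  | H T ih =>
    intro hT₀
    have ih' : ∀ T' ⊂ T, C.BaseS F δ T' := fun T' h => ih T' h (h.subset.trans hT₀)
    by_cases hI : D.Irr T
    · by_cases hT : Sph cs T
      · rcases Nat.lt_or_ge T.card 2 with h2 | h2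
        · rcases Nat.lt_or_ge T.card 1 with h1 | h1
          · have h0 : T = ∅ := Finset.card_eq_zero.1 (by omega)
            subst h0
            intro x _ t ht
            exact absurd ht (by simp)
          · obtain ⟨t, rfl⟩ := Finset.card_eq_one.1 (show T.card = 1 by omega)
            exact C.baseS_one hF (hT₀ (Finset.mem_singleton_self t))
        · exact C.baseS_sph hF hT₀ hT hI h2 (C.conn_min_all T).2 ih'
      · exact C.baseS_non hF hT₀ hT hI (fun T' _ => (C.conn_min_all T').1)
          (fun T' _ => (C.conn_min_all T').2) ih'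
    · exact C.baseS_red hI ih'

end Core

end Vale.Agent.P203
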