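import Vale.Agent.P203.FamBasic

namespace Vale.Agent.P203

variable {B W : Type} [Group W] {M : CoxeterMatrix B} [Fintype B] [DecidableEq B]
variable {cs : CoxeterSystem M W}

namespace Core

variable {D : Dat cs} (C : Core D)

theorem Adj.symm {C : Core D} {T : Finset B} {Good : C.G → B → Prop} {v v' : C.G × B}
    (h : C.Adj T Good v v') : C.Adj T Good v' v := by
  obtain ⟨h1, h2, h3, h4, z, h5, h6⟩ := h
  exact ⟨h2, h1, h4, h3, z, h6, h5⟩

theorem Conn.symm {C : Core D} {T : Finset B} {Good : C.G → B → Prop} {v v' : C.G × B}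
    (h : C.Conn T Good v v') : C.Conn T Good v' v := by
  induction h with
  | refl => exact Relation.ReflTransGen.refl
  | tail _ h ih => exact Relation.ReflTransGen.head h.symm ih

theorem Conn.mono {C : Core D} {T T' : Finset B} (hT : T ⊆ T') {Good Good' : C.G → B → Prop}
    (hG : ∀ x, ∀ t ∈ T, Good x t → Good' x t) {v v' : C.G × B} (h : C.Conn T Good v v') :
    C.Conn T' Good' v v' := by
  refine Relation.ReflTransGen.mono ?_ _ _ h
  rintro a b ⟨h1, h2, h3, h4, z, h5, h6⟩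
  exact ⟨hT h1, hT h2, hG _ _ h1 h3, hG _ _ h2 h4, z,
    C.P_mono (Finset.erase_subset_erase _ hT) h5, C.P_mono (Finset.erase_subset_erase _ hT) h6⟩

theorem cr_coset {T : Finset B} {x₀ x x' : C.G} (h : x₀⁻¹ * x ∈ C.P T) (h' : x₀⁻¹ * x' ∈ C.P T) :
    x⁻¹ * x' ∈ C.P T := by
  have := mul_mem (inv_mem h) h'
  simpa [mul_assoc] using this

theorem cr_trans {T : Finset B} {x y z : C.G} (h : x⁻¹ * y ∈ C.P T) (h' : y⁻¹ * z ∈ C.P T) :
    x⁻¹ * z ∈ C.P T := by
  have := mul_mem h h'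
  simpa [mul_assoc] using this

theorem cr_inv {T : Finset B} {x y : C.G} (h : x⁻¹ * y ∈ C.P T) : y⁻¹ * x ∈ C.P T := by
  simpa using inv_mem h

theorem cr_ssub {T₁ T₂ : Finset B} (hO : D.Orth T₁ T₂) (h : T₂.Nonempty) : T₁ ⊂ T₁ ∪ T₂ := by
  obtain ⟨t, ht⟩ := h
  exact (Finset.ssubset_iff_of_subset Finset.subset_union_left).2
    ⟨t, Finset.mem_union_right _ ht, fun h' => (hO _ h' _ ht).1 rfl⟩

theorem connS_red {T : Finset B} (h : ¬ D.Irr T) (ih : ∀ T' ⊂ T, C.ConnS T') : C.ConnS T := by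
  intro F K κ x₀ hA x x' t t' hx hx' ht ht' hg hg'
  obtain ⟨T₁, T₂, hU, hO, h1, h2⟩ := D.split_of_not_irr h ht
  subst hU
  obtain ⟨a, ha, b, hb, e⟩ := C.P_union hO (C.cr_coset hx hx')
  have e' : x' = x * a * b := by rw [mul_assoc, ← e, mul_inv_cancel_left]
  rcases Finset.mem_union.1 ht' with h3 | h3
  · have h4 : (x * a)⁻¹ * x' ∈ C.P T₂ := by rwa [e', inv_mul_cancel_left]
    have h5 : t' ∉ T₂ := fun h' => (hO _ h3 _ h').1 rfl
    have h6 := (F.good_off h4 K κ h5).1 hg'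
    refine Relation.ReflTransGen.tail (Conn.mono Finset.subset_union_left (fun _ _ _ h => h)
      (ih T₁ (cr_ssub hO h2) F K κ x ((hA.coset hx).orth hO) x (x * a) t t' (by simp)
        (by simpa using ha) h1 h3 hg h6)) ⟨ht', ht', h6, hg', x', C.P_mono ?_ h4, by simp⟩
    exact Finset.subset_erase.2 ⟨Finset.subset_union_right, h5⟩
  · refine Relation.ReflTransGen.single ⟨ht, ht', hg, hg', x * b, C.P_mono
      (Finset.subset_erase.2 ⟨Finset.subset_union_right, fun h' => (hO _ h1 _ h').1 rfl⟩)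
      (by simpa using hb), C.P_mono
      (Finset.subset_erase.2 ⟨Finset.subset_union_left, fun h' => (hO _ h' _ h3).1 rfl⟩) ?_⟩
    rw [e', mul_assoc, C.P_comm hO ha hb]
    simpa [mul_assoc] using ha

theorem minS_red {T : Finset B} (h : ¬ D.Irr T) (ih : ∀ T' ⊂ T, C.MinS T') : C.MinS T := by
  intro F K κ x hA J hJ _ hh hno x' hx' u hu hg
  obtain ⟨T₁, T₂, hU, hO, h1, h2⟩ := D.split_of_not_irr h hu
  subst hU
  obtain ⟨a, ha, b, hb, e⟩ := C.P_union hO hx'
  have e' : x' = x * a * b := by rw [mul_assoc, ← e, mul_inv_cancel_left]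
  have h4 : (x * a)⁻¹ * x' ∈ C.P T₂ := by rwa [e', inv_mul_cancel_left]
  have h6 := (F.good_off h4 K κ fun h' => (hO _ h1 _ h').1 rfl).1 hg
  have h7 : T₁ \ (J ∩ T₁) ⊆ (T₁ ∪ T₂) \ J := fun r hr => by
    simp only [Finset.mem_sdiff, Finset.mem_inter, Finset.mem_union] at hr ⊢
    tauto
  rcases (J ∩ T₁).eq_empty_or_nonempty with h3 | h3
  · rw [h3, Finset.sdiff_empty] at h7
    exact hno (x * a) (C.P_mono h7 (by simpa using ha)) u (h7 h1) h6
  · exact ih T₁ (cr_ssub hO h2) F K κ x (hA.orth hO) (J ∩ T₁) Finset.inter_subset_right h3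
      (fun j hj => hh j (Finset.mem_inter.1 hj).1)
      (fun y hy r hr => hno y (C.P_mono h7 hy) r (h7 hr)) (x * a) (by simpa using ha) u h1 h6

theorem baseS_red {F : Fam C} {δ : B → ℝ} {T : Finset B} (h : ¬ D.Irr T)
    (ih : ∀ T' ⊂ T, C.BaseS F δ T') : C.BaseS F δ T := by
  intro x hx t ht hh
  obtain ⟨T₁, T₂, hU, hO, h1, h2⟩ := D.split_of_not_irr h ht
  subst hU
  obtain ⟨a, ha, b, hb, rfl⟩ := C.P_union hO hx
  have h3 : t ∉ T₂ := fun h' => (hO _ h1 _ h').1 rfl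
  have h4 := ih T₁ (cr_ssub hO h2) a ha t h1 ((F.hor_off (by simpa using hb) 0 δ h3).1 hh)
  exact mul_mem (C.P_mono (Finset.erase_subset_erase _ Finset.subset_union_left) h4)
    (C.P_mono (Finset.subset_erase.2 ⟨Finset.subset_union_right, h3⟩) hb)

theorem cr_reg {C : Core D} {F : Fam C} {t : B} {K : ℤ} {κ : B → ℝ} {x : C.G}
    (h : F.Adm {t} K κ x) (hv : F.van K x t) : F.Reg {t} K x := by
  intro i k hk j hj
  by_cases h1 : j.1 = t
  · rw [← h1] at hv
    exact hv i k hk j.2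
  · refine h.1 j.1 (by simpa using h1) ⟨t, by simp, fun h2 => hj ?_⟩ i k hk j.2
    simp [Fam.far, h1, h2]

theorem cr_kink {C : Core D} {F : Fam C} {t : B} {K : ℤ} {κ : B → ℝ} {x : C.G}
    (h : F.Adm {t} K κ x) : 2 * κ t ≤ F.hv K (x * C.gen t) t + F.hv K x t := by
  have h1 := h.2 t (Finset.mem_singleton_self t)
  rw [D.bf_al, if_pos (Finset.mem_singleton_self t), sub_nonpos] at h1
  refine h1.trans (le_trans (le_of_eq (Finset.sum_congr rfl fun u _ => ?_)) (F.hv_kink K x t))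
  by_cases hu : u = t
  · rw [hu, D.c_self, zero_mul, zero_mul]
  · rw [if_neg (by simpa using hu)]

theorem cr_down {C : Core D} {F : Fam C} {t : B} {K : ℤ} {x : C.G} {n : ℕ}
    (h : F.Reg {t} K (x * C.gen t ^ n)) : F.Reg {t} K x := by
  induction n with
  | zero => simpa using h
  | succ n ih =>
    rw [pow_succ, ← mul_assoc] at h
    exact ih (F.reg_down _ t (Finset.mem_singleton_self t) h)

theorem cr_mono {C : Core D} {F : Fam C} {t : B} {K : ℤ} {x : C.G} {n : ℕ}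
    (h : F.Reg {t} K (x * C.gen t ^ (n + 1))) : F.hv K (x * C.gen t ^ n) t ≤ F.hv K x t := by
  induction n with
  | zero => simp
  | succ n ih =>
    rw [pow_succ, ← mul_assoc] at h
    refine le_trans ?_ (ih (F.reg_down _ t (Finset.mem_singleton_self t) h))
    rw [pow_succ, ← mul_assoc] at h ⊢
    exact F.fb_r1 (Finset.mem_singleton_self t) h

theorem cr_line {C : Core D} {F : Fam C} {t : B} {K : ℤ} {κ : B → ℝ} {x : C.G}
    (h : F.Adm {t} K κ x) {n : ℕ} (hv : F.van K (x * C.gen t ^ (n + 1)) t) :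
    2 * κ t ≤ F.hv K x t + F.hv K (x * C.gen t ^ (n + 1)) t := by
  have h1 : ∀ m : ℕ, F.Adm {t} K κ (x * C.gen t ^ m) := fun m =>
    h.coset (by simpa using pow_mem (C.gen_mem (Finset.mem_singleton_self t)) m)
  have h2 := cr_mono (cr_reg (h1 _) hv)
  have h3 := cr_kink (h1 n)
  rw [mul_assoc, ← pow_succ] at h3
  linarith

theorem cr_cases {t : B} {x : C.G} (h : x ∈ C.P {t}) :
    x = 1 ∨ (∃ n : ℕ, x = C.gen t ^ (n + 1)) ∨ ∃ n : ℕ, x⁻¹ = C.gen t ^ (n + 1) := by
  obtain ⟨m, rfl⟩ := C.P_single h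
  rcases m with (_ | n) | n
  · exact Or.inl (by simp)
  · exact Or.inr (Or.inl ⟨n, by rw [Int.ofNat_eq_natCast, zpow_natCast]⟩)
  · exact Or.inr (Or.inr ⟨n, by rw [zpow_negSucc, inv_inv]⟩)

theorem cr_two {C : Core D} {F : Fam C} {t : B} {K : ℤ} {κ : B → ℝ} {x x' : C.G}
    (h : F.Adm {t} K κ x) (hx : x⁻¹ * x' ∈ C.P {t}) (hv : F.van K x t) (hv' : F.van K x' t) :
    x = x' ∨ 2 * κ t ≤ F.hv K x t + F.hv K x' t := by
  rcases C.cr_cases hx with h1 | ⟨n, h1⟩ | ⟨n, h1⟩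
  · exact Or.inl (inv_mul_eq_one.1 h1)
  · obtain rfl : x' = x * C.gen t ^ (n + 1) := by rw [← h1, mul_inv_cancel_left]
    exact Or.inr (cr_line h hv')
  · obtain rfl : x = x' * C.gen t ^ (n + 1) := by
      rw [← h1]
      group
    exact Or.inr ((cr_line (h.coset hx) hv).trans_eq (add_comm _ _))

theorem connS_one (t : B) : C.ConnS {t} := by
  intro F K κ x₀ hA x x' u u' hx hx' hu hu' hg hg'
  rw [Finset.mem_singleton] at hu hu'
  subst hu hu'
  rcases cr_two (hA.coset hx) (C.cr_coset hx hx') hg.1 hg'.1 with h | h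
  · rw [h]
    exact Relation.ReflTransGen.refl
  · linarith [hg.2, hg'.2]

theorem minS_one (t : B) : C.MinS {t} := by
  rintro F K κ x hA J hJ ⟨j, hj⟩ hh - x' hx' u hu hg
  have h1 := hh j hj
  rw [Finset.mem_singleton.1 (hJ hj)] at h1
  rw [Finset.mem_singleton.1 hu] at hg
  rcases cr_two hA hx' h1.1 hg.1 with h | h
  · rw [h] at h1
    linarith [hg.2, h1.2]
  · linarith [hg.2, h1.2]

theorem baseS_one {F : Fam C} {δ : B → ℝ} {T : Finset B} (hF : F.Special T δ) {t : B}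
    (ht : t ∈ T) : C.BaseS F δ {t} := by
  intro x hx u hu hh
  rw [Finset.mem_singleton.1 hu] at hh
  have hA := hF.adm (Finset.singleton_subset_iff.2 ht)
  rcases C.cr_cases hx with h1 | ⟨n, h1⟩ | ⟨n, h1⟩
  · rw [h1]
    exact one_mem _
  · have h2 := cr_reg (hA.coset (by simpa using hx)) hh.1
    rw [h1, pow_succ'] at h2
    exact absurd ((cr_down h2).van (Finset.mem_singleton_self t)) (hF.up t ht)
  · have h2 := cr_reg hA (hF.van0 t)
    rw [← mul_inv_cancel x, h1] at h2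
    have h3 := cr_mono h2
    have h4 : x * C.gen t ^ n = (C.gen t)⁻¹ := by
      rw [eq_inv_iff_mul_eq_one, mul_assoc, ← pow_succ, ← h1, mul_inv_cancel]
    have h5 := hF.strict t ht
    have h6 := hF.anti t ht
    rw [D.bf_al] at h6
    rw [h4, hh.2] at h3
    linarith

end Core

end Vale.Agent.P203
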