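import Vale.Agent.P203.CoreBasic

namespace Vale.Agent.P203

variable {B W : Type} [Group W] {M : CoxeterMatrix B} [Fintype B] [DecidableEq B]
variable {cs : CoxeterSystem M W}

namespace Core

variable {D : Dat cs} (C : Core D)

theorem gars_exR (y : C.G) : ∃ R : C.G → Prop, R y ∧ (∀ s, ¬ R (y * C.gen s)) ∧
    (∀ x s, R (x * C.gen s) → R x) ∧
    ∀ (T : Finset B) x, R x → (∀ s ∈ T, R (x * C.gen s)) → ∀ w ∈ WP cs T, R (x * C.lift w) := by
  choose S hS using C.simple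
  choose E hE using fun j => C.transl (S j) y⁻¹
  have hO : ∀ T, D.Orth ∅ T := fun T s hs => absurd hs (Finset.notMem_empty s)
  refine ⟨fun x => ∀ j, LeH ∅ (C.H (E j) x) 0, fun j k hk i _ => ?_, fun s h => ?_,
    fun x s h j => C.down ∅ s _ x 0 (hO _) (h j),
    fun T x h hs w hw j => C.lc ∅ T _ x 0 (hO _) (h j) (fun s hs' => hs s hs' j) w hw⟩
  · rw [hE, inv_mul_cancel, (hS j).1, if_neg fun h => hk.ne' h.1]
  · obtain ⟨a⟩ := D.ne
    have := h (s, a) 1 one_pos (s, a) (Finset.notMem_empty _)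
    rw [hE, inv_mul_cancel_left] at this
    exact (hS (s, a)).2.1 this

/-- Positive words of a given length. -/
def PosL (T : Finset B) (n : ℕ) (x y : C.G) : Prop :=
  ∃ ω : List B, ω.length = n ∧ (∀ s ∈ ω, s ∈ T) ∧ y = x * (ω.map C.gen).prod

theorem PosL.pos {C : Core D} {T : Finset B} {n : ℕ} {x y : C.G} (h : C.PosL T n x y) :
    C.Pos T x y := ⟨h.choose, h.choose_spec.2⟩

theorem Pos.posL {C : Core D} {T : Finset B} {x y : C.G} (h : C.Pos T x y) :
    ∃ n, C.PosL T n x y := ⟨_, h.choose, rfl, h.choose_spec⟩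

theorem Pos.mul_left {C : Core D} {T : Finset B} {x y : C.G} (h : C.Pos T x y) (z : C.G) :
    C.Pos T (z * x) (z * y) := by
  obtain ⟨ω, hω, rfl⟩ := h
  exact ⟨ω, hω, (mul_assoc _ _ _).symm⟩

theorem gars_word {T : Finset B} {w : W} (hw : w ∈ WP cs T) : ∃ ω : List B,
    ω.length = cs.length w ∧ (∀ s ∈ ω, s ∈ T) ∧ C.lift w = (ω.map C.gen).prod := by
  refine D.WP_induction (p := fun w => ∃ ω : List B, ω.length = cs.length w ∧
    (∀ s ∈ ω, s ∈ T) ∧ C.lift w = (ω.map C.gen).prod) ⟨[], by simp, by simp, by simp [C.lift_one]⟩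
    ?_ hw
  rintro w - s hs h ⟨ω, h1, h2, h3⟩
  have := cs.length_mul_simple w s
  refine ⟨ω ++ [s], by rw [List.length_append, List.length_singleton]; omega,
    fun t ht => (List.mem_append.1 ht).elim (h2 t) fun e => List.mem_singleton.1 e ▸ hs, ?_⟩
  rw [C.lift_mul_simple w s h, h3]
  simp

theorem gars_left {T : Finset B} {w₀ : W} (h : IsW0 cs T w₀) {s : B} (hs : s ∈ T) :
    cs.length (cs.simple s * w₀) + 1 = cs.length w₀ ∧
      C.lift w₀ = C.gen s * C.lift (cs.simple s * w₀) := by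
  have h1 := D.w0_add h (simple_mem_WP hs)
  rw [cs.inv_simple, cs.length_simple] at h1
  have h2 := C.lift_simple_mul (w := cs.simple s * w₀) (s := s)
    (by rw [cs.simple_mul_simple_cancel_left]; omega)
  rw [cs.simple_mul_simple_cancel_left] at h2
  exact ⟨by omega, h2⟩

theorem gars_right {T : Finset B} {w₀ : W} (h : IsW0 cs T w₀) {s : B} (hs : s ∈ T) :
    C.lift w₀ = C.lift (w₀ * cs.simple s) * C.gen s := by
  have h2 := C.lift_mul_simple (w₀ * cs.simple s) s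
    (by rw [cs.simple_mul_simple_cancel_right]; exact h.2 s hs)
  rwa [cs.simple_mul_simple_cancel_right] at h2

theorem gars_walk {T : Finset B} {R : C.G → Prop} {y : C.G} {L : ℕ}
    (hd : ∀ x s, R (x * C.gen s) → R x)
    (hF : ∀ n < L, ∀ b, ∀ s ∈ T, C.PosL T n b y → R (b * C.gen s) →
      ∃ m, n = m + 1 ∧ C.PosL T m (b * C.gen s) y)
    (ω : List B) (hω : ∀ s ∈ ω, s ∈ T) {c : C.G} {n : ℕ} (hn : n < L) (hc : C.PosL T n c y)
    (hR : R (c * (ω.map C.gen).prod)) :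
    ∃ m, n = m + ω.length ∧ C.PosL T m (c * (ω.map C.gen).prod) y := by
  induction ω generalizing c n with
  | nil => exact ⟨n, rfl, by simpa using hc⟩
  | cons a ω ih =>
    have hω' : ∀ s ∈ ω, s ∈ T := fun s hs => hω s (List.mem_cons_of_mem _ hs)
    rw [List.map_cons, List.prod_cons, ← mul_assoc] at hR ⊢
    obtain ⟨m, rfl, hm⟩ := hF n hn c a (hω a List.mem_cons_self) hc
      (Pos.down (fun x s _ => hd x s) ⟨ω, hω', rfl⟩ hR)
    obtain ⟨m', rfl, hm'⟩ := ih hω' (by omega) hm hR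
    exact ⟨m', rfl, hm'⟩

theorem gars_F {T : Finset B} (hT : Sph cs T) {R : C.G → Prop} {y : C.G} (hy : R y)
    (hn : ∀ s, ¬ R (y * C.gen s)) (hd : ∀ x s, R (x * C.gen s) → R x)
    (hlc : ∀ (T : Finset B) x, R x → (∀ s ∈ T, R (x * C.gen s)) →
      ∀ w ∈ WP cs T, R (x * C.lift w)) (n : ℕ) :
    ∀ b, ∀ s ∈ T, C.PosL T n b y → R (b * C.gen s) →
      ∃ m, n = m + 1 ∧ C.PosL T m (b * C.gen s) y := by
  induction n using Nat.strong_induction_on with
  | _ n ih =>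
  rintro b s hs ⟨ω, hl, hω, e⟩ hR
  cases ω with
  | nil =>
    rw [List.map_nil, List.prod_nil, mul_one] at e
    exact absurd (e ▸ hR) (hn s)
  | cons t g =>
    have ht := hω t List.mem_cons_self
    have hg : C.PosL T g.length (b * C.gen t) y :=
      ⟨g, rfl, fun s hs => hω s (List.mem_cons_of_mem _ hs), by simpa [mul_assoc] using e⟩
    refine ⟨g.length, hl.symm, ?_⟩
    have hsub : ({s, t} : Finset B) ⊆ T := by
      simpa [Finset.insert_subset_iff] using ⟨hs, ht⟩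
    obtain ⟨w₀, h0⟩ := D.exists_w0 (Sph.mono hsub hT)
    have hs' : s ∈ ({s, t} : Finset B) := by simp
    have ht' : t ∈ ({s, t} : Finset B) := by simp
    have hR0 : R (b * C.lift w₀) := hlc {s, t} b (hd _ _ hR) (fun u hu => by
      rcases Finset.mem_insert.1 hu with rfl | hu
      · exact hR
      · rw [Finset.mem_singleton.1 hu]
        exact Pos.down (fun x s _ => hd x s) hg.pos hy) w₀ h0.1
    obtain ⟨ls, es⟩ := C.gars_left h0 hs'
    obtain ⟨lt, et⟩ := C.gars_left h0 ht'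
    obtain ⟨ωs, a1, a2, a3⟩ := C.gars_word (mul_mem (simple_mem_WP hs') h0.1)
    obtain ⟨ωt, b1, b2, b3⟩ := C.gars_word (mul_mem (simple_mem_WP ht') h0.1)
    obtain ⟨m, hm, ω', c1, c2, c3⟩ := C.gars_walk hd ih ωt (fun u hu => hsub (b2 u hu))
      (by rw [← hl]; exact Nat.lt_succ_self _) hg (by rwa [← b3, mul_assoc, ← et])
    refine ⟨ωs ++ ω', by rw [List.length_append]; omega, fun u hu =>
      (List.mem_append.1 hu).elim (fun h => hsub (a2 u h)) (c2 u), ?_⟩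
    rw [c3, ← b3, mul_assoc b, ← et, es, a3, List.map_append, List.prod_append]
    simp only [mul_assoc]

theorem gars_conj {T : Finset B} {a : C.G}
    (h : ∀ t ∈ T, ∃ t' ∈ T, a * C.gen t = C.gen t' * a) {g : C.G} (hg : C.Pos T 1 g) :
    C.Pos T 1 (a * g * a⁻¹) := by
  obtain ⟨ω, hω, rfl⟩ := hg
  induction ω with
  | nil => simpa using Pos.refl C T 1
  | cons t ω ih =>
    obtain ⟨t', ht', e⟩ := h t (hω t List.mem_cons_self)
    have h1 := (ih fun s hs => hω s (List.mem_cons_of_mem _ hs)).mul_left (C.gen t')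
    have h2 := C.pos_gen ht' 1
    rw [one_mul] at h2
    rw [mul_one] at h1
    rw [List.map_cons, List.prod_cons, one_mul, ← mul_assoc, e]
    simpa only [mul_assoc, one_mul] using h2.trans h1

theorem gars_delta {T : Finset B} {w₀ : W} (h : IsW0 cs T w₀) {t t' : B} (ht : t ∈ T)
    (ht' : t' ∈ T) (e : cs.simple t' * w₀ = w₀ * cs.simple t) :
    C.lift w₀ * C.gen t = C.gen t' * C.lift w₀ := by
  nth_rewrite 1 [(C.gars_left h ht').2]
  rw [C.gars_right h ht, e, mul_assoc]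

theorem gars_pow {T : Finset B} {w : W} (hw : w ∈ WP cs T) (n : ℕ) (x : C.G) :
    C.Pos T x (x * C.lift w ^ n) := by
  induction n with
  | zero => simpa using Pos.refl C T x
  | succ n ih =>
    rw [pow_succ, ← mul_assoc]
    exact ih.trans (C.pos_lift hw _)

theorem gars_lower {T : Finset B} (hT : Sph cs T) {x x' : C.G} (h : x⁻¹ * x' ∈ C.P T) :
    ∃ z, C.Pos T z x ∧ C.Pos T z x' := by
  obtain ⟨w₀, h0⟩ := D.exists_w0 hT
  have hi : w₀⁻¹ = w₀ := inv_eq_of_mul_eq_one_right (D.w0_mul_self h0)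
  obtain ⟨n, hn⟩ := C.P_induction (p := fun g => ∃ n : ℕ, C.Pos T 1 (C.lift w₀ ^ n * g))
    ⟨0, by simpa using Pos.refl C T 1⟩ (fun g _ s hs => ⟨fun ⟨n, hn⟩ =>
      ⟨n, hn.trans (by rw [← mul_assoc]; exact C.pos_gen hs _)⟩, fun ⟨n, hn⟩ => ⟨n + 1, by
        have h1 := C.gars_conj (a := C.lift w₀) (fun t ht => by
          obtain ⟨t', ht', e⟩ := D.w0_conj h0 ht
          refine ⟨t', ht', C.gars_delta h0 ht ht' ?_⟩
          simpa [hi] using congrArg (·⁻¹) e.symm) hn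
        refine h1.trans ?_
        have h2 := C.pos_lift (mul_mem h0.1 (simple_mem_WP hs))
          (C.lift w₀ * (C.lift w₀ ^ n * (g * C.gen s)) * (C.lift w₀)⁻¹)
        convert h2 using 1
        nth_rewrite 4 [C.gars_right h0 hs]
        group⟩⟩) h
  refine ⟨x * (C.lift w₀ ^ n)⁻¹, ?_, ?_⟩
  · simpa using C.gars_pow h0.1 n (x * (C.lift w₀ ^ n)⁻¹)
  · simpa [mul_assoc] using hn.mul_left (x * (C.lift w₀ ^ n)⁻¹)

theorem not_pos_self {T : Finset B} {s : B} (hs : s ∈ T) (y : C.G) :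
    ¬ C.Pos T (y * C.gen s) y := by
  obtain ⟨R, hy, hn, hd, -⟩ := C.gars_exR y
  exact fun h => hn s (h.down (fun x s _ => hd x s) hy)

/-- A height function on the elements below `y`. -/
theorem exists_height {T : Finset B} (hT : Sph cs T) (y : C.G) :
    ∃ d : C.G → ℕ, ∀ b, ∀ s ∈ T, C.Pos T (b * C.gen s) y → d (b * C.gen s) < d b := by
  obtain ⟨R, hy, hn, hd, hlc⟩ := C.gars_exR y
  refine ⟨fun b => sInf {n | C.PosL T n b y}, fun b s hs h => ?_⟩
  obtain ⟨m, hm, h1⟩ := C.gars_F hT hy hn hd hlc _ b s hs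
    (Nat.sInf_mem ((C.pos_gen hs b).trans h).posL) (h.down (fun x s _ => hd x s) hy)
  exact (Nat.sInf_le h1).trans_lt ((Nat.lt_succ_self m).trans_eq hm.symm)

theorem pos_lift_of {T T' : Finset B} (hT : Sph cs T) (hT' : T' ⊆ T) {b y : C.G}
    (hb : C.Pos T b y) (h : ∀ s ∈ T', C.Pos T (b * C.gen s) y) {w : W} (hw : w ∈ WP cs T') :
    C.Pos T (b * C.lift w) y := by
  obtain ⟨R, hy, hn, hd, hlc⟩ := C.gars_exR y
  have hR := hlc T' b (hb.down (fun x s _ => hd x s) hy)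
    (fun s hs => (h s hs).down (fun x s _ => hd x s) hy) w hw
  obtain ⟨ω, -, h2, h3⟩ := C.gars_word hw
  obtain ⟨n, hn'⟩ := hb.posL
  rw [h3] at hR ⊢
  obtain ⟨m, -, hm⟩ := C.gars_walk hd (fun n _ => C.gars_F hT hy hn hd hlc n) ω
    (fun s hs => hT' (h2 s hs)) (Nat.lt_succ_self n) hn' hR
  exact hm.pos

theorem exists_upper {T : Finset B} (hT : Sph cs T) {x x' : C.G} (h : x⁻¹ * x' ∈ C.P T) :
    ∃ y, C.Pos T x y ∧ C.Pos T x' y := by
  obtain ⟨w₀, h0⟩ := D.exists_w0 hT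
  obtain ⟨n, hn⟩ := C.P_induction (p := fun g => ∃ n : ℕ, C.Pos T g (C.lift w₀ ^ n))
    ⟨0, by simpa using Pos.refl C T 1⟩ (fun g _ s hs => ⟨fun ⟨n, hn⟩ => ⟨n + 1, by
      have h1 := (C.gars_conj (a := (C.lift w₀)⁻¹) (fun t ht => by
        obtain ⟨t', ht', e⟩ := D.w0_conj h0 ht
        refine ⟨t', ht', ?_⟩
        rw [inv_mul_eq_iff_eq_mul, ← mul_assoc, C.gars_delta h0 ht' ht e, mul_inv_cancel_right])
        (g := g⁻¹ * C.lift w₀ ^ n) (by simpa using hn.mul_left g⁻¹)).mul_left (g * C.lift w₀)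
      have h2 := C.pos_lift (mul_mem (simple_mem_WP hs) h0.1) (g * C.gen s)
      rw [mul_assoc, ← (C.gars_left h0 hs).2] at h2
      refine h2.trans ?_
      convert h1 using 1
      · rw [mul_one]
      · group⟩, fun ⟨n, hn⟩ => ⟨n, (C.pos_gen hs g).trans hn⟩⟩) h
  exact ⟨x * C.lift w₀ ^ n, C.gars_pow h0.1 n x, by simpa using hn.mul_left x⟩

theorem exists_upper_finite {T : Finset B} (hT : Sph cs T) (x₀ : C.G) {F : Set C.G}
    (hF : F.Finite) (h : ∀ x ∈ F, x₀⁻¹ * x ∈ C.P T) :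
    ∃ y, x₀⁻¹ * y ∈ C.P T ∧ ∀ x ∈ F, C.Pos T x y := by
  induction F, hF using Set.Finite.induction_on with
  | empty => exact ⟨x₀, by simp, by simp⟩
  | @insert x F _ _ ih =>
    obtain ⟨y, hy, hyF⟩ := ih fun z hz => h z (Set.mem_insert_of_mem _ hz)
    obtain ⟨y', h1, h2⟩ := C.exists_upper hT (x := x) (x' := y) (by
      simpa [mul_assoc] using mul_mem (inv_mem (h x (Set.mem_insert _ _))) hy)
    refine ⟨y', by simpa [mul_assoc] using mul_mem hy h2.mem, ?_⟩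
    rintro z (rfl | hz)
    exacts [h1, (hyF z hz).trans h2]

/-- Directedness of downward closed, locally confluent regions. -/
theorem directed {T : Finset B} (hT : Sph cs T) {R : C.G → Prop}
    (hdown : ∀ x, ∀ s ∈ T, R (x * C.gen s) → R x)
    (hlc : ∀ T' ⊆ T, ∀ x, R x → (∀ s ∈ T', R (x * C.gen s)) → ∀ w ∈ WP cs T', R (x * C.lift w))
    {x x' : C.G} (h : x⁻¹ * x' ∈ C.P T) (hx : R x) (hx' : R x') :
    ∃ y, R y ∧ C.Pos T x y ∧ C.Pos T x' y := by
  obtain ⟨z, hz, hz'⟩ := C.gars_lower hT h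
  obtain ⟨y₀, hy, hy'⟩ := C.exists_upper hT h
  obtain ⟨d, hd⟩ := C.exists_height hT y₀
  suffices key : ∀ n z x x', d z = n → C.Pos T z x → C.Pos T z x' → C.Pos T x y₀ →
      C.Pos T x' y₀ → R x → R x' → ∃ y, R y ∧ C.Pos T x y ∧ C.Pos T x' y ∧ C.Pos T y y₀ by
    obtain ⟨y, h1, h2, h3, -⟩ := key _ z x x' rfl hz hz' hy hy' hx hx'
    exact ⟨y, h1, h2, h3⟩
  intro n
  induction n using Nat.strong_induction_on with
  | _ n ih =>
  intro z x x' hn hz hz' hy hy' hx hx'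
  rcases hz.cases with rfl | ⟨s, hs, hsx⟩
  · exact ⟨x', hx', hz', Pos.refl C T _, hy'⟩
  rcases hz'.cases with rfl | ⟨t, ht, htx⟩
  · exact ⟨x, hx, Pos.refl C T _, hz, hy⟩
  have hsub : ({s, t} : Finset B) ⊆ T := by
    simpa [Finset.insert_subset_iff] using ⟨hs, ht⟩
  obtain ⟨w₀, h0⟩ := D.exists_w0 (Sph.mono hsub hT)
  have hall : ∀ {Q : C.G → Prop}, Q (z * C.gen s) → Q (z * C.gen t) →
      ∀ u ∈ ({s, t} : Finset B), Q (z * C.gen u) := fun h1 h2 u hu => by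
    rcases Finset.mem_insert.1 hu with rfl | hu
    · exact h1
    · rwa [Finset.mem_singleton.1 hu]
  have hc : ∀ u ∈ ({s, t} : Finset B), C.Pos T (z * C.gen u) (z * C.lift w₀) := fun u hu => by
    rw [(C.gars_left h0 hu).2, ← mul_assoc]
    exact C.pos_lift (WP_mono hsub (mul_mem (simple_mem_WP hu) h0.1)) _
  have hRc := hlc _ hsub z (hz.down hdown hx) (hall (hsx.down hdown hx) (htx.down hdown hx'))
    w₀ h0.1
  have hc0 := C.pos_lift_of hT hsub (hz.trans hy)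
    (hall (Q := fun u => C.Pos T u y₀) (hsx.trans hy) (htx.trans hy')) h0.1
  obtain ⟨y₁, a1, a2, a3, a4⟩ := ih _ (hn ▸ hd z s hs (hsx.trans hy)) _ x _ rfl hsx
    (hc s (by simp)) hy hc0 hx hRc
  obtain ⟨y₂, b1, b2, b3, b4⟩ := ih _ (hn ▸ hd z t ht (htx.trans hy')) _ y₁ x' rfl
    ((hc t (by simp)).trans a3) htx a4 hy' a1 hx'
  exact ⟨y₂, b1, a2.trans b2, b3, b4⟩

end Core

end Vale.Agent.P203
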