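import Vale.Agent.P203.DatDefs

namespace Vale.Agent.P203

variable {B W : Type} [Group W] {M : CoxeterMatrix B} [Fintype B] [DecidableEq B]
variable {cs : CoxeterSystem M W}

theorem simple_mem_WP {T : Finset B} {s : B} (hs : s ∈ T) : cs.simple s ∈ WP cs T := by
  exact Subgroup.subset_closure ⟨s, hs, rfl⟩

theorem WP_mono {T T' : Finset B} (h : T ⊆ T') : WP cs T ≤ WP cs T' := by
  exact Subgroup.closure_mono (Set.image_mono (Finset.coe_subset.2 h))

theorem WP_univ : WP cs (Finset.univ : Finset B) = ⊤ := by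
  rw [WP, Finset.coe_univ, Set.image_univ, cs.subgroup_closure_range_simple]

theorem WP_empty {w : W} (h : w ∈ WP cs (∅ : Finset B)) : w = 1 := by
  simpa [WP] using h

theorem Sph.mono {T T' : Finset B} (h : T ⊆ T') (hT : Sph cs T') : Sph cs T := by
  exact Set.Finite.subset hT (WP_mono h)

theorem sph_empty : Sph cs (∅ : Finset B) := by
  exact (Set.finite_singleton 1).subset fun w hw => WP_empty hw

theorem sph_single (t : B) : Sph cs {t} := by
  refine (Set.toFinite ({1, cs.simple t} : Set W)).subset fun w hw => ?_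
  change w = 1 ∨ w = cs.simple t
  induction hw using Subgroup.closure_induction with
  | mem x hx =>
    obtain ⟨u, hu, rfl⟩ := hx
    rw [Finset.mem_coe, Finset.mem_singleton] at hu
    exact Or.inr (by rw [hu])
  | one => exact Or.inl rfl
  | mul x y _ _ hx hy => rcases hx with rfl | rfl <;> rcases hy with rfl | rfl <;> simp
  | inv x _ hx => rcases hx with rfl | rfl <;> simp

theorem length_lt_or (w : W) (s : B) :
    cs.length w < cs.length (w * cs.simple s) ∨ cs.length (w * cs.simple s) < cs.length w := by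
  have := cs.length_mul_simple w s
  omega

namespace Dat

variable (D : Dat cs)

theorem mu_eq_zero {s t : B} (h : D.c s t = 0) (a b : D.I) : D.mu (s, a) (t, b) = 0 := by
  have h1 := D.eig s t a
  rw [h, zero_mul, Finset.sum_eq_zero_iff_of_nonneg fun b _ =>
    mul_nonneg (Nat.cast_nonneg _) (D.pf_pos b).le] at h1
  exact_mod_cast (mul_eq_zero.1 (h1 b (Finset.mem_univ b))).resolve_right (D.pf_pos b).ne'

theorem cox_rho_mul (w w' : W) (x : B × D.I → ℤ) : D.rho (w * w') x = D.rho w (D.rho w' x) := by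
  rw [map_mul, Module.End.mul_apply]

theorem cox_fr_mul (w w' : W) (x : B → ℝ) : D.fr (w * w') x = D.fr w (D.fr w' x) := by
  rw [map_mul, Module.End.mul_apply]

theorem cox_rho_inv (w : W) (x : B × D.I → ℤ) : D.rho w⁻¹ (D.rho w x) = x := by
  rw [← cox_rho_mul, inv_mul_cancel, map_one, Module.End.one_apply]

theorem cox_fr_inv (w : W) (x : B → ℝ) : D.fr w⁻¹ (D.fr w x) = x := by
  rw [← cox_fr_mul, inv_mul_cancel, map_one, Module.End.one_apply]

theorem cox_rho_inv' (w : W) (x : B × D.I → ℤ) : D.rho w (D.rho w⁻¹ x) = x := by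
  rw [← cox_rho_mul, mul_inv_cancel, map_one, Module.End.one_apply]

theorem cox_fr_inv' (w : W) (x : B → ℝ) : D.fr w (D.fr w⁻¹ x) = x := by
  rw [← cox_fr_mul, mul_inv_cancel, map_one, Module.End.one_apply]

theorem cox_rho_self (j : B × D.I) : D.rho (cs.simple j.1) (D.e j) = -D.e j := by
  funext i
  rw [D.rho_simple]
  split_ifs with h
  · simp [e, Pi.single_apply, D.mu_lab i j h]
  · have : i ≠ j := fun h' => h (by rw [h'])
    simp [e, this]

theorem cox_fr_self (s : B) : D.fr (cs.simple s) (al s) = -al s := by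
  funext i
  rw [D.fr_simple]
  split_ifs with h
  · simp [al, Pi.single_apply, D.c_self]
  · simp [al, h]

theorem rho_e_ne (w : W) (j : B × D.I) : D.rho w (D.e j) ≠ 0 := by
  intro h
  have h1 := congrFun (D.cox_rho_inv w (D.e j)) j
  rw [h, map_zero] at h1
  simp [e] at h1

theorem sign_pos {w : W} {j : B × D.I} (h : cs.length w < cs.length (w * cs.simple j.1)) :
    0 ≤ D.rho w (D.e j) := by
  exact D.sign w j.1 j.2 h

theorem sign_neg {w : W} {j : B × D.I} (h : cs.length (w * cs.simple j.1) < cs.length w) :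
    D.rho w (D.e j) ≤ 0 := by
  have h1 := D.sign_pos (w := w * cs.simple j.1) (j := j)
    (by rwa [cs.simple_mul_simple_cancel_right])
  rw [cox_rho_mul, cox_rho_self, map_neg] at h1
  exact neg_nonneg.1 h1

theorem proj_add (x y : B × D.I → ℤ) : D.proj (x + y) = D.proj x + D.proj y := by
  funext s
  simp [proj, mul_add, Finset.sum_add_distrib]

theorem proj_e (j : B × D.I) : D.proj (D.e j) = D.pf j.2 • al j.1 := by
  funext s
  obtain ⟨t, a⟩ := j
  by_cases h : s = t
  · simp [proj, e, al, h, Pi.single_apply]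
  · simp [proj, e, al, h]

theorem proj_rho (w : W) (x : B × D.I → ℤ) : D.proj (D.rho w x) = D.fr w (D.proj x) := by
  induction w using cs.simple_induction generalizing x with
  | simple s =>
    funext r
    rw [D.fr_simple]
    split_ifs with h
    · subst h
      simp only [proj, D.rho_simple, if_true]
      push_cast
      simp only [mul_add, Finset.sum_add_distrib, mul_neg, Finset.sum_neg_distrib,
        Fintype.sum_prod_type, Finset.mul_sum]
      congr 1
      rw [Finset.sum_comm]
      refine Finset.sum_congr rfl fun u _ => ?_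
      rw [Finset.sum_comm]
      refine Finset.sum_congr rfl fun b _ => ?_
      rw [← mul_assoc, D.c_symm, ← D.eig u r b, Finset.sum_mul]
      refine Finset.sum_congr rfl fun a _ => ?_
      rw [D.mu_symm]
      ring
    · simp only [proj, D.rho_simple, if_neg h]
  | one => simp
  | mul w w' h h' => rw [cox_rho_mul, cox_fr_mul, h, h']

theorem fr_al_ne (w : W) (s : B) : D.fr w (al s) ≠ 0 := by
  intro h
  have h1 := congrFun (D.cox_fr_inv w (al s)) s
  rw [h, map_zero] at h1
  simp [al] at h1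

theorem fsign_pos {w : W} {s : B} (h : cs.length w < cs.length (w * cs.simple s)) :
    0 ≤ D.fr w (al s) := by
  obtain ⟨a⟩ := D.ne
  have h1 := D.sign_pos (j := (s, a)) h
  have h2 := D.proj_rho w (D.e (s, a))
  rw [proj_e, map_smul] at h2
  intro r
  have h3 : 0 ≤ D.proj (D.rho w (D.e (s, a))) r :=
    Finset.sum_nonneg fun b _ => mul_nonneg (D.pf_pos b).le (by exact_mod_cast h1 (r, b))
  rw [h2] at h3
  exact nonneg_of_mul_nonneg_right h3 (D.pf_pos a)

theorem fsign_neg {w : W} {s : B} (h : cs.length (w * cs.simple s) < cs.length w) :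
    D.fr w (al s) ≤ 0 := by
  have h1 := D.fsign_pos (w := w * cs.simple s) (s := s)
    (by rwa [cs.simple_mul_simple_cancel_right])
  rw [cox_fr_mul, cox_fr_self, map_neg] at h1
  exact neg_nonneg.1 h1

theorem bf_symm (v v' : B → ℝ) : D.bf v v' = D.bf v' v := by
  unfold bf
  rw [Finset.sum_comm (f := fun s u => D.c s u * v s * v' u)]
  congr 1
  · simp only [mul_comm]
  · refine Finset.sum_congr rfl fun s _ => Finset.sum_congr rfl fun u _ => ?_
    rw [D.c_symm]
    ring

theorem bf_al (v : B → ℝ) (s : B) : D.bf v (al s) = 2 * v s - ∑ u, D.c s u * v u := by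
  simp [bf, al, Pi.single_apply, D.c_symm s]

theorem bf_al_al (s t : B) : D.bf (al s) (al t) = if s = t then 2 else -D.c s t := by
  rw [bf_al]
  split_ifs with h
  · simp [h, al, Pi.single_apply, D.c_self]
  · simp [al, Pi.single_apply, Ne.symm h, D.c_symm s]

/-- The functional `bf v`. -/
theorem exists_bf_dual (v : B → ℝ) : ∃ q : Module.Dual ℝ (B → ℝ), ∀ v', q v' = D.bf v v' := by
  refine ⟨{ toFun := D.bf v, map_add' := fun x y => ?_, map_smul' := fun c x => ?_ }, fun _ => rfl⟩
  · simp only [bf, Pi.add_apply, mul_add, Finset.sum_add_distrib]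
    ring
  · simp only [bf, Pi.smul_apply, smul_eq_mul, RingHom.id_apply, mul_sub, Finset.mul_sum]
    congr 1
    · exact Finset.sum_congr rfl fun s _ => by ring
    · exact Finset.sum_congr rfl fun s _ => Finset.sum_congr rfl fun u _ => by ring

theorem fr_simple' (s : B) (v : B → ℝ) : D.fr (cs.simple s) v = v - D.bf v (al s) • al s := by
  funext r
  rw [D.fr_simple, bf_al]
  split_ifs with h
  · simp [h, al]
    ring
  · simp [al, h]

theorem cox_bf_add (v x y : B → ℝ) : D.bf v (x + y) = D.bf v x + D.bf v y := by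
  obtain ⟨q, hq⟩ := D.exists_bf_dual v
  simp only [← hq, map_add]

theorem cox_bf_sub (v x y : B → ℝ) : D.bf v (x - y) = D.bf v x - D.bf v y := by
  obtain ⟨q, hq⟩ := D.exists_bf_dual v
  simp only [← hq, map_sub]

theorem cox_bf_smul (v : B → ℝ) (c : ℝ) (x : B → ℝ) : D.bf v (c • x) = c * D.bf v x := by
  obtain ⟨q, hq⟩ := D.exists_bf_dual v
  simp only [← hq, map_smul, smul_eq_mul]

theorem bf_fr (w : W) (v v' : B → ℝ) : D.bf (D.fr w v) (D.fr w v') = D.bf v v' := by
  induction w using cs.simple_induction generalizing v v' with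
  | simple s =>
    have h : ∀ x, D.bf (v - D.bf v (al s) • al s) x = D.bf v x - D.bf v (al s) * D.bf x (al s) :=
      fun x => by rw [bf_symm, cox_bf_sub, cox_bf_smul, D.bf_symm x v]
    rw [fr_simple', fr_simple', cox_bf_sub, cox_bf_smul, h, h, bf_al_al, if_pos rfl]
    ring
  | one => simp
  | mul w w' h h' => rw [cox_fr_mul, cox_fr_mul, h, h']

theorem rho_off {T : Finset B} {w : W} (hw : w ∈ WP cs T) (x : B × D.I → ℤ) {j : B × D.I}
    (hj : j.1 ∉ T) : D.rho w x j = x j := by
  induction hw using Subgroup.closure_induction generalizing x with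
  | mem y hy =>
    obtain ⟨u, hu, rfl⟩ := hy
    rw [D.rho_simple, if_neg fun h : j.1 = u => hj (h ▸ hu)]
  | one => simp
  | mul y z _ _ hy hz => rw [cox_rho_mul, hy, hz]
  | inv y _ hy => rw [← hy (D.rho y⁻¹ x), cox_rho_inv']

theorem fr_off {T : Finset B} {w : W} (hw : w ∈ WP cs T) (v : B → ℝ) {r : B} (hr : r ∉ T) :
    D.fr w v r = v r := by
  induction hw using Subgroup.closure_induction generalizing v with
  | mem y hy =>
    obtain ⟨u, hu, rfl⟩ := hy
    rw [D.fr_simple, if_neg fun h : r = u => hr (h ▸ hu)]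
  | one => simp
  | mul y z _ _ hy hz => rw [cox_fr_mul, hy, hz]
  | inv y _ hy => rw [← hy (D.fr y⁻¹ v), cox_fr_inv']

include D

theorem desc_mem {T : Finset B} {w : W} (hw : w ∈ WP cs T) {s : B}
    (h : cs.length (w * cs.simple s) < cs.length w) : s ∈ T := by
  by_contra hs
  have h1 := D.fsign_neg h s
  rw [D.fr_off hw _ hs] at h1
  norm_num [al] at h1

theorem exists_desc {T : Finset B} {w : W} (hw : w ∈ WP cs T) (h : w ≠ 1) :
    ∃ s ∈ T, cs.length (w * cs.simple s) < cs.length w := by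
  obtain ⟨s, hs⟩ := cs.exists_rightDescent_of_ne_one h
  exact ⟨s, D.desc_mem hw hs, hs⟩

/-- Induction along reduced words in `W_T`. -/
theorem WP_induction {T : Finset B} {p : W → Prop} (h1 : p 1)
    (hs : ∀ w ∈ WP cs T, ∀ s ∈ T, cs.length w < cs.length (w * cs.simple s) → p w →
      p (w * cs.simple s)) {w : W} (hw : w ∈ WP cs T) : p w := by
  induction hn : cs.length w using Nat.strong_induction_on generalizing w with
  | _ n ih =>
  by_cases h : w = 1
  · rw [h]; exact h1
  obtain ⟨s, hs1, hs2⟩ := D.exists_desc hw h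
  have h2 : w * cs.simple s ∈ WP cs T := mul_mem hw (simple_mem_WP hs1)
  have h3 := hs _ h2 s hs1 (by rwa [cs.simple_mul_simple_cancel_right])
    (ih _ (hn ▸ hs2) h2 rfl)
  rwa [cs.simple_mul_simple_cancel_right] at h3

theorem exists_word {T : Finset B} {w : W} (hw : w ∈ WP cs T) :
    ∃ ω : List B, (∀ s ∈ ω, s ∈ T) ∧ cs.IsReduced ω ∧ cs.wordProd ω = w := by
  refine D.WP_induction (T := T) (p := fun w => ∃ ω : List B, (∀ s ∈ ω, s ∈ T) ∧
    cs.IsReduced ω ∧ cs.wordProd ω = w) ⟨[], by simp, by simp [CoxeterSystem.IsReduced], by simp⟩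
    ?_ hw
  rintro w _ s hs hl ⟨ω, h1, h2, rfl⟩
  refine ⟨ω.concat s, fun u hu => ?_, ?_, cs.wordProd_concat _ _⟩
  · simp only [List.concat_eq_append, List.mem_append, List.mem_singleton] at hu
    rcases hu with hu | rfl
    · exact h1 u hu
    · exact hs
  · have h3 := cs.length_mul_simple (cs.wordProd ω) s
    unfold CoxeterSystem.IsReduced at h2 ⊢
    rw [cs.wordProd_concat, List.length_concat]
    omega

theorem eq_one_of_rho {w : W} (h : ∀ j, D.rho w (D.e j) = D.e j) : w = 1 := by
  by_contra hw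
  obtain ⟨s, hs⟩ := cs.exists_rightDescent_of_ne_one hw
  obtain ⟨a⟩ := D.ne
  have h1 := D.sign_neg (j := (s, a)) hs (s, a)
  rw [h] at h1
  norm_num [e] at h1

theorem eq_one_of_fr {w : W} (h : ∀ s, D.fr w (al s) = al s) : w = 1 := by
  by_contra hw
  obtain ⟨s, hs⟩ := cs.exists_rightDescent_of_ne_one hw
  have h1 := D.fsign_neg hs s
  rw [h] at h1
  norm_num [al] at h1

theorem simple_inj {s t : B} (h : cs.simple s = cs.simple t) : s = t := by
  by_contra hst
  have h1 := congrFun (D.cox_fr_self s) s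
  rw [h, D.fr_simple, if_neg hst] at h1
  norm_num [al] at h1

theorem length_simple_mul_simple {s t : B} (h : s ≠ t) :
    cs.length (cs.simple s * cs.simple t) = 2 := by
  rcases cs.length_mul_simple (cs.simple s) t with h1 | h1
  · rw [h1, cs.length_simple]
  · rw [cs.length_simple] at h1
    have h2 : cs.simple s * cs.simple t = 1 := cs.length_eq_zero_iff.1 (by omega)
    exact absurd (D.simple_inj (by rw [eq_inv_of_mul_eq_one_left h2, cs.inv_simple])) h

theorem cox_conj {w : W} {s t : B} {ε : ℝ} (hε : ε * ε = 1) (h : D.fr w (al s) = ε • al t) :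
    w * cs.simple s = cs.simple t * w := by
  have h1 : ∀ v, D.fr (w * cs.simple s * w⁻¹) v = D.fr (cs.simple t) v := fun v => by
    rw [cox_fr_mul, cox_fr_mul, fr_simple', fr_simple', map_sub, map_smul, cox_fr_inv',
      ← D.bf_fr w, cox_fr_inv', h, cox_bf_smul, smul_smul, mul_comm ε, mul_assoc, hε, mul_one]
  have h2 : w * cs.simple s * w⁻¹ * cs.simple t = 1 := D.eq_one_of_fr fun u => by
    rw [cox_fr_mul, h1, ← cox_fr_mul, cs.simple_mul_simple_self, map_one, Module.End.one_apply]
  have h3 := eq_inv_of_mul_eq_one_left h2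
  rw [cs.inv_simple] at h3
  rw [← h3]
  group

theorem comm_of_c {s t : B} (h : D.c s t = 0) :
    cs.simple s * cs.simple t = cs.simple t * cs.simple s := by
  by_cases hst : t = s
  · rw [hst]
  · refine D.cox_conj (ε := 1) (one_mul 1) ?_
    rw [fr_simple', bf_al_al, if_neg hst, D.c_symm, h]
    simp

theorem cox_expand (w : W) (x : B → ℝ) : D.fr w x = ∑ t, x t • D.fr w (al t) := by
  have e : x = ∑ t, x t • al t := by
    funext i
    simp [al, Finset.sum_apply, Pi.single_apply]
  conv_lhs => rw [e]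
  simp only [map_sum, map_smul]

theorem cox_comb {T : Finset B} {w : W} (hw : ∀ t ∈ T, 0 ≤ D.fr w (al t)) {x : B → ℝ}
    (hx : 0 ≤ x) (hT : ∀ r ∉ T, x r = 0) : 0 ≤ D.fr w x := by
  rw [cox_expand]
  refine Finset.sum_nonneg fun t _ => ?_
  by_cases ht : t ∈ T
  · exact smul_nonneg (hx t) (hw t ht)
  · rw [hT t ht, zero_smul]

theorem cox_comb' {T : Finset B} {w : W} (hw : ∀ t ∈ T, D.fr w (al t) ≤ 0) {x : B → ℝ}
    (hx : 0 ≤ x) (hT : ∀ r ∉ T, x r = 0) : D.fr w x ≤ 0 := by
  rw [cox_expand]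
  refine Finset.sum_nonpos fun t _ => ?_
  by_cases ht : t ∈ T
  · exact smul_nonpos_of_nonneg_of_nonpos (hx t) (hw t ht)
  · rw [hT t ht, zero_smul]

theorem cox_supp {T : Finset B} {v : W} (hv : v ∈ WP cs T) {s : B} (hs : s ∈ T) :
    ∀ r ∉ T, D.fr v (al s) r = 0 := by
  intro r hr
  have : r ≠ s := fun h => hr (h ▸ hs)
  rw [D.fr_off hv _ hr]
  simp [al, this]

theorem length_add {T : Finset B} {w v : W}
    (hw : ∀ t ∈ T, cs.length w < cs.length (w * cs.simple t)) (hv : v ∈ WP cs T) :
    cs.length (w * v) = cs.length w + cs.length v := by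
  refine D.WP_induction (T := T) (p := fun v => cs.length (w * v) = cs.length w + cs.length v)
    (by simp) ?_ hv
  intro v hv s hs hl ih
  have h1 := D.cox_comb (w := w) (fun t ht => D.fsign_pos (hw t ht)) (D.fsign_pos hl)
    (D.cox_supp hv hs)
  rw [← cox_fr_mul] at h1
  have h2 : ¬ cs.length (w * v * cs.simple s) < cs.length (w * v) := fun h =>
    D.fr_al_ne _ s (le_antisymm (D.fsign_neg h) h1)
  have h3 := cs.length_mul_simple (w * v) s
  have h4 := cs.length_mul_simple v s
  rw [← mul_assoc]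
  omega

theorem min_iff {T : Finset B} {w : W} :
    (∀ v ∈ WP cs T, cs.length w ≤ cs.length (w * v)) ↔
      ∀ t ∈ T, cs.length w < cs.length (w * cs.simple t) := by
  constructor
  · intro h t ht
    have h1 := h _ (simple_mem_WP ht)
    have h2 := cs.length_mul_simple w t
    omega
  · intro h v hv
    rw [D.length_add h hv]
    omega

/-- Products of minimal coset representatives. -/
theorem min_mul {T T' : Finset B} (hT : T' ⊆ T) {w v : W}
    (hw : ∀ t ∈ T, cs.length w < cs.length (w * cs.simple t)) (hv : v ∈ WP cs T)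
    (hv' : ∀ t ∈ T', cs.length v < cs.length (v * cs.simple t)) :
    ∀ t ∈ T', cs.length (w * v) < cs.length (w * v * cs.simple t) := by
  intro t ht
  rw [mul_assoc, D.length_add hw hv, D.length_add hw (mul_mem hv (simple_mem_WP (hT ht)))]
  have := hv' t ht
  omega

theorem exists_w0 {T : Finset B} (hT : Sph cs T) : ∃ w₀, IsW0 cs T w₀ := by
  obtain ⟨w₀, h1, h2⟩ := Set.exists_max_image (WP cs T : Set W) cs.length hT ⟨1, one_mem _⟩
  refine ⟨w₀, h1, fun t ht => ?_⟩
  have h3 := h2 _ (mul_mem h1 (simple_mem_WP ht))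
  have h4 := cs.length_mul_simple w₀ t
  omega

theorem w0_length {T : Finset B} {w₀ v : W} (h : IsW0 cs T w₀) (hv : v ∈ WP cs T) :
    cs.length (w₀ * v) + cs.length v = cs.length w₀ := by
  refine D.WP_induction (T := T) (p := fun v => cs.length (w₀ * v) + cs.length v = cs.length w₀)
    (by simp) ?_ hv
  intro v hv s hs hl ih
  have h1 := D.cox_comb' (w := w₀) (fun t ht => D.fsign_neg (h.2 t ht)) (D.fsign_pos hl)
    (D.cox_supp hv hs)
  rw [← cox_fr_mul] at h1
  have h2 : ¬ cs.length (w₀ * v) < cs.length (w₀ * v * cs.simple s) := fun h =>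
    D.fr_al_ne _ s (le_antisymm h1 (D.fsign_pos h))
  have h3 := cs.length_mul_simple (w₀ * v) s
  have h4 := cs.length_mul_simple v s
  rw [← mul_assoc]
  omega

theorem w0_add {T : Finset B} {w₀ w : W} (h : IsW0 cs T w₀) (hw : w ∈ WP cs T) :
    cs.length w + cs.length (w⁻¹ * w₀) = cs.length w₀ := by
  have h1 := D.w0_length h (mul_mem (inv_mem h.1) hw)
  rw [mul_inv_cancel_left, ← cs.length_inv (w₀⁻¹ * w), mul_inv_rev, inv_inv] at h1
  exact h1

theorem w0_mul_self {T : Finset B} {w₀ : W} (h : IsW0 cs T w₀) : w₀ * w₀ = 1 := by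
  have h1 := D.w0_length h h.1
  exact cs.length_eq_zero_iff.1 (by omega)

theorem w0_conj {T : Finset B} {w₀ : W} (h : IsW0 cs T w₀) {t' : B} (ht : t' ∈ T) :
    ∃ t ∈ T, cs.simple t' * w₀ = w₀ * cs.simple t := by
  have h0 := D.w0_mul_self h
  have h1 := D.w0_length h (mul_mem (simple_mem_WP ht) h.1)
  have h2 : cs.length (cs.simple t' * w₀) = cs.length (w₀ * cs.simple t') := by
    rw [← cs.length_inv, mul_inv_rev, cs.inv_simple, inv_eq_of_mul_eq_one_right h0]
  have h3 := h.2 t' ht
  have h4 := cs.length_mul_simple w₀ t'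
  obtain ⟨t, h5⟩ := (cs.length_eq_one_iff (w := w₀ * (cs.simple t' * w₀))).1 (by omega)
  have h6 : cs.simple t ∈ WP cs T := h5 ▸ mul_mem h.1 (mul_mem (simple_mem_WP ht) h.1)
  refine ⟨t, D.desc_mem h6 (by simp), ?_⟩
  rw [← h5, ← mul_assoc, h0, one_mul]

theorem conj_of_root {w : W} {s t : B} (h : D.fr w (al s) = -al t) :
    w * cs.simple s = cs.simple t * w := by
  exact D.cox_conj (ε := -1) (by norm_num) (by rw [h, neg_one_smul])

theorem root_of_conj {w : W} {s t : B} (h : w * cs.simple s = cs.simple t * w)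
    (hl : cs.length (w * cs.simple s) < cs.length w) : D.fr w (al s) = -al t := by
  have h1 : D.fr (cs.simple t) (D.fr w (al s)) = -D.fr w (al s) := by
    rw [← cox_fr_mul, ← h, cox_fr_mul, cox_fr_self, map_neg]
  rw [fr_simple'] at h1
  obtain ⟨c, hc⟩ : ∃ c : ℝ, D.fr w (al s) = c • al t := by
    refine ⟨D.bf (D.fr w (al s)) (al t) / 2, ?_⟩
    funext r
    have h2 := congrFun h1 r
    simp only [Pi.sub_apply, Pi.smul_apply, Pi.neg_apply, smul_eq_mul] at h2 ⊢
    linarith
  have h2 := D.bf_fr w (al s) (al s)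
  rw [hc, cox_bf_smul, bf_symm, cox_bf_smul, bf_al_al, bf_al_al, if_pos rfl, if_pos rfl] at h2
  have h3 := D.fsign_neg hl t
  rw [hc] at h3
  have h4 : c ≤ 0 := by simpa [al] using h3
  have h5 : c = -1 := by nlinarith
  rw [hc, h5, neg_one_smul]

theorem sph_union {T₁ T₂ : Finset B} (h : D.Orth T₁ T₂) (h₁ : Sph cs T₁) (h₂ : Sph cs T₂) :
    Sph cs (T₁ ∪ T₂) := by
  refine (Set.Finite.image2 (· * ·) h₁ h₂).subset fun w hw => ?_
  refine D.WP_induction (T := T₁ ∪ T₂)
    (p := fun w => w ∈ Set.image2 (· * ·) (WP cs T₁ : Set W) (WP cs T₂ : Set W))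
    ⟨1, one_mem _, 1, one_mem _, mul_one 1⟩ ?_ hw
  rintro _ - s hs - ⟨a, ha, b, hb, rfl⟩
  rcases Finset.mem_union.1 hs with hs | hs
  · have h1 : Commute (cs.simple s) b := by
      induction hb using Subgroup.closure_induction with
      | mem y hy =>
        obtain ⟨u, hu, rfl⟩ := hy
        exact D.comm_of_c (h s hs u hu).2
      | one => exact Commute.one_right _
      | mul y z _ _ hy hz => exact hy.mul_right hz
      | inv y _ hy => exact hy.inv_right
    refine ⟨a * cs.simple s, mul_mem ha (simple_mem_WP hs), b, hb, ?_⟩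
    simp only [mul_assoc, h1.eq]
  · exact ⟨a, ha, b * cs.simple s, mul_mem hb (simple_mem_WP hs), (mul_assoc _ _ _).symm⟩

/-- A reducible set splits orthogonally, with a given element in the first part. -/
theorem split_of_not_irr {T : Finset B} (h : ¬ D.Irr T) {t : B} (ht : t ∈ T) :
    ∃ T₁ T₂ : Finset B, T₁ ∪ T₂ = T ∧ D.Orth T₁ T₂ ∧ t ∈ T₁ ∧ T₂.Nonempty := by
  unfold Irr at h
  push Not at h
  obtain ⟨T₁, h1, h2, h3, h4⟩ := h
  by_cases h5 : t ∈ T₁
  · refine ⟨T₁, T \ T₁, Finset.union_sdiff_of_subset h1, fun s hs u hu => ?_, h5,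
      Finset.sdiff_nonempty.2 fun h6 => h3 (h1.antisymm h6)⟩
    rw [Finset.mem_sdiff] at hu
    exact ⟨fun e => hu.2 (e ▸ hs), h4 s hs u hu.1 hu.2⟩
  · refine ⟨T \ T₁, T₁, Finset.sdiff_union_of_subset h1, fun s hs u hu => ?_,
      Finset.mem_sdiff.2 ⟨ht, h5⟩, h2⟩
    rw [Finset.mem_sdiff] at hs
    exact ⟨fun e => hs.2 (e ▸ hu), by rw [D.c_symm]; exact h4 u hu s hs.1 hs.2⟩

theorem irr_nbr {T : Finset B} (h : D.Irr T) (h2 : 2 ≤ T.card) {t : B} (ht : t ∈ T) :
    ∃ n ∈ T, D.c t n ≠ 0 := by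
  obtain ⟨s, hs, n, h3, -, h4⟩ := h {t} (by simpa using ht) (Finset.singleton_nonempty t)
    (fun e => by rw [← e] at h2; simp at h2)
  rw [Finset.mem_singleton] at hs
  exact ⟨n, h3, hs ▸ h4⟩

end Dat

end Vale.Agent.P203
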