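import Vale.Agent.P203.CoreDefs
import Vale.Agent.P203.Cox

namespace Vale.Agent.P203

variable {B W : Type} [Group W] {M : CoxeterMatrix B} [Fintype B] [DecidableEq B]
variable {cs : CoxeterSystem M W}

namespace Core

variable {D : Dat cs} (C : Core D)

theorem gen_mem {T : Finset B} {s : B} (hs : s ∈ T) : C.gen s ∈ C.P T := by
  exact Subgroup.subset_closure ⟨s, hs, rfl⟩

theorem P_mono {T T' : Finset B} (h : T ⊆ T') : C.P T ≤ C.P T' := by
  exact Subgroup.closure_mono (Set.image_mono h)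

theorem P_univ : C.P (Finset.univ : Finset B) = ⊤ := by
  rw [P, Finset.coe_univ, Set.image_univ, C.gen_top]

theorem P_empty {x : C.G} (h : x ∈ C.P (∅ : Finset B)) : x = 1 := by
  simpa [P] using h

theorem P_single {t : B} {x : C.G} (h : x ∈ C.P {t}) : ∃ m : ℤ, x = C.gen t ^ m := by
  rw [P, Finset.coe_singleton, Set.image_singleton, Subgroup.mem_closure_singleton] at h
  exact ⟨h.choose, h.choose_spec.symm⟩

/-- Right induction in a parabolic subgroup. -/
theorem P_induction {T : Finset B} {p : C.G → Prop} (h1 : p 1)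
    (hs : ∀ x ∈ C.P T, ∀ s ∈ T, (p x ↔ p (x * C.gen s))) {x : C.G} (hx : x ∈ C.P T) : p x := by
  induction hx using Subgroup.closure_induction_right with
  | one => exact h1
  | mul_right x hx y hy ih =>
    obtain ⟨s, hs', rfl⟩ := hy
    exact (hs x hx s hs').1 ih
  | mul_inv_cancel x hx y hy ih =>
    obtain ⟨s, hs', rfl⟩ := hy
    refine (hs _ (mul_mem hx (inv_mem (C.gen_mem hs'))) s hs').2 ?_
    rwa [inv_mul_cancel_right]

/-- A function invariant under the generators is constant on cosets. -/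
theorem const_of_gen {X : Type} {T : Finset B} {f : C.G → X}
    (hf : ∀ x, ∀ s ∈ T, f (x * C.gen s) = f x) {x y : C.G} (h : x⁻¹ * y ∈ C.P T) : f y = f x := by
  have := C.P_induction (p := fun z => f (x * z) = f x) (by rw [mul_one])
    (fun z _ s hs => by rw [← mul_assoc, hf _ s hs]) h
  rwa [mul_inv_cancel_left] at this

theorem H_off {T : Finset B} {x y : C.G} (h : x⁻¹ * y ∈ C.P T) (E : C.Ob) (k : ℤ) {j : B × D.I}
    (hj : j.1 ∉ T) : C.H E y k j = C.H E x k j := by
  exact C.const_of_gen (f := fun z => C.H E z k j)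
    (fun z s hs => C.off E z s k j fun e => hj (e ▸ hs)) h

theorem pi_lift (w : W) : C.pi (C.lift w) = w := by
  refine D.WP_induction (T := Finset.univ) (p := fun w => C.pi (C.lift w) = w) ?_
    (fun w _ s _ h ih => ?_) (by rw [WP_univ]; trivial)
  · rw [C.lift_one, map_one]
  · rw [C.lift_mul_simple w s h, map_mul, ih, C.pi_gen]

theorem pi_mem {T : Finset B} {x : C.G} (h : x ∈ C.P T) : C.pi x ∈ WP cs T := by
  refine C.P_induction (p := fun x => C.pi x ∈ WP cs T) (by rw [map_one]; exact one_mem _)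
    (fun x _ s hs => ?_) h
  rw [map_mul, C.pi_gen, Subgroup.mul_mem_cancel_right _ (simple_mem_WP hs)]

theorem lift_simple (s : B) : C.lift (cs.simple s) = C.gen s := by
  have := C.lift_mul_simple 1 s (by simp)
  rwa [one_mul, C.lift_one, one_mul] at this

theorem lift_mul {u v : W} (h : cs.length (u * v) = cs.length u + cs.length v) :
    C.lift (u * v) = C.lift u * C.lift v := by
  refine D.WP_induction (T := Finset.univ) (p := fun v => cs.length (u * v) = cs.length u +
    cs.length v → C.lift (u * v) = C.lift u * C.lift v) (fun _ => ?_) (fun w _ s _ hl ih h => ?_)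
    (by rw [WP_univ]; trivial) h
  · rw [mul_one, C.lift_one, mul_one]
  · have h1 := cs.length_mul_simple w s
    have h2 := cs.length_mul_simple (u * w) s
    have h3 := cs.length_mul_le u w
    rw [← mul_assoc] at h
    rw [← mul_assoc, C.lift_mul_simple _ s (by omega), ih (by omega), C.lift_mul_simple w s hl,
      mul_assoc]

theorem lift_simple_mul {w : W} {s : B} (h : cs.length w < cs.length (cs.simple s * w)) :
    C.lift (cs.simple s * w) = C.gen s * C.lift w := by
  have h1 := cs.length_simple_mul w s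
  rw [C.lift_mul (by rw [cs.length_simple]; omega), C.lift_simple]

theorem lift_mem {T : Finset B} {w : W} (hw : w ∈ WP cs T) : C.lift w ∈ C.P T := by
  refine D.WP_induction (p := fun w => C.lift w ∈ C.P T) ?_ (fun w _ s hs h ih => ?_) hw
  · rw [C.lift_one]
    exact one_mem _
  · rw [C.lift_mul_simple w s h]
    exact mul_mem ih (C.gen_mem hs)

theorem gen_comm {s t : B} (h : D.c s t = 0) : C.gen s * C.gen t = C.gen t * C.gen s := by
  by_cases e : s = t
  · rw [e]
  have h1 := C.lift_mul_simple (cs.simple s) t (by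
    rw [D.length_simple_mul_simple e, cs.length_simple]; norm_num)
  have h2 := C.lift_mul_simple (cs.simple t) s (by
    rw [D.length_simple_mul_simple (Ne.symm e), cs.length_simple]; norm_num)
  rw [C.lift_simple] at h1 h2
  rw [← h1, ← h2, D.comm_of_c h]

theorem P_comm {T₁ T₂ : Finset B} (h : D.Orth T₁ T₂) {x y : C.G} (hx : x ∈ C.P T₁)
    (hy : y ∈ C.P T₂) : x * y = y * x := by
  have h1 : ∀ t ∈ T₂, Commute x (C.gen t) := fun t ht =>
    C.P_induction (p := fun x => Commute x (C.gen t)) (Commute.one_left _) (fun x _ s hs =>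
      have h2 : Commute (C.gen s) (C.gen t) := C.gen_comm (h s hs t ht).2
      ⟨fun h3 => h3.mul_left h2, fun h3 => by simpa using h3.mul_left h2.inv_left⟩) hx
  exact C.P_induction (p := fun y => Commute x y) (Commute.one_right _) (fun y _ s hs =>
    ⟨fun h3 => h3.mul_right (h1 s hs), fun h3 => by
      simpa using h3.mul_right (h1 s hs).inv_right⟩) hy

theorem P_union {T₁ T₂ : Finset B} (h : D.Orth T₁ T₂) {x : C.G} (hx : x ∈ C.P (T₁ ∪ T₂)) :
    ∃ a ∈ C.P T₁, ∃ b ∈ C.P T₂, x = a * b := by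
  have key : ∀ s ∈ T₁ ∪ T₂, ∀ g, g = C.gen s ∨ g = (C.gen s)⁻¹ → ∀ x,
      (∃ a ∈ C.P T₁, ∃ b ∈ C.P T₂, x = a * b) → ∃ a ∈ C.P T₁, ∃ b ∈ C.P T₂, x * g = a * b := by
    rintro s hs g hg _ ⟨a, ha, b, hb, rfl⟩
    have hm : ∀ T : Finset B, s ∈ T → g ∈ C.P T := fun T hT => by
      rcases hg with rfl | rfl
      exacts [C.gen_mem hT, inv_mem (C.gen_mem hT)]
    rcases Finset.mem_union.1 hs with h1 | h1
    · refine ⟨a * g, mul_mem ha (hm _ h1), b, hb, ?_⟩
      rw [mul_assoc, mul_assoc, C.P_comm h (hm _ h1) hb]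
    · exact ⟨a, ha, b * g, mul_mem hb (hm _ h1), mul_assoc _ _ _⟩
  refine C.P_induction (p := fun x => ∃ a ∈ C.P T₁, ∃ b ∈ C.P T₂, x = a * b)
    ⟨1, one_mem _, 1, one_mem _, (mul_one _).symm⟩ (fun x _ s hs =>
      ⟨key s hs _ (Or.inl rfl) x, fun h1 => ?_⟩) hx
  simpa using key s hs _ (Or.inr rfl) _ h1

theorem P_inter {T₁ T₂ T' : Finset B} (h : D.Orth T₁ T₂) (hT' : T' ⊆ T₁) {x : C.G}
    (hx : x ∈ C.P T₁) (hx' : x ∈ C.P (T' ∪ T₂)) : x ∈ C.P T' := by
  obtain ⟨a, ha, b, hb, rfl⟩ := C.P_union (fun s hs => h s (hT' hs)) hx'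
  have h1 : b ∈ C.P T₁ := (Subgroup.mul_mem_cancel_left _ (C.P_mono hT' ha)).1 hx
  rw [C.disj T₁ T₂ (Finset.disjoint_left.2 fun s h₁ h₂ => (h s h₁ s h₂).1 rfl) b h1 hb, mul_one]
  exact ha

theorem Pos.refl (T : Finset B) (x : C.G) : C.Pos T x x := by
  exact ⟨[], by simp, by simp⟩

theorem Pos.trans {C : Core D} {T : Finset B} {x y z : C.G} (h : C.Pos T x y)
    (h' : C.Pos T y z) : C.Pos T x z := by
  obtain ⟨ω, hω, rfl⟩ := h
  obtain ⟨ω', hω', rfl⟩ := h'
  exact ⟨ω ++ ω', fun s hs => (List.mem_append.1 hs).elim (hω s) (hω' s), by simp [mul_assoc]⟩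

theorem Pos.mono {C : Core D} {T T' : Finset B} (hT : T ⊆ T') {x y : C.G} (h : C.Pos T x y) :
    C.Pos T' x y := by
  obtain ⟨ω, hω, rfl⟩ := h
  exact ⟨ω, fun s hs => hT (hω s hs), rfl⟩

theorem Pos.mem {C : Core D} {T : Finset B} {x y : C.G} (h : C.Pos T x y) :
    x⁻¹ * y ∈ C.P T := by
  obtain ⟨ω, hω, rfl⟩ := h
  rw [inv_mul_cancel_left]
  refine Subgroup.list_prod_mem _ fun y hy => ?_
  obtain ⟨s, hs, rfl⟩ := List.mem_map.1 hy
  exact C.gen_mem (hω s hs)

theorem pos_gen {T : Finset B} {s : B} (hs : s ∈ T) (x : C.G) : C.Pos T x (x * C.gen s) := by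
  exact ⟨[s], by simpa using hs, by simp⟩

theorem pos_lift {T : Finset B} {w : W} (hw : w ∈ WP cs T) (x : C.G) :
    C.Pos T x (x * C.lift w) := by
  refine D.WP_induction (p := fun w => C.Pos T x (x * C.lift w)) ?_ (fun w _ s hs h ih => ?_) hw
  · rw [C.lift_one, mul_one]
    exact Pos.refl C T x
  · rw [C.lift_mul_simple w s h, ← mul_assoc]
    exact ih.trans (C.pos_gen hs _)

theorem Pos.cases {C : Core D} {T : Finset B} {x y : C.G} (h : C.Pos T x y) :
    x = y ∨ ∃ s ∈ T, C.Pos T (x * C.gen s) y := by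
  obtain ⟨ω, hω, rfl⟩ := h
  cases ω with
  | nil => simp
  | cons s ω =>
    exact Or.inr ⟨s, hω s List.mem_cons_self, ω, fun t ht => hω t (List.mem_cons_of_mem _ ht),
      by simp [mul_assoc]⟩

/-- Downward closed predicates. -/
theorem Pos.down {C : Core D} {T : Finset B} {R : C.G → Prop}
    (hR : ∀ x, ∀ s ∈ T, R (x * C.gen s) → R x) {x y : C.G} (h : C.Pos T x y) (hy : R y) :
    R x := by
  obtain ⟨ω, hω, rfl⟩ := h
  induction ω generalizing x with
  | nil => simpa using hy
  | cons s ω ih =>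
    refine hR x s (hω s List.mem_cons_self) (ih (fun t ht => hω t (List.mem_cons_of_mem _ ht)) ?_)
    simpa [mul_assoc] using hy

theorem ch_one (y : C.G) : C.ch y 1 = y := by
  simp [ch, C.lift_one]

theorem ch_pos {T : Finset B} {w : W} (hw : w ∈ WP cs T) (y : C.G) : C.Pos T (C.ch y w) y := by
  have := C.pos_lift (inv_mem hw) (C.ch y w)
  rwa [ch, inv_mul_cancel_right] at this

theorem ch_step (y : C.G) (w : W) (s : B) :
    C.ch y (w * cs.simple s) = C.ch y w * C.gen s ∨
      C.ch y w = C.ch y (w * cs.simple s) * C.gen s := by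
  rw [ch, ch, mul_inv_rev, cs.inv_simple]
  rcases (cs.length_simple_mul_ne w⁻¹ s).lt_or_gt with h | h
  · have h1 := C.lift_simple_mul (w := cs.simple s * w⁻¹) (s := s)
      (by rwa [cs.simple_mul_simple_cancel_left])
    rw [cs.simple_mul_simple_cancel_left] at h1
    exact Or.inl (by rw [h1]; group)
  · exact Or.inr (by rw [C.lift_simple_mul h]; group)

/-- Half apartments are shared. -/
theorem ch_shift (y : C.G) {w : W} {t : B}
    (h : cs.length w⁻¹ < cs.length (w⁻¹ * cs.simple t)) :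
    C.ch (y * C.gen t) (cs.simple t * w) = C.ch y w := by
  rw [ch, ch, mul_inv_rev, cs.inv_simple, C.lift_mul_simple _ t h]
  group

/-- The chamber below a wall. -/
theorem ch_wall {T : Finset B} (y : C.G) {w : W} (hw : w ∈ WP cs T) {s t : B} (ht : t ∈ T)
    (h : D.fr w (al s) = -al t) :
    C.Pos T (C.ch y w * C.gen s * C.gen s) (y * C.gen t) := by
  have h1 : cs.simple s * w⁻¹ = w⁻¹ * cs.simple t := by
    have := congrArg (·⁻¹) (D.conj_of_root h)
    simpa using this
  have h2 : cs.length (w⁻¹ * cs.simple t) < cs.length w⁻¹ := by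
    refine (length_lt_or w⁻¹ t).resolve_left fun h3 => ?_
    have h4 := D.cox_fr_inv w (al s)
    rw [h, map_neg] at h4
    have h5 := D.fsign_pos h3 s
    rw [← neg_neg (D.fr w⁻¹ (al t)), h4] at h5
    norm_num [al] at h5
  have h3 := C.lift_mul_simple (w⁻¹ * cs.simple t) t
    (by rwa [cs.simple_mul_simple_cancel_right])
  have h4 := C.lift_simple_mul (w := w⁻¹ * cs.simple t) (s := s)
    (by rwa [← h1, cs.simple_mul_simple_cancel_left, h1])
  rw [cs.simple_mul_simple_cancel_right] at h3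
  rw [← h1, cs.simple_mul_simple_cancel_left, h1] at h4
  have h5 := C.pos_lift (mul_mem (inv_mem hw) (simple_mem_WP ht)) (C.ch y w * C.gen s * C.gen s)
  have h6 : C.ch y w * C.gen s * C.gen s * C.lift (w⁻¹ * cs.simple t) = y * C.gen t := by
    rw [mul_assoc _ (C.gen s), ← h4, ch]
    nth_rewrite 1 [h4]
    rw [h3]
    group
  rwa [h6] at h5

theorem ch_w0 {T : Finset B} (y : C.G) {w₀ v : W} (h : IsW0 cs T w₀) (hv : v ∈ WP cs T) :
    C.ch y w₀ * C.lift v = C.ch y (w₀ * v) := by
  have h1 : w₀⁻¹ = w₀ := inv_eq_of_mul_eq_one_right (D.w0_mul_self h)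
  have h2 := C.lift_mul (u := v) (v := v⁻¹ * w₀) (by rw [mul_inv_cancel_left, D.w0_add h hv])
  rw [mul_inv_cancel_left] at h2
  rw [ch, ch, mul_inv_rev, h1, h2]
  group

end Core

end Vale.Agent.P203
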