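import Vale.Agent.P203.CoxPF

namespace Vale.Agent.P203

variable {B W : Type} [Group W] {M : CoxeterMatrix B} [Fintype B] [DecidableEq B]
variable {cs : CoxeterSystem M W}

namespace Dat

variable (D : Dat cs)

theorem geo_mul (u v : W) (x : B → ℝ) : D.fr (u * v) x = D.fr u (D.fr v x) := by
  rw [map_mul]; rfl

theorem geo_inv_left (u : W) (x : B → ℝ) : D.fr u⁻¹ (D.fr u x) = x := by
  rw [← geo_mul, inv_mul_cancel, map_one]; rfl

theorem geo_inv_right (u : W) (x : B → ℝ) : D.fr u (D.fr u⁻¹ x) = x := by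
  rw [← geo_mul, mul_inv_cancel, map_one]; rfl

theorem geo_eval {T : Finset B} {w : W} (q : Module.Dual ℝ (B → ℝ)) {v : B → ℝ}
    (hv : ∀ r ∉ T, v r = 0) : q (D.fr w v) = ∑ s ∈ T, v s * q (D.fr w (al s)) := by
  have h : v = ∑ s ∈ T, v s • al s := by
    funext r
    simp only [Finset.sum_apply, Pi.smul_apply, al, Pi.single_apply, smul_eq_mul, mul_ite,
      mul_one, mul_zero, Finset.sum_ite_eq]
    split_ifs with hr
    · rfl
    · exact hv r hr
  conv_lhs => rw [h]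
  simp only [map_sum, map_smul, smul_eq_mul]

theorem geo_step {q : Module.Dual ℝ (B → ℝ)} {u : W} {s : B}
    (h : q (D.fr u (al s)) = 0) (r : B) :
    q (D.fr (u * cs.simple s) (al r)) = q (D.fr u (al r)) := by
  rw [geo_mul, fr_simple', map_sub, map_smul, map_sub, map_smul, h, smul_zero, sub_zero]

theorem geo_neg {T : Finset B} {q : Module.Dual ℝ (B → ℝ)} {w v : W} (hv : v ∈ WP cs T)
    (h : D.InCh T q w) {s : B} (hs : s ∈ T) (hl : cs.length (v * cs.simple s) < cs.length v) :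
    q (D.fr w (D.fr v (al s))) ≤ 0 := by
  rw [D.geo_eval (T := T) q fun r hr => ?_]
  · exact Finset.sum_nonpos fun r hr => mul_nonpos_of_nonpos_of_nonneg (D.fsign_neg hl r) (h r hr)
  · rw [D.fr_off hv _ hr]
    exact Pi.single_eq_of_ne (fun h : r = s => hr (h ▸ hs)) _

theorem geo_desc {T : Finset B} {q : Module.Dual ℝ (B → ℝ)} {w w' : W} (hw : w ∈ WP cs T)
    (hw' : w' ∈ WP cs T) (h' : D.InCh T q w') (hne : w ≠ w') :
    ∃ s ∈ T, cs.length (w'⁻¹ * (w * cs.simple s)) < cs.length (w'⁻¹ * w) ∧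
      q (D.fr w (al s)) ≤ 0 := by
  have hv : w'⁻¹ * w ∈ WP cs T := mul_mem (inv_mem hw') hw
  obtain ⟨s, hs, hl⟩ := D.exists_desc hv fun h => hne (inv_mul_eq_one.1 h).symm
  refine ⟨s, hs, by rwa [← mul_assoc], ?_⟩
  have := D.geo_neg hv h' hs hl
  rwa [← geo_mul, mul_inv_cancel_left] at this

theorem geo_refl {T : Finset B} {q : Module.Dual ℝ (B → ℝ)} {w : W} {t : B} (hq : q (al t) = 0)
    (h : D.InCh T q w) : D.InCh T q (cs.simple t * w) := by
  intro s hs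
  rw [geo_mul, fr_simple', map_sub, map_smul, hq, smul_zero, sub_zero]
  exact h s hs

theorem geo_flip {β : B → ℝ} {s : B} (hb : D.bf β β = 2)
    (h : (0 ≤ β ∧ D.fr (cs.simple s) β ≤ 0) ∨ (β ≤ 0 ∧ 0 ≤ D.fr (cs.simple s) β)) :
    β = al s ∨ β = -al s := by
  have h1 : ∀ r, r ≠ s → β r = 0 := by
    intro r hr
    have h2 : D.fr (cs.simple s) β r = β r := by rw [D.fr_simple, if_neg hr]
    rcases h with ⟨h3, h4⟩ | ⟨h3, h4⟩
    · exact le_antisymm (h2 ▸ h4 r) (h3 r)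
    · exact le_antisymm (h3 r) (h2 ▸ h4 r)
  have h2 : β = β s • al s := by
    funext r
    by_cases hr : r = s
    · simp [hr, al]
    · simp [hr, al, h1 r hr]
  have h3 : D.bf β (al s) = 2 * β s := by
    rw [bf_al, Finset.sum_eq_zero, sub_zero]
    intro u _
    by_cases hu : u = s
    · rw [hu, D.c_self, zero_mul]
    · rw [h1 u hu, mul_zero]
  obtain ⟨f, hf⟩ := D.exists_bf_dual β
  have h4 : D.bf β β = β s * D.bf β (al s) := by
    rw [← hf, ← hf]
    nth_rewrite 1 [h2]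
    rw [map_smul, smul_eq_mul]
  have h5 : β s * β s = 1 := by rw [hb, h3] at h4; linarith
  rcases mul_self_eq_one_iff.1 h5 with h6 | h6
  · left; rw [h2, h6, one_smul]
  · right; rw [h2, h6, neg_one_smul]

theorem geo_convex {T : Finset B} {q d : Module.Dual ℝ (B → ℝ)} {w : W} {a b τ : ℝ}
    (ha : D.InCh T (q + a • d) w) (hb : D.InCh T (q + b • d) w) (h1 : a ≤ τ) (h2 : τ ≤ b) :
    D.InCh T (q + τ • d) w := by
  intro s hs
  have h3 := ha s hs
  have h4 := hb s hs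
  simp only [LinearMap.add_apply, LinearMap.smul_apply, smul_eq_mul] at h3 h4 ⊢
  rcases le_total 0 (d (D.fr w (al s))) with h5 | h5
  · nlinarith
  · nlinarith

/-- Two chambers containing `q` are joined by a gallery of chambers containing `q`. -/
theorem stab_ind {T : Finset B} {q : Module.Dual ℝ (B → ℝ)} {p : W → Prop}
    (hp : ∀ u ∈ WP cs T, ∀ s ∈ T, D.InCh T q u → q (D.fr u (al s)) = 0 → p u →
      p (u * cs.simple s))
    {w w' : W} (hw : w ∈ WP cs T) (hw' : w' ∈ WP cs T) (h : D.InCh T q w) (h' : D.InCh T q w')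
    (hpw : p w) : p w' := by
  induction hn : cs.length (w'⁻¹ * w) using Nat.strong_induction_on generalizing w with
  | _ n ih =>
    by_cases hne : w = w'
    · exact hne ▸ hpw
    · obtain ⟨s, hs, hl, hq⟩ := D.geo_desc hw hw' h' hne
      have h0 : q (D.fr w (al s)) = 0 := le_antisymm hq (h s hs)
      refine ih _ (hn ▸ hl) (mul_mem hw (simple_mem_WP hs)) (fun r hr => ?_)
        (hp w hw s hs h h0 hpw) rfl
      rw [D.geo_step h0]
      exact h r hr

theorem stab_step {T : Finset B} {q : Module.Dual ℝ (B → ℝ)} {u : W} {s : B}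
    (h : q (D.fr u (al s)) = 0) (r : B) :
    q (D.fr (u * cs.simple s) (al r)) = q (D.fr u (al r)) := by
  have _ := T
  exact D.geo_step h r

theorem stab_coord {T : Finset B} {q : Module.Dual ℝ (B → ℝ)}
    {w w' : W} (hw : w ∈ WP cs T) (hw' : w' ∈ WP cs T) (h : D.InCh T q w) (h' : D.InCh T q w')
    (r : B) : q (D.fr w (al r)) = q (D.fr w' (al r)) := by
  refine D.stab_ind (p := fun u => q (D.fr w (al r)) = q (D.fr u (al r))) ?_ hw hw' h h' rfl
  intro u _ s _ _ h0 hu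
  rw [D.geo_step h0]
  exact hu

/-- Local convexity across walls gives global convexity. -/
theorem convex_max {T : Finset B} {p : W → B → ℝ}
    (hp : ∀ u ∈ WP cs T, ∀ s ∈ T, ∃ k : ℝ, 0 ≤ k ∧
      p (u * cs.simple s) = p u - k • D.fr u (al s))
    {q : Module.Dual ℝ (B → ℝ)} {w w' : W} (hw : w ∈ WP cs T) (hw' : w' ∈ WP cs T)
    (h' : D.InCh T q w') : q (p w) ≤ q (p w') := by
  induction hn : cs.length (w'⁻¹ * w) using Nat.strong_induction_on generalizing w with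
  | _ n ih =>
    by_cases hne : w = w'
    · rw [hne]
    · obtain ⟨s, hs, hl, hq⟩ := D.geo_desc hw hw' h' hne
      refine le_trans ?_ (ih _ (hn ▸ hl) (mul_mem hw (simple_mem_WP hs)) rfl)
      obtain ⟨k, hk, hpk⟩ := hp w hw s hs
      rw [hpk, map_sub, map_smul, smul_eq_mul]
      have := mul_nonpos_of_nonneg_of_nonpos hk hq
      linarith

theorem cover {T : Finset B} (hT : Sph cs T) (q : Module.Dual ℝ (B → ℝ)) :
    ∃ w ∈ WP cs T, D.InCh T q w := by
  obtain ⟨ρ, -, -, hρ⟩ := D.exists_rho hT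
  obtain ⟨w, hw, hmax⟩ := Set.exists_max_image (WP cs T : Set W) (fun w => q (D.fr w ρ)) hT
    ⟨1, one_mem _⟩
  refine ⟨w, hw, fun s hs => ?_⟩
  have h1 := hmax (w * cs.simple s) (mul_mem hw (simple_mem_WP hs))
  simp only [geo_mul, fr_simple', hρ s hs, one_smul, map_sub] at h1
  linarith

theorem wall {T : Finset B} (hT : Sph cs T) {t : B} (ht : t ∈ T) {q : Module.Dual ℝ (B → ℝ)}
    (hq : q (al t) = 0) : ∃ w ∈ WP cs T, ∃ s ∈ T, D.InCh T q w ∧ D.fr w (al s) = -al t := by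
  obtain ⟨w, hw, hc⟩ := D.cover hT q
  by_contra hno
  have key := D.stab_ind (T := T) (q := q)
    (p := fun u => cs.length u⁻¹ < cs.length (u⁻¹ * cs.simple t) ↔
      cs.length w⁻¹ < cs.length (w⁻¹ * cs.simple t)) ?_ hw (mul_mem (simple_mem_WP ht) hw) hc
    (D.geo_refl hq hc) Iff.rfl
  · rw [mul_inv_rev, cs.inv_simple, cs.simple_mul_simple_cancel_right] at key
    rcases length_lt_or (cs := cs) w⁻¹ t with h1 | h1
    · have := key.2 h1
      omega
    · have := key.1 h1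
      omega
  · intro u hu s hs hin h0 hpu
    rw [← hpu]
    by_contra hflip
    have hb : D.bf (D.fr u⁻¹ (al t)) (D.fr u⁻¹ (al t)) = 2 := by rw [bf_fr, bf_al_al, if_pos rfl]
    have he : D.fr (cs.simple s) (D.fr u⁻¹ (al t)) = D.fr (u * cs.simple s)⁻¹ (al t) := by
      rw [mul_inv_rev, cs.inv_simple, geo_mul]
    have hfl := D.geo_flip (s := s) hb (by
      rw [he]
      rcases length_lt_or (cs := cs) u⁻¹ t with h1 | h1 <;>
        rcases length_lt_or (cs := cs) (u * cs.simple s)⁻¹ t with h2 | h2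
      · exact absurd (iff_of_true h2 h1) hflip
      · exact Or.inl ⟨D.fsign_pos h1, D.fsign_neg h2⟩
      · exact Or.inr ⟨D.fsign_neg h1, D.fsign_pos h2⟩
      · exact absurd (iff_of_false (by omega) (by omega)) hflip)
    rcases hfl with h1 | h1
    · refine hno ⟨u * cs.simple s, mul_mem hu (simple_mem_WP hs), s, hs, fun r hr => ?_, ?_⟩
      · rw [D.geo_step h0]
        exact hin r hr
      · have h2 : D.fr (cs.simple s) (al s) = -al s := by
          rw [fr_simple', bf_al_al, if_pos rfl, two_smul]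
          abel
        rw [geo_mul, h2, map_neg, ← h1, geo_inv_right]
    · refine hno ⟨u, hu, s, hs, hin, ?_⟩
      have h2 : al s = -D.fr u⁻¹ (al t) := by rw [h1, neg_neg]
      rw [h2, map_neg, geo_inv_right]

/-- A functional on the nonnegative side of a wall lies in a chamber on that side. -/
theorem upper {T : Finset B} (hT : Sph cs T) {t : B} (ht : t ∈ T) {q : Module.Dual ℝ (B → ℝ)}
    (hq : 0 ≤ q (al t)) :
    ∃ w ∈ WP cs T, D.InCh T q w ∧ cs.length w⁻¹ < cs.length (w⁻¹ * cs.simple t) := by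
  obtain ⟨w, hw, hc⟩ := D.cover hT q
  rcases length_lt_or (cs := cs) w⁻¹ t with h1 | h1
  · exact ⟨w, hw, hc, h1⟩
  · have h2 := D.geo_neg (inv_mem hw) hc ht h1
    rw [geo_inv_right] at h2
    refine ⟨cs.simple t * w, mul_mem (simple_mem_WP ht) hw, D.geo_refl (le_antisymm h2 hq) hc, ?_⟩
    rwa [mul_inv_rev, cs.inv_simple, cs.simple_mul_simple_cancel_right]

theorem seg0 {T : Finset B} (hT : Sph cs T) (q q' : Module.Dual ℝ (B → ℝ)) :
    ∃ σ : ℝ, 0 < σ ∧ σ ≤ 1 ∧ ∃ w ∈ WP cs T, D.InCh T q w ∧ D.InCh T (q + σ • (q' - q)) w := by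
  choose f hf hf' using fun n : ℕ => D.cover hT (q + (1 / ((n : ℝ) + 1)) • (q' - q))
  have : Finite (WP cs T) := hT
  obtain ⟨⟨w, hw⟩, hinf⟩ := Finite.exists_infinite_fiber fun n => (⟨f n, hf n⟩ : WP cs T)
  have hinf' := Set.infinite_coe_iff.1 hinf
  have hbig : ∀ N : ℕ, ∃ n, N < n ∧ f n = w := fun N => by
    obtain ⟨n, hn, hN⟩ := hinf'.exists_gt N
    exact ⟨n, hN, congrArg Subtype.val hn⟩
  obtain ⟨n, -, hn⟩ := hbig 0
  have hn0 : (0 : ℝ) ≤ n := Nat.cast_nonneg n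
  refine ⟨1 / ((n : ℝ) + 1), by positivity, ?_, w, hw, fun s hs => ?_, hn ▸ hf' n⟩
  · rw [div_le_one (by positivity)]; linarith
  · by_contra hneg
    have ha : 0 < -q (D.fr w (al s)) := by linarith [not_le.1 hneg]
    obtain ⟨N, hN⟩ := exists_nat_gt ((q' - q) (D.fr w (al s)) / -q (D.fr w (al s)))
    obtain ⟨m, hm, hmw⟩ := hbig N
    have h1 := hf' m s hs
    rw [hmw, LinearMap.add_apply, LinearMap.smul_apply, smul_eq_mul] at h1
    rw [div_lt_iff₀ ha] at hN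
    have hm' : (N : ℝ) < m := by exact_mod_cast hm
    have hm0 : (0 : ℝ) < (m : ℝ) + 1 := by positivity
    have h2 := mul_le_mul_of_nonneg_left h1 hm0.le
    rw [mul_zero, mul_add, ← mul_assoc, mul_one_div_cancel hm0.ne', one_mul] at h2
    nlinarith

theorem seg {T : Finset B} (hT : Sph cs T) (q q' : Module.Dual ℝ (B → ℝ)) {p : ℝ → Prop}
    (hp : ∀ σ₁ σ₂ : ℝ, 0 ≤ σ₁ → σ₁ ≤ σ₂ → σ₂ ≤ 1 → ∀ w ∈ WP cs T,
      D.InCh T (q + σ₁ • (q' - q)) w → D.InCh T (q + σ₂ • (q' - q)) w → p σ₁ → p σ₂)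
    (h0 : p 0) : p 1 := by
  have hbd : BddAbove {σ : ℝ | 0 ≤ σ ∧ σ ≤ 1 ∧ p σ} := ⟨1, fun σ h => h.2.1⟩
  have hne : ({σ : ℝ | 0 ≤ σ ∧ σ ≤ 1 ∧ p σ}).Nonempty := ⟨0, le_rfl, zero_le_one, h0⟩
  obtain ⟨c, hc⟩ : ∃ c, c = sSup {σ : ℝ | 0 ≤ σ ∧ σ ≤ 1 ∧ p σ} := ⟨_, rfl⟩
  have hc0 : 0 ≤ c := hc ▸ le_csSup hbd ⟨le_rfl, zero_le_one, h0⟩
  have hc1 : c ≤ 1 := hc ▸ csSup_le hne fun σ h => h.2.1
  have hpc : p c := by
    rcases hc0.eq_or_lt with h1 | h1
    · exact h1 ▸ h0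
    · obtain ⟨σ, hσ0, hσ1, w, hw, h2, h3⟩ := D.seg0 hT (q + c • (q' - q)) q
      have h4 : q + c • (q' - q) + σ • (q - (q + c • (q' - q))) = q + (c - σ * c) • (q' - q) := by
        module
      rw [h4] at h3
      have h5 : c - σ * c < sSup {σ : ℝ | 0 ≤ σ ∧ σ ≤ 1 ∧ p σ} := by
        rw [← hc]; nlinarith
      obtain ⟨τ, hτ, h6⟩ := exists_lt_of_lt_csSup hne h5
      have h7 : τ ≤ c := hc ▸ le_csSup hbd hτ
      exact hp τ c hτ.1 h7 hc1 w hw (D.geo_convex h3 h2 h6.le h7) h2 hτ.2.2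
  rcases hc1.eq_or_lt with h1 | h1
  · exact h1 ▸ hpc
  · obtain ⟨σ, hσ0, hσ1, w, hw, h2, h3⟩ := D.seg0 hT (q + c • (q' - q)) q'
    have h4 : q + c • (q' - q) + σ • (q' - (q + c • (q' - q))) =
        q + (c + σ * (1 - c)) • (q' - q) := by
      module
    rw [h4] at h3
    have h5 : 0 < σ * (1 - c) := mul_pos hσ0 (by linarith)
    have h6 : c + σ * (1 - c) ≤ 1 := by nlinarith
    have h7 := hp c _ hc0 (by linarith) h6 w hw h2 h3 hpc
    have h8 : c + σ * (1 - c) ≤ c := by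
      nth_rewrite 3 [hc]
      exact le_csSup hbd ⟨by linarith, h6, h7⟩
    linarith

theorem eval_supp {T : Finset B} {w : W} (q : Module.Dual ℝ (B → ℝ)) {v : B → ℝ}
    (hv : ∀ r ∉ T, v r = 0) : q (D.fr w v) = ∑ s ∈ T, v s * q (D.fr w (al s)) := by
  exact D.geo_eval q hv

theorem zero_of_coord {T : Finset B} {w : W} (hw : w ∈ WP cs T) {q : Module.Dual ℝ (B → ℝ)}
    (h : ∀ s ∈ T, q (D.fr w (al s)) = 0) {v : B → ℝ} (hv : ∀ r ∉ T, v r = 0) : q v = 0 := by
  rw [← D.geo_inv_right w v, D.geo_eval (T := T) q fun r hr => ?_]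
  · exact Finset.sum_eq_zero fun s hs => by rw [h s hs, mul_zero]
  · rw [D.fr_off (inv_mem hw) _ hr, hv r hr]

theorem exists_dual (w : W) (a : B → ℝ) :
    ∃ q : Module.Dual ℝ (B → ℝ), ∀ s, q (D.fr w (al s)) = a s := by
  refine ⟨(∑ r, a r • (LinearMap.proj r : (B → ℝ) →ₗ[ℝ] ℝ)) ∘ₗ D.fr w⁻¹, fun s => ?_⟩
  rw [LinearMap.comp_apply, geo_inv_left]
  simp [al, Pi.single_apply]

end Dat

end Vale.Agent.P203
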