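import Vale.Agent.P203.GeoDefs
import Vale.Agent.P203.CoreBasic
import Vale.Agent.P203.CoxGeo

namespace Vale.Agent.P203

variable {B W : Type} [Group W] {M : CoxeterMatrix B} [Fintype B] [DecidableEq B]
variable {cs : CoxeterSystem M W}

namespace Core

variable {D : Dat cs} (C : Core D)

/-- Nonnegative kinks along any gallery indexed by `W_T`. -/
theorem kinks {T : Finset B} {p : C.G → B → ℝ}
    (g1 : ∀ x s r, r ≠ s → p (x * C.gen s) r = p x r)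
    (g2 : ∀ x, ∀ s ∈ T, ∑ u, D.c s u * p x u ≤ p (x * C.gen s) s + p x s)
    {x x' : C.G} {s : B} (hs : s ∈ T) (h : x' = x * C.gen s ∨ x = x' * C.gen s) (u : W) :
    ∃ k : ℝ, 0 ≤ k ∧
      D.fr (u * cs.simple s) (p x') = D.fr u (p x) - k • D.fr u (al s) := by
  have key : ∀ x, ∃ k : ℝ, 0 ≤ k ∧ D.fr (cs.simple s) (p (x * C.gen s)) = p x - k • al s := by
    intro x
    refine ⟨_, sub_nonneg.2 (g2 x s hs), funext fun r => ?_⟩
    rw [D.fr_simple]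
    split_ifs with hr
    · subst hr
      have e : ∑ u, D.c r u * p (x * C.gen r) u = ∑ u, D.c r u * p x u :=
        Finset.sum_congr rfl fun u _ => by
          by_cases hu : u = r
          · rw [hu, D.c_self, zero_mul, zero_mul]
          · rw [g1 x r u hu]
      simp [e, al]
      ring
    · simp [g1 x s r hr, al, hr]
  rcases h with rfl | rfl
  · obtain ⟨k, hk, e⟩ := key x
    exact ⟨k, hk, by rw [D.cox_fr_mul, e, map_sub, map_smul]⟩
  · obtain ⟨k, hk, e⟩ := key x'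
    refine ⟨k, hk, ?_⟩
    have e' := congrArg (D.fr (cs.simple s)) e
    rw [← D.cox_fr_mul, cs.simple_mul_simple_self, map_one, map_sub, map_smul, D.cox_fr_self,
      Module.End.one_apply, smul_neg, sub_neg_eq_add, ← sub_eq_iff_eq_add] at e'
    rw [D.cox_fr_mul, ← e', map_sub, map_smul]

variable {T : Finset B} {R : C.G → Prop} {p : C.G → B → ℝ} {x₀ : C.G}

/-- The slope of the chamber `w` in the coordinates of the apartment. -/
def gcP (p : C.G → B → ℝ) (y : C.G) (w : W) : B → ℝ := D.fr w (p (C.ch y w))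

/-- Coordinates of a functional in the chamber `w`. -/
def gcCo (D : Dat cs) (T : Finset B) (q : Module.Dual ℝ (B → ℝ)) (w : W) : B → ℝ :=
  fun s => if s ∈ T then q (D.fr w (al s)) else 0

theorem gc_supp (hG : C.GeoHyp T R p x₀) {x : C.G} (hx : x₀⁻¹ * x ∈ C.P T) {r : B} (hr : r ∉ T) :
    p x r = 0 := by
  rw [← hG.supp r hr]
  exact C.const_of_gen (T := T) (f := fun x => p x r)
    (fun x s hs => hG.g1 x s r (fun h => hr (h ▸ hs))) hx

theorem gc_mem {y : C.G} (hy0 : x₀⁻¹ * y ∈ C.P T) {w : W} (hw : w ∈ WP cs T) :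
    x₀⁻¹ * C.ch y w ∈ C.P T := by
  have := mul_mem hy0 (inv_mem (C.ch_pos hw y).mem)
  simpa [mul_assoc] using this

theorem gc_Psupp (hG : C.GeoHyp T R p x₀) {y : C.G} (hy0 : x₀⁻¹ * y ∈ C.P T) {w : W}
    (hw : w ∈ WP cs T) (r : B) (hr : r ∉ T) : C.gcP p y w r = 0 := by
  unfold gcP
  rw [D.fr_off hw _ hr]
  exact C.gc_supp hG (C.gc_mem hy0 hw) hr

theorem gc_max (hG : C.GeoHyp T R p x₀) (y : C.G) {q : Module.Dual ℝ (B → ℝ)} {w w' : W}
    (hw : w ∈ WP cs T) (hw' : w' ∈ WP cs T) (h : D.InCh T q w') :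
    q (C.gcP p y w) ≤ q (C.gcP p y w') :=
  D.convex_max (p := C.gcP p y)
    (fun u _ s hs => C.kinks hG.g1 hG.g2 hs (C.ch_step y u s) u) hw hw' h

theorem gc_Dv (hG : C.GeoHyp T R p x₀) {y : C.G} (hy0 : x₀⁻¹ * y ∈ C.P T) {w : W}
    (hw : w ∈ WP cs T) (q : Module.Dual ℝ (B → ℝ)) :
    Dv T p (C.ch y w) (gcCo D T q w) = q (C.gcP p y w) := by
  unfold gcP Dv
  rw [D.eval_supp (T := T) q (fun r hr => C.gc_supp hG (C.gc_mem hy0 hw) hr)]
  refine Finset.sum_congr rfl (fun t ht => ?_)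
  rw [gcCo, if_pos ht, mul_comm]

theorem gc_pt {q : Module.Dual ℝ (B → ℝ)} {w : W} (hw : w ∈ WP cs T) (h : D.InCh T q w)
    (hz : ∃ v : B → ℝ, (∀ r ∉ T, v r = 0) ∧ q v ≠ 0) : Pt T (gcCo D T q w) := by
  refine ⟨fun t => ?_, fun r hr => if_neg hr, ?_⟩
  · unfold gcCo
    split_ifs with ht
    · exact h t ht
    · exact le_rfl
  · obtain ⟨v, hv, hq⟩ := hz
    by_contra hn
    push Not at hn
    refine hq (D.zero_of_coord hw (fun s hs => ?_) hv)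
    have := hn s hs
    rwa [gcCo, if_pos hs] at this

theorem gc_transfer (y : C.G) {Q : C.G → (B → ℝ) → Prop} (h1 : C.PtInv T Q)
    {q : Module.Dual ℝ (B → ℝ)} {w w' : W} (hw : w ∈ WP cs T) (hw' : w' ∈ WP cs T)
    (h : D.InCh T q w) (h' : D.InCh T q w') (hQ : Q (C.ch y w) (gcCo D T q w)) :
    Q (C.ch y w') (gcCo D T q w') := by
  refine D.stab_ind (p := fun u => Q (C.ch y u) (gcCo D T q u)) (fun u _ s hs _ h0 hu => ?_)
    hw hw' h h' hQ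
  have e : gcCo D T q (u * cs.simple s) = gcCo D T q u := by
    funext r
    unfold gcCo
    rw [D.stab_step (T := T) h0]
  have h0' : gcCo D T q u s = 0 := by rw [gcCo, if_pos hs, h0]
  rw [e]
  rcases C.ch_step y u s with h | h
  · rw [h]; exact (h1 _ _ s hs h0').1 hu
  · rw [h] at hu; exact (h1 _ _ s hs h0').2 hu

theorem gc_dual {w : W} {a : B → ℝ} (ha : Pt T a) :
    ∃ q : Module.Dual ℝ (B → ℝ), D.InCh T q w ∧ gcCo D T q w = a := by
  obtain ⟨q, hq⟩ := D.exists_dual w a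
  refine ⟨q, fun s _ => (hq s).symm ▸ ha.1 s, funext fun s => ?_⟩
  unfold gcCo
  split_ifs with h
  exacts [hq s, (ha.2.1 s h).symm]

theorem gc_coord {q : Module.Dual ℝ (B → ℝ)} {w w' : W} (hw : w ∈ WP cs T) (hw' : w' ∈ WP cs T)
    (h : D.InCh T q w) (h' : D.InCh T q w') : gcCo D T q w = gcCo D T q w' := by
  funext r
  unfold gcCo
  rw [D.stab_coord hw hw' h h']

theorem gc_le (hG : C.GeoHyp T R p x₀) (y : C.G) {q q' : Module.Dual ℝ (B → ℝ)} {w w' v : W}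
    (hw : w ∈ WP cs T) (hw' : w' ∈ WP cs T) (hv : v ∈ WP cs T) (h : D.InCh T q w)
    (h' : D.InCh T q' w') {σ : ℝ} (h0 : 0 ≤ σ) (h1 : σ ≤ 1) :
    (q + σ • (q' - q)) (C.gcP p y v) ≤ (1 - σ) * q (C.gcP p y w) + σ * q' (C.gcP p y w') := by
  have a1 := mul_le_mul_of_nonneg_left (C.gc_max hG y hv hw h) (sub_nonneg.2 h1)
  have a2 := mul_le_mul_of_nonneg_left (C.gc_max hG y hv hw' h') h0
  simp only [LinearMap.add_apply, LinearMap.smul_apply, LinearMap.sub_apply, smul_eq_mul]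
  linarith

theorem fin_conn (hT : Sph cs T) (hG : C.GeoHyp T R p x₀) {y : C.G} (hy0 : x₀⁻¹ * y ∈ C.P T)
    (hy : R y) {Q : C.G → (B → ℝ) → Prop} (h1 : C.PtInv T Q)
    (h2 : ∀ x a a', R x → Pt T a → Pt T a' → Dv T p x a < 0 → Dv T p x a' < 0 → Q x a → Q x a')
    {w w' : W} (hw : w ∈ WP cs T) (hw' : w' ∈ WP cs T) {a a' : B → ℝ} (ha : Pt T a)
    (ha' : Pt T a') (hD : Dv T p (C.ch y w) a < 0) (hD' : Dv T p (C.ch y w') a' < 0)
    (hQ : Q (C.ch y w) a) : Q (C.ch y w') a' := by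
  obtain ⟨q, hq, rfl⟩ := gc_dual (D := D) (w := w) ha
  obtain ⟨q', hq', rfl⟩ := gc_dual (D := D) (w := w') ha'
  rw [C.gc_Dv hG hy0 hw] at hD
  rw [C.gc_Dv hG hy0 hw'] at hD'
  have neg : ∀ σ : ℝ, 0 ≤ σ → σ ≤ 1 → ∀ v ∈ WP cs T, (q + σ • (q' - q)) (C.gcP p y v) < 0 := by
    intro σ a0 a1 v hv
    refine (C.gc_le hG y hw hw' hv hq hq' a0 a1).trans_lt ?_
    rcases a1.eq_or_lt with rfl | a1
    · simpa using hD'
    · nlinarith [mul_pos (sub_pos.2 a1) (neg_pos.2 hD), mul_nonneg a0 (neg_pos.2 hD').le]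
  obtain ⟨v, hv, i1, i2⟩ := D.seg hT q q' (p := fun σ => ∃ v ∈ WP cs T,
      D.InCh T (q + σ • (q' - q)) v ∧ Q (C.ch y v) (gcCo D T (q + σ • (q' - q)) v)) (by
    rintro σ₁ σ₂ a1 a2 a3 v hv i1 i2 ⟨v₁, hv₁, j1, j2⟩
    have n1 := neg σ₁ a1 (a2.trans a3) v hv
    have n2 := neg σ₂ (a1.trans a2) a3 v hv
    refine ⟨v, hv, i2, h2 _ _ _ ((C.ch_pos hv y).down hG.down hy)
      (gc_pt hv i1 ⟨_, C.gc_Psupp hG hy0 hv, n1.ne⟩) (gc_pt hv i2 ⟨_, C.gc_Psupp hG hy0 hv, n2.ne⟩)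
      ?_ ?_ (C.gc_transfer y h1 hv₁ hv j1 i1 j2)⟩ <;> rwa [C.gc_Dv hG hy0 hv])
    ⟨w, hw, by simpa using hq, by simpa using hQ⟩
  rw [one_smul, add_sub_cancel] at i1 i2
  exact C.gc_transfer y h1 hv hw' i1 hq' i2

theorem fin_min (hT : Sph cs T) (hG : C.GeoHyp T R p x₀) {y : C.G} (hy0 : x₀⁻¹ * y ∈ C.P T)
    {Q : C.G → (B → ℝ) → Prop} (h1 : C.PtInv T Q)
    {w w' : W} (hw : w ∈ WP cs T) (hw' : w' ∈ WP cs T) {a a' : B → ℝ} (ha : Pt T a)
    (ha' : Pt T a') (hD : Dv T p (C.ch y w) a ≤ 0) (hD' : Dv T p (C.ch y w') a' < 0)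
    (hQ : Q (C.ch y w) a) :
    ∃ w'' ∈ WP cs T, Q (C.ch y w'') a ∧ ∃ t ∈ T, p (C.ch y w'') t < 0 := by
  obtain ⟨q, hq, rfl⟩ := gc_dual (D := D) (w := w) ha
  obtain ⟨q', hq', rfl⟩ := gc_dual (D := D) (w := w') ha'
  rw [C.gc_Dv hG hy0 hw] at hD
  rw [C.gc_Dv hG hy0 hw'] at hD'
  obtain ⟨σ, a0, a1, v, hv, i1, i2⟩ := D.seg0 hT q q'
  refine ⟨v, hv, gc_coord hw hv hq i1 ▸ C.gc_transfer y h1 hw hv hq i1 hQ, ?_⟩
  have h3 := C.gc_le hG y hw hw' hv hq hq' a0.le a1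
  rw [← C.gc_Dv hG hy0 hv] at h3
  by_contra hn
  push Not at hn
  have h4 : 0 ≤ Dv T p (C.ch y v) (gcCo D T (q + σ • (q' - q)) v) :=
    Finset.sum_nonneg fun t ht => mul_nonneg (by rw [gcCo, if_pos ht]; exact i2 t ht) (hn t ht)
  nlinarith [mul_nonneg (sub_nonneg.2 a1) (neg_nonneg.2 hD), mul_pos a0 (neg_pos.2 hD')]

theorem fin_base (hG : C.GeoHyp T R p x₀) {y : C.G} (hy0 : x₀⁻¹ * y ∈ C.P T)
    (h0 : ∀ t ∈ T, p y t = 0) (hpos : ∀ s ∈ T, 0 < p (y * (C.gen s)⁻¹) s)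
    {Q : C.G → (B → ℝ) → Prop} (h1 : C.PtInv T Q) {w : W} (hw : w ∈ WP cs T) {a : B → ℝ}
    (ha : Pt T a) (hD : Dv T p (C.ch y w) a ≤ 0) (hQ : Q (C.ch y w) a) : Q y a := by
  obtain ⟨q, hq, rfl⟩ := gc_dual (D := D) (w := w) ha
  rw [C.gc_Dv hG hy0 hw] at hD
  have i1 : D.InCh T q 1 := fun s hs => by
    have h3 := (C.gc_max hG y (simple_mem_WP hs) hw hq).trans hD
    have h4 : p (y * (C.gen s)⁻¹) = p (y * (C.gen s)⁻¹) s • al s := funext fun r => by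
      by_cases hr : r = s
      · simp [hr, al]
      · have h5 := hG.g1 (y * (C.gen s)⁻¹) s r hr
        rw [inv_mul_cancel_right] at h5
        rw [← h5]
        by_cases hT : r ∈ T
        · simp [al, hr, h0 r hT]
        · simp [al, hr, C.gc_supp hG hy0 hT]
    rw [gcP, ch, cs.inv_simple, C.lift_simple, h4, map_smul, D.cox_fr_self, map_smul, map_neg,
      smul_eq_mul] at h3
    rw [map_one, Module.End.one_apply]
    nlinarith [hpos s hs]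
  have := C.gc_transfer y h1 hw (one_mem _) hq i1 hQ
  rwa [C.ch_one, ← gc_coord hw (one_mem _) hq i1] at this

end Core

end Vale.Agent.P203
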