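import Vale.Agent.P203.FamBasic
import Vale.Agent.P203.GeoConv

namespace Vale.Agent.P203

variable {B W : Type} [Group W] {M : CoxeterMatrix B} [Fintype B] [DecidableEq B]
variable {cs : CoxeterSystem M W}

theorem gi_convex {D : Dat cs} (C : Core D) (E : C.Ob) (z : C.G) (K : ℤ) {T : Finset B}
    {q : Module.Dual ℝ (B → ℝ)} {wq : W} (hwq : wq ∈ WP cs T) (hch : D.InCh T q wq) :
    q (D.proj fun j => (C.H E z K j : ℤ)) ≤
      q (D.fr wq (D.proj fun j => (C.H E (z * C.lift wq) K j : ℤ))) := by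
  have h1 := D.convex_max (T := T)
    (p := fun w => D.fr w (D.proj fun j => (C.H E (z * C.lift w) K j : ℤ))) (fun u _ s hs => ?_)
    (one_mem _) hwq hch
  · simpa [C.lift_one] using h1
  refine C.kinks (T := T) (p := fun x => D.proj fun j => (C.H E x K j : ℤ))
    (fun x s r hr => ?_) (fun x s _ => ?_) hs ?_ u
  · simp only [Dat.proj, fun a => C.off E x s K (r, a) hr]
  · simp only [Dat.proj, Int.cast_natCast, Fam.fb_fold, ← Finset.sum_add_distrib, ← mul_add]
    refine Finset.sum_le_sum fun a _ => mul_le_mul_of_nonneg_left ?_ (D.pf_pos a).le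
    exact_mod_cast C.kink E x s K (s, a) rfl
  · rcases length_lt_or (cs := cs) u s with h | h
    · exact Or.inl (by rw [C.lift_mul_simple u s h, mul_assoc])
    · have h2 := C.lift_mul_simple (u * cs.simple s) s
        (by rwa [cs.simple_mul_simple_cancel_right])
      rw [cs.simple_mul_simple_cancel_right] at h2
      exact Or.inr (by rw [h2, mul_assoc])

theorem Fam.geoHyp {D : Dat cs} {C : Core D} (F : Fam C) {T : Finset B} (hT : Sph cs T)
    (hI : D.Irr T) {K : ℤ} {κ : B → ℝ} {x₀ : C.G} (h : F.Adm T K κ x₀) :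
    C.GeoHyp T (F.Reg T K) (F.slope T K κ x₀) x₀ := by
  have hk : ∀ t ∈ T, D.bf (fun u => if u ∈ T then κ u else F.hv K x₀ u) (al t) ≤ 0 := h.2
  have hp : ∀ x, F.slope T K κ x₀ x = F.hv K x - fun u => if u ∈ T then κ u else F.hv K x₀ u :=
    fun x => rfl
  have hs0 : ∀ r ∉ T, F.slope T K κ x₀ x₀ r = 0 := fun r hr => by simp [Fam.slope, hr]
  generalize F.slope T K κ x₀ = p at hp hs0
  generalize (fun u => if u ∈ T then κ u else F.hv K x₀ u) = kh at hk hp
  refine ⟨F.reg_down, hs0, fun x s r hr => ?_, fun x s hs => ?_, fun x s hs hR => ?_,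
    fun z t ht hR hR2 hle w hw u hu => ?_⟩
  · rw [hp, hp, Pi.sub_apply, Pi.sub_apply, F.hv_off (T := {s}) (x := x)
      (by simpa using C.gen_mem (Finset.mem_singleton_self s)) K (by simpa using hr)]
  · have h1 := F.hv_kink K x s
    have h2 := hk s hs
    rw [D.bf_al] at h2
    simp only [hp, Pi.sub_apply, mul_sub, Finset.sum_sub_distrib]
    linarith
  · have h1 := F.hv_kink K x s
    have h2 := hk s hs
    have h3 := F.fb_r1 hs hR
    rw [D.bf_al] at h2 ⊢
    simp only [hp, Pi.sub_apply, mul_sub, Finset.sum_sub_distrib]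
    linarith
  obtain ⟨q, hq⟩ := D.exists_bf_dual (al t)
  obtain ⟨wq, hwq, hch⟩ := D.cover hT q
  have hvs : ∀ x, F.hv K x = ∑ i, F.wt i • D.proj fun j => (C.H (F.E i) x K j : ℤ) := fun x => by
    funext r
    simp [Fam.hv, Dat.proj, Finset.sum_apply]
  have c1 := fun i => gi_convex C (F.E i) z K hwq hch
  have c2 : ∀ w ∈ WP cs T, q (-D.fr w kh) ≤ q (-D.fr wq kh) := fun w hw =>
    D.convex_max (T := T) (p := fun w => -D.fr w kh) (fun u _ s hs =>
      ⟨-D.bf kh (al s), neg_nonneg.2 (hk s hs), by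
        rw [D.cox_fr_mul, D.fr_simple', map_sub, map_smul, neg_smul]
        abel⟩) hw hwq hch
  have r1 : ∀ i a, C.H (F.E i) (z * C.gen t) K (t, a) ≤ C.H (F.E i) z K (t, a) := fun i a =>
    C.r1 _ t (F.E i) z K (t, a) (Fam.orth_far T (Finset.singleton_subset_iff.2 ht)) (hR2 i) rfl
  have k1 := fun i a => C.kink (F.E i) z t K (t, a) rfl
  have c3 : ∀ i, q (D.proj fun j => (C.H (F.E i) z K j : ℤ)) = ∑ a, D.pf a *
      (2 * (C.H (F.E i) z K (t, a) : ℝ) -
        ((∑ j, D.mu (t, a) j * C.H (F.E i) z K j : ℕ) : ℝ)) := fun i => by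
    rw [hq, D.bf_symm, D.bf_al]
    simp only [Dat.proj, Int.cast_natCast, Fam.fb_fold, mul_sub, Finset.sum_sub_distrib,
      Finset.mul_sum (f := fun a => D.pf a * (C.H (F.E i) z K (t, a) : ℝ))]
    congr 1
    exact Finset.sum_congr rfl fun a _ => by ring
  have c4 : ∀ i a, 0 ≤ D.pf a * (2 * (C.H (F.E i) z K (t, a) : ℝ) -
      ((∑ j, D.mu (t, a) j * C.H (F.E i) z K j : ℕ) : ℝ)) := fun i a => by
    refine mul_nonneg (D.pf_pos a).le (sub_nonneg.2 ?_)
    have := r1 i a
    have := k1 i a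
    exact_mod_cast (by omega)
  have c5 : ∀ i, 0 ≤ q (D.proj fun j => (C.H (F.E i) z K j : ℤ)) := fun i => by
    rw [c3]
    exact Finset.sum_nonneg fun a _ => c4 i a
  have c6 : 0 ≤ q (-D.fr wq kh) := by
    refine le_trans ?_ (c2 1 (one_mem _))
    rw [map_one, Module.End.one_apply, map_neg, hq, D.bf_symm]
    exact neg_nonneg.2 (hk t ht)
  have c7 := hle wq hwq
  rw [← hq, hp, hvs, map_sub, sub_eq_add_neg, map_add, map_sum, map_sum] at c7
  simp only [map_smul, smul_eq_mul] at c7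
  have c8 : ∀ i, 0 ≤ F.wt i * q (D.fr wq (D.proj fun j =>
      (C.H (F.E i) (z * C.lift wq) K j : ℤ))) := fun i =>
    mul_nonneg (F.wt_pos i).le ((c5 i).trans (c1 i))
  have c9 := Finset.sum_nonneg fun i (_ : i ∈ Finset.univ) => c8 i
  have c10 : ∀ i, q (D.fr wq (D.proj fun j => (C.H (F.E i) (z * C.lift wq) K j : ℤ))) = 0 :=
    fun i => (mul_eq_zero.1 ((Finset.sum_eq_zero_iff_of_nonneg fun i _ => c8 i).1
      (le_antisymm (by linarith) c9) i (Finset.mem_univ i))).resolve_left (F.wt_pos i).ne'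
  have d1 : ∀ w ∈ WP cs T, 0 ≤ D.bf (al t) (D.fr w kh) := fun w hw => by
    have := c2 w hw
    rw [map_neg, hq] at this
    linarith
  have d2 := D.orbit_span hI ht (k := kh) fun w hw => by
    have h1 := d1 _ (mul_mem (simple_mem_WP ht) hw)
    rw [D.cox_fr_mul, D.fr_simple', D.cox_bf_sub, D.cox_bf_smul, D.bf_al_al, if_pos rfl,
      D.bf_symm _ (al t)] at h1
    linarith [d1 w hw]
  have d3 : D.fr w kh = kh := D.WP_induction (T := T) (p := fun w => D.fr w kh = kh) (by simp)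
    (fun w _ s hs _ ih => by rw [D.cox_fr_mul, D.fr_simple', d2 s hs, zero_smul, sub_zero, ih]) hw
  let φ : (B × D.I → ℤ) →+ ℝ :=
    AddMonoidHom.mk' (fun x => q (D.proj x)) fun a b => by rw [D.proj_add, map_add]
  have hφ : ∀ x, φ x = q (D.proj x) := fun x => rfl
  have hφe : ∀ j : B × D.I, j.1 ≠ t → φ (D.e j) = -(D.pf j.2 * D.c t j.1) := fun j hj => by
    rw [hφ, D.proj_e, hq, D.cox_bf_smul, D.bf_al_al, if_neg hj.symm, mul_neg]
  have e1 : ∀ i, D.fr w (D.proj fun j => (C.H (F.E i) (z * C.lift w) K j : ℤ)) u =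
      D.proj (fun j => (C.H (F.E i) z K j : ℤ)) u := fun i => by
    have h1 := C.stuck _ T (F.E i) z K t φ wq (Fam.orth_far T (Finset.Subset.refl T)) ht
      (fun w hw => hR w hw i) (fun a => ?_) (fun j _ hj hc => by rw [hφe j hj, hc]; simp)
      (fun j _ hc => ?_) hwq (fun j hj => ?_) ?_ w hw
    · rw [← D.proj_rho]
      exact Finset.sum_congr rfl fun a _ => by rw [h1 (u, a) hu]
    · have h2 : q (D.proj fun j => (C.H (F.E i) z K j : ℤ)) = 0 :=
        le_antisymm ((c1 i).trans (c10 i).le) (c5 i)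
      rw [c3] at h2
      have h3 := (mul_eq_zero.1 ((Finset.sum_eq_zero_iff_of_nonneg fun a _ => c4 i a).1 h2 a
        (Finset.mem_univ a))).resolve_left (D.pf_pos a).ne'
      have h4 : 2 * C.H (F.E i) z K (t, a) = ∑ j, D.mu (t, a) j * C.H (F.E i) z K j := by
        exact_mod_cast sub_eq_zero.1 h3
      have := r1 i a
      have := k1 i a
      omega
    · rw [hφe j fun e => hc (by rw [e, D.c_self])]
      exact neg_neg_of_pos (mul_pos (D.pf_pos _) (lt_of_le_of_ne (D.c_nonneg _ _) (Ne.symm hc)))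
    · rw [hφ, D.proj_rho, D.proj_e, map_smul, map_smul]
      exact mul_nonneg (D.pf_pos _).le (hch _ hj)
    · rw [hφ, hφ, D.proj_rho, c10]
      exact c5 i
  rw [hp, hp, map_sub, d3, hvs, hvs, map_sum]
  simp only [map_smul, Pi.sub_apply, Finset.sum_apply, Pi.smul_apply, e1]

end Vale.Agent.P203
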