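import Vale.Agent.P203.GeoConv

namespace Vale.Agent.P203

variable {B W : Type} [Group W] {M : CoxeterMatrix B} [Fintype B] [DecidableEq B]
variable {cs : CoxeterSystem M W}

namespace Core

variable {D : Dat cs} (C : Core D)
variable {T : Finset B} {R : C.G → Prop} {p : C.G → B → ℝ} {x₀ : C.G}

/-- The slope of the chamber `w` in the coordinates of the apartment. -/
def gmP (p : C.G → B → ℝ) (y : C.G) (w : W) : B → ℝ := D.fr w (p (C.ch y w))

/-- Coordinates of a functional in the chamber `w`. -/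
def gmCo (D : Dat cs) (T : Finset B) (q : Module.Dual ℝ (B → ℝ)) (w : W) : B → ℝ :=
  fun s => if s ∈ T then q (D.fr w (al s)) else 0

theorem gm_supp (hG : C.GeoHyp T R p x₀) {x : C.G} (hx : x₀⁻¹ * x ∈ C.P T) {r : B} (hr : r ∉ T) :
    p x r = 0 := by
  rw [← hG.supp r hr]
  exact C.const_of_gen (T := T) (f := fun x => p x r)
    (fun x s hs => hG.g1 x s r (fun h => hr (h ▸ hs))) hx

theorem gm_mem {y : C.G} (hy0 : x₀⁻¹ * y ∈ C.P T) {w : W} (hw : w ∈ WP cs T) :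
    x₀⁻¹ * C.ch y w ∈ C.P T := by
  have := mul_mem hy0 (inv_mem (C.ch_pos hw y).mem)
  simpa [mul_assoc] using this

theorem gm_Psupp (hG : C.GeoHyp T R p x₀) {y : C.G} (hy0 : x₀⁻¹ * y ∈ C.P T) {w : W}
    (hw : w ∈ WP cs T) (r : B) (hr : r ∉ T) : C.gmP p y w r = 0 := by
  unfold gmP
  rw [D.fr_off hw _ hr]
  exact C.gm_supp hG (C.gm_mem hy0 hw) hr

theorem gm_max (hG : C.GeoHyp T R p x₀) (y : C.G) {q : Module.Dual ℝ (B → ℝ)} {w w' : W}
    (hw : w ∈ WP cs T) (hw' : w' ∈ WP cs T) (h : D.InCh T q w') :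
    q (C.gmP p y w) ≤ q (C.gmP p y w') :=
  D.convex_max (p := C.gmP p y)
    (fun u _ s hs => C.kinks hG.g1 hG.g2 hs (C.ch_step y u s) u) hw hw' h

theorem gm_Dv (hG : C.GeoHyp T R p x₀) {y : C.G} (hy0 : x₀⁻¹ * y ∈ C.P T) {w : W}
    (hw : w ∈ WP cs T) (q : Module.Dual ℝ (B → ℝ)) :
    Dv T p (C.ch y w) (gmCo D T q w) = q (C.gmP p y w) := by
  unfold gmP Dv
  rw [D.eval_supp (T := T) q (fun r hr => C.gm_supp hG (C.gm_mem hy0 hw) hr)]
  refine Finset.sum_congr rfl (fun t ht => ?_)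
  rw [gmCo, if_pos ht, mul_comm]

theorem gm_pt {q : Module.Dual ℝ (B → ℝ)} {w : W} (hw : w ∈ WP cs T) (h : D.InCh T q w)
    (hz : ∃ v : B → ℝ, (∀ r ∉ T, v r = 0) ∧ q v ≠ 0) : Pt T (gmCo D T q w) := by
  refine ⟨fun t => ?_, fun r hr => if_neg hr, ?_⟩
  · unfold gmCo
    split_ifs with ht
    · exact h t ht
    · exact le_rfl
  · obtain ⟨v, hv, hq⟩ := hz
    by_contra hn
    push Not at hn
    refine hq (D.zero_of_coord hw (fun s hs => ?_) hv)
    have := hn s hs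
    rwa [gmCo, if_pos hs] at this

theorem gm_transfer (y : C.G) {Q : C.G → (B → ℝ) → Prop} (h1 : C.PtInv T Q)
    {q : Module.Dual ℝ (B → ℝ)} {w w' : W} (hw : w ∈ WP cs T) (hw' : w' ∈ WP cs T)
    (h : D.InCh T q w) (h' : D.InCh T q w') (hQ : Q (C.ch y w) (gmCo D T q w)) :
    Q (C.ch y w') (gmCo D T q w') := by
  refine D.stab_ind (p := fun u => Q (C.ch y u) (gmCo D T q u)) (fun u _ s hs _ h0 hu => ?_)
    hw hw' h h' hQ
  have e : gmCo D T q (u * cs.simple s) = gmCo D T q u := by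
    funext r
    unfold gmCo
    rw [D.stab_step (T := T) h0]
  have h0' : gmCo D T q u s = 0 := by rw [gmCo, if_pos hs, h0]
  rw [e]
  rcases C.ch_step y u s with h | h
  · rw [h]; exact (h1 _ _ s hs h0').1 hu
  · rw [h] at hu; exact (h1 _ _ s hs h0').2 hu

/-- The property holds at the point `q` of the apartment and the value is at most `v`. -/
def gmHas (T : Finset B) (p : C.G → B → ℝ) (Q : C.G → (B → ℝ) → Prop) (y : C.G) (v : ℝ)
    (q : Module.Dual ℝ (B → ℝ)) : Prop :=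
  ∃ w ∈ WP cs T, D.InCh T q w ∧ Q (C.ch y w) (gmCo D T q w) ∧ q (C.gmP p y w) ≤ v

theorem gm_seg (hT : Sph cs T) (hG : C.GeoHyp T R p x₀) {Q : C.G → (B → ℝ) → Prop}
    (h1 : C.PtInv T Q)
    (h2 : ∀ x a a', R x → Pt T a → Pt T a' → Dv T p x a ≤ 0 → Dv T p x a' ≤ Dv T p x a →
      Q x a → Q x a')
    {y : C.G} (hy0 : x₀⁻¹ * y ∈ C.P T) (hy : R y) {v : ℝ} (hv : v ≤ 0)
    {q q' : Module.Dual ℝ (B → ℝ)}
    (hz : ∀ σ : ℝ, 0 ≤ σ → σ ≤ 1 → ∃ v : B → ℝ, (∀ r ∉ T, v r = 0) ∧ (q + σ • (q' - q)) v ≠ 0)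
    (hm : ∀ σ : ℝ, 0 ≤ σ → σ < 1 → ∀ w ∈ WP cs T, D.InCh T (q + σ • (q' - q)) w →
      q' (C.gmP p y w) ≤ q (C.gmP p y w))
    (h : C.gmHas T p Q y v q) : C.gmHas T p Q y v q' := by
  have := D.seg hT q q' (p := fun σ => C.gmHas T p Q y v (q + σ • (q' - q))) ?_ (by simpa using h)
  · simpa using this
  rintro σ₁ σ₂ a1 a2 a3 w hw i1 i2 ⟨w₁, hw₁, j1, j2, j3⟩
  rcases eq_or_lt_of_le a2 with rfl | a2'
  · exact ⟨w₁, hw₁, j1, j2, j3⟩
  have k1 := C.gm_transfer y h1 hw₁ hw j1 i1 j2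
  have k2 := (C.gm_max hG y hw hw₁ j1).trans j3
  have k3 : (q + σ₂ • (q' - q)) (C.gmP p y w) ≤ (q + σ₁ • (q' - q)) (C.gmP p y w) := by
    have := hm σ₁ a1 (by linarith) w hw i1
    simp only [LinearMap.add_apply, LinearMap.smul_apply, LinearMap.sub_apply, smul_eq_mul]
    nlinarith
  refine ⟨w, hw, i2, h2 _ _ _ ((C.ch_pos hw y).down hG.down hy)
    (gm_pt hw i1 (hz σ₁ a1 (by linarith))) (gm_pt hw i2 (hz σ₂ (by linarith) a3)) ?_ ?_ k1,
    k3.trans k2⟩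
  · rw [C.gm_Dv hG hy0 hw]; linarith
  · rw [C.gm_Dv hG hy0 hw, C.gm_Dv hG hy0 hw]; exact k3

theorem gm_finish (hT : Sph cs T) (hG : C.GeoHyp T R p x₀) {Q : C.G → (B → ℝ) → Prop}
    (h1 : C.PtInv T Q) {y : C.G} (hy0 : x₀⁻¹ * y ∈ C.P T) {t : B} (ht : t ∈ T) {v : ℝ}
    {q : Module.Dual ℝ (B → ℝ)} (hq : 0 ≤ q (al t))
    (hz : ∃ v : B → ℝ, (∀ r ∉ T, v r = 0) ∧ q v ≠ 0) (h : C.gmHas T p Q y v q) :
    ∃ w' ∈ WP cs T, ∃ a', Pt T a' ∧ Dv T p (C.ch (y * C.gen t) w') a' ≤ v ∧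
      Q (C.ch (y * C.gen t) w') a' := by
  obtain ⟨w, hw, j1, j2, j3⟩ := h
  obtain ⟨w₁, hw₁, i1, i2⟩ := D.upper hT ht hq
  refine ⟨cs.simple t * w₁, mul_mem (simple_mem_WP ht) hw₁, gmCo D T q w₁, gm_pt hw₁ i1 hz, ?_, ?_⟩
  · rw [C.ch_shift y i2, C.gm_Dv hG hy0 hw₁]
    exact (C.gm_max hG y hw₁ hw j1).trans j3
  · rw [C.ch_shift y i2]
    exact C.gm_transfer y h1 hw hw₁ j1 i1 j2

theorem gm_al_supp {w : W} (hw : w ∈ WP cs T) {s : B} (hs : s ∈ T) (r : B) (hr : r ∉ T) :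
    D.fr w (al s) r = 0 := by
  rw [D.fr_off hw _ hr, al, Pi.single_eq_of_ne (fun h : r = s => hr (h ▸ hs))]

/-- One step: from the apartment of `y` to the apartment of `y t`. -/
theorem prop_step (hT : Sph cs T) (hn : ∀ t ∈ T, ∃ n ∈ T, D.c t n ≠ 0) (hG : C.GeoHyp T R p x₀)
    {Q : C.G → (B → ℝ) → Prop} (h1 : C.PtInv T Q)
    (h2 : ∀ x a a', R x → Pt T a → Pt T a' → Dv T p x a ≤ 0 → Dv T p x a' ≤ Dv T p x a →
      Q x a → Q x a')
    {y : C.G} (hy0 : x₀⁻¹ * y ∈ C.P T) {t : B} (ht : t ∈ T) (hy : R (y * C.gen t))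
    {w : W} (hw : w ∈ WP cs T) {a : B → ℝ} (ha : Pt T a) (hD : Dv T p (C.ch y w) a ≤ 0)
    (hQ : Q (C.ch y w) a) :
    ∃ w' ∈ WP cs T, ∃ a', Pt T a' ∧ Dv T p (C.ch (y * C.gen t) w') a' ≤ Dv T p (C.ch y w) a ∧
      Q (C.ch (y * C.gen t) w') a' := by
  obtain ⟨q, hq⟩ := D.exists_dual w a
  have hco : gmCo D T q w = a := by
    funext s
    unfold gmCo
    split_ifs with hs
    · exact hq s
    · exact (ha.2.1 s hs).symm
  have hin : D.InCh T q w := fun s _ => by rw [hq]; exact ha.1 s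
  have hval : q (C.gmP p y w) = Dv T p (C.ch y w) a := by rw [← C.gm_Dv hG hy0 hw, hco]
  have hhas : C.gmHas T p Q y (Dv T p (C.ch y w) a) q := ⟨w, hw, hin, hco ▸ hQ, hval.le⟩
  have hRy : R y := hG.down y t ht hy
  have hal : ∀ r ∉ T, al t r = 0 := fun r hr => by
    rw [al, Pi.single_eq_of_ne (fun h : r = t => hr (h ▸ ht))]
  rcases le_or_gt 0 (q (al t)) with hqt | hqt
  · obtain ⟨s, hs, has⟩ := ha.2.2
    exact C.gm_finish hT hG h1 hy0 ht hqt ⟨_, gm_al_supp hw hs, by rw [hq]; exact has⟩ hhas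
  obtain ⟨α, hα⟩ := D.exists_bf_dual (al t)
  set c : ℝ := -q (al t) / 2 with hc
  have hc0 : 0 < c := by rw [hc]; linarith
  have hαt : α (al t) = 2 := by rw [hα, D.bf_al_al, if_pos rfl]
  have hq0 : (q + c • α) (al t) = 0 := by
    simp only [LinearMap.add_apply, LinearMap.smul_apply, smul_eq_mul, hαt, hc]
    ring
  obtain ⟨w₁, hw₁, s, hs, i1, i2⟩ := D.wall hT ht hq0
  have hneg : ∀ {u : W} {s : B}, u ∈ WP cs T → D.fr u (al s) = -al t → ∀ X,
      α (D.fr u X) = -D.bf (al s) X := by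
    intro u s _ h X
    rw [← D.bf_fr u, h, hα]
    obtain ⟨β, hβ⟩ := D.exists_bf_dual (D.fr u X)
    rw [D.bf_symm (al t), D.bf_symm (-al t), ← hβ, ← hβ, map_neg, neg_neg]
  have hw1 : α (C.gmP p y w₁) ≤ 0 := by
    have := hG.g3 _ s hs ((C.ch_wall y hw₁ ht i2).down hG.down hy)
    unfold gmP
    rw [hneg hw₁ i2, D.bf_symm]
    linarith
  by_cases hz : ∃ v : B → ℝ, (∀ r ∉ T, v r = 0) ∧ (q + c • α) v ≠ 0
  · refine C.gm_finish hT hG h1 hy0 ht hq0.ge hz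
      (C.gm_seg hT hG h1 h2 hy0 hRy hD (fun σ a1 a2 => ?_) (fun σ a1 a2 u hu iu => ?_) hhas)
    · rcases eq_or_lt_of_le a2 with rfl | a2'
      · simpa using hz
      · refine ⟨al t, hal, ?_⟩
        rw [LinearMap.add_apply, LinearMap.smul_apply, LinearMap.sub_apply, hq0, smul_eq_mul]
        nlinarith
    · have k1 := C.gm_max hG y hw₁ hu iu
      have k2 := C.gm_max hG y hu hw₁ i1
      simp only [LinearMap.add_apply, LinearMap.smul_apply, LinearMap.sub_apply, smul_eq_mul]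
        at k1 k2 ⊢
      have k3 : (1 - σ) * (c * α (C.gmP p y u)) ≤ (1 - σ) * (c * α (C.gmP p y w₁)) := by
        linarith
      have k4 := le_of_mul_le_mul_left k3 (by linarith)
      have k5 := mul_nonpos_of_nonneg_of_nonpos hc0.le hw1
      linarith
  · push Not at hz
    have hqα : ∀ v : B → ℝ, (∀ r ∉ T, v r = 0) → q v = -(c * α v) := fun v hv => by
      have := hz v hv
      simp only [LinearMap.add_apply, LinearMap.smul_apply, smul_eq_mul] at this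
      linarith
    have hall : ∀ u ∈ WP cs T, 0 ≤ α (C.gmP p y u) := fun u hu => by
      have k1 := C.gm_max hG y hu hw hin
      rw [hval, hqα _ (C.gm_Psupp hG hy0 hu)] at k1
      by_contra hneg'
      have := mul_pos hc0 (neg_pos.2 (not_le.1 hneg'))
      linarith
    obtain ⟨w₀, hw₀⟩ := D.exists_w0 hT
    obtain ⟨t₁, ht₁, hconj⟩ := D.w0_conj hw₀ ht
    have hroot : D.fr w₀ (al t₁) = -al t := D.root_of_conj hconj.symm (hw₀.2 t₁ ht₁)
    have hg4 := hG.g4 (C.ch y w₀) t₁ ht₁ (fun v hv => by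
        rw [C.ch_w0 y hw₀ hv]
        exact (C.ch_pos (mul_mem hw₀.1 hv) y).down hG.down hRy)
      ((C.ch_wall y hw₀.1 ht hroot).down hG.down hy) (fun v hv => by
        have := hall _ (mul_mem hw₀.1 hv)
        unfold gmP at this
        rw [map_mul, Module.End.mul_apply, hneg hw₀.1 hroot] at this
        rw [C.ch_w0 y hw₀ hv]
        linarith)
    obtain ⟨n, hnT, hcn⟩ := hn t₁ ht₁
    have hnt : n ≠ t₁ := fun h => hcn (by rw [h, D.c_self])
    obtain ⟨ε, hε0, hε⟩ : ∃ ε : ℝ, ε ≠ 0 ∧ ε * p (C.ch y w₀) n ≤ 0 := by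
      rcases le_total (p (C.ch y w₀) n) 0 with h | h
      · exact ⟨1, one_ne_zero, by linarith⟩
      · exact ⟨-1, by norm_num, by linarith⟩
    obtain ⟨v', hv'⟩ := D.exists_dual w₀ (Pi.single n ε)
    have hqu : ∀ u ∈ T, q (D.fr w₀ (al u)) = c * (if t₁ = u then 2 else -D.c t₁ u) := by
      intro u hu
      rw [hqα _ (gm_al_supp hw₀.1 hu), hneg hw₀.1 hroot, D.bf_al_al]
      ring
    have hconst : ∀ q' : Module.Dual ℝ (B → ℝ),
        (∀ u ∈ T, u ≠ t₁ → D.c t₁ u = 0 → q' (D.fr w₀ (al u)) = 0) →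
        ∀ u ∈ WP cs T, q' (C.gmP p y u) = q' (C.gmP p y w₀) := by
      intro q' hq' u hu
      have hv : w₀⁻¹ * u ∈ WP cs T := mul_mem (inv_mem hw₀.1) hu
      have e1 : C.gmP p y u = D.fr w₀ (D.fr (w₀⁻¹ * u) (p (C.ch y w₀ * C.lift (w₀⁻¹ * u)))) := by
        rw [C.ch_w0 y hw₀ hv, ← Module.End.mul_apply, ← map_mul, mul_inv_cancel_left]
        rfl
      rw [e1, gmP, D.eval_supp (T := T) q' (fun r hr => by
          rw [D.fr_off hv _ hr, C.ch_w0 y hw₀ hv]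
          exact C.gm_supp hG (C.gm_mem hy0 (mul_mem hw₀.1 hv)) hr),
        D.eval_supp (T := T) q' (fun r hr => C.gm_supp hG (C.gm_mem hy0 hw₀.1) hr)]
      refine Finset.sum_congr rfl (fun r hr => ?_)
      by_cases h : r = t₁ ∨ D.c t₁ r ≠ 0
      · rw [hg4 _ hv r h]
      · push Not at h
        rw [hq' r hr h.1 h.2, mul_zero, mul_zero]
    have c1 := hconst q (fun u hu h1 h2 => by rw [hqu u hu, if_neg (Ne.symm h1), h2]; ring)
    have c2 := hconst v' (fun u _ _ h2 => by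
      rw [hv', Pi.single_eq_of_ne (fun h : u = n => hcn (h ▸ h2))])
    have d1 : 0 ≤ q (C.gmP p y w₀) := by
      rw [← c1 w₁ hw₁, hqα _ (C.gm_Psupp hG hy0 hw₁)]
      have := mul_nonpos_of_nonneg_of_nonpos hc0.le hw1
      linarith
    have d2 : v' (C.gmP p y w₀) ≤ 0 := by
      rw [gmP, D.eval_supp (T := T) v' (fun r hr => C.gm_supp hG (C.gm_mem hy0 hw₀.1) hr),
        Finset.sum_eq_single n]
      · rw [hv', Pi.single_eq_same, mul_comm]; exact hε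
      · intro b _ hb
        rw [hv', Pi.single_eq_of_ne hb, mul_zero]
      · intro h; exact absurd hnT h
    have d3 : v' (al t) = 0 := by
      have := hv' t₁
      rw [hroot, map_neg, Pi.single_eq_of_ne (Ne.symm hnt)] at this
      linarith
    have hz1 : ∃ v : B → ℝ, (∀ r ∉ T, v r = 0) ∧ v' v ≠ 0 :=
      ⟨_, gm_al_supp hw₀.1 hnT, by rw [hv', Pi.single_eq_same]; exact hε0⟩
    refine C.gm_finish hT hG h1 hy0 ht d3.ge hz1
      (C.gm_seg hT hG h1 h2 hy0 hRy hD (fun σ a1 a2 => ?_) (fun σ _ _ u hu _ => ?_) hhas)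
    · rcases eq_or_lt_of_le a2 with rfl | a2'
      · simpa using hz1
      · refine ⟨al t, hal, ?_⟩
        rw [LinearMap.add_apply, LinearMap.smul_apply, LinearMap.sub_apply, d3, smul_eq_mul]
        nlinarith
    · rw [c1 u hu, c2 u hu]
      linarith

theorem prop_main (hT : Sph cs T) (hn : ∀ t ∈ T, ∃ n ∈ T, D.c t n ≠ 0) (hG : C.GeoHyp T R p x₀)
    {Q : C.G → (B → ℝ) → Prop} (h1 : C.PtInv T Q)
    (h2 : ∀ x a a', R x → Pt T a → Pt T a' → Dv T p x a ≤ 0 → Dv T p x a' ≤ Dv T p x a →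
      Q x a → Q x a')
    {x y : C.G} (hx0 : x₀⁻¹ * x ∈ C.P T) (hxy : C.Pos T x y) (hy : R y) {a : B → ℝ}
    (ha : Pt T a) (hD : Dv T p x a ≤ 0) (hQ : Q x a) :
    ∃ w' ∈ WP cs T, ∃ a', Pt T a' ∧ Dv T p (C.ch y w') a' ≤ Dv T p x a ∧ Q (C.ch y w') a' := by
  obtain ⟨ω, hω, rfl⟩ := hxy
  induction ω using List.reverseRecOn with
  | nil =>
    refine ⟨1, one_mem _, a, ha, ?_, ?_⟩
    · simp [C.ch_one]
    · simpa [C.ch_one] using hQ
  | append_singleton ω t ih =>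
    have ht : t ∈ T := hω t (by simp)
    have hω' : ∀ s ∈ ω, s ∈ T := fun s hs => hω s (by simp [hs])
    have e : x * ((ω ++ [t]).map C.gen).prod = x * (ω.map C.gen).prod * C.gen t := by
      simp [mul_assoc]
    rw [e] at hy ⊢
    obtain ⟨w, hw, a', ha', hD', hQ'⟩ := ih hω' (hG.down _ t ht hy)
    have hmem : x₀⁻¹ * (x * (ω.map C.gen).prod) ∈ C.P T := by
      have := mul_mem hx0 (Pos.mem (C := C) (T := T) (x := x) ⟨ω, hω', rfl⟩)
      simpa [mul_assoc] using this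
    obtain ⟨w', hw', a'', ha'', hD'', hQ''⟩ :=
      C.prop_step hT hn hG h1 h2 hmem ht hy hw ha' (hD'.trans hD) hQ'
    exact ⟨w', hw', a'', ha'', hD''.trans hD', hQ''⟩

end Core

end Vale.Agent.P203
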