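import Vale.Agent.P203.CombRed
import Vale.Agent.P203.GeoInst
import Vale.Agent.P203.GeoMain
import Vale.Agent.P203.Gars

namespace Vale.Agent.P203

variable {B W : Type} [Group W] {M : CoxeterMatrix B} [Fintype B] [DecidableEq B]
variable {cs : CoxeterSystem M W}

namespace Core

variable {D : Dat cs} (C : Core D)

theorem sp_coset {T : Finset B} {x y z : C.G} (h : x⁻¹ * y ∈ C.P T) (h' : y⁻¹ * z ∈ C.P T) :
    x⁻¹ * z ∈ C.P T := by
  have := mul_mem h h'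
  simpa [mul_assoc] using this

theorem sp_coset_symm {T : Finset B} {x y : C.G} (h : x⁻¹ * y ∈ C.P T) : y⁻¹ * x ∈ C.P T := by
  have := inv_mem h
  simpa using this

theorem sp_coset_gen {T : Finset B} {s : B} (hs : s ∈ T) (x : C.G) :
    x⁻¹ * (x * C.gen s) ∈ C.P T := by
  simpa using C.gen_mem hs

theorem sp_coset_refl (T : Finset B) (x : C.G) : x⁻¹ * x ∈ C.P T := by
  simp

theorem sp_slope {F : Fam C} {T : Finset B} {K : ℤ} {κ : B → ℝ} {x₀ x : C.G} {t : B} (ht : t ∈ T) :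
    F.slope T K κ x₀ x t = F.hv K x t - κ t := by
  rw [Fam.slope, if_pos ht]

theorem sp_Dv_gen {T : Finset B} {p : C.G → B → ℝ}
    (g1 : ∀ x s r, r ≠ s → p (x * C.gen s) r = p x r) (x : C.G) {a : B → ℝ} {s : B} (h : a s = 0) :
    Dv T p (x * C.gen s) a = Dv T p x a := by
  refine Finset.sum_congr rfl (fun t _ => ?_)
  by_cases ht : t = s
  · rw [ht, h, zero_mul, zero_mul]
  · rw [g1 x s t ht]

theorem sp_pt_al {T : Finset B} {t : B} (ht : t ∈ T) : Pt T (al t) := by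
  refine ⟨fun u => ?_, fun r hr => ?_, t, ht, by simp [al]⟩
  · by_cases h : u = t <;> simp [al, h]
  · rw [al, Pi.single_eq_of_ne (fun h : r = t => hr (h ▸ ht))]

theorem sp_Dv_al {G : Type} {T : Finset B} {t : B} (ht : t ∈ T) (p : G → B → ℝ) (x : G) :
    Dv T p x (al t) = p x t := by
  unfold Dv
  rw [Finset.sum_eq_single t]
  · simp [al]
  · intro b _ hb
    rw [al, Pi.single_eq_of_ne hb, zero_mul]
  · intro h; exact absurd ht h

theorem sp_neg {G : Type} {T : Finset B} {p : G → B → ℝ} {x : G} {a : B → ℝ} (ha : Pt T a)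
    (h : Dv T p x a < 0) : ∃ u ∈ T, a u ≠ 0 ∧ p x u < 0 := by
  by_contra hn
  push Not at hn
  refine absurd h (not_lt.2 (Finset.sum_nonneg fun u hu => ?_))
  by_cases h0 : a u = 0
  · rw [h0, zero_mul]
  · exact mul_nonneg (ha.1 u) (hn u hu h0)

theorem sp_zero {G : Type} {T : Finset B} {p : G → B → ℝ} {x : G} {a : B → ℝ} (ha : Pt T a)
    (hp : ∀ t ∈ T, 0 ≤ p x t) (h : Dv T p x a ≤ 0) {t : B} (ht : a t ≠ 0) : t ∈ T ∧ p x t = 0 := by
  have htT : t ∈ T := by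
    by_contra h'
    exact ht (ha.2.1 t h')
  have hnn : ∀ u ∈ T, 0 ≤ a u * p x u := fun u hu => mul_nonneg (ha.1 u) (hp u hu)
  have := (Finset.sum_eq_zero_iff_of_nonneg hnn).1 (le_antisymm h (Finset.sum_nonneg hnn)) t htT
  exact ⟨htT, (mul_eq_zero.1 this).resolve_left ht⟩

theorem sp_reg {F : Fam C} {T : Finset B} (hT : Sph cs T) {K : ℤ} {κ : B → ℝ} {x₀ x : C.G}
    (h : F.Adm T K κ x₀) (hx : x₀⁻¹ * x ∈ C.P T) {t : B} (hv : F.van K x t) :
    ∃ z, x⁻¹ * z ∈ C.P (T.erase t) ∧ F.Reg T K z := by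
  rw [← Finset.sdiff_singleton_eq_erase]
  exact F.exists_reg hT (h.coset hx) (fun j hj => by rw [Finset.mem_singleton.1 hj]; exact hv)

theorem sp_single {T : Finset B} {s u : B} (hs : s ∈ T) (h : u ≠ s) : s ∈ T.erase u :=
  Finset.mem_erase.2 ⟨h.symm, hs⟩

theorem connS_sph {T : Finset B} (hT : Sph cs T) (hI : D.Irr T) (h2 : 2 ≤ T.card) :
    C.ConnS T := by
  intro F K κ x₀ hA
  have hG := F.geoHyp hT hI hA
  have hn : ∀ t ∈ T, ∃ n ∈ T, D.c t n ≠ 0 := fun t ht => D.irr_nbr hI h2 ht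
  set p := F.slope T K κ x₀ with hp
  let Q : C.G × B → C.G → (B → ℝ) → Prop := fun v z a =>
    Dv T p z a < 0 ∧ ∃ u ∈ T, a u ≠ 0 ∧ F.good K κ z u ∧ C.Conn T (F.good K κ) v (z, u)
  have hmove : ∀ v z z' u, u ∈ T → z⁻¹ * z' ∈ C.P (T.erase u) → F.good K κ z u →
      C.Conn T (F.good K κ) v (z, u) → F.good K κ z' u ∧ C.Conn T (F.good K κ) v (z', u) := by
    intro v z z' u hu hz hg hc
    have hg' := (F.good_off hz K κ (Finset.notMem_erase u T)).2 hg
    exact ⟨hg', hc.tail ⟨hu, hu, hg, hg', z', hz, C.sp_coset_refl _ _⟩⟩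
  have h1 : ∀ v, C.PtInv T (Q v) := by
    intro v z a s hs h0
    simp only [Q, C.sp_Dv_gen hG.g1 z h0]
    refine and_congr_right fun _ => ⟨?_, ?_⟩
    · rintro ⟨u, hu, hau, hg, hc⟩
      have hus : u ≠ s := fun h => hau (h ▸ h0)
      exact ⟨u, hu, hau, hmove v _ _ u hu (C.sp_coset_gen (sp_single hs hus) z) hg hc⟩
    · rintro ⟨u, hu, hau, hg, hc⟩
      have hus : u ≠ s := fun h => hau (h ▸ h0)
      exact ⟨u, hu, hau, hmove v _ _ u hu
        (C.sp_coset_symm (C.sp_coset_gen (sp_single hs hus) z)) hg hc⟩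
  have h3 : ∀ v z a a', F.Reg T K z → Pt T a' → Dv T p z a' < 0 → Q v z a → Q v z a' := by
    rintro v z a a' hR ha' hD ⟨-, u, hu, -, hg, hc⟩
    obtain ⟨u', hu', hau', hneg⟩ := sp_neg ha' hD
    rw [hp, C.sp_slope hu'] at hneg
    have hg' : F.good K κ z u' := ⟨hR.van hu', by linarith⟩
    exact ⟨hD, u', hu', hau', hg', hc.tail
      ⟨hu, hu', hg, hg', z, C.sp_coset_refl _ _, C.sp_coset_refl _ _⟩⟩
  have hstart : ∀ x t, x₀⁻¹ * x ∈ C.P T → t ∈ T → F.good K κ x t →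
      ∃ z, x₀⁻¹ * z ∈ C.P T ∧ F.Reg T K z ∧ Q (x, t) z (al t) := by
    intro x t hx ht hg
    obtain ⟨z, hz, hR⟩ := C.sp_reg hT hA hx hg.1
    obtain ⟨hg', hc⟩ := hmove (x, t) x z t ht hz hg Relation.ReflTransGen.refl
    refine ⟨z, C.sp_coset hx (C.P_mono (Finset.erase_subset _ _) hz), hR, ?_, t, ht,
      by simp [al], hg', hc⟩
    rw [sp_Dv_al ht, hp, C.sp_slope ht]
    linarith [hg'.2]
  intro x x' t t' hx hx' ht ht' hg hg'
  obtain ⟨z, hz, hR, hQ⟩ := hstart x t hx ht hg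
  obtain ⟨z', hz', hR', hQ'⟩ := hstart x' t' hx' ht' hg'
  obtain ⟨y, hy, hzy, hzy'⟩ := C.directed hT (fun x => F.reg_down x) F.reg_lc
    (C.sp_coset (C.sp_coset_symm hz) hz') hR hR'
  obtain ⟨w, hw, a, ha, -, hQa⟩ := C.prop_main hT hn hG (h1 (x, t))
    (fun z a a' hR _ ha' _ hD hQ => h3 _ z a a' hR ha' (lt_of_le_of_lt hD hQ.1) hQ) hz hzy hy
    (sp_pt_al ht) hQ.1.le hQ
  obtain ⟨w', hw', a', ha', -, hQa'⟩ := C.prop_main hT hn hG (h1 (x', t'))
    (fun z a a' hR _ ha' _ hD hQ => h3 _ z a a' hR ha' (lt_of_le_of_lt hD hQ.1) hQ) hz' hzy' hy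
    (sp_pt_al ht') hQ'.1.le hQ'
  obtain ⟨-, u, hu, -, hgu, hcu⟩ := C.fin_conn hT hG (C.sp_coset hz hzy.mem) hy (h1 (x, t))
    (fun z a a' hR _ ha' _ hD hQ => h3 _ z a a' hR ha' hD hQ) hw hw' ha ha' hQa.1 hQa'.1 hQa
  obtain ⟨-, u', hu', -, hgu', hcu'⟩ := hQa'
  have hadj : C.Adj T (F.good K κ) (C.ch y w', u) (C.ch y w', u') :=
    ⟨hu, hu', hgu, hgu', _, C.sp_coset_refl _ _, C.sp_coset_refl _ _⟩
  exact Relation.ReflTransGen.trans (hcu.tail hadj) (Conn.symm hcu')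

theorem minS_sph {T : Finset B} (hT : Sph cs T) (hI : D.Irr T) (h2 : 2 ≤ T.card)
    (ih : ∀ T' ⊂ T, C.MinS T') : C.MinS T := by
  classical
  intro F K κ x hA J hJT hJ hhor hno x' hx' u hu hg
  have hG := F.geoHyp hT hI hA
  have hn : ∀ t ∈ T, ∃ n ∈ T, D.c t n ≠ 0 := fun t ht => D.irr_nbr hI h2 ht
  set p := F.slope T K κ x with hp
  let Q : C.G → (B → ℝ) → Prop := fun z a =>
    x⁻¹ * z ∈ C.P T ∧ (∀ t, a t ≠ 0 → F.hor K κ z t) ∧
      ∀ z', z⁻¹ * z' ∈ C.P (T.filter (fun t => a t = 0)) → ∀ u ∈ T, a u = 0 → ¬ F.good K κ z' u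
  have hmove : ∀ z z' a, z⁻¹ * z' ∈ C.P (T.filter (fun t => a t = 0)) → Q z a → Q z' a := by
    rintro z z' a hz ⟨q1, q2, q3⟩
    exact ⟨C.sp_coset q1 (C.P_mono (Finset.filter_subset _ _) hz),
      fun t ht => (F.hor_off hz K κ (fun h => ht (Finset.mem_filter.1 h).2)).2 (q2 t ht),
      fun z'' hz'' => q3 z'' (C.sp_coset hz hz'')⟩
  have h1 : C.PtInv T Q := fun z a s hs h0 =>
    ⟨hmove _ _ a (C.sp_coset_gen (Finset.mem_filter.2 ⟨hs, h0⟩) z),
      hmove _ _ a (C.sp_coset_symm (C.sp_coset_gen (Finset.mem_filter.2 ⟨hs, h0⟩) z))⟩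
  have hnn : ∀ z a, F.Reg T K z → Q z a → ∀ t ∈ T, 0 ≤ p z t := by
    rintro z a hR ⟨-, q2, q3⟩ t ht
    rw [hp, C.sp_slope ht]
    by_cases h0 : a t = 0
    · by_contra hneg
      exact q3 z (C.sp_coset_refl _ _) t ht h0 ⟨hR.van ht, by linarith⟩
    · linarith [(q2 t h0).2]
  have h3 : ∀ z a a', F.Reg T K z → Pt T a → Pt T a' → Dv T p z a ≤ 0 →
      Dv T p z a' ≤ Dv T p z a → Q z a → Q z a' := by
    intro z a a' hR ha ha' hD hD' hQ
    have hh : ∀ t, a' t ≠ 0 → F.hor K κ z t := fun t ht => by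
      obtain ⟨htT, h0⟩ := sp_zero ha' (hnn z a hR hQ) (hD'.trans hD) ht
      rw [hp, C.sp_slope htT] at h0
      exact ⟨hR.van htT, by linarith⟩
    obtain ⟨q1, q2, q3⟩ := hQ
    refine ⟨q1, hh, ?_⟩
    have e : T.filter (fun t => a' t = 0) = T \ T.filter (fun t => a' t ≠ 0) := by
      ext t
      simp only [Finset.mem_filter, Finset.mem_sdiff]
      tauto
    by_cases hJ' : ((T.filter (fun t => a' t = 0)).filter (fun t => a t ≠ 0)).Nonempty
    · have hss : T.filter (fun t => a' t = 0) ⊂ T := by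
        obtain ⟨t, ht, hat⟩ := ha'.2.2
        exact Finset.filter_ssubset.2 ⟨t, ht, hat⟩
      have hA' : F.Adm (T.filter (fun t => a' t = 0)) K κ z := by
        rw [e]
        exact (hA.coset q1).link (Finset.filter_subset _ _)
          (fun j hj => hh j (Finset.mem_filter.1 hj).2)
      have := ih _ hss F K κ z hA' _ (Finset.filter_subset _ _) hJ'
        (fun j hj => q2 j (Finset.mem_filter.1 hj).2) (fun z' hz' u hu => by
          have hsub : T.filter (fun t => a' t = 0) \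
              (T.filter (fun t => a' t = 0)).filter (fun t => a t ≠ 0) ⊆
              T.filter (fun t => a t = 0) := by
            intro t
            simp only [Finset.mem_filter, Finset.mem_sdiff]
            tauto
          have hu' := Finset.mem_filter.1 (hsub hu)
          exact q3 z' (C.P_mono hsub hz') u hu'.1 hu'.2)
      exact fun z' hz' u hu hau => this z' hz' u (Finset.mem_filter.2 ⟨hu, hau⟩)
    · have hsub : T.filter (fun t => a' t = 0) ⊆ T.filter (fun t => a t = 0) := by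
        intro t ht
        refine Finset.mem_filter.2 ⟨(Finset.mem_filter.1 ht).1, ?_⟩
        by_contra h
        exact hJ' ⟨t, Finset.mem_filter.2 ⟨ht, h⟩⟩
      exact fun z' hz' u hu hau => q3 z' (C.P_mono hsub hz') u hu
        (Finset.mem_filter.1 (hsub (Finset.mem_filter.2 ⟨hu, hau⟩))).2
  obtain ⟨z, hz, hR⟩ := F.exists_reg hT hA (fun j hj => (hhor j hj).1)
  let a₀ : B → ℝ := fun t => if t ∈ J then 1 else 0
  have ha₀ : ∀ t, a₀ t = 0 ↔ t ∉ J := fun t => by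
    simp only [a₀]
    split_ifs with h <;> simp [h]
  have e₀ : T.filter (fun t => a₀ t = 0) = T \ J := by
    ext t
    simp only [Finset.mem_filter, Finset.mem_sdiff, ha₀]
  have hpt : Pt T a₀ := by
    refine ⟨fun t => ?_, fun r hr => (ha₀ r).2 (fun h => hr (hJT h)), ?_⟩
    · simp only [a₀]
      split_ifs <;> norm_num
    · obtain ⟨j, hj⟩ := hJ
      exact ⟨j, hJT hj, fun h => (ha₀ j).1 h hj⟩
  have hQ0 : Q z a₀ := hmove x z a₀ (e₀ ▸ hz) ⟨C.sp_coset_refl _ _,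
    fun t ht => hhor t (by by_contra h; exact ht ((ha₀ t).2 h)),
    fun z' hz' u hu hau => hno z' (e₀ ▸ hz') u (Finset.mem_sdiff.2 ⟨hu, (ha₀ u).1 hau⟩)⟩
  have hD0 : Dv T p z a₀ ≤ 0 := by
    refine le_of_eq (Finset.sum_eq_zero fun t ht => ?_)
    by_cases h : a₀ t = 0
    · rw [h, zero_mul]
    · rw [hp, C.sp_slope ht, (hQ0.2.1 t h).2, sub_self, mul_zero]
  obtain ⟨z', hz', hR'⟩ := C.sp_reg hT hA hx' hg.1
  have hg' := (F.good_off hz' K κ (Finset.notMem_erase u T)).2 hg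
  have hz'' := C.sp_coset hx' (C.P_mono (Finset.erase_subset _ _) hz')
  have hD1 : Dv T p z' (al u) < 0 := by
    rw [sp_Dv_al hu, hp, C.sp_slope hu]
    linarith [hg'.2]
  obtain ⟨y, hy, hzy, hzy'⟩ := C.directed hT (fun x => F.reg_down x) F.reg_lc
    (C.sp_coset (C.sp_coset_symm hQ0.1) hz'') hR hR'
  obtain ⟨w, hw, a, ha, hDa, hQa⟩ := C.prop_main hT hn hG h1 h3 hQ0.1 hzy hy hpt hD0 hQ0
  obtain ⟨w', hw', a', ha', hDa', -⟩ := C.prop_main hT hn hG (Q := fun _ _ => True)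
    (fun _ _ _ _ _ => Iff.rfl) (fun _ _ _ _ _ _ _ _ h => h) hz'' hzy' hy (sp_pt_al hu) hD1.le trivial
  obtain ⟨w'', hw'', hQ'', t, ht, hneg⟩ := C.fin_min hT hG (C.sp_coset hQ0.1 hzy.mem) h1 hw hw' ha
    ha' (hDa.trans hD0) (lt_of_le_of_lt hDa' hD1) hQa
  exact absurd hneg (not_lt.2 (hnn _ a ((C.ch_pos hw'' y).down hG.down hy) hQ'' t ht))

theorem baseS_sph {F : Fam C} {δ : B → ℝ} {T₀ T : Finset B} (hF : F.Special T₀ δ) (hT₀ : T ⊆ T₀)
    (hT : Sph cs T) (hI : D.Irr T) (h2 : 2 ≤ T.card) (hmin : C.MinS T)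
    (ih : ∀ T' ⊂ T, C.BaseS F δ T') : C.BaseS F δ T := by
  intro x hx t ht hh
  by_contra hne
  have hA := hF.adm hT₀
  have hG := F.geoHyp hT hI hA
  have hn : ∀ t ∈ T, ∃ n ∈ T, D.c t n ≠ 0 := fun t ht => D.irr_nbr hI h2 ht
  have hone : ∀ {z : C.G} {T' : Finset B}, z ∈ C.P T' → (1 : C.G)⁻¹ * z ∈ C.P T' := fun h => by
    simpa using h
  have hno := hmin F 0 δ 1 hA T subset_rfl ⟨t, ht⟩ (fun j _ => hF.hor j)
    (fun _ _ u hu => absurd hu (by simp))
  set p := F.slope T 0 δ 1 with hp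
  let Q : C.G → (B → ℝ) → Prop := fun z a =>
    z ∈ C.P T ∧ (∀ t, a t ≠ 0 → F.hor 0 δ z t) ∧ ¬ ∀ t, a t ≠ 0 → z ∈ C.P (T.erase t)
  have hmove : ∀ z z' a, z⁻¹ * z' ∈ C.P T → (∀ t, a t ≠ 0 → z⁻¹ * z' ∈ C.P (T.erase t)) →
      Q z a → Q z' a := by
    rintro z z' a h0 hz ⟨q1, q2, q3⟩
    refine ⟨by simpa using mul_mem q1 h0,
      fun t ht => (F.hor_off (hz t ht) 0 δ (Finset.notMem_erase t T)).2 (q2 t ht),
      fun h => q3 fun t ht => ?_⟩
    simpa using mul_mem (h t ht) (C.sp_coset_symm (hz t ht))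
  have h1 : C.PtInv T Q := by
    intro z a s hs h0
    have hz : ∀ t, a t ≠ 0 → z⁻¹ * (z * C.gen s) ∈ C.P (T.erase t) := fun t ht =>
      C.sp_coset_gen (sp_single hs (fun h : t = s => ht (h ▸ h0))) z
    exact ⟨hmove _ _ a (C.sp_coset_gen hs z) hz, hmove _ _ a
      (C.sp_coset_symm (C.sp_coset_gen hs z)) (fun t ht => C.sp_coset_symm (hz t ht))⟩
  have h3 : ∀ z a a', F.Reg T 0 z → Pt T a → Pt T a' → Dv T p z a ≤ 0 →
      Dv T p z a' ≤ Dv T p z a → Q z a → Q z a' := by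
    rintro z a a' hR ha ha' hD hD' ⟨q1, q2, q3⟩
    have hnn : ∀ t ∈ T, 0 ≤ p z t := fun t ht => by
      rw [hp, C.sp_slope ht]
      by_contra hneg
      exact hno z (hone q1) t ht ⟨hR.van ht, by linarith⟩
    refine ⟨q1, fun t ht => ?_, fun h => q3 fun t ht => ?_⟩
    · obtain ⟨htT, h0⟩ := sp_zero ha' hnn (hD'.trans hD) ht
      rw [hp, C.sp_slope htT] at h0
      exact ⟨hR.van htT, by linarith⟩
    · obtain ⟨j, hj, haj⟩ := ha'.2.2
      by_cases htj : t = j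
      · rw [htj]; exact h j haj
      · have htT : t ∈ T := by
          by_contra h'
          exact ht (ha.2.1 t h')
        exact C.P_mono (Finset.erase_subset_erase t (Finset.erase_subset j T))
          (ih _ (Finset.erase_ssubset hj) z (h j haj) t (Finset.mem_erase.2 ⟨htj, htT⟩) (q2 t ht))
  obtain ⟨z, hz, hR⟩ := C.sp_reg hT hA (hone hx) hh.1
  have hal : ∀ u, al t u ≠ 0 → u = t := fun u hu => by
    by_contra h
    exact hu (by rw [al, Pi.single_eq_of_ne h])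
  have hQ0 : Q z (al t) := hmove x z _ (C.P_mono (Finset.erase_subset _ _) hz)
    (fun u hu => by rw [hal u hu]; exact hz)
    ⟨hx, fun u hu => by rw [hal u hu]; exact hh, fun h => hne (h t (by simp [al]))⟩
  have hD0 : Dv T p z (al t) ≤ 0 := by
    rw [sp_Dv_al ht, hp, C.sp_slope ht, (hQ0.2.1 t (by simp [al])).2, sub_self]
  have hR1 : F.Reg T 0 1 := fun i k hk j _ => hF.van0 j.1 i k hk j.2
  obtain ⟨y, hy, hzy, hzy'⟩ := C.directed hT (fun x => F.reg_down x) F.reg_lc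
    (C.sp_coset_symm (hone hQ0.1)) hR hR1
  have hy1 : y = 1 := by
    rcases hzy'.cases with h | ⟨s, hs, h⟩
    · exact h.symm
    · have := (h.down hG.down hy).van hs
      rw [one_mul] at this
      exact absurd this (hF.up s (hT₀ hs))
  subst hy1
  obtain ⟨w, hw, a, ha, hDa, hQa⟩ := C.prop_main hT hn hG h1 h3 (hone hQ0.1) hzy hy (sp_pt_al ht)
    hD0 hQ0
  have := C.fin_base hG (C.sp_coset_refl _ _) (fun t ht => by
      rw [hp, C.sp_slope ht, hF.hv0, sub_self]) (fun s hs => by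
      have a1 := hF.strict s (hT₀ hs)
      have a2 := hF.anti s (hT₀ hs)
      rw [D.bf_al] at a2
      rw [hp, C.sp_slope hs, one_mul]
      linarith) h1 hw ha (hDa.trans hD0) hQa
  exact this.2.2 (fun _ _ => one_mem _)

end Core

end Vale.Agent.P203
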