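import Vale.Agent.P203.NumDefs

namespace Vale.Agent.P203

variable {B W : Type} [Group W] {M : CoxeterMatrix B} [Fintype B] [DecidableEq B]
variable {cs : CoxeterSystem M W}

/-- The group of chambers with its cohomological height functions. -/
structure Core (D : Dat cs) where
  G : Type
  [grp : Group G]
  gen : B → G
  pi : G →* W
  pi_gen : ∀ s, pi (gen s) = cs.simple s
  lift : W → G
  lift_one : lift 1 = 1
  lift_mul_simple : ∀ w s, cs.length w < cs.length (w * cs.simple s) →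
    lift (w * cs.simple s) = lift w * gen s
  gen_top : Subgroup.closure (Set.range gen) = ⊤
  disj : ∀ T₁ T₂ : Finset B, Disjoint T₁ T₂ → ∀ x, x ∈ Subgroup.closure (gen '' (T₁ : Set B)) →
    x ∈ Subgroup.closure (gen '' (T₂ : Set B)) → x = 1
  Ob : Type 1
  H : Ob → G → ℤ → B × D.I → ℕ
  bdd : ∀ E x, ∃ K : ℤ, ∀ k, K < k → ∀ j, H E x k j = 0
  transl : ∀ E x, ∃ E', ∀ y, H E' y = H E (x * y)
  off : ∀ E x s k j, j.1 ≠ s → H E (x * gen s) k j = H E x k j
  kink : ∀ E x s k j, j.1 = s → ∑ i, D.mu j i * H E x k i ≤ H E (x * gen s) k j + H E x k j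
  down : ∀ Far s E x K, D.Orth Far {s} → LeH Far (H E (x * gen s)) K → LeH Far (H E x) K
  r1 : ∀ Far s E x K j, D.Orth Far {s} → LeH Far (H E (x * gen s * gen s)) K → j.1 = s →
    H E (x * gen s) K j ≤ H E x K j
  lc : ∀ Far T E x K, D.Orth Far T → LeH Far (H E x) K →
    (∀ s ∈ T, LeH Far (H E (x * gen s)) K) → ∀ w ∈ WP cs T, LeH Far (H E (x * lift w)) K
  clear : ∀ Far T E x K w₀, D.Orth Far T → IsW0 cs T w₀ → LeH Far (H E x) K →
    (∀ j : B × D.I, j.1 ∉ Far → j.1 ∉ T → H E x K j = 0) →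
    LeH Far (H E (x * (lift w₀)⁻¹)) (K - 1)
  stuck : ∀ Far T E z K t (φ : (B × D.I → ℤ) →+ ℝ) wq, D.Orth Far T → t ∈ T →
    (∀ w ∈ WP cs T, LeH Far (H E (z * lift w)) K) →
    (∀ a, H E (z * gen t) K (t, a) + H E z K (t, a) = ∑ i, D.mu (t, a) i * H E z K i) →
    (∀ j : B × D.I, j.1 ∈ T → j.1 ≠ t → D.c t j.1 = 0 → φ (D.e j) = 0) →
    (∀ j : B × D.I, j.1 ∈ T → D.c t j.1 ≠ 0 → φ (D.e j) < 0) →
    wq ∈ WP cs T → (∀ j : B × D.I, j.1 ∈ T → 0 ≤ φ (D.rho wq (D.e j))) →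
    φ (D.rho wq fun j => (H E (z * lift wq) K j : ℤ)) ≤ φ (fun j => (H E z K j : ℤ)) →
    ∀ w ∈ WP cs T, ∀ j : B × D.I, (j.1 = t ∨ D.c t j.1 ≠ 0) →
      D.rho w (fun j => (H E (z * lift w) K j : ℤ)) j = H E z K j
  simple : ∀ j, ∃ E, (∀ k i, H E 1 k i = if k = 0 ∧ i = j then 1 else 0) ∧
    H E (gen j.1) 1 j ≠ 0 ∧ H E (gen j.1)⁻¹ 0 j = 0

attribute [instance] Core.grp

namespace Core

variable {D : Dat cs} (C : Core D)

/-- Standard parabolic subgroups. -/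
def P (T : Finset B) : Subgroup C.G := Subgroup.closure (C.gen '' (T : Set B))

/-- `y` is `x` times a positive word in `T`. -/
def Pos (T : Finset B) (x y : C.G) : Prop :=
  ∃ ω : List B, (∀ s ∈ ω, s ∈ T) ∧ y = x * (ω.map C.gen).prod

/-- The chamber at position `w` of the apartment with top chamber `y`. -/
def ch (y : C.G) (w : W) : C.G := y * (C.lift w⁻¹)⁻¹

end Core

end Vale.Agent.P203
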