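import Vale.Agent.P203.NumAp

namespace Vale.Agent.P203

variable {B W : Type} [Group W] {M : CoxeterMatrix B} [Fintype B] [DecidableEq B]
variable {cs : CoxeterSystem M W}

namespace Cat

variable {D : Dat cs} (C : Cat D.gr)

theorem eqv_of_mk {g g' : List (B × Bool)} (h : FreeGroup.mk g = FreeGroup.mk g') (E : C.Ob) :
    C.Eqv (C.act E g) (C.act E g') := by
  have h1 : Relation.EqvGen FreeGroup.Red.Step g g' := Quot.eqvGen_exact h
  clear h
  induction h1 with
  | rel x y h =>
    obtain @⟨L₁, L₂, s, b⟩ := h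
    rw [act_append, act_append]
    cases b
    · exact (C.eqv_up_dn s _).act L₂
    · exact (C.eqv_dn_up s _).act L₂
  | refl x => exact fun _ => rfl
  | symm x y _ ih => exact ih.nb_symm
  | trans x y z _ _ ih ih' => exact ih.nb_trans ih'

/-- Words moving degrees by at most one and fixing classes. -/
def NgOk (g : List (B × Bool)) : Prop :=
  (∀ E K, C.Le E K → C.Le (C.act E g) (K + 1)) ∧ (∀ E K, C.Ge E K → C.Ge (C.act E g) (K - 1)) ∧
    ∀ E, C.cl (C.act E g) = C.cl E

theorem ng_opp {X Y : C.Ob} {k : ℤ} (h1 : C.Ge X k) (h2 : C.Le X k) (h3 : C.Ge Y (k - 1))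
    (h4 : C.Le Y (k - 1)) (h : C.cl X = C.cl Y) :
    (∀ i, C.h X k i = 0) ∧ ∀ i, C.h Y (k - 1) i = 0 := by
  rw [C.cl_one h1 h2, C.cl_one h3 h4, na_pred] at h
  have h5 := na_cancel h
  constructor <;> intro i <;> have := congrFun h5 i <;> simp only [hv, Pi.neg_apply] at this <;>
    omega

theorem ng_triv {g : List (B × Bool)} (h : C.NgOk g) (h' : C.NgOk (FreeGroup.invRev g)) :
    C.Triv g := by
  refine C.dev2 fun S k j hS => ?_
  have s1 := C.na_S_ge hS
  have s2 := C.na_S_le hS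
  have x1 := h.2.1 S k s1
  have x2 := h.1 S k s2
  have e := (C.eqv_invRev g S).h_eq
  have x3 : C.Le (C.act S g) k := by
    obtain ⟨A, Q, h1, h2, h3, h4⟩ := C.na_trunc (C.act S g) (k + 1)
    have h5 : C.Le Q (k + 1) := fun k' hk i => by
      have := h4 k' i
      rw [x2 k' hk] at this
      omega
    have h6 := h'.2.1 Q _ h3
    have h7 : C.Le (C.act Q (FreeGroup.invRev g)) (k + 1 - 1) := fun k' hk i => by
      have := C.nb_quo (C.ses_act h1 (FreeGroup.invRev g)) k' i
      rw [e, s2 k' (by omega), h'.1 A _ h2 _ (by omega)] at this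
      omega
    have h8 := (C.ng_opp h3 h5 h6 h7 (h'.2.2 Q).symm).1
    intro k' hk i
    by_cases hk' : k' = k + 1
    · rw [h4, h2 k' (by omega), hk', h8]
    · exact x2 k' (by omega) i
  have x4 : C.Ge (C.act S g) k := by
    obtain ⟨A, Q, h1, h2, h3, h4⟩ := C.na_trunc (C.act S g) k
    have h5 : C.Ge A (k - 1) := fun k' hk i => by
      have := h4 k' i
      rw [x1 k' hk] at this
      omega
    have h6 := h'.1 A _ h2
    rw [sub_add_cancel] at h6
    have h7 : C.Ge (C.act A (FreeGroup.invRev g)) k := fun k' hk i => by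
      have := C.nb_sub (C.ses_act h1 (FreeGroup.invRev g)) k' i
      rw [e, s1 k' hk, h'.2.1 Q _ h3 _ (by omega)] at this
      omega
    have h8 := (C.ng_opp h7 h6 h5 h2 (h'.2.2 A)).2
    intro k' hk i
    by_cases hk' : k' = k - 1
    · rw [h4, h3 k' hk, hk', h8]
    · exact x1 k' (by omega) i
  have x5 := h.2.2 S
  rw [C.cl_one x4 x3, C.cl_one s1 s2] at x5
  have x6 := na_cancel x5
  funext k' i
  rcases lt_trichotomy k' k with hk | hk | hk
  · rw [x4 k' hk, s1 k' hk]
  · have := congrFun x6 i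
    simp only [hv] at this
    rw [hk]
    omega
  · rw [x3 k' hk, s2 k' hk]

theorem ng_conj {g : List (B × Bool)} (h : C.Triv g) (s : B) (b : Bool) :
    C.NgOk ((s, b) :: g ++ [(s, !b)]) := by
  have l : ∀ E K, C.Le E K → C.Le (C.act E g) K := fun E K h' k hk j => by rw [h, h' k hk]
  have u : ∀ E K, C.Ge E K → C.Ge (C.act E g) K := fun E K h' k hk j => by rw [h, h' k hk]
  have c : ∀ x, D.rho (cs.simple s) (D.rho (cs.simple s) x) = x := fun x => by
    rw [← D.cox_rho_mul, cs.simple_mul_simple_self, map_one, Module.End.one_apply]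
  cases b
  · have e : ∀ E, C.act E ((s, false) :: g ++ [(s, !false)]) = C.up s (C.act (C.dn s E) g) :=
      fun E => C.act_append _ _ _
    refine ⟨fun E K h' => ?_, fun E K h' => ?_, fun E => ?_⟩ <;> rw [e]
    · exact C.le_up (l _ _ (C.le_dn h' s)) s
    · exact C.ge_up (u _ _ (C.ge_dn h' s)) s
    · rw [nb_cl_up, C.nb_cl_congr (h _), nb_cl_dn, c]
  · have e : ∀ E, C.act E ((s, true) :: g ++ [(s, !true)]) = C.dn s (C.act (C.up s E) g) :=
      fun E => C.act_append _ _ _
    refine ⟨fun E K h' => ?_, fun E K h' => ?_, fun E => ?_⟩ <;> rw [e]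
    · exact C.le_dn (l _ _ (C.le_up h' s)) s
    · exact C.ge_dn (u _ _ (C.ge_up h' s)) s
    · rw [nb_cl_dn, C.nb_cl_congr (h _), nb_cl_up, c]

theorem ng_mats {ω ω' : List B} (hω : cs.IsReduced ω) (hω' : cs.IsReduced ω')
    (h : cs.wordProd ω = cs.wordProd ω') : C.NgOk (dnw ω ++ upw ω') := by
  refine ⟨fun E K h' => ?_, fun E K h' => ?_, fun E => ?_⟩ <;> rw [act_append]
  · exact C.ap_up hω' (C.le_dnw h' ω)
  · exact C.ge_upw (C.ap_dn hω h') ω'
  · rw [cl_upw, cl_dnw, h, D.cox_rho_inv]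

theorem triv_conj {g : List (B × Bool)} (h : C.Triv g) (s : B) (b : Bool) :
    C.Triv ((s, b) :: g ++ [(s, !b)]) := by
  refine C.ng_triv (C.ng_conj h s b) ?_
  have e : FreeGroup.invRev ((s, b) :: g ++ [(s, !b)]) =
      (s, b) :: FreeGroup.invRev g ++ [(s, !b)] := by
    simp [FreeGroup.invRev]
  rw [e]
  refine C.ng_conj (fun E => ?_) s b
  have h1 := (C.eqv_invRev (FreeGroup.invRev g) E).h_eq
  rw [FreeGroup.invRev_invRev, h] at h1
  exact h1

theorem triv_matsumoto {ω ω' : List B} (hω : cs.IsReduced ω) (hω' : cs.IsReduced ω')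
    (h : cs.wordProd ω = cs.wordProd ω') : C.Triv (dnw ω ++ upw ω') := by
  refine C.ng_triv (C.ng_mats hω hω' h) ?_
  rw [FreeGroup.invRev_append, nb_invRev_upw, nb_invRev_dnw]
  exact C.ng_mats hω' hω h.symm

theorem triv_pi {g : List (B × Bool)} (h : C.Triv g) : cs.wordProd (g.map Prod.fst) = 1 := by
  refine inv_eq_one.1 (D.eq_one_of_rho fun j => ?_)
  obtain ⟨S, hS⟩ := C.simple j
  have h1 := C.cl_act S g
  rw [C.nb_cl_congr (h S), C.na_S_cl (k := 0) (j := j) hS] at h1
  simpa using h1.symm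

end Cat

end Vale.Agent.P203
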