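import Vale.Agent.P203.NumLC

namespace Vale.Agent.P203

variable {B W : Type} [Group W] {M : CoxeterMatrix B} [Fintype B] [DecidableEq B]
variable {cs : CoxeterSystem M W}

namespace Cat

variable {D : Dat cs} (C : Cat D.gr)

theorem ns_expand (D : Dat cs) (φ : (B × D.I → ℤ) →+ ℝ) (x : B × D.I → ℤ) :
    φ x = ∑ j, (x j : ℝ) * φ (D.e j) := by
  have e : x = ∑ j, x j • D.e j := by
    funext i
    simp [Dat.e, Finset.sum_apply, Pi.single_apply]
  conv_lhs => rw [e, map_sum]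
  exact Finset.sum_congr rfl fun j _ => by rw [map_zsmul, zsmul_eq_mul]

theorem ns_top {A E Q : C.Ob} {K : ℤ} (h : C.SES A E Q) (hA : C.Le A (K - 1)) (k : ℤ)
    (hk : K ≤ k) (i : B × D.I) : C.h E k i = C.h Q k i := by
  rw [C.nb_add h k i (Or.inl (hA _ (by omega) i)) (Or.inl (hA _ (by omega) i)),
    hA _ (by omega), zero_add]

theorem ns_cl {E A E2 : C.Ob} {K : ℤ} {ω : List B} (hE : C.Le E K)
    (hE' : C.Le (C.act E (upw ω)) K) (hω : cs.IsReduced ω) (g1 : C.SES A E E2)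
    (g2 : C.Le A (K - 1)) (g3 : C.Ge E2 (K - 1)) :
    (∀ i, C.h (C.act E2 (upw ω)) K i ≤ C.h (C.act E (upw ω)) K i) ∧
    D.rho (cs.wordProd ω) (C.hv (C.act E2 (upw ω)) K - C.hv (C.act E2 (upw ω)) (K - 1)) =
      C.hv E K - C.hv E2 (K - 1) := by
  have a1 := C.ap_up hω g2
  have a2 : ∀ k, K ≤ k → ∀ i, C.h (C.act E2 (upw ω)) k i ≤ C.h (C.act E (upw ω)) k i :=
    fun k hk i => by
      have := C.nb_quo (C.ses_act g1 (upw ω)) k i
      rwa [a1 _ (by omega), add_zero] at this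
  have a3 : C.Le (C.act E2 (upw ω)) K := fun k hk i => by
    have := a2 k hk.le i
    rw [hE' k hk] at this
    omega
  have a4 : C.Le E2 K := fun k hk i => by rw [← C.ns_top g1 g2 k hk.le, hE k hk]
  have a5 : C.hv E2 K = C.hv E K := by
    funext i
    simp only [hv, C.ns_top g1 g2 K le_rfl i]
  refine ⟨a2 K le_rfl, na_cancel (k := K) ?_⟩
  rw [← map_smul, ← C.cl_two (C.ge_upw g3 ω) a3, cl_upw, D.cox_rho_inv', C.cl_two g3 a4, a5]

theorem ns_hn {T : Finset B} {E : C.Ob} {K : ℤ} (φ : (B × D.I → ℤ) →+ ℝ) {ω : List B}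
    (hE : C.Le E K) (hE' : C.Le (C.act E (upw ω)) K) (hω : cs.IsReduced ω)
    (hT : ∀ s ∈ ω, s ∈ T)
    (hpos : ∀ j : B × D.I, j.1 ∈ T → 0 ≤ φ (D.rho (cs.wordProd ω) (D.e j)))
    (hle : φ (D.rho (cs.wordProd ω) (C.hv (C.act E (upw ω)) K)) ≤ φ (C.hv E K))
    {A E2 : C.Ob} (g1 : C.SES A E E2) (g2 : C.Le A (K - 1)) (g3 : C.Ge E2 (K - 1))
    (g4 : ∀ i : B × D.I, i.1 ∉ T → C.h E2 (K - 1) i = 0) : 0 ≤ φ (C.hv E2 (K - 1)) := by
  obtain ⟨h1, h2⟩ := C.ns_cl hE hE' hω g1 g2 g3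
  have h3 : 0 ≤ φ (D.rho (cs.wordProd ω) (C.hv (C.act E (upw ω)) K -
      (C.hv (C.act E2 (upw ω)) K - C.hv (C.act E2 (upw ω)) (K - 1)))) := by
    have e := ns_expand D (φ.comp (D.rho (cs.wordProd ω)).toAddMonoidHom)
      (C.hv (C.act E (upw ω)) K -
        (C.hv (C.act E2 (upw ω)) K - C.hv (C.act E2 (upw ω)) (K - 1)))
    simp only [AddMonoidHom.comp_apply, LinearMap.toAddMonoidHom_coe] at e
    rw [e]
    refine Finset.sum_nonneg fun i _ => ?_
    by_cases hi : i.1 ∈ T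
    · refine mul_nonneg (Int.cast_nonneg ?_) (hpos i hi)
      have := h1 i
      simp only [hv, Pi.sub_apply]
      omega
    · simp [hv, C.act_off (nl_upw hT) _ _ i hi, g4 i hi, C.ns_top g1 g2 K le_rfl i]
  rw [map_sub, h2, map_sub, map_sub] at h3
  linarith

theorem stuck_abs {T : Finset B} {E : C.Ob} {K : ℤ} {t : B} (φ : (B × D.I → ℤ) →+ ℝ)
    {ωq : List B} (ht : t ∈ T)
    (hR : ∀ ω : List B, cs.IsReduced ω → (∀ s ∈ ω, s ∈ T) → C.Le (C.act E (upw ω)) K)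
    (heq : ∀ a, C.h (C.up t E) K (t, a) + C.h E K (t, a) = ∑ i, D.mu (t, a) i * C.h E K i)
    (h0 : ∀ j : B × D.I, j.1 ∈ T → j.1 ≠ t → D.c t j.1 = 0 → φ (D.e j) = 0)
    (hneg : ∀ j : B × D.I, j.1 ∈ T → D.c t j.1 ≠ 0 → φ (D.e j) < 0)
    (hq : cs.IsReduced ωq) (hqT : ∀ s ∈ ωq, s ∈ T)
    (hpos : ∀ j : B × D.I, j.1 ∈ T → 0 ≤ φ (D.rho (cs.wordProd ωq) (D.e j)))
    (hle : φ (D.rho (cs.wordProd ωq) (C.hv (C.act E (upw ωq)) K)) ≤ φ (C.hv E K))
    {ω : List B} (hω : cs.IsReduced ω) (hT : ∀ s ∈ ω, s ∈ T) (j : B × D.I)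
    (hj : j.1 = t ∨ D.c t j.1 ≠ 0) :
    D.rho (cs.wordProd ω) (C.hv (C.act E (upw ω)) K) j = C.hv E K j := by
  have hE : C.Le E K := hR [] (by simp [CoxeterSystem.IsReduced]) (by simp)
  let Good : C.Ob → C.Ob → Prop := fun A E2 => C.SES A E E2 ∧ C.Le A (K - 1) ∧
    C.Ge E2 (K - 1) ∧ ∀ i : B × D.I, C.h E2 (K - 1) i ≠ 0 → i.1 ∈ T ∧ i.1 ≠ t ∧ D.c t i.1 = 0
  have ex : ∃ n, ∃ A E2, Good A E2 ∧ ∑ i : B × D.I, C.h A (K - 1) i = n := by
    obtain ⟨A, Q, h1, h2, h3, -⟩ := C.na_trunc E K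
    exact ⟨_, A, Q, ⟨h1, h2, fun k hk => h3 k (by omega),
      fun i hi => absurd (h3 _ (by omega) i) hi⟩, rfl⟩
  classical
  obtain ⟨A, E2, ⟨g1, g2, g3, g4⟩, hn⟩ := Nat.find_spec ex
  have hmin : ∀ A' E', Good A' E' → ∑ i : B × D.I, C.h A (K - 1) i ≤
      ∑ i : B × D.I, C.h A' (K - 1) i := fun A' E' h => by
    rw [hn]
    exact Nat.find_min' ex ⟨A', E', h, rfl⟩
  have eK := C.ns_top g1 g2
  have hb : ∀ i : B × D.I, i.1 ∈ T → C.b A (K - 1) i = 0 := by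
    intro i hi
    by_contra hb
    by_cases hit : i.1 = t
    · have a1 : C.h (C.up t E2) (K - 1) i = 0 := by
        rw [C.nb_shift hit (fun l _ => ?_) (fun l _ => by rw [g3 _ (by omega), mul_zero]),
          g3 _ (by omega)]
        by_cases hl : C.h E2 (K - 1) l = 0
        · rw [hl, mul_zero]
        · have := D.mu_eq_zero (g4 l hl).2.2 i.2 l.2
          rw [← hit] at this
          rw [show D.mu i l = 0 from this, zero_mul]
      have a2 := C.nb_add (C.ses_up t _ _ _ g1) K i (Or.inr a1)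
        (Or.inl (C.le_up g2 t _ (by omega) i))
      have a3 := C.b_le_up A (K - 1) i
      have a4 := C.nb_on E2 K hit
      have a5 := heq i.2
      rw [← hit] at a5
      rw [sub_add_cancel, hit] at a3
      simp only [← eK K le_rfl] at a4
      rw [hit] at a5
      have e : (t, i.2) = i := by rw [← hit]
      rw [e] at a5
      omega
    obtain ⟨A', S, p1, p2, p3, p4⟩ := C.nb_peel g2 hb
    obtain ⟨E', o1, o2⟩ := C.oct _ _ _ _ _ p1 g1
    have o3 : C.Ge E' (K - 1) := fun k hk l => by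
      have := C.nb_mid o2 k l
      rw [C.na_S_ge p3 k hk, g3 k hk] at this
      omega
    have o4 : ∀ l, C.h E' (K - 1) l = C.h S (K - 1) l + C.h E2 (K - 1) l := fun l =>
      C.nb_add o2 _ l (Or.inr (g3 _ (by omega) l)) (Or.inl (C.na_S_le p3 _ (by omega) l))
    have o5 : ∀ l, C.h E' (K - 1) l ≠ 0 → l = i ∨ C.h E2 (K - 1) l ≠ 0 := fun l hl => by
      by_contra h'
      rw [not_or, not_not] at h'
      rw [o4, h'.2, p3, if_neg fun h'' => h'.1 h''.2] at hl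
      exact hl rfl
    by_cases hc : D.c t i.1 = 0
    · have h1 := hmin A' E' ⟨o1, p2, o3, fun l hl => by
        rcases o5 l hl with h' | h'
        · rw [h']
          exact ⟨hi, hit, hc⟩
        · exact g4 l h'⟩
      refine absurd h1 (not_le.2 (Finset.sum_lt_sum (fun l _ => ?_) ⟨i, Finset.mem_univ _, ?_⟩))
      · rw [p4]
        omega
      · rw [p4, p3, if_pos ⟨rfl, rfl⟩]
        omega
    · have h1 := C.ns_hn φ hE (hR _ hq hqT) hq hqT hpos hle o1 p2 o3 fun l hl => by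
        by_contra h'
        rcases o5 l h' with h'' | h''
        · exact hl (h'' ▸ hi)
        · exact hl (g4 l h'').1
      have h2 : C.hv E' (K - 1) = D.e i + C.hv E2 (K - 1) := by
        rw [← C.na_S_hv p3]
        funext l
        simp only [hv, o4, Pi.add_apply, Nat.cast_add]
      have h3 : φ (C.hv E2 (K - 1)) = 0 := by
        rw [ns_expand D φ]
        refine Finset.sum_eq_zero fun l _ => ?_
        by_cases hl : C.h E2 (K - 1) l = 0
        · simp [hv, hl]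
        · rw [h0 l (g4 l hl).1 (g4 l hl).2.1 (g4 l hl).2.2, mul_zero]
      rw [h2, map_add, h3, add_zero] at h1
      exact absurd (hneg i hi hc) (not_lt.2 h1)
  have l1 : C.Le (C.act A (upw ω)) (K - 1) :=
    C.lc_abs hω hT g2 fun s hs => (C.le_up_iff g2 s).2 fun i hi => hb i (hi ▸ hs)
  have l2 : C.hv (C.act E (upw ω)) K = C.hv (C.act E2 (upw ω)) K := by
    funext i
    simp only [hv, C.ns_top (C.ses_act g1 (upw ω)) l1 K le_rfl i]
  have l3 := (C.ns_cl hE (hR _ hω hT) hω g1 g2 g3).2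
  have l4 : C.h E2 (K - 1) j = 0 := by
    by_contra h'
    exact hj.elim (g4 j h').2.1 fun h'' => h'' (g4 j h').2.2
  have l5 : D.rho (cs.wordProd ω) (C.hv (C.act E2 (upw ω)) (K - 1)) j = 0 := by
    obtain ⟨A1, Q1, t1, t2, t3, t4⟩ := C.na_trunc (C.act E2 (upw ω)) K
    have t5 : C.Ge A1 (K - 1) := fun k hk i => by
      have := t4 k i
      rw [C.ge_upw g3 ω k hk] at this
      omega
    have t6 : C.hv (C.act E2 (upw ω)) (K - 1) = C.hv A1 (K - 1) := by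
      funext i
      simp only [hv, t4, t3 (K - 1) (by omega) i, add_zero]
    have t7 : ∀ k, k ≤ K - 1 → ∀ i, C.h (C.act A1 (dnw ω)) k i ≤ C.h E2 k i := fun k hk i => by
      have := C.nb_sub (C.ses_act t1 (dnw ω)) k i
      rwa [(C.eqv_upw_dnw ω E2).h_eq, C.ap_dn hω t3 _ (by omega), add_zero] at this
    have t8 : C.Ge (C.act A1 (dnw ω)) (K - 1) := fun k hk i => by
      have := t7 k hk.le i
      rw [g3 k hk] at this
      omega
    have t9 := C.cl_dnw A1 ω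
    rw [C.cl_one t8 (C.le_dnw t2 ω), C.cl_one t5 t2, map_smul] at t9
    rw [t6, ← na_cancel t9]
    have := t7 _ le_rfl j
    simp only [hv]
    omega
  have l6 := congrFun l3 j
  rw [map_sub, Pi.sub_apply, Pi.sub_apply, l5, ← l2] at l6
  simp only [hv, l4] at l6 ⊢
  omega

theorem ns_fix {Far T : Finset B} (hO : D.Orth Far T) {x : B × D.I → ℤ}
    (hx : ∀ i : B × D.I, i.1 ∉ Far → x i = 0) {ω : List B} (hT : ∀ s ∈ ω, s ∈ T) :
    D.rho (cs.wordProd ω) x = x := by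
  induction ω with
  | nil => simp
  | cons s ω ih =>
    have hs := hT s List.mem_cons_self
    rw [cs.wordProd_cons, D.cox_rho_mul, ih fun u hu => hT u (List.mem_cons_of_mem _ hu)]
    funext j
    rw [D.rho_simple]
    split_ifs with hj
    · rw [hx j fun h => (hO _ h _ hs).1 hj, Finset.sum_eq_zero, neg_zero, add_zero]
      intro i _
      by_cases hi : i.1 ∈ Far
      · have := D.mu_eq_zero (hO _ hi _ hs).2 i.2 j.2
        rw [← hj] at this
        rw [D.mu_symm, show D.mu i j = 0 from this, Nat.cast_zero, zero_mul]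
      · rw [hx i hi, mul_zero]
    · rfl

theorem stuck_rel {Far T : Finset B} (hO : D.Orth Far T) {E : C.Ob} {K : ℤ} {t : B}
    (φ : (B × D.I → ℤ) →+ ℝ) {ωq : List B} (ht : t ∈ T)
    (hR : ∀ ω : List B, cs.IsReduced ω → (∀ s ∈ ω, s ∈ T) → LeH Far (C.h (C.act E (upw ω))) K)
    (heq : ∀ a, C.h (C.up t E) K (t, a) + C.h E K (t, a) = ∑ i, D.mu (t, a) i * C.h E K i)
    (h0 : ∀ j : B × D.I, j.1 ∈ T → j.1 ≠ t → D.c t j.1 = 0 → φ (D.e j) = 0)
    (hneg : ∀ j : B × D.I, j.1 ∈ T → D.c t j.1 ≠ 0 → φ (D.e j) < 0)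
    (hq : cs.IsReduced ωq) (hqT : ∀ s ∈ ωq, s ∈ T)
    (hpos : ∀ j : B × D.I, j.1 ∈ T → 0 ≤ φ (D.rho (cs.wordProd ωq) (D.e j)))
    (hle : φ (D.rho (cs.wordProd ωq) (C.hv (C.act E (upw ωq)) K)) ≤ φ (C.hv E K))
    {ω : List B} (hω : cs.IsReduced ω) (hT : ∀ s ∈ ω, s ∈ T) (j : B × D.I)
    (hj : j.1 = t ∨ D.c t j.1 ≠ 0) :
    D.rho (cs.wordProd ω) (C.hv (C.act E (upw ω)) K) j = C.hv E K j := by
  obtain ⟨A, h1, h2⟩ := C.red hO (E := E) (hR [] (by simp [CoxeterSystem.IsReduced]) (by simp))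
  have hFT : ∀ i : B × D.I, i.1 ∈ Far → i.1 ∉ T := fun i hi hi' => (hO _ hi _ hi').1 rfl
  have h3 : ∀ i : B × D.I, i.1 ∉ Far → C.h A K i = C.h E K i := h2 [] (by simp) K
  have hd : ∀ ω : List B, (∀ s ∈ ω, s ∈ T) →
      C.hv (C.act E (upw ω)) K = C.hv (C.act A (upw ω)) K + (C.hv E K - C.hv A K) := by
    intro ω hT
    funext i
    by_cases hi : i.1 ∈ Far
    · simp [hv, C.act_off (nl_upw hT) _ _ i (hFT i hi)]
    · simp [hv, h2 _ (nl_upw hT) K i hi, h3 i hi]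
  have hf : ∀ ω : List B, (∀ s ∈ ω, s ∈ T) →
      D.rho (cs.wordProd ω) (C.hv E K - C.hv A K) = C.hv E K - C.hv A K := fun ω hT =>
    ns_fix hO (fun i hi => by simp [hv, h3 i hi]) hT
  have key := C.stuck_abs (E := A) (K := K) φ ht (fun ω hω hT k hk i => ?_) (fun a => ?_) h0 hneg
    hq hqT hpos ?_ hω hT j hj
  · rw [hd ω hT, map_add, hf ω hT, Pi.add_apply, key]
    simp
  · by_cases hi : i.1 ∈ Far
    · rw [C.act_off (nl_upw hT) _ _ i (hFT i hi), h1 k hk]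
    · exact (h2 _ (nl_upw hT) k i hi).trans (hR ω hω hT k hk i hi)
  · have ha : (t, a).1 ∉ Far := fun h => hFT (t, a) h ht
    have e1 : C.h (C.up t A) K (t, a) = C.h (C.up t E) K (t, a) :=
      h2 [(t, true)] (by simpa using ht) K _ ha
    rw [e1, h3 _ ha, heq a]
    refine Finset.sum_congr rfl fun i _ => ?_
    by_cases hi : i.1 ∈ Far
    · have := D.mu_eq_zero (hO _ hi _ ht).2 i.2 a
      rw [D.mu_symm, show D.mu i (t, a) = 0 from this, zero_mul, zero_mul]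
    · rw [h3 i hi]
  · rw [hd ωq hqT, map_add, hf ωq hqT, map_add, map_sub] at hle
    linarith

end Cat

end Vale.Agent.P203
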