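import Vale.Agent.P203.CoreDefs
import Vale.Agent.P203.NumStuck
import Vale.Agent.P203.NumGrp

namespace Vale.Agent.P203

variable {B W : Type} [Group W] {M : CoxeterMatrix B} [Fintype B] [DecidableEq B]
variable {cs : CoxeterSystem M W}

namespace CoreExAux

variable {D : Dat cs} (C : Cat D.gr)

theorem triv_congr {g g' : List (B × Bool)} (h : FreeGroup.mk g = FreeGroup.mk g')
    (hg : C.Triv g) : C.Triv g' := fun E => ((C.eqv_of_mk h E).h_eq).symm.trans (hg E)

theorem triv_append {g g' : List (B × Bool)} (h : C.Triv g) (h' : C.Triv g') :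
    C.Triv (g ++ g') := fun E => by rw [C.act_append, h', h]

theorem triv_inv {g : List (B × Bool)} (h : C.Triv g) : C.Triv (FreeGroup.invRev g) := fun E => by
  have h1 := (C.eqv_invRev (FreeGroup.invRev g) E).h_eq
  rw [FreeGroup.invRev_invRev, h] at h1
  exact h1

theorem triv_cj {g : List (B × Bool)} (h : C.Triv g) (w : List (B × Bool)) :
    C.Triv (w ++ g ++ FreeGroup.invRev w) := by
  induction w with
  | nil => simpa using h
  | cons x w ih =>
    have := C.triv_conj ih x.1 x.2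
    simpa [FreeGroup.invRev] using this

/-- The words acting trivially. -/
def N : Subgroup (FreeGroup B) where
  carrier := {x | ∃ g, C.Triv g ∧ FreeGroup.mk g = x}
  one_mem' := ⟨[], fun _ => rfl, rfl⟩
  mul_mem' := by
    rintro _ _ ⟨g, hg, rfl⟩ ⟨g', hg', rfl⟩
    exact ⟨g ++ g', triv_append C hg hg', FreeGroup.mul_mk.symm⟩
  inv_mem' := by
    rintro _ ⟨g, hg, rfl⟩
    exact ⟨_, triv_inv C hg, FreeGroup.inv_mk.symm⟩

theorem mk_mem {g : List (B × Bool)} : FreeGroup.mk g ∈ N C ↔ C.Triv g :=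
  ⟨fun ⟨_, hg, e⟩ => triv_congr C e hg, fun h => ⟨g, h, rfl⟩⟩

instance normal : (N C).Normal := ⟨by
  rintro _ ⟨g, hg, rfl⟩ x
  rw [← FreeGroup.mk_toWord (x := x), FreeGroup.inv_mk, FreeGroup.mul_mk, FreeGroup.mul_mk]
  exact (mk_mem C).2 (triv_cj C hg _)⟩

/-- The class of a word. -/
def wd (g : List (B × Bool)) : FreeGroup B ⧸ N C := QuotientGroup.mk (FreeGroup.mk g)

theorem wd_nil : wd C [] = 1 := rfl

theorem wd_append (g g' : List (B × Bool)) : wd C g * wd C g' = wd C (g ++ g') := rfl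

theorem wd_inv (g : List (B × Bool)) : (wd C g)⁻¹ = wd C (FreeGroup.invRev g) := rfl

theorem wd_surj (x : FreeGroup B ⧸ N C) : ∃ g, x = wd C g := by
  obtain ⟨y, rfl⟩ := QuotientGroup.mk_surjective x
  exact ⟨y.toWord, by rw [wd, FreeGroup.mk_toWord]⟩

theorem wd_eq {g g' : List (B × Bool)} :
    wd C g = wd C g' ↔ C.Triv (FreeGroup.invRev g ++ g') := by
  rw [wd, wd, QuotientGroup.eq, FreeGroup.inv_mk, FreeGroup.mul_mk, mk_mem]

theorem h_congr {g g' : List (B × Bool)} (h : wd C g = wd C g') (E : C.Ob) :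
    C.h (C.act E g) = C.h (C.act E g') := by
  have h1 := (wd_eq C).1 h (C.act E g)
  rw [← C.act_append] at h1
  rw [← h1]
  refine (C.eqv_of_mk ?_ E).h_eq
  rw [← FreeGroup.mul_mk, ← FreeGroup.mul_mk, ← FreeGroup.inv_mk, mul_inv_cancel_left]

/-- The height functions. -/
noncomputable def H (E : C.Ob) (x : FreeGroup B ⧸ N C) : ℤ → B × D.I → ℕ :=
  C.h (C.act E (wd_surj C x).choose)

theorem H_wd (E : C.Ob) (g : List (B × Bool)) : H C E (wd C g) = C.h (C.act E g) :=
  (h_congr C (wd_surj C (wd C g)).choose_spec E).symm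

theorem H_gen (E : C.Ob) (g : List (B × Bool)) (s : B) :
    H C E (wd C g * wd C [(s, true)]) = C.h (C.up s (C.act E g)) := by
  rw [wd_append, H_wd, C.act_append]
  rfl

omit [Fintype B] [DecidableEq B] in
theorem lift_mk (g : List (B × Bool)) :
    FreeGroup.lift cs.simple (FreeGroup.mk g) = cs.wordProd (g.map Prod.fst) := by
  rw [FreeGroup.lift_mk, CoxeterSystem.wordProd, List.map_map]
  congr 1
  refine List.map_congr_left fun x _ => ?_
  cases x.2 <;> simp

/-- The projection to the Coxeter group. -/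
def pi : FreeGroup B ⧸ N C →* W :=
  QuotientGroup.lift (N C) (FreeGroup.lift cs.simple) (by
    rintro _ ⟨g, hg, rfl⟩
    exact (lift_mk g).trans (C.triv_pi hg))

omit [Fintype B] [DecidableEq B] in
theorem invRev_upw (ω : List B) : FreeGroup.invRev (upw ω) = dnw ω := by
  simp [FreeGroup.invRev, upw, dnw, Function.comp_def]

/-- The positive lift. -/
noncomputable def lift (w : W) : FreeGroup B ⧸ N C := wd C (upw (cs.exists_isReduced w).choose)

theorem lift_eq {ω : List B} (hω : cs.IsReduced ω) : lift C (cs.wordProd ω) = wd C (upw ω) := by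
  have h := (cs.exists_isReduced (cs.wordProd ω)).choose_spec
  rw [lift, wd_eq, invRev_upw]
  exact C.triv_matsumoto h.1 hω h.2.symm

theorem H_lift (E : C.Ob) (g : List (B × Bool)) {ω : List B} (hω : cs.IsReduced ω) :
    H C E (wd C g * lift C (cs.wordProd ω)) = C.h (C.act (C.act E g) (upw ω)) := by
  rw [lift_eq C hω, wd_append, H_wd, C.act_append]

theorem mem_cl {T : Finset B} {x : FreeGroup B ⧸ N C}
    (hx : x ∈ Subgroup.closure ((fun s => wd C [(s, true)]) '' (T : Set B))) :
    ∃ g : List (B × Bool), (∀ y ∈ g, y.1 ∈ T) ∧ x = wd C g := by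
  induction hx using Subgroup.closure_induction with
  | mem x hx =>
    obtain ⟨s, hs, rfl⟩ := hx
    exact ⟨[(s, true)], by simpa using hs, rfl⟩
  | one => exact ⟨[], by simp, rfl⟩
  | mul x y _ _ hx hy =>
    obtain ⟨g, hg, rfl⟩ := hx
    obtain ⟨g', hg', rfl⟩ := hy
    exact ⟨g ++ g', fun y hy => (List.mem_append.1 hy).elim (hg y) (hg' y), rfl⟩
  | inv x _ hx =>
    obtain ⟨g, hg, rfl⟩ := hx
    refine ⟨FreeGroup.invRev g, fun y hy => ?_, rfl⟩
    simp only [FreeGroup.invRev, List.mem_reverse, List.mem_map] at hy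
    obtain ⟨z, hz, rfl⟩ := hy
    exact hg z hz

theorem gen_top : Subgroup.closure (Set.range fun s => wd C [(s, true)]) = ⊤ := by
  have h := congrArg (Subgroup.map (QuotientGroup.mk' (N C))) (FreeGroup.closure_range_of B)
  rw [MonoidHom.map_closure, ← Set.range_comp, ← MonoidHom.range_eq_map,
    QuotientGroup.range_mk'] at h
  exact h

end CoreExAux

open CoreExAux in
theorem core_of_cat {D : Dat cs} (C : Cat D.gr) : Nonempty (Core D) := by
  refine ⟨{
    G := FreeGroup B ⧸ N C
    gen := fun s => wd C [(s, true)]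
    pi := CoreExAux.pi C
    pi_gen := fun s => (lift_mk [(s, true)]).trans (cs.wordProd_singleton s)
    lift := lift C
    lift_one := lift_eq C (ω := []) (by simp [CoxeterSystem.IsReduced])
    lift_mul_simple := ?_
    gen_top := gen_top C
    disj := ?_
    Ob := C.Ob
    H := H C
    bdd := ?_
    transl := ?_
    off := ?_
    kink := ?_
    down := ?_
    r1 := ?_
    lc := ?_
    clear := ?_
    stuck := ?_
    simple := ?_ }⟩
  · intro w s h
    obtain ⟨ω, hω, rfl⟩ := cs.exists_isReduced w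
    have e : cs.wordProd ω * cs.simple s = cs.wordProd (ω ++ [s]) := by
      rw [cs.wordProd_append, cs.wordProd_singleton]
    have hr : cs.IsReduced (ω ++ [s]) := by
      have h1 := cs.length_mul_simple (cs.wordProd ω) s
      have h2 := hω.eq
      rw [CoxeterSystem.IsReduced, ← e, List.length_append, List.length_singleton]
      omega
    rw [e, lift_eq C hr, lift_eq C hω, wd_append]
    simp [upw]
  · intro T₁ T₂ hT x h₁ h₂
    obtain ⟨g₁, hg₁, rfl⟩ := mem_cl C h₁
    obtain ⟨g₂, hg₂, e⟩ := mem_cl C h₂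
    refine ((wd_eq C (g := [])).2 fun E => ?_).symm
    funext k j
    by_cases hj : j.1 ∈ T₁
    · exact (congrFun (congrFun (h_congr C e E) k) j).trans
        (C.act_off hg₂ E k j (Finset.disjoint_left.1 hT hj))
    · exact C.act_off hg₁ E k j hj
  · intro E x
    obtain ⟨n, hn⟩ := C.bdd (C.act E (wd_surj C x).choose)
    exact ⟨n, fun k hk j => hn k (hk.trans_le (le_abs_self k)) j⟩
  · intro E x
    obtain ⟨g, rfl⟩ := wd_surj C x
    refine ⟨C.act E g, fun y => ?_⟩
    obtain ⟨g', rfl⟩ := wd_surj C y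
    rw [wd_append, H_wd, H_wd, C.act_append]
  · intro E x s k j hj
    obtain ⟨g, rfl⟩ := wd_surj C x
    rw [H_gen, H_wd]
    exact C.up_off s _ k j hj
  · intro E x s k j hj
    obtain ⟨g, rfl⟩ := wd_surj C x
    rw [H_gen, H_wd]
    exact (Nat.le_add_right _ _).trans ((Nat.le_add_right _ _).trans (C.up_on s _ k j hj).ge)
  · intro Far s E x K hO h
    obtain ⟨g, rfl⟩ := wd_surj C x
    rw [H_gen] at h
    rw [H_wd]
    exact C.down_rel hO h
  · intro Far s E x K j hO h hj
    obtain ⟨g, rfl⟩ := wd_surj C x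
    rw [wd_append, H_gen, C.act_append] at h
    rw [H_gen, H_wd]
    exact C.r1_rel hO h j hj
  · intro Far T E x K hO h hs w hw
    obtain ⟨g, rfl⟩ := wd_surj C x
    obtain ⟨ω, hT, hω, rfl⟩ := D.exists_word hw
    simp only [H_gen] at hs
    rw [H_wd] at h
    rw [H_lift C E g hω]
    exact C.lc_rel hO hω hT h hs
  · intro Far T E x K w₀ hO h0 h hK
    obtain ⟨g, rfl⟩ := wd_surj C x
    obtain ⟨ω, hT, hω, rfl⟩ := D.exists_word h0.1
    rw [H_wd] at h hK
    rw [lift_eq C hω, wd_inv, invRev_upw, wd_append, H_wd, C.act_append]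
    exact C.clear_rel hO hω hT h0 h hK
  · intro Far T E z K t φ wq hO ht hR heq h0 hneg hq hpos hle w hw j hj
    obtain ⟨g, rfl⟩ := wd_surj C z
    obtain ⟨ω, hT, hω, rfl⟩ := D.exists_word hw
    obtain ⟨ωq, hqT, hωq, rfl⟩ := D.exists_word hq
    rw [H_gen, H_wd] at heq
    rw [H_lift C E g hωq, H_wd] at hle
    rw [H_lift C E g hω, H_wd]
    refine C.stuck_rel hO φ ht (fun ω' hω' hT' => ?_) heq h0 hneg hωq hqT hpos hle hω hT j hj
    rw [← H_lift C E g hω']
    refine hR _ (Subgroup.list_prod_mem _ fun y hy => ?_)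
    obtain ⟨s, hs, rfl⟩ := List.mem_map.1 hy
    exact simple_mem_WP (hT' s hs)
  · intro j
    obtain ⟨E, hE⟩ := C.simple j
    have hs : ∀ k (i : B × D.I), i.1 ≠ j.1 → C.h E k i = 0 := fun k i hi => by
      rw [hE, if_neg fun h => hi (congrArg Prod.fst h.2)]
    refine ⟨E, fun k i => ?_, ?_, ?_⟩
    · rw [← wd_nil, H_wd]
      exact hE k i
    · rw [H_wd, Cat.act_cons_true, Cat.act_nil, C.up_supp hs, hE]
      simp
    · rw [wd_inv, H_wd]
      change C.h (C.dn j.1 E) 0 j = 0
      rw [C.dn_supp hs, hE]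
      simp

end Vale.Agent.P203
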