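import Vale.Agent.P203.TopDefs

namespace Vale.Agent.P203

open Function

variable {α β : Type}

/-- Push forward of a weight function along a map. -/
noncomputable def cvG (f : α → β) (x : α → ℝ) (b : β) : ℝ := ∑ᶠ a ∈ f ⁻¹' {b}, x a

theorem cv_rel {R : α → α → Prop} (hrefl : ∀ a, R a a) {P : Set α} {x : α → ℝ}
    (hx : x ∈ geo R P) {a a' : α} (ha : x a ≠ 0) (ha' : x a' ≠ 0) : R a a' := by
  by_cases h : a = a'
  · subst h; exact hrefl a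
  · exact hx.2.2.2.1 ha ha' h

theorem cv_ex {R : α → α → Prop} {P : Set α} {x : α → ℝ} (hx : x ∈ geo R P) :
    ∃ a, x a ≠ 0 := by
  by_contra h
  push Not at h
  have h1 := hx.2.2.2.2
  have h2 : x = fun _ => 0 := funext h
  rw [h2] at h1
  simp at h1

theorem cvG_single (f : α → β) (x : α → ℝ) (a : α)
    (h : ∀ a', f a' = f a → x a' ≠ 0 → a' = a) : cvG f x (f a) = x a := by
  classical
  unfold cvG
  rw [finsum_mem_def, finsum_eq_single _ a]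
  · exact Set.indicator_of_mem (by simp) _
  · intro a' ha'
    by_cases h1 : a' ∈ f ⁻¹' {f a}
    · rw [Set.indicator_of_mem h1]
      by_contra h2
      exact ha' (h a' h1 h2)
    · exact Set.indicator_of_notMem h1 _

theorem cvG_zero (f : α → β) (x : α → ℝ) (b : β) (h : ∀ a, f a = b → x a = 0) :
    cvG f x b = 0 := by
  unfold cvG
  exact finsum_mem_of_eqOn_zero (fun a ha => h a ha)

theorem cvG_nonneg (f : α → β) (x : α → ℝ) (b : β) (h : ∀ a, 0 ≤ x a) : 0 ≤ cvG f x b := by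
  unfold cvG
  exact finsum_nonneg (fun a => finsum_nonneg (fun _ => h a))

section

variable {R : α → α → Prop} {R' : β → β → Prop} {P : Set α} {Q : Set β} {f : α → β}

theorem cvG_key (hrefl : ∀ a, R a a)
    (huniq : ∀ a ∈ P, ∀ a₁ ∈ P, ∀ a₂ ∈ P, R a a₁ → R a a₂ → f a₁ = f a₂ → a₁ = a₂)
    {x : α → ℝ} (hx : x ∈ geo R P) {a₀ a : α} (h0 : x a₀ ≠ 0) (ha : a ∈ P) (hr : R a₀ a) :
    cvG f x (f a) = x a := by
  refine cvG_single f x a (fun a' h1 h2 => ?_)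
  exact huniq a₀ (hx.2.2.1 h0) a' (hx.2.2.1 h2) a ha (cv_rel hrefl hx h0 h2) hr h1

theorem cvG_supp (hrefl : ∀ a, R a a)
    (huniq : ∀ a ∈ P, ∀ a₁ ∈ P, ∀ a₂ ∈ P, R a a₁ → R a a₂ → f a₁ = f a₂ → a₁ = a₂)
    {x : α → ℝ} (hx : x ∈ geo R P) : support (cvG f x) = f '' support x := by
  ext b
  constructor
  · intro hb
    by_contra h
    refine hb (cvG_zero f x b (fun a ha => ?_))
    by_contra h2
    exact h ⟨a, h2, ha⟩
  · rintro ⟨a, ha, rfl⟩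
    have := cvG_key hrefl huniq hx ha (hx.2.2.1 ha) (hrefl a)
    show cvG f x (f a) ≠ 0
    rw [this]
    exact ha

theorem cvG_mem (hrefl : ∀ a, R a a) (hmaps : Set.MapsTo f P Q)
    (hrel : ∀ a ∈ P, ∀ a' ∈ P, R a a' → R' (f a) (f a'))
    (huniq : ∀ a ∈ P, ∀ a₁ ∈ P, ∀ a₂ ∈ P, R a a₁ → R a a₂ → f a₁ = f a₂ → a₁ = a₂)
    {x : α → ℝ} (hx : x ∈ geo R P) : cvG f x ∈ geo R' Q := by
  have hs := cvG_supp hrefl huniq hx
  refine ⟨fun b => cvG_nonneg f x b hx.1, ?_, ?_, ?_, ?_⟩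
  · rw [hs]; exact hx.2.1.image f
  · rw [hs]
    rintro b ⟨a, ha, rfl⟩
    exact hmaps (hx.2.2.1 ha)
  · rw [hs]
    rintro b ⟨a, ha, rfl⟩ b' ⟨a', ha', rfl⟩ _
    exact hrel a (hx.2.2.1 ha) a' (hx.2.2.1 ha') (cv_rel hrefl hx ha ha')
  · rw [← hx.2.2.2.2, ← finsum_mem_support (cvG f x), ← finsum_mem_support x]
    symm
    refine finsum_mem_eq_of_bijOn f ⟨?_, ?_, ?_⟩ ?_
    · intro a ha
      rw [hs]
      exact ⟨a, ha, rfl⟩
    · intro a ha a' ha' h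
      exact huniq a (hx.2.2.1 ha) a (hx.2.2.1 ha) a' (hx.2.2.1 ha') (hrefl a)
        (cv_rel hrefl hx ha ha') h
    · rw [hs]
      exact Set.surjOn_image f _
    · intro a ha
      exact (cvG_key hrefl huniq hx ha (hx.2.2.1 ha) (hrefl a)).symm

theorem cvG_cont (hrefl : ∀ a, R a a)
    (huniq : ∀ a ∈ P, ∀ a₁ ∈ P, ∀ a₂ ∈ P, R a a₁ → R a a₂ → f a₁ = f a₂ → a₁ = a₂) :
    Continuous (fun x : geo R P => cvG f x.1) := by
  refine continuous_pi (fun b => continuous_iff_continuousAt.2 (fun x₀ => ?_))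
  obtain ⟨a₀, h0⟩ := cv_ex x₀.2
  have hc : ∀ a, Continuous (fun x : geo R P => x.1 a) := fun a =>
    (continuous_apply a).comp continuous_subtype_val
  have hev : ∀ᶠ x : geo R P in nhds x₀, x.1 a₀ ≠ 0 :=
    (hc a₀).continuousAt.eventually_ne h0
  by_cases h : ∃ a ∈ P, R a₀ a ∧ f a = b
  · obtain ⟨a, ha, hr, rfl⟩ := h
    refine (hc a).continuousAt.congr ?_
    filter_upwards [hev] with x hx
    exact (cvG_key hrefl huniq x.2 hx ha hr).symm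
  · refine (continuousAt_const (y := (0 : ℝ))).congr ?_
    filter_upwards [hev] with x hx
    refine (cvG_zero f x.1 b (fun a ha => ?_)).symm
    by_contra h2
    exact h ⟨a, x.2.2.2.1 h2, cv_rel hrefl x.2 hx h2, ha⟩

open Classical in
/-- The local section over the star of `f a₀`. -/
noncomputable def cvS (R : α → α → Prop) (P : Set α) (f : α → β) (a₀ : α) (y : β → ℝ)
    (a : α) : ℝ := if a ∈ P ∧ R a₀ a then y (f a) else 0

theorem cvS_ne {a₀ : α} {y : β → ℝ} {a : α} (h : cvS R P f a₀ y a ≠ 0) :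
    a ∈ P ∧ R a₀ a ∧ y (f a) ≠ 0 := by
  unfold cvS at h
  split_ifs at h with h1
  · exact ⟨h1.1, h1.2, h⟩
  · exact absurd rfl h

theorem cvS_eq {a₀ : α} (y : β → ℝ) {a : α} (h1 : a ∈ P) (h2 : R a₀ a) :
    cvS R P f a₀ y a = y (f a) := by
  unfold cvS
  rw [if_pos ⟨h1, h2⟩]

theorem cvS_cont (a₀ : α) : Continuous (fun y : β → ℝ => cvS R P f a₀ y) := by
  refine continuous_pi (fun a => ?_)
  unfold cvS
  split_ifs
  · exact continuous_apply _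
  · exact continuous_const

theorem cvS_mem (hrefl' : ∀ b, R' b b)
    (hex : ∀ a ∈ P, ∀ b ∈ Q, R' (f a) b → ∃ a' ∈ P, R a a' ∧ f a' = b)
    (huniq : ∀ a ∈ P, ∀ a₁ ∈ P, ∀ a₂ ∈ P, R a a₁ → R a a₂ → f a₁ = f a₂ → a₁ = a₂)
    (hrefl2 : ∀ a ∈ P, ∀ a₁ ∈ P, ∀ a₂ ∈ P, R a a₁ → R a a₂ → R' (f a₁) (f a₂) → R a₁ a₂)
    {a₀ : α} (ha₀ : a₀ ∈ P) {y : β → ℝ} (hy : y ∈ geo R' Q) (h0 : y (f a₀) ≠ 0) :
    cvS R P f a₀ y ∈ geo R P := by
  have hinj : Set.InjOn f (support (cvS R P f a₀ y)) := by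
    intro a ha a' ha' h
    exact huniq a₀ ha₀ a (cvS_ne ha).1 a' (cvS_ne ha').1 (cvS_ne ha).2.1 (cvS_ne ha').2.1 h
  have hmap : Set.MapsTo f (support (cvS R P f a₀ y)) (support y) := fun a ha =>
    (cvS_ne ha).2.2
  refine ⟨fun a => ?_, Set.Finite.of_injOn hmap hinj hy.2.1, fun a ha => (cvS_ne ha).1, ?_, ?_⟩
  · unfold cvS
    split_ifs
    · exact hy.1 _
    · exact le_rfl
  · intro a ha a' ha' _
    exact hrefl2 a₀ ha₀ a (cvS_ne ha).1 a' (cvS_ne ha').1 (cvS_ne ha).2.1 (cvS_ne ha').2.1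
      (cv_rel hrefl' hy (cvS_ne ha).2.2 (cvS_ne ha').2.2)
  · rw [← hy.2.2.2.2, ← finsum_mem_support (cvS R P f a₀ y), ← finsum_mem_support y]
    refine finsum_mem_eq_of_bijOn f ⟨hmap, hinj, ?_⟩ ?_
    · intro b hb
      obtain ⟨a, ha, hr, rfl⟩ := hex a₀ ha₀ b (hy.2.2.1 hb) (cv_rel hrefl' hy h0 hb)
      refine ⟨a, ?_, rfl⟩
      show cvS R P f a₀ y a ≠ 0
      rw [cvS_eq y ha hr]
      exact hb
    · intro a ha
      exact cvS_eq y (cvS_ne ha).1 (cvS_ne ha).2.1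

theorem cvG_cvS (hrefl' : ∀ b, R' b b)
    (hex : ∀ a ∈ P, ∀ b ∈ Q, R' (f a) b → ∃ a' ∈ P, R a a' ∧ f a' = b)
    (huniq : ∀ a ∈ P, ∀ a₁ ∈ P, ∀ a₂ ∈ P, R a a₁ → R a a₂ → f a₁ = f a₂ → a₁ = a₂)
    {a₀ : α} (ha₀ : a₀ ∈ P) {y : β → ℝ} (hy : y ∈ geo R' Q) (h0 : y (f a₀) ≠ 0) :
    cvG f (cvS R P f a₀ y) = y := by
  funext b
  by_cases h : ∃ a ∈ P, R a₀ a ∧ f a = b
  · obtain ⟨a, ha, hr, rfl⟩ := h
    rw [cvG_single f _ a, cvS_eq y ha hr]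
    intro a' h1 h2
    exact huniq a₀ ha₀ a' (cvS_ne h2).1 a ha (cvS_ne h2).2.1 hr h1
  · have hb : y b = 0 := by
      by_contra hb
      exact h (hex a₀ ha₀ b (hy.2.2.1 hb) (cv_rel hrefl' hy h0 hb))
    rw [hb]
    refine cvG_zero f _ b (fun a ha => ?_)
    by_contra h2
    exact h ⟨a, (cvS_ne h2).1, (cvS_ne h2).2.1, ha⟩

theorem cvS_cvG (hrefl : ∀ a, R a a)
    (huniq : ∀ a ∈ P, ∀ a₁ ∈ P, ∀ a₂ ∈ P, R a a₁ → R a a₂ → f a₁ = f a₂ → a₁ = a₂)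
    {x : α → ℝ} (hx : x ∈ geo R P) {a₀ : α} (h0 : x a₀ ≠ 0) :
    cvS R P f a₀ (cvG f x) = x := by
  funext a
  by_cases h : a ∈ P ∧ R a₀ a
  · rw [cvS_eq _ h.1 h.2, cvG_key hrefl huniq hx h0 h.1 h.2]
  · have h1 : x a = 0 := by
      by_contra h2
      exact h ⟨hx.2.2.1 h2, cv_rel hrefl hx h0 h2⟩
    rw [h1]
    by_contra h2
    exact h ⟨(cvS_ne h2).1, (cvS_ne h2).2.1⟩

end

/-- The realization of a covering of flag complexes is an open continuous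
surjection that is injective on open stars. -/
theorem geo_push {R : α → α → Prop} {R' : β → β → Prop} (hR : ∀ a b, R a b → R b a)
    (hrefl : ∀ a, R a a) (hrefl' : ∀ b, R' b b)
    {P : Set α} {Q : Set β} (f : α → β) (hmaps : Set.MapsTo f P Q) (hsurj : Set.SurjOn f P Q)
    (hrel : ∀ a ∈ P, ∀ a' ∈ P, R a a' → R' (f a) (f a'))
    (hex : ∀ a ∈ P, ∀ b ∈ Q, R' (f a) b → ∃ a' ∈ P, R a a' ∧ f a' = b)
    (huniq : ∀ a ∈ P, ∀ a₁ ∈ P, ∀ a₂ ∈ P, R a a₁ → R a a₂ → f a₁ = f a₂ → a₁ = a₂)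
    (hrefl2 : ∀ a ∈ P, ∀ a₁ ∈ P, ∀ a₂ ∈ P, R a a₁ → R a a₂ → R' (f a₁) (f a₂) → R a₁ a₂) :
    ∃ g : C(geo R P, geo R' Q), IsOpenMap g ∧ Surjective g ∧
      (∀ (x : geo R P) (b : β), (g x).1 b = ∑ᶠ a ∈ f ⁻¹' {b}, x.1 a) ∧
      (∀ (x : geo R P) (a₀ a : α), x.1 a₀ ≠ 0 → a ∈ P → R a₀ a → (g x).1 (f a) = x.1 a) := by
  classical
  let g : C(geo R P, geo R' Q) :=
    ⟨fun x => ⟨cvG f x.1, cvG_mem hrefl hmaps hrel huniq x.2⟩,
      (cvG_cont hrefl huniq).subtype_mk _⟩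
  have hg : ∀ x : geo R P, (g x).1 = cvG f x.1 := fun _ => rfl
  have hs : Surjective g := by
    intro y
    obtain ⟨b, hb⟩ := cv_ex y.2
    obtain ⟨a₀, ha₀, rfl⟩ := hsurj (y.2.2.2.1 hb)
    exact ⟨⟨cvS R P f a₀ y.1, cvS_mem hrefl' hex huniq hrefl2 ha₀ y.2 hb⟩,
      Subtype.ext (cvG_cvS hrefl' hex huniq ha₀ y.2 hb)⟩
  refine ⟨g, ?_, hs, fun x b => rfl, fun x a₀ a h0 ha hr => cvG_key hrefl huniq x.2 h0 ha hr⟩
  refine IsOpenMap.of_sections (fun x => ?_)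
  obtain ⟨a₀, h0⟩ := cv_ex x.2
  have ha₀ : a₀ ∈ P := x.2.2.2.1 h0
  have h1 : (g x).1 (f a₀) ≠ 0 := by
    rw [hg, cvG_key hrefl huniq x.2 h0 ha₀ (hrefl a₀)]
    exact h0
  let s : geo R' Q → geo R P := fun y =>
    if h : y.1 (f a₀) ≠ 0 then ⟨cvS R P f a₀ y.1, cvS_mem hrefl' hex huniq hrefl2 ha₀ y.2 h⟩
    else surjInv hs y
  have hsv : ∀ y : geo R' Q, y.1 (f a₀) ≠ 0 → (s y).1 = cvS R P f a₀ y.1 := by
    intro y hy
    simp only [s, dif_pos hy]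
  refine ⟨s, ?_, ?_, ?_⟩
  · rw [Topology.IsInducing.subtypeVal.continuousAt_iff]
    have hc : Continuous (fun y : geo R' Q => y.1 (f a₀)) :=
      (continuous_apply _).comp continuous_subtype_val
    have hev : ∀ᶠ y : geo R' Q in nhds (g x), y.1 (f a₀) ≠ 0 :=
      hc.continuousAt.eventually_ne h1
    refine (((cvS_cont (R := R) (P := P) (f := f) a₀).comp
      continuous_subtype_val).continuousAt).congr ?_
    filter_upwards [hev] with y hy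
    exact (hsv y hy).symm
  · apply Subtype.ext
    rw [hsv _ h1, hg]
    exact cvS_cvG hrefl huniq x.2 h0
  · intro y
    by_cases hy : y.1 (f a₀) ≠ 0
    · apply Subtype.ext
      rw [hg, hsv y hy]
      exact cvG_cvS hrefl' hex huniq ha₀ y.2 hy
    · have : s y = surjInv hs y := by simp only [s, dif_neg hy]
      rw [this]
      exact surjInv_eq hs y

end Vale.Agent.P203
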