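import Vale.Agent.P203.SalBasic
import Vale.Agent.P203.TopCover

namespace Vale.Agent.P203

variable {B W : Type} [Group W] {M : CoxeterMatrix B} [Fintype B] [DecidableEq B]
variable {cs : CoxeterSystem M W}

namespace Core

variable {D : Dat cs} (C : Core D)

theorem cv_mem {a : C.G × Finset B} : a ∈ C.SS 1 Finset.univ ↔ Sph cs a.2 :=
  ⟨fun h => h.2.2, fun h => ⟨by rw [C.P_univ]; trivial, Finset.subset_univ _, h⟩⟩

theorem SS_locallyFinite : ∀ a ∈ C.SS 1 Finset.univ,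
    {b | b ∈ C.SS 1 Finset.univ ∧ C.scmp a b}.Finite := by
  intro a ha
  have h1 : (⋃ T ∈ {T : Finset B | Sph cs T},
      (fun w => (a.1 * (C.lift w)⁻¹, T)) '' (WP cs T : Set W)).Finite :=
    (Set.toFinite _).biUnion (fun T hT => Set.Finite.image _ hT)
  have h2 : (⋃ T : Finset B, (fun w => (a.1 * C.lift w, T)) '' (WP cs a.2 : Set W)).Finite :=
    Set.finite_iUnion (fun T => Set.Finite.image _ (C.cv_mem.1 ha))
  refine (h1.union h2).subset ?_
  rintro b ⟨hb, ⟨-, w, hw, -, he⟩ | ⟨-, w, hw, -, he⟩⟩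
  · refine Or.inl (Set.mem_biUnion (C.cv_mem.1 hb) ⟨w, hw, Prod.ext ?_ rfl⟩)
    simp [he]
  · exact Or.inr (Set.mem_iUnion.2 ⟨b.2, w, hw, Prod.ext he.symm rfl⟩)

/-- The projection to the Salvetti poset. -/
def cvF (a : C.G × Finset B) : W × Finset B := (C.pi a.1, a.2)

theorem cv_w {a b : C.G × Finset B} {w : W} (he : a.1 = b.1 * C.lift w) :
    (C.pi b.1)⁻¹ * C.pi a.1 = w := by
  rw [he, map_mul, C.pi_lift, inv_mul_cancel_left]

theorem cv_rel {a b : C.G × Finset B} (h : C.sle a b) : salLE cs (C.cvF a) (C.cvF b) := by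
  obtain ⟨h1, w, hw, hmin, he⟩ := h
  have e := C.cv_w he
  refine ⟨h1, ?_, ?_⟩
  · simp only [cvF, e]; exact hw
  · simp only [cvF, e]; exact D.min_iff.2 hmin

theorem cv_down {b : C.G × Finset B} {c : W × Finset B} (h : salLE cs c (C.cvF b)) :
    ∃ a, C.sle a b ∧ C.cvF a = c :=
  ⟨(b.1 * C.lift ((C.pi b.1)⁻¹ * c.1), c.2), ⟨h.1, _, h.2.1, D.min_iff.1 h.2.2, rfl⟩,
    Prod.ext (by simp [cvF, C.pi_lift]) rfl⟩

theorem cv_up {a : C.G × Finset B} {c : W × Finset B} (h : salLE cs (C.cvF a) c) :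
    ∃ b, C.sle a b ∧ C.cvF b = c :=
  ⟨(a.1 * (C.lift (c.1⁻¹ * C.pi a.1))⁻¹, c.2), ⟨h.1, _, h.2.1, D.min_iff.1 h.2.2, by simp [cvF]⟩,
    Prod.ext (by simp [cvF, C.pi_lift]) rfl⟩

theorem cv_down_uniq {a a' b : C.G × Finset B} (h : C.sle a b) (h' : C.sle a' b)
    (he : C.cvF a = C.cvF a') : a = a' := by
  obtain ⟨-, w, -, -, e⟩ := h
  obtain ⟨-, w', -, -, e'⟩ := h'
  have h1 : C.pi a.1 = C.pi a'.1 := congrArg Prod.fst he
  have h2 : a.2 = a'.2 := (congrArg Prod.snd he :)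
  have : w = w' := by rw [← C.cv_w e, ← C.cv_w e', h1]
  exact Prod.ext (by rw [e, e', this]) h2

theorem cv_up_uniq {a b b' : C.G × Finset B} (h : C.sle a b) (h' : C.sle a b')
    (he : C.cvF b = C.cvF b') : b = b' := by
  obtain ⟨-, w, -, -, e⟩ := h
  obtain ⟨-, w', -, -, e'⟩ := h'
  have h1 : C.pi b.1 = C.pi b'.1 := congrArg Prod.fst he
  have h2 : b.2 = b'.2 := (congrArg Prod.snd he :)
  have : w = w' := by rw [← C.cv_w e, ← C.cv_w e', h1]
  refine Prod.ext ?_ h2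
  rw [e, this] at e'
  exact mul_right_cancel e'

theorem cv_refl2 {a a₁ a₂ : C.G × Finset B} (h₁ : C.scmp a a₁) (h₂ : C.scmp a a₂)
    (h : salLE cs (C.cvF a₁) (C.cvF a₂)) : C.scmp a₁ a₂ := by
  rcases h₁ with h₁ | h₁ <;> rcases h₂ with h₂ | h₂
  · obtain ⟨b, hb, he⟩ := C.cv_up h
    rw [← C.cv_up_uniq (C.sle_trans h₁ hb) h₂ he]
    exact Or.inl hb
  · exact Or.inr (C.sle_trans h₂ h₁)
  · exact Or.inl (C.sle_trans h₁ h₂)
  · obtain ⟨b, hb, he⟩ := C.cv_down h
    rw [← C.cv_down_uniq (C.sle_trans hb h₂) h₁ he]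
    exact Or.inl hb

/-- Left translation of the vertices. -/
def cvE (g : C.G) : C.G × Finset B ≃ C.G × Finset B :=
  Equiv.prodCongr (Equiv.mulLeft g⁻¹) (Equiv.refl _)

theorem cvE_apply (g : C.G) (a : C.G × Finset B) : C.cvE g a = (g⁻¹ * a.1, a.2) := rfl

theorem cv_sle_E {g : C.G} {a b : C.G × Finset B} (h : C.sle (C.cvE g a) (C.cvE g b)) :
    C.sle a b := by
  obtain ⟨h1, w, hw, hmin, he⟩ := h
  refine ⟨h1, w, hw, hmin, ?_⟩
  simp only [cvE_apply, mul_assoc] at he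
  exact mul_left_cancel he

theorem cv_act_mem (g : C.G) {x : C.G × Finset B → ℝ} (hx : x ∈ geo C.scmp (C.SS 1 Finset.univ)) :
    (fun a => x (C.cvE g a)) ∈ geo C.scmp (C.SS 1 Finset.univ) := by
  refine ⟨fun a => hx.1 _, hx.2.1.preimage (C.cvE g).injective.injOn,
    fun a ha => C.cv_mem.2 (C.cv_mem.1 (hx.2.2.1 (show C.cvE g a ∈ Function.support x from ha)) :), fun a ha b hb hab => ?_, ?_⟩
  · exact (hx.2.2.2.1 ha hb ((C.cvE g).injective.ne hab)).imp C.cv_sle_E C.cv_sle_E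
  · rw [finsum_comp_equiv (C.cvE g)]
    exact hx.2.2.2.2

/-- The action of the group of chambers on the realization. -/
@[reducible] def cvAct : MulAction C.G (geo C.scmp (C.SS 1 Finset.univ)) where
  smul g x := ⟨fun a => x.1 (C.cvE g a), C.cv_act_mem g x.2⟩
  one_smul x := Subtype.ext (funext fun a => by
    change x.1 (1⁻¹ * a.1, a.2) = x.1 a
    simp)
  mul_smul g h x := Subtype.ext (funext fun a => by
    change x.1 ((g * h)⁻¹ * a.1, a.2) = x.1 (h⁻¹ * (g⁻¹ * a.1), a.2)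
    rw [mul_inv_rev, mul_assoc])

theorem exists_cover : ∃ p : geo C.scmp (C.SS 1 Finset.univ) → SalQ cs,
    IsCoveringMap p ∧ Function.Surjective p := by
  have hrefl : ∀ a, C.scmp a a := fun a => Or.inl (C.sle_refl a)
  obtain ⟨g, hopen, hsurj, hform, hstar⟩ := geo_push (R := C.scmp)
    (R' := fun a b => salLE cs a b ∨ salLE cs b a) (fun _ _ h => h.symm) hrefl
    (fun b => Or.inl ⟨subset_rfl, by simp, fun v _ => by simp⟩)
    (P := C.SS 1 Finset.univ) (Q := {c | Sph cs c.2}) C.cvF (fun a ha => C.cv_mem.1 ha)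
    (fun c hc => ⟨(C.lift c.1, c.2), C.cv_mem.2 hc, Prod.ext (C.pi_lift _) rfl⟩)
    (fun a _ a' _ h => h.imp C.cv_rel C.cv_rel)
    (fun a _ b hb h => by
      rcases h with h | h
      · obtain ⟨a', h1, rfl⟩ := C.cv_up h
        exact ⟨a', C.cv_mem.2 hb, Or.inl h1, rfl⟩
      · obtain ⟨a', h1, rfl⟩ := C.cv_down h
        exact ⟨a', C.cv_mem.2 hb, Or.inr h1, rfl⟩)
    (fun a _ a₁ _ a₂ _ h₁ h₂ he => by
      have h2 : a₁.2 = a₂.2 := (congrArg Prod.snd he :)
      rcases h₁ with h₁ | h₁ <;> rcases h₂ with h₂ | h₂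
      · exact C.cv_up_uniq h₁ h₂ he
      · exact (C.sle_eq_of_snd (C.sle_trans h₂ h₁) h2.symm).symm
      · exact C.sle_eq_of_snd (C.sle_trans h₁ h₂) h2
      · exact C.cv_down_uniq h₁ h₂ he)
    (fun a _ a₁ _ a₂ _ h₁ h₂ h => by
      rcases h with h | h
      · exact C.cv_refl2 h₁ h₂ h
      · exact (C.cv_refl2 h₂ h₁ h).symm)
  let _ := C.cvAct
  have hsmul : ∀ (k : C.G) (x : geo C.scmp (C.SS 1 Finset.univ)) a,
      (k • x).1 a = x.1 (k⁻¹ * a.1, a.2) := fun _ _ _ => rfl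
  let r : Sal cs → Sal cs → Prop := fun x y => ∃ w : W, ∀ u T, y.1 (w * u, T) = x.1 (u, T)
  have hr : Equivalence r := by
    refine ⟨fun x => ⟨1, fun u T => by rw [one_mul]⟩, ?_, ?_⟩
    · rintro x y ⟨w, hw⟩
      exact ⟨w⁻¹, fun u T => by rw [← hw, mul_inv_cancel_left]⟩
    · rintro x y z ⟨w, hw⟩ ⟨v, hv⟩
      exact ⟨v * w, fun u T => by rw [mul_assoc, hv, hw]⟩
  let g' : geo C.scmp (C.SS 1 Finset.univ) → Sal cs := fun x => g x
  have hq : Topology.IsQuotientMap (Quot.mk r ∘ g') :=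
    isQuotientMap_quot_mk.comp (hopen.isQuotientMap g.continuous hsurj)
  have heq : ∀ (k : C.G) (x : geo C.scmp (C.SS 1 Finset.univ)) u T,
      (g (k • x)).1 (C.pi k * u, T) = (g x).1 (u, T) := by
    intro k x u T
    rw [hform, hform]
    refine finsum_mem_eq_of_bijOn (C.cvE k) ((C.cvE k).bijOn (fun a => ?_)) (fun a _ => rfl)
    simp only [Set.mem_preimage, Set.mem_singleton_iff, cvF, cvE_apply, Prod.mk.injEq, map_mul,
      map_inv, inv_mul_eq_iff_eq_mul]
  have hfib : ∀ x x' : geo C.scmp (C.SS 1 Finset.univ), g x = g x' → ∃ k : C.G, k • x' = x := by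
    intro x x' h
    have hne : ∀ y : geo C.scmp (C.SS 1 Finset.univ), ∃ a, y.1 a ≠ 0 := fun y => by
      by_contra hn
      push Not at hn
      have := y.2.2.2.2.2
      simp [hn] at this
    obtain ⟨a, ha⟩ := hne x
    have h1 : (g x').1 (C.cvF a) ≠ 0 := by
      rw [← h, hstar x a a ha (x.2.2.2.1 ha) (hrefl a)]; exact ha
    rw [hform] at h1
    obtain ⟨a', ha', hx'⟩ := exists_ne_zero_of_finsum_mem_ne_zero h1
    have e1 : C.pi a'.1 = C.pi a.1 := congrArg Prod.fst ha'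
    have e2 : a'.2 = a.2 := (congrArg Prod.snd (show C.cvF a' = C.cvF a from ha') :)
    refine ⟨a.1 * a'.1⁻¹, ?_⟩
    have hk : C.pi (a.1 * a'.1⁻¹) = 1 := by rw [map_mul, map_inv, e1, mul_inv_cancel]
    have hg : g ((a.1 * a'.1⁻¹) • x') = g x := by
      rw [h]
      refine Subtype.ext (funext fun c => ?_)
      have := heq (a.1 * a'.1⁻¹) x' c.1 c.2
      rwa [hk, one_mul] at this
    have ha2 : ((a.1 * a'.1⁻¹) • x').1 a ≠ 0 := by
      rw [hsmul, ← e2]
      simpa using hx'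
    refine Subtype.ext (funext fun b => ?_)
    by_cases hb : b ∈ C.SS 1 Finset.univ ∧ C.scmp a b
    · rw [← hstar _ a b ha2 hb.1 hb.2, ← hstar _ a b ha hb.1 hb.2, hg]
    · have hz : ∀ y : geo C.scmp (C.SS 1 Finset.univ), y.1 a ≠ 0 → y.1 b = 0 := fun y hy => by
        by_contra hyb
        refine hb ⟨y.2.2.2.1 hyb, ?_⟩
        by_cases hab : a = b
        · exact hab ▸ hrefl a
        · exact y.2.2.2.2.1 hy hyb hab
      rw [hz _ ha2, hz _ ha]
  have hcov : IsQuotientCoveringMap (Quot.mk r ∘ g') C.G :=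
    { toIsQuotientMap := hq
      continuous_const_smul := fun k => Continuous.subtype_mk (continuous_pi fun a =>
        (continuous_apply (C.cvE k a)).comp continuous_subtype_val) (fun x => C.cv_act_mem k x.2)
      apply_eq_iff_mem_orbit := by
        intro e₁ e₂
        rw [Function.comp_apply, Function.comp_apply, eq_comm, Quot.eq, hr.eqvGen_iff]
        constructor
        · rintro ⟨w, hw⟩
          obtain ⟨k, hk⟩ := hfib e₁ (C.lift w • e₂) (Subtype.ext (funext fun c => by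
            have h1 := hw (w⁻¹ * c.1) c.2
            have h2 := heq (C.lift w) e₂ (w⁻¹ * c.1) c.2
            rw [C.pi_lift] at h2
            rw [mul_inv_cancel_left] at h1 h2
            exact h1.trans h2.symm))
          exact ⟨k * C.lift w, by rw [← hk]; exact mul_smul _ _ _⟩
        · rintro ⟨k, rfl⟩
          exact ⟨C.pi k, heq k e₂⟩
      disjoint := by
        intro e
        have hne : ∃ a, e.1 a ≠ 0 := by
          by_contra hn
          push Not at hn
          have := e.2.2.2.2.2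
          simp [hn] at this
        obtain ⟨a, ha⟩ := hne
        refine ⟨{x | x.1 a ≠ 0}, (isOpen_ne_fun ((continuous_apply a).comp continuous_subtype_val)
          continuous_const).mem_nhds ha, ?_⟩
        rintro k ⟨_, ⟨x, hx, rfl⟩, hy⟩
        have hy' : x.1 (k⁻¹ * a.1, a.2) ≠ 0 := hy
        have : (k⁻¹ * a.1, a.2) = a := by
          by_contra hne
          rcases x.2.2.2.2.1 hy' hx hne with h | h
          · exact hne (C.sle_eq_of_snd h rfl)
          · exact hne (C.sle_eq_of_snd h rfl).symm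
        have h1 : k⁻¹ * a.1 = a.1 := congrArg Prod.fst this
        simpa using h1 }
  exact ⟨Quot.mk r ∘ g', hcov.isCoveringMap, hq.surjective⟩

end Core

end Vale.Agent.P203
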