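import Vale.Agent.P203.Stmt

namespace Vale.Agent.P203

variable {B W : Type} [Group W] {M : CoxeterMatrix B}

/-- Chebyshev polynomials of the second kind evaluated at a matrix. -/
def cheb {I : Type} [Fintype I] [DecidableEq I] (A : Matrix I I ℤ) : ℕ → Matrix I I ℤ
  | 0 => 1
  | 1 => A
  | k + 2 => A * cheb A (k + 1) - cheb A k

/-- Unfolding data: the simply laced multigraph on `B × I`. -/
structure Unf (M : CoxeterMatrix B) where
  I : Type
  [fin : Fintype I]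
  [dec : DecidableEq I]
  [ne : Nonempty I]
  A : B → B → Matrix I I ℤ
  A_nonneg : ∀ s t a b, 0 ≤ A s t a b
  A_comm : ∀ s t, A s t = A t s
  A_symm : ∀ s t a b, A s t a b = A s t b a
  A_self : ∀ s, A s s = 0
  pf : I → ℝ
  pf_pos : ∀ a, 0 < pf a
  c : B → B → ℝ
  eig : ∀ s t a, ∑ b, (A s t a b : ℝ) * pf b = c s t * pf a
  cheb_nonneg : ∀ s t k, s ≠ t → (M s t = 0 ∨ k + 2 ≤ M s t) → ∀ a b, 0 ≤ cheb (A s t) k a b
  cheb_zero : ∀ s t, s ≠ t → M s t ≠ 0 → cheb (A s t) (M s t - 1) = 0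

attribute [instance] Unf.fin Unf.dec Unf.ne

variable [Fintype B] [DecidableEq B]

/-- The unfolded integral and the folded real reflection representations. -/
structure Dat (cs : CoxeterSystem M W) where
  I : Type
  [fin : Fintype I]
  [dec : DecidableEq I]
  [ne : Nonempty I]
  mu : B × I → B × I → ℕ
  mu_symm : ∀ i j, mu i j = mu j i
  mu_lab : ∀ i j, i.1 = j.1 → mu i j = 0
  pf : I → ℝ
  pf_pos : ∀ a, 0 < pf a
  c : B → B → ℝ
  c_symm : ∀ s t, c s t = c t s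
  c_nonneg : ∀ s t, 0 ≤ c s t
  c_self : ∀ s, c s s = 0
  eig : ∀ s t a, ∑ b, (mu (s, a) (t, b) : ℝ) * pf b = c s t * pf a
  rho : W →* Module.End ℤ (B × I → ℤ)
  fr : W →* Module.End ℝ (B → ℝ)
  rho_simple : ∀ s x j, rho (cs.simple s) x j =
    if j.1 = s then -x j + ∑ j', (mu j j' : ℤ) * x j' else x j
  fr_simple : ∀ s v r, fr (cs.simple s) v r = if r = s then -v r + ∑ u, c s u * v u else v r
  sign : ∀ w s a, cs.length w < cs.length (w * cs.simple s) →
    0 ≤ rho w (Pi.single (s, a) 1)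

attribute [instance] Dat.fin Dat.dec Dat.ne

/-- The simple root. -/
def al (s : B) : B → ℝ := Pi.single s 1

namespace Dat

variable {cs : CoxeterSystem M W} (D : Dat cs)

/-- The unfolded simple root. -/
def e (j : B × D.I) : B × D.I → ℤ := Pi.single j 1

/-- The invariant bilinear form. -/
def bf (v v' : B → ℝ) : ℝ := 2 * ∑ s, v s * v' s - ∑ s, ∑ u, D.c s u * v s * v' u

/-- Folding. -/
def proj (x : B × D.I → ℤ) : B → ℝ := fun s => ∑ a, D.pf a * (x (s, a) : ℝ)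

/-- The functional `q` lies in the closed chamber `w` of `W_T`. -/
def InCh (T : Finset B) (q : Module.Dual ℝ (B → ℝ)) (w : W) : Prop :=
  ∀ s ∈ T, 0 ≤ q (D.fr w (al s))

/-- Connectedness of the diagram on `T`. -/
def Irr (T : Finset B) : Prop :=
  ∀ T₁ ⊆ T, T₁.Nonempty → T₁ ≠ T → ∃ s ∈ T₁, ∃ t ∈ T, t ∉ T₁ ∧ D.c s t ≠ 0

/-- `T₁` and `T₂` are disjoint and orthogonal. -/
def Orth (T₁ T₂ : Finset B) : Prop := ∀ s ∈ T₁, ∀ t ∈ T₂, s ≠ t ∧ D.c s t = 0

end Dat

/-- `w₀` is a longest element of `W_T`. -/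
def IsW0 (cs : CoxeterSystem M W) (T : Finset B) (w₀ : W) : Prop :=
  w₀ ∈ WP cs T ∧ ∀ t ∈ T, cs.length (w₀ * cs.simple t) < cs.length w₀

end Vale.Agent.P203
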