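import Vale.Agent.P203.FamDefs
import Vale.Agent.P203.CoreBasic

namespace Vale.Agent.P203

variable {B W : Type} [Group W] {M : CoxeterMatrix B} [Fintype B] [DecidableEq B]
variable {cs : CoxeterSystem M W}

namespace Fam

variable {D : Dat cs} {C : Core D} (F : Fam C)

theorem hv_nonneg (K : ℤ) (x : C.G) (t : B) : 0 ≤ F.hv K x t := by
  exact Finset.sum_nonneg fun i _ => mul_nonneg (F.wt_pos i).le
    (Finset.sum_nonneg fun a _ => mul_nonneg (D.pf_pos a).le (Nat.cast_nonneg _))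

theorem hv_eq_zero_iff (K : ℤ) (x : C.G) (t : B) :
    F.hv K x t = 0 ↔ ∀ i a, C.H (F.E i) x K (t, a) = 0 := by
  unfold hv
  rw [Finset.sum_eq_zero_iff_of_nonneg fun i _ => mul_nonneg (F.wt_pos i).le
    (Finset.sum_nonneg fun a _ => mul_nonneg (D.pf_pos a).le (Nat.cast_nonneg _))]
  refine forall_congr' fun i => ?_
  rw [forall_prop_of_true (Finset.mem_univ i), mul_eq_zero, or_iff_right (F.wt_pos i).ne',
    Finset.sum_eq_zero_iff_of_nonneg fun a _ => mul_nonneg (D.pf_pos a).le (Nat.cast_nonneg _)]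
  refine forall_congr' fun a => ?_
  rw [forall_prop_of_true (Finset.mem_univ a), mul_eq_zero, or_iff_right (D.pf_pos a).ne',
    Nat.cast_eq_zero]

theorem hv_off {T : Finset B} {x y : C.G} (h : x⁻¹ * y ∈ C.P T) (K : ℤ) {r : B} (hr : r ∉ T) :
    F.hv K y r = F.hv K x r := by
  simp only [hv, fun i a => C.H_off h (F.E i) K (j := (r, a)) hr]

theorem van_off {T : Finset B} {x y : C.G} (h : x⁻¹ * y ∈ C.P T) (K : ℤ) {r : B} (hr : r ∉ T) :
    F.van K y r ↔ F.van K x r := by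
  simp only [van, fun i k a => C.H_off h (F.E i) k (j := (r, a)) hr]

theorem good_off {T : Finset B} {x y : C.G} (h : x⁻¹ * y ∈ C.P T) (K : ℤ) (κ : B → ℝ) {r : B}
    (hr : r ∉ T) : F.good K κ y r ↔ F.good K κ x r := by
  rw [good, good, F.van_off h K hr, F.hv_off h K hr]

theorem hor_off {T : Finset B} {x y : C.G} (h : x⁻¹ * y ∈ C.P T) (K : ℤ) (κ : B → ℝ) {r : B}
    (hr : r ∉ T) : F.hor K κ y r ↔ F.hor K κ x r := by
  rw [hor, hor, F.van_off h K hr, F.hv_off h K hr]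

theorem van_mono {K K' : ℤ} (h : K ≤ K') {x : C.G} {t : B} (hv : F.van K x t) : F.van K' x t := by
  exact fun i k hk a => hv i k (lt_of_le_of_lt h hk) a

theorem exists_van (x : C.G) : ∃ K, ∀ t, F.van K x t := by
  choose K hK using fun i => C.bdd (F.E i) x
  obtain ⟨L, hL⟩ := (Set.finite_range K).bddAbove
  exact ⟨L, fun t i k hk a => hK i k (lt_of_le_of_lt (hL ⟨i, rfl⟩) hk) _⟩

theorem hv_finite (b : ℝ) : {v : ℝ | (∃ K x t, F.hv K x t = v) ∧ v ≤ b}.Finite := by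
  classical
  refine ((Set.finite_Iic (fun i a => ⌈b / (F.wt i * D.pf a)⌉₊ : F.ι → D.I → ℕ)).image
    fun n => ∑ i, F.wt i * ∑ a, D.pf a * (n i a : ℝ)).subset ?_
  rintro v ⟨⟨K, x, t, rfl⟩, hb⟩
  refine ⟨fun i a => C.H (F.E i) x K (t, a), fun i a => ?_, rfl⟩
  have h1 := Finset.single_le_sum
    (f := fun i => F.wt i * ∑ a, D.pf a * (C.H (F.E i) x K (t, a) : ℝ))
    (fun i _ => mul_nonneg (F.wt_pos i).le
      (Finset.sum_nonneg fun a _ => mul_nonneg (D.pf_pos a).le (Nat.cast_nonneg _)))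
    (Finset.mem_univ i)
  have h2 := Finset.single_le_sum (f := fun a => D.pf a * (C.H (F.E i) x K (t, a) : ℝ))
    (fun a _ => mul_nonneg (D.pf_pos a).le (Nat.cast_nonneg _)) (Finset.mem_univ a)
  have h3 : (C.H (F.E i) x K (t, a) : ℝ) ≤ b / (F.wt i * D.pf a) := by
    rw [le_div_iff₀ (mul_pos (F.wt_pos i) (D.pf_pos a)), mul_comm, mul_assoc]
    exact (mul_le_mul_of_nonneg_left h2 (F.wt_pos i).le).trans (h1.trans hb)
  exact_mod_cast h3.trans (Nat.le_ceil _)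

theorem fb_fold (D : Dat cs) (s : B) (y : B × D.I → ℕ) :
    ∑ u, D.c s u * ∑ b, D.pf b * (y (u, b) : ℝ) =
      ∑ a, D.pf a * ((∑ j, D.mu (s, a) j * y j : ℕ) : ℝ) := by
  simp only [Nat.cast_sum, Nat.cast_mul, Finset.mul_sum]
  rw [Finset.sum_comm (f := fun a j => D.pf a * ((D.mu (s, a) j : ℝ) * y j)),
    Fintype.sum_prod_type]
  refine Finset.sum_congr rfl fun u _ => Finset.sum_congr rfl fun b _ => ?_
  rw [← mul_assoc, D.c_symm, ← D.eig, Finset.sum_mul]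
  exact Finset.sum_congr rfl fun a _ => by rw [D.mu_symm]; ring

theorem fb_lhs (K : ℤ) (x : C.G) (s : B) : ∑ u, D.c s u * F.hv K x u =
    ∑ i, F.wt i * ∑ a, D.pf a * ((∑ j, D.mu (s, a) j * C.H (F.E i) x K j : ℕ) : ℝ) := by
  simp only [← fb_fold, hv]
  have e : ∀ y : F.ι → B → ℝ, ∑ u, D.c s u * ∑ i, F.wt i * y i u =
      ∑ i, F.wt i * ∑ u, D.c s u * y i u := fun y => by
    simp only [Finset.mul_sum]
    rw [Finset.sum_comm]
    exact Finset.sum_congr rfl fun i _ => Finset.sum_congr rfl fun u _ => by ring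
  exact e _

theorem fb_rhs (K : ℤ) (x y : C.G) (s : B) : F.hv K y s + F.hv K x s =
    ∑ i, F.wt i * ∑ a, D.pf a * ((C.H (F.E i) y K (s, a) + C.H (F.E i) x K (s, a) : ℕ) : ℝ) := by
  simp only [hv, Nat.cast_add, mul_add, Finset.sum_add_distrib]

/-- The folded kink inequality. -/
theorem hv_kink (K : ℤ) (x : C.G) (s : B) :
    ∑ u, D.c s u * F.hv K x u ≤ F.hv K (x * C.gen s) s + F.hv K x s := by
  rw [fb_lhs, fb_rhs]
  refine Finset.sum_le_sum fun i _ => mul_le_mul_of_nonneg_left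
    (Finset.sum_le_sum fun a _ => mul_le_mul_of_nonneg_left ?_ (D.pf_pos a).le) (F.wt_pos i).le
  exact_mod_cast C.kink (F.E i) x s K (s, a) rfl

theorem Adm.coset {F : Fam C} {T : Finset B} {K : ℤ} {κ : B → ℝ} {x y : C.G}
    (h : F.Adm T K κ x) (hxy : x⁻¹ * y ∈ C.P T) : F.Adm T K κ y := by
  refine ⟨fun r hr h' => (F.van_off hxy K hr).2 (h.1 r hr h'), fun t ht => ?_⟩
  convert h.2 t ht using 3 with u
  split_ifs with hu
  · rfl
  · exact F.hv_off hxy K hu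

theorem Adm.link {F : Fam C} {T J : Finset B} {K : ℤ} {κ : B → ℝ} {x : C.G}
    (h : F.Adm T K κ x) (hJ : J ⊆ T) (hh : ∀ j ∈ J, F.hor K κ x j) : F.Adm (T \ J) K κ x := by
  refine ⟨fun r hr ⟨t, ht, hc⟩ => ?_, fun t ht => ?_⟩
  · by_cases hJ' : r ∈ J
    · exact (hh r hJ').1
    · exact h.1 r (fun h' => hr (Finset.mem_sdiff.2 ⟨h', hJ'⟩)) ⟨t, (Finset.mem_sdiff.1 ht).1, hc⟩
  · convert h.2 t (Finset.mem_sdiff.1 ht).1 using 3 with u
    by_cases hu : u ∈ J
    · rw [if_neg fun h' => (Finset.mem_sdiff.1 h').2 hu, if_pos (hJ hu), (hh u hu).2]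
    · simp only [Finset.mem_sdiff, hu, not_false_eq_true, and_true]

theorem Adm.orth {F : Fam C} {T₁ T₂ : Finset B} (hO : D.Orth T₁ T₂) {K : ℤ} {κ : B → ℝ}
    {x : C.G} (h : F.Adm (T₁ ∪ T₂) K κ x) : F.Adm T₁ K κ x := by
  refine ⟨fun r hr ⟨t, ht, hc⟩ => h.1 r ?_ ⟨t, Finset.mem_union_left _ ht, hc⟩, fun t ht => ?_⟩
  · rw [Finset.mem_union, not_or]
    exact ⟨hr, fun h' => hc (by rw [D.c_symm]; exact (hO t ht r h').2)⟩
  · have h1 := h.2 t (Finset.mem_union_left _ ht)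
    rw [D.bf_al] at h1 ⊢
    rw [if_pos (Finset.mem_union_left _ ht)] at h1
    rw [if_pos ht]
    convert h1 using 2
    refine Finset.sum_congr rfl fun u _ => ?_
    by_cases hu : u ∈ T₂
    · rw [(hO t ht u hu).2, zero_mul, zero_mul]
    · simp only [Finset.mem_union, hu, or_false]

theorem orth_far (T : Finset B) {T' : Finset B} (h : T' ⊆ T) : D.Orth (far D T) T' := by
  intro s hs t ht
  simp only [far, Finset.mem_filter, Finset.mem_univ, true_and] at hs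
  exact ⟨fun e => hs.1 (e ▸ h ht), hs.2 t (h ht)⟩

theorem Reg.van {F : Fam C} {T : Finset B} {K : ℤ} {x : C.G} (h : F.Reg T K x) {t : B}
    (ht : t ∈ T) : F.van K x t := by
  intro i k hk a
  exact h i k hk (t, a) fun h' => (orth_far T (Finset.Subset.refl T) t h' t ht).1 rfl

theorem reg_down {T : Finset B} {K : ℤ} (x : C.G) :
    ∀ s ∈ T, F.Reg T K (x * C.gen s) → F.Reg T K x := by
  exact fun s hs h i => C.down _ s _ x K (orth_far T (Finset.singleton_subset_iff.2 hs)) (h i)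

theorem reg_lc {T : Finset B} {K : ℤ} : ∀ T' ⊆ T, ∀ x, F.Reg T K x →
    (∀ s ∈ T', F.Reg T K (x * C.gen s)) → ∀ w ∈ WP cs T', F.Reg T K (x * C.lift w) := by
  exact fun T' hT' x h hs w hw i =>
    C.lc _ T' _ x K (orth_far T hT') (h i) (fun s hs' => hs s hs' i) w hw

theorem fb_r1 {T : Finset B} {K : ℤ} {x : C.G} {s : B} (hs : s ∈ T)
    (h : F.Reg T K (x * C.gen s * C.gen s)) : F.hv K (x * C.gen s) s ≤ F.hv K x s := by
  refine Finset.sum_le_sum fun i _ => mul_le_mul_of_nonneg_left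
    (Finset.sum_le_sum fun a _ => mul_le_mul_of_nonneg_left ?_ (D.pf_pos a).le) (F.wt_pos i).le
  exact_mod_cast C.r1 _ s (F.E i) x K (s, a) (orth_far T (Finset.singleton_subset_iff.2 hs))
    (h i) rfl

/-- A cell whose vertices have no high cohomology is a face of a chamber in the region. -/
theorem exists_reg {T J : Finset B} (hT : Sph cs T) {K : ℤ} {κ : B → ℝ} {x : C.G}
    (h : F.Adm T K κ x) (hJ : ∀ j ∈ J, F.van K x j) :
    ∃ x', x⁻¹ * x' ∈ C.P (T \ J) ∧ F.Reg T K x' := by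
  obtain ⟨w₀, hw₀⟩ := D.exists_w0 (Sph.mono (Finset.sdiff_subset (s := T) (t := J)) hT)
  have key : ∀ n : ℕ, (∃ x', x⁻¹ * x' ∈ C.P (T \ J) ∧ F.Reg T (K + n) x') →
      ∃ x', x⁻¹ * x' ∈ C.P (T \ J) ∧ F.Reg T K x' := by
    intro n
    induction n with
    | zero => simp
    | succ n ih =>
      rintro ⟨x', h1, h2⟩
      refine ih ⟨x' * (C.lift w₀)⁻¹, ?_, fun i => ?_⟩
      · rw [← mul_assoc]
        exact mul_mem h1 (inv_mem (C.lift_mem hw₀.1))
      · have h3 := C.clear _ _ (F.E i) x' _ w₀ (orth_far T Finset.sdiff_subset) hw₀ (h2 i)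
          fun j hj hj' => ?_
        · rwa [Nat.cast_succ, ← add_assoc, add_sub_cancel_right] at h3
        rw [C.H_off h1 _ _ hj']
        by_cases hJ' : j.1 ∈ J
        · exact hJ _ hJ' i _ (by omega) j.2
        · have h4 : j.1 ∉ T := fun h' => hj' (Finset.mem_sdiff.2 ⟨h', hJ'⟩)
          refine h.1 _ h4 ?_ i _ (by omega) j.2
          by_contra h5
          push Not at h5
          exact hj (by simpa [far] using ⟨h4, h5⟩)
  obtain ⟨L, hL⟩ := F.exists_van x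
  exact key (L - K).toNat ⟨x, by simp, fun i k hk j _ => hL j.1 i k (by omega) j.2⟩

theorem Special.adm {F : Fam C} {T : Finset B} {δ : B → ℝ} (h : F.Special T δ) {T' : Finset B}
    (hT' : T' ⊆ T) : F.Adm T' 0 δ 1 := by
  refine ⟨fun r _ _ => h.van0 r, fun t ht => ?_⟩
  convert h.anti t (hT' ht) using 3 with u
  rw [h.hv0, ite_self]

theorem Special.hor {F : Fam C} {T : Finset B} {δ : B → ℝ} (h : F.Special T δ) (t : B) :
    F.hor 0 δ 1 t := by
  exact ⟨h.van0 t, h.hv0 t⟩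

end Fam

theorem Core.exists_special {D : Dat cs} (C : Core D) {T : Finset B} {δ : B → ℝ}
    (hpos : ∀ s ∈ T, 0 < δ s) (hsupp : ∀ r ∉ T, δ r = 0) (hanti : ∀ t ∈ T, D.bf δ (al t) ≤ 0) :
    ∃ F : Fam C, F.Special T δ := by
  choose E h1 h2 h3 using C.simple
  have hs : 0 < ∑ a, D.pf a := Finset.sum_pos (fun a _ => D.pf_pos a) Finset.univ_nonempty
  let F : Fam C := ⟨{j : B × D.I // j.1 ∈ T}, fun j => E j.1, fun j => δ j.1.1 / ∑ a, D.pf a,
    fun j => div_pos (hpos _ j.2) hs⟩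
  have hv0 : ∀ r, F.hv 0 1 r = δ r := fun r => by
    change ∑ j : {j : B × D.I // j.1 ∈ T}, δ j.1.1 / (∑ a, D.pf a) *
      ∑ a, D.pf a * (C.H (E j.1) 1 0 (r, a) : ℝ) = δ r
    rw [← Finset.sum_subtype (Finset.univ.filter fun j : B × D.I => j.1 ∈ T) (by simp)
      (fun j => δ j.1 / (∑ a, D.pf a) * ∑ a, D.pf a * (C.H (E j) 1 0 (r, a) : ℝ)),
      Finset.sum_filter, Fintype.sum_prod_type, Finset.sum_eq_single r]
    · by_cases hr : r ∈ T
      · simp only [hr, if_true, h1, true_and, Prod.mk.injEq, Nat.cast_ite, Nat.cast_one,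
          Nat.cast_zero, mul_ite, mul_one, mul_zero, Finset.sum_ite_eq', Finset.mem_univ]
        rw [← Finset.mul_sum, div_mul_cancel₀ _ hs.ne']
      · simp [hr, hsupp r hr]
    · intro u _ hu
      simp [h1, Ne.symm hu]
    · simp
  obtain ⟨a₀⟩ := D.ne
  refine ⟨F, hsupp, hanti, fun r i k hk a => ?_, hv0, fun t ht h => ?_, fun t ht => ?_⟩
  · exact (h1 _ _ _).trans (if_neg fun h => absurd h.1 (by omega))
  · exact h2 (t, a₀) (h ⟨(t, a₀), ht⟩ 1 one_pos a₀)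
  · have e : ∀ X k (j : B × D.I), j.1 ≠ t → C.H X (C.gen t)⁻¹ k j = C.H X 1 k j :=
      fun X k j hj => by rw [← C.off X _ t k j hj, inv_mul_cancel]
    have e1 : ∑ u, D.c t u * δ u = ∑ u, D.c t u * F.hv 0 (C.gen t)⁻¹ u :=
      Finset.sum_congr rfl fun u _ => by
        by_cases hu : u = t
        · rw [hu, D.c_self, zero_mul, zero_mul]
        · rw [← hv0]
          simp only [Fam.hv, fun X a => e X 0 (u, a) hu]
    have k1 : ∀ X a, ∑ j, D.mu (t, a) j * C.H X (C.gen t)⁻¹ 0 j ≤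
        C.H X 1 0 (t, a) + C.H X (C.gen t)⁻¹ 0 (t, a) := fun X a => by
      have := C.kink X (C.gen t)⁻¹ t 0 (t, a) rfl
      rwa [inv_mul_cancel] at this
    rw [e1, ← hv0 t, add_comm, F.fb_lhs, F.fb_rhs]
    refine Finset.sum_lt_sum (fun i _ => mul_le_mul_of_nonneg_left (Finset.sum_le_sum fun a _ =>
      mul_le_mul_of_nonneg_left (by exact_mod_cast k1 _ a) (D.pf_pos a).le) (F.wt_pos i).le)
      ⟨⟨(t, a₀), ht⟩, Finset.mem_univ _, mul_lt_mul_of_pos_left (Finset.sum_lt_sum (fun a _ =>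
        mul_le_mul_of_nonneg_left (by exact_mod_cast k1 _ a) (D.pf_pos a).le)
        ⟨a₀, Finset.mem_univ _, mul_lt_mul_of_pos_left ?_ (D.pf_pos a₀)⟩) (F.wt_pos _)⟩
    have k2 : ∑ j, D.mu (t, a₀) j * C.H (E (t, a₀)) (C.gen t)⁻¹ 0 j = 0 :=
      Finset.sum_eq_zero fun j _ => by
        by_cases hj : j.1 = t
        · rw [D.mu_lab (t, a₀) j hj.symm, zero_mul]
        · rw [e _ _ _ hj, h1, if_neg fun h => hj (by rw [h.2]), mul_zero]
    change ((∑ j, D.mu (t, a₀) j * C.H (E (t, a₀)) (C.gen t)⁻¹ 0 j : ℕ) : ℝ) <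
      ((C.H (E (t, a₀)) 1 0 (t, a₀) + C.H (E (t, a₀)) (C.gen t)⁻¹ 0 (t, a₀) : ℕ) : ℝ)
    rw [k2, h1, if_pos ⟨rfl, rfl⟩]
    exact_mod_cast Nat.pos_of_ne_zero (by omega)

end Vale.Agent.P203
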