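import Vale.Agent.P203.GeoDefs

namespace Vale.Agent.P203

variable {B W : Type} [Group W] {M : CoxeterMatrix B} [Fintype B] [DecidableEq B]
variable {cs : CoxeterSystem M W}

/-- A finite weighted family of objects. -/
structure Fam {D : Dat cs} (C : Core D) where
  ι : Type
  [fin : Fintype ι]
  E : ι → C.Ob
  wt : ι → ℝ
  wt_pos : ∀ i, 0 < wt i

attribute [instance] Fam.fin

namespace Fam

variable {D : Dat cs} {C : Core D} (F : Fam C)

/-- The folded height in degree `K`. -/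
def hv (K : ℤ) (x : C.G) : B → ℝ :=
  fun s => ∑ i, F.wt i * ∑ a, D.pf a * (C.H (F.E i) x K (s, a) : ℝ)

/-- Vanishing above degree `K` at the vertex of type `t`. -/
def van (K : ℤ) (x : C.G) (t : B) : Prop := ∀ i k, K < k → ∀ a, C.H (F.E i) x k (t, a) = 0

def good (K : ℤ) (κ : B → ℝ) (x : C.G) (t : B) : Prop := F.van K x t ∧ F.hv K x t < κ t

def hor (K : ℤ) (κ : B → ℝ) (x : C.G) (t : B) : Prop := F.van K x t ∧ F.hv K x t = κ t

/-- Admissible thresholds on the coset of `x`. -/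
def Adm (T : Finset B) (K : ℤ) (κ : B → ℝ) (x : C.G) : Prop :=
  (∀ r ∉ T, (∃ t ∈ T, D.c r t ≠ 0) → F.van K x r) ∧
    ∀ t ∈ T, D.bf (fun u => if u ∈ T then κ u else F.hv K x u) (al t) ≤ 0

open Classical in
/-- The labels far away from `T`. -/
noncomputable def far (D : Dat cs) (T : Finset B) : Finset B :=
  Finset.univ.filter fun r => r ∉ T ∧ ∀ t ∈ T, D.c r t = 0

/-- The region where all relevant cohomology above `K` vanishes. -/
def Reg (T : Finset B) (K : ℤ) (x : C.G) : Prop := ∀ i, LeH (far D T) (C.H (F.E i) x) K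

/-- The slope function. -/
def slope (T : Finset B) (K : ℤ) (κ : B → ℝ) (x₀ : C.G) (x : C.G) : B → ℝ :=
  fun u => F.hv K x u - if u ∈ T then κ u else F.hv K x₀ u

/-- The family of simple objects supported on `T` with heights `δ`. -/
structure Special (T : Finset B) (δ : B → ℝ) : Prop where
  supp : ∀ r ∉ T, δ r = 0
  anti : ∀ t ∈ T, D.bf δ (al t) ≤ 0
  van0 : ∀ r, F.van 0 1 r
  hv0 : ∀ r, F.hv 0 1 r = δ r
  up : ∀ t ∈ T, ¬ F.van 0 (C.gen t) t
  strict : ∀ t ∈ T, ∑ u, D.c t u * δ u < F.hv 0 (C.gen t)⁻¹ t + δ t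

end Fam

namespace Core

variable {D : Dat cs} (C : Core D)

/-- Adjacent (or equal) vertices of the Artin complex of type `T`. -/
def Adj (T : Finset B) (Good : C.G → B → Prop) (v v' : C.G × B) : Prop :=
  v.2 ∈ T ∧ v'.2 ∈ T ∧ Good v.1 v.2 ∧ Good v'.1 v'.2 ∧
    ∃ z, v.1⁻¹ * z ∈ C.P (T.erase v.2) ∧ v'.1⁻¹ * z ∈ C.P (T.erase v'.2)

def Conn (T : Finset B) (Good : C.G → B → Prop) : C.G × B → C.G × B → Prop :=
  Relation.ReflTransGen (C.Adj T Good)

/-- The good vertices span a connected complex. -/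
def ConnS (T : Finset B) : Prop :=
  ∀ (F : Fam C) (K : ℤ) (κ : B → ℝ) (x₀ : C.G), F.Adm T K κ x₀ → ∀ x x' t t',
    x₀⁻¹ * x ∈ C.P T → x₀⁻¹ * x' ∈ C.P T → t ∈ T → t' ∈ T → F.good K κ x t → F.good K κ x' t' →
    C.Conn T (F.good K κ) (x, t) (x', t')

/-- A horizontal cell with empty descending link is a global minimum. -/
def MinS (T : Finset B) : Prop :=
  ∀ (F : Fam C) (K : ℤ) (κ : B → ℝ) (x : C.G), F.Adm T K κ x → ∀ J ⊆ T, J.Nonempty →
    (∀ j ∈ J, F.hor K κ x j) →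
    (∀ x', x⁻¹ * x' ∈ C.P (T \ J) → ∀ u ∈ T \ J, ¬ F.good K κ x' u) →
    ∀ x', x⁻¹ * x' ∈ C.P T → ∀ u ∈ T, ¬ F.good K κ x' u

/-- The horizontal vertices of the special family are the base vertices. -/
def BaseS (F : Fam C) (δ : B → ℝ) (T : Finset B) : Prop :=
  ∀ x ∈ C.P T, ∀ t ∈ T, F.hor 0 δ x t → x ∈ C.P (T.erase t)

end Core

end Vale.Agent.P203
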