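import Vale.Agent.P203.DatDefs

namespace Vale.Agent.P203

variable {B W : Type} [Group W] {M : CoxeterMatrix B} [Fintype B] [DecidableEq B]

theorem repEx_seq {X : Type} [AddCommGroup X] (b : X →+ X) (U : ℕ → X → X)
    (U0 : ∀ x, U 0 x = x) (U1 : ∀ x, U 1 x = b x)
    (U2 : ∀ k x, U (k + 2) x = b (U (k + 1) x) - U k x) (z r : ℕ → X)
    (hr : ∀ k, r (k + 2) = r k) (hz : ∀ k, z (k + 2) = -z k + b (z (k + 1)) + r k) (m : ℕ) :
    ∀ i, U m (z (i + m + 2) - z (i + m)) = z (i + 2 * m + 2) - z i := by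
  have hr' : ∀ j k, r (k + 2 * j) = r k := by
    intro j k
    induction j with
    | zero => rfl
    | succ j ih => rw [show k + 2 * (j + 1) = k + 2 * j + 2 by ring, hr, ih]
  have hb : ∀ k, b (z (k + 1)) = z (k + 2) + z k - r k := fun k => by rw [hz k]; abel
  induction m using Nat.twoStepInduction with
  | zero => intro i; rw [U0]; rfl
  | one =>
    intro i
    rw [U1, map_sub, show i + 1 + 2 = i + 2 + 1 by ring, hb, hb, hr,
      show i + 2 * 1 + 2 = i + 2 + 2 by ring]
    abel
  | more m ih0 ih1 =>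
    intro i
    have e1 := ih1 (i + 1)
    have e0 := ih0 (i + 2)
    rw [show i + 1 + (m + 1) = i + (m + 2) by ring] at e1
    rw [show i + 2 + m = i + (m + 2) by ring] at e0
    rw [U2, e1, e0, map_sub, hb i,
      show i + 1 + 2 * (m + 1) + 2 = i + 2 * (m + 2) + 1 by ring, hb, hr',
      show i + 2 + 2 * m + 2 = i + 2 * (m + 2) by ring]
    abel

theorem repEx_invol {V X : Type} [AddCommGroup X] (π : B → V → X)
    (hπ : ∀ v v', (∀ r, π r v = π r v') → v = v') (β : B → B → X →+ X) (hs : ∀ s, β s s = 0)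
    (σ : B → V → V)
    (hσ : ∀ s v r, π r (σ s v) = if r = s then -π r v + ∑ u, β s u (π u v) else π r v)
    (s : B) (v : V) : σ s (σ s v) = v := by
  refine hπ _ _ fun r => ?_
  by_cases h : r = s
  · subst h
    have h1 : ∑ u, β r u (π u (σ r v)) = ∑ u, β r u (π u v) := by
      refine Finset.sum_congr rfl fun u _ => ?_
      by_cases hu : u = r
      · rw [hu, hs]; rfl
      · rw [hσ, if_neg hu]
    rw [hσ, if_pos rfl, h1, hσ, if_pos rfl]
    abel
  · rw [hσ, if_neg h, hσ, if_neg h]

theorem repEx_braid {V X : Type} [AddCommGroup X] (π : B → V → X)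
    (hπ : ∀ v v', (∀ r, π r v = π r v') → v = v') (β : B → B → X →+ X) (hs : ∀ s, β s s = 0)
    (σ : B → V → V)
    (hσ : ∀ s v r, π r (σ s v) = if r = s then -π r v + ∑ u, β s u (π u v) else π r v)
    {s t : B} (hst : s ≠ t) (hc : β t s = β s t) (U : ℕ → X → X)
    (U0 : ∀ x, U 0 x = x) (U1 : ∀ x, U 1 x = β s t x)
    (U2 : ∀ k x, U (k + 2) x = β s t (U (k + 1) x) - U k x) (m : ℕ) (hm : ∀ x, U m x = 0)
    (v : V) : (fun v => σ s (σ t v))^[m + 1] v = v := by
  have hsplit : ∀ (a : B) (v' : V), (∀ u, u ≠ s → u ≠ t → π u v' = π u v) →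
      ∑ u, β a u (π u v') = β a s (π s v') + β a t (π t v') +
        ∑ u ∈ (Finset.univ.erase s).erase t, β a u (π u v) := by
    intro a v' h
    rw [← Finset.add_sum_erase _ _ (Finset.mem_univ s),
      ← Finset.add_sum_erase _ _ (Finset.mem_erase.2 ⟨hst.symm, Finset.mem_univ t⟩), add_assoc]
    congr 2
    refine Finset.sum_congr rfl fun u hu => ?_
    rw [h u (Finset.mem_erase.1 (Finset.mem_erase.1 hu).2).1 (Finset.mem_erase.1 hu).1]
  obtain ⟨r, hr⟩ : ∃ r : ℕ → X, ∀ k, r k =
      ∑ u ∈ (Finset.univ.erase s).erase t, β (if k % 2 = 0 then t else s) u (π u v) :=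
    ⟨_, fun _ => rfl⟩
  obtain ⟨z, z0, z1, z2⟩ : ∃ z : ℕ → X, z 0 = π t v ∧ z 1 = π s v ∧
      ∀ k, z (k + 2) = -z k + β s t (z (k + 1)) + r k := by
    let p : ℕ → X × X := fun k => Nat.rec (π t v, π s v)
      (fun k q => (q.2, -q.1 + β s t q.2 + r k)) k
    exact ⟨fun k => (p k).1, rfl, rfl, fun k => rfl⟩
  have hr2 : ∀ k, r (k + 2) = r k := fun k => by rw [hr, hr, Nat.add_mod_right]
  have key : ∀ k, π t ((fun v => σ s (σ t v))^[k] v) = z (2 * k) ∧
      π s ((fun v => σ s (σ t v))^[k] v) = z (2 * k + 1) ∧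
      ∀ u, u ≠ s → u ≠ t → π u ((fun v => σ s (σ t v))^[k] v) = π u v := by
    intro k
    induction k with
    | zero => exact ⟨z0.symm, z1.symm, fun _ _ _ => rfl⟩
    | succ k ih =>
      obtain ⟨a1, a2, a3⟩ := ih
      rw [Function.iterate_succ_apply']
      generalize (fun v => σ s (σ t v))^[k] v = y at a1 a2 a3
      have b3 : ∀ u, u ≠ s → u ≠ t → π u (σ t y) = π u v := fun u h1 h2 => by
        rw [hσ, if_neg h2, a3 u h1 h2]
      have b2 : π s (σ t y) = z (2 * k + 1) := by rw [hσ, if_neg hst, a2]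
      have b1 : π t (σ t y) = z (2 * k + 2) := by
        rw [hσ, if_pos rfl, hsplit t y a3, z2, hr, if_pos (by omega), a1, a2, hs, hc]
        simp [add_assoc]
      refine ⟨?_, ?_, fun u h1 h2 => ?_⟩
      · show π t (σ s (σ t y)) = _
        rw [hσ, if_neg hst.symm, b1]
        rfl
      · show π s (σ s (σ t y)) = _
        rw [hσ, if_pos rfl, hsplit s _ b3, b1, b2, show 2 * (k + 1) + 1 = 2 * k + 1 + 2 by ring,
          z2 (2 * k + 1), hr, if_neg (by omega), hs]
        simp [add_assoc]
      · show π u (σ s (σ t y)) = _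
        rw [hσ, if_neg h1, b3 u h1 h2]
  have hper : ∀ i, z (i + 2 * m + 2) = z i := fun i => by
    have := repEx_seq (β s t) U U0 U1 U2 z r hr2 z2 m i
    rw [hm] at this
    exact sub_eq_zero.1 this.symm
  obtain ⟨k1, k2, k3⟩ := key (m + 1)
  refine hπ _ _ fun u => ?_
  by_cases h1 : u = s
  · rw [h1, k2, ← z1, ← hper 1]
    congr 1
    ring
  · by_cases h2 : u = t
    · rw [h2, k1, ← z0, ← hper 0]
      congr 1
      ring
    · exact k3 u h1 h2

theorem repEx_lift {R V X : Type} [Semiring R] [AddCommMonoid V] [Module R V] [AddCommGroup X]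
    (π : B → V → X) (hπ : ∀ v v', (∀ r, π r v = π r v') → v = v') (β : B → B → X →+ X)
    (hs : ∀ s, β s s = 0) (hc : ∀ s t, β t s = β s t) (σ : B → Module.End R V)
    (hσ : ∀ s v r, π r (σ s v) = if r = s then -π r v + ∑ u, β s u (π u v) else π r v)
    (U : B → B → ℕ → X → X) (U0 : ∀ s t x, U s t 0 x = x) (U1 : ∀ s t x, U s t 1 x = β s t x)
    (U2 : ∀ s t k x, U s t (k + 2) x = β s t (U s t (k + 1) x) - U s t k x)
    (hU : ∀ s t, s ≠ t → M s t ≠ 0 → ∀ x, U s t (M s t - 1) x = 0) : M.IsLiftable σ := by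
  intro s t
  by_cases hst : s = t
  · subst hst
    rw [M.diagonal, pow_one]
    exact LinearMap.ext fun v => repEx_invol π hπ β hs (fun s v => σ s v) hσ s v
  · by_cases h0 : M s t = 0
    · rw [h0, pow_zero]
    · refine LinearMap.ext fun v => ?_
      have h1 := repEx_braid π hπ β hs (fun s v => σ s v) hσ hst (hc s t) (U s t) (U0 s t)
        (U1 s t) (U2 s t) _ (hU s t hst h0) v
      rw [Nat.sub_add_cancel (Nat.pos_of_ne_zero h0)] at h1
      rw [Module.End.pow_apply]
      exact h1

/-- Chebyshev numbers. -/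
def repExU (c : ℝ) : ℕ → ℝ
  | 0 => 1
  | 1 => c
  | k + 2 => c * repExU c (k + 1) - repExU c k

omit [Fintype B] [DecidableEq B] in
theorem repEx_cheb_pf (U : Unf M) (s t : B) (k : ℕ) :
    ∀ a, ∑ b, (cheb (U.A s t) k a b : ℝ) * U.pf b = repExU (U.c s t) k * U.pf a := by
  induction k using Nat.twoStepInduction with
  | zero =>
    intro a
    simp [cheb, repExU, Matrix.one_apply]
  | one => intro a; exact U.eig s t a
  | more k ih0 ih1 =>
    intro a
    have h1 : ∑ b, (((U.A s t * cheb (U.A s t) (k + 1)) a b : ℤ) : ℝ) * U.pf b =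
        U.c s t * repExU (U.c s t) (k + 1) * U.pf a := by
      simp only [Matrix.mul_apply, Int.cast_sum, Int.cast_mul, Finset.sum_mul]
      rw [Finset.sum_comm]
      simp only [mul_assoc, ← Finset.mul_sum, ih1]
      rw [mul_left_comm, ← U.eig s t a, Finset.mul_sum]
      exact Finset.sum_congr rfl fun b _ => by ring
    simp only [cheb, repExU, Matrix.sub_apply, Int.cast_sub, sub_mul, Finset.sum_sub_distrib, h1,
      ih0]

/-- The unfolded representation. -/
theorem rho_exists (cs : CoxeterSystem M W) (U : Unf M) :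
    ∃ rho : W →* Module.End ℤ (B × U.I → ℤ), ∀ s x j, rho (cs.simple s) x j =
      if j.1 = s then -x j + ∑ j', U.A j.1 j'.1 j.2 j'.2 * x j' else x j := by
  let σ : B → Module.End ℤ (B × U.I → ℤ) := fun s =>
    { toFun := fun x j => if j.1 = s then -x j + ∑ j', U.A j.1 j'.1 j.2 j'.2 * x j' else x j
      map_add' := fun x y => by
        funext j
        by_cases h : j.1 = s <;> simp [h, mul_add, Finset.sum_add_distrib]
        ring
      map_smul' := fun c x => by
        funext j
        by_cases h : j.1 = s <;> simp [h, mul_add, Finset.mul_sum, mul_left_comm] }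
  have hσ : ∀ s x j, σ s x j =
      if j.1 = s then -x j + ∑ j', U.A j.1 j'.1 j.2 j'.2 * x j' else x j := fun _ _ _ => rfl
  have hl : M.IsLiftable σ := by
    refine repEx_lift (X := U.I → ℤ) (fun r x a => x (r, a))
      (fun v v' h => funext fun j => congrFun (h j.1) j.2)
      (fun s t => (U.A s t).mulVecLin.toAddMonoidHom) (fun s => by rw [U.A_self]; ext; simp)
      (fun s t => by rw [U.A_comm]) σ (fun s v r => ?_)
      (fun s t k x => (cheb (U.A s t) k).mulVec x) (fun s t x => by simp [cheb])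
      (fun s t x => by simp [cheb]) (fun s t k x => by simp [cheb, Matrix.sub_mulVec])
      (fun s t h1 h2 x => by simp [U.cheb_zero s t h1 h2])
    funext a
    rw [hσ]
    by_cases h : r = s
    · subst h
      simp [Fintype.sum_prod_type, Matrix.mulVec, dotProduct, Finset.sum_apply]
    · simp [h]
  refine ⟨cs.lift ⟨σ, hl⟩, fun s x j => ?_⟩
  rw [cs.lift_apply_simple, hσ]

/-- The folded representation. -/
theorem fr_exists (cs : CoxeterSystem M W) (U : Unf M) :
    ∃ fr : W →* Module.End ℝ (B → ℝ), ∀ s v r, fr (cs.simple s) v r =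
      if r = s then -v r + ∑ u, U.c s u * v u else v r := by
  let σ : B → Module.End ℝ (B → ℝ) := fun s =>
    { toFun := fun v r => if r = s then -v r + ∑ u, U.c s u * v u else v r
      map_add' := fun x y => by
        funext j
        by_cases h : j = s <;> simp [h, mul_add, Finset.sum_add_distrib]
        ring
      map_smul' := fun c x => by
        funext j
        by_cases h : j = s <;> simp [h, mul_add, Finset.mul_sum, mul_left_comm] }
  have hσ : ∀ s v r, σ s v r = if r = s then -v r + ∑ u, U.c s u * v u else v r :=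
    fun _ _ _ => rfl
  obtain ⟨a⟩ := U.ne
  have hpf := (U.pf_pos a).ne'
  have hself : ∀ s, U.c s s = 0 := fun s => by
    have := U.eig s s a
    rw [U.A_self] at this
    simpa [hpf] using this.symm
  have hcomm : ∀ s t, U.c t s = U.c s t := fun s t => by
    have h1 := U.eig s t a
    rw [U.A_comm, U.eig] at h1
    exact mul_right_cancel₀ hpf h1
  have hl : M.IsLiftable σ := by
    refine repEx_lift (X := ℝ) (fun r x => x r) (fun v v' h => funext h)
      (fun s t => AddMonoidHom.mulLeft (U.c s t)) (fun s => by rw [hself]; ext; simp)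
      (fun s t => by rw [hcomm]) σ (fun s v r => hσ s v r)
      (fun s t k x => repExU (U.c s t) k * x) (fun s t x => by simp [repExU])
      (fun s t x => by simp [repExU]) (fun s t k x => by simp [repExU, sub_mul, mul_assoc])
      (fun s t h1 h2 x => ?_)
    have h3 := repEx_cheb_pf U s t (M s t - 1) a
    rw [U.cheb_zero s t h1 h2] at h3
    have h4 : repExU (U.c s t) (M s t - 1) = 0 := by simpa [hpf] using h3.symm
    simp [h4]
  refine ⟨cs.lift ⟨σ, hl⟩, fun s x j => ?_⟩
  rw [cs.lift_apply_simple, hσ]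

end Vale.Agent.P203
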