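import Vale.Agent.P203.UnfEx
import Vale.Agent.P203.RepEx

namespace Vale.Agent.P203

variable {B W : Type} [Group W] {M : CoxeterMatrix B} [Fintype B] [DecidableEq B]

/-- the previous Chebyshev matrix. -/
def signPrev {I : Type} [Fintype I] [DecidableEq I] (A : Matrix I I ℤ) : ℕ → Matrix I I ℤ
  | 0 => 0
  | k + 1 => cheb A k

theorem sign_cheb_succ {I : Type} [Fintype I] [DecidableEq I] (A : Matrix I I ℤ) (k : ℕ) :
    cheb A (k + 1) = A * cheb A k - signPrev A k := by
  cases k with
  | zero => simp [cheb, signPrev]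
  | succ k => rfl

theorem sign_alt (cs : CoxeterSystem M W) (U : Unf M) (rho : W →* Module.End ℤ (B × U.I → ℤ))
    (hrho : ∀ s x j, rho (cs.simple s) x j =
      if j.1 = s then -x j + ∑ j', U.A j.1 j'.1 j.2 j'.2 * x j' else x j)
    {s t : B} (hst : s ≠ t) (a : U.I) (k : ℕ) :
    (∀ b, rho (cs.wordProd (CoxeterSystem.alternatingWord s t k)) (Pi.single (s, a) 1)
      (if Even k then s else t, b) = cheb (U.A s t) k b a) ∧
    (∀ b, rho (cs.wordProd (CoxeterSystem.alternatingWord s t k)) (Pi.single (s, a) 1)
      (if Even k then t else s, b) = signPrev (U.A s t) k b a) ∧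
    ∀ j : B × U.I, j.1 ≠ s → j.1 ≠ t →
      rho (cs.wordProd (CoxeterSystem.alternatingWord s t k)) (Pi.single (s, a) 1) j = 0 := by
  induction k with
  | zero =>
    refine ⟨fun b => ?_, fun b => ?_, fun j h1 _ => ?_⟩
    · simp [CoxeterSystem.alternatingWord, cheb, Pi.single_apply, Matrix.one_apply]
    · simp [CoxeterSystem.alternatingWord, signPrev, hst.symm]
    · have : j ≠ (s, a) := fun h => h1 (by rw [h])
      simp [CoxeterSystem.alternatingWord, this]
  | succ k ih =>
    obtain ⟨h1, h2, h3⟩ := ih
    rw [CoxeterSystem.alternatingWord_succ', cs.wordProd_cons, map_mul]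
    simp only [Module.End.mul_apply]
    generalize rho (cs.wordProd (CoxeterSystem.alternatingWord s t k)) (Pi.single (s, a) 1) = x
      at h1 h2 h3
    have e1 : (if Even (k + 1) then s else t) = if Even k then t else s := by
      by_cases h : Even k <;> simp [h, Nat.even_add_one]
    have e2 : (if Even (k + 1) then t else s) = if Even k then s else t := by
      by_cases h : Even k <;> simp [h, Nat.even_add_one]
    rw [e1, e2]
    have key : ∀ p q : B, p ≠ q → U.A q p = U.A s t → (∀ u, u ≠ p → u ≠ q → u ≠ s ∧ u ≠ t) →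
        (q = s ∨ q = t) → (∀ b, x (p, b) = cheb (U.A s t) k b a) →
        (∀ b, x (q, b) = signPrev (U.A s t) k b a) →
        (∀ b, rho (cs.simple q) x (q, b) = cheb (U.A s t) (k + 1) b a) ∧
        (∀ b, rho (cs.simple q) x (p, b) = signPrev (U.A s t) (k + 1) b a) ∧
        ∀ j : B × U.I, j.1 ≠ s → j.1 ≠ t → rho (cs.simple q) x j = 0 := by
      intro p q hpq hA hu hq g1 g2
      refine ⟨fun b => ?_, fun b => ?_, fun j j1 j2 => ?_⟩
      · rw [hrho, if_pos rfl, Fintype.sum_prod_type, Finset.sum_eq_single p, sign_cheb_succ,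
          Matrix.sub_apply, Matrix.mul_apply, g2]
        · simp only [g1, hA]
          ring
        · intro u _ hup
          by_cases huq : u = q
          · simp [huq, U.A_self]
          · exact Finset.sum_eq_zero fun b' _ => by
              rw [h3 (u, b') (hu u hup huq).1 (hu u hup huq).2, mul_zero]
        · simp
      · rw [hrho, if_neg hpq, g1]
        rfl
      · rw [hrho, if_neg, h3 j j1 j2]
        rcases hq with rfl | rfl
        · exact j1
        · exact j2
    by_cases h : Even k
    · simp only [if_pos h] at h1 h2 ⊢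
      exact key s t hst (U.A_comm _ _) (fun u a b => ⟨a, b⟩) (Or.inr rfl) h1 h2
    · simp only [if_neg h] at h1 h2 ⊢
      exact key t s hst.symm rfl (fun u a b => ⟨b, a⟩) (Or.inl rfl) h1 h2

theorem sign_comb {J : Type} [Fintype J] [DecidableEq J] (f : Module.End ℤ (J → ℤ)) (x : J → ℤ)
    (h : ∀ j, x j = 0 ∨ (0 ≤ x j ∧ 0 ≤ f (Pi.single j 1))) : 0 ≤ f x := by
  have e : x = ∑ j, x j • (Pi.single j 1 : J → ℤ) := by
    funext i
    simp [Finset.sum_apply, Pi.single_apply]
  rw [e, map_sum]
  refine Finset.sum_nonneg fun j _ => ?_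
  rw [map_smul]
  rcases h j with h | h
  · rw [h, zero_smul]
  · exact smul_nonneg h.1 h.2

theorem sign_thm (cs : CoxeterSystem M W) (U : Unf M) (rho : W →* Module.End ℤ (B × U.I → ℤ))
    (hrho : ∀ s x j, rho (cs.simple s) x j =
      if j.1 = s then -x j + ∑ j', U.A j.1 j'.1 j.2 j'.2 * x j' else x j)
    (w : W) (s : B) (a : U.I) (h : cs.length w < cs.length (w * cs.simple s)) :
    0 ≤ rho w (Pi.single (s, a) 1) := by
  classical
  induction hn : cs.length w using Nat.strong_induction_on generalizing w s a with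
  | _ n ih =>
  by_cases hw : w = 1
  · rw [hw, map_one, Module.End.one_apply]
    exact Pi.single_nonneg.2 zero_le_one
  obtain ⟨t, ht⟩ := cs.exists_rightDescent_of_ne_one hw
  have ht' : cs.length (w * cs.simple t) < cs.length w := ht
  have hst : s ≠ t := fun e => by rw [e] at h; omega
  let P : ℕ → Prop := fun k =>
    cs.length (w * (cs.wordProd (CoxeterSystem.alternatingWord s t k))⁻¹) + k = cs.length w
  have hP1 : P 1 := by
    have := cs.length_mul_simple w t
    simp only [P, CoxeterSystem.alternatingWord, List.concat_eq_append, List.nil_append,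
      cs.wordProd_singleton, cs.inv_simple]
    omega
  obtain ⟨k, hk1, hk, hk'⟩ : ∃ k, 1 ≤ k ∧ P k ∧ ¬ P (k + 1) := by
    refine ⟨Nat.findGreatest P (cs.length w), Nat.le_findGreatest (by omega) hP1,
      Nat.findGreatest_spec (m := 1) (by omega) hP1, fun hc => ?_⟩
    have h2 : Nat.findGreatest P (cs.length w) + 1 ≤ cs.length w := by
      have : _ + (Nat.findGreatest P (cs.length w) + 1) = cs.length w := hc
      omega
    exact Nat.findGreatest_is_greatest (Nat.lt_succ_self _) h2 hc
  obtain ⟨v, hv⟩ : ∃ v, v = w * (cs.wordProd (CoxeterSystem.alternatingWord s t k))⁻¹ := ⟨_, rfl⟩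
  have hwv : w = v * cs.wordProd (CoxeterSystem.alternatingWord s t k) := by rw [hv]; simp
  have hl : cs.length v + k = cs.length w := by rw [hv]; exact hk
  have hws : w * cs.simple s = v * cs.wordProd (CoxeterSystem.alternatingWord t s (k + 1)) := by
    rw [CoxeterSystem.alternatingWord_succ, cs.wordProd_concat, ← mul_assoc, ← hwv]
  have d1 : cs.length v < cs.length (v * cs.simple (if Even k then t else s)) := by
    have h2 : ¬ cs.length (w * (cs.wordProd (CoxeterSystem.alternatingWord s t (k + 1)))⁻¹) +
      (k + 1) = cs.length w := hk'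
    rw [CoxeterSystem.alternatingWord_succ', cs.wordProd_cons, mul_inv_rev, cs.inv_simple,
      ← mul_assoc, ← hv] at h2
    have := cs.length_mul_simple v (if Even k then t else s)
    omega
  have d2 : cs.length v < cs.length (v * cs.simple (if Even k then s else t)) := by
    have h2 := cs.length_mul_simple v (if Even k then s else t)
    have h3 := cs.length_mul_le (v * cs.simple (if Even k then s else t))
      (cs.wordProd (CoxeterSystem.alternatingWord t s k))
    have h4 := cs.length_wordProd_le (CoxeterSystem.alternatingWord t s k)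
    rw [CoxeterSystem.length_alternatingWord] at h4
    rw [CoxeterSystem.alternatingWord_succ', cs.wordProd_cons, ← mul_assoc] at hws
    rw [← hws] at h3
    omega
  have hM : M s t = 0 ∨ k + 1 ≤ M s t := by
    by_contra hc
    push Not at hc
    have h2 := cs.not_isReduced_alternatingWord t s (m := k + 1)
      (by rw [M.symmetric]; exact hc.1) (by rw [M.symmetric]; exact hc.2)
    have h3 := cs.length_wordProd_le (CoxeterSystem.alternatingWord t s (k + 1))
    have h4 := cs.length_mul_le v (cs.wordProd (CoxeterSystem.alternatingWord t s (k + 1)))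
    unfold CoxeterSystem.IsReduced at h2
    rw [CoxeterSystem.length_alternatingWord] at h2 h3
    rw [← hws] at h4
    omega
  obtain ⟨g1, g2, g3⟩ := sign_alt cs U rho hrho hst a k
  have n1 : ∀ b, 0 ≤ cheb (U.A s t) k b a := fun b => by
    rcases hM with h0 | h0
    · exact U.cheb_nonneg s t k hst (Or.inl h0) b a
    · by_cases h2 : k + 2 ≤ M s t
      · exact U.cheb_nonneg s t k hst (Or.inr h2) b a
      · have h3 := U.cheb_zero s t hst (by omega)
        rw [show M s t - 1 = k by omega] at h3
        rw [h3]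
        exact le_rfl
  have n2 : ∀ b, 0 ≤ signPrev (U.A s t) k b a := fun b => by
    obtain ⟨k', rfl⟩ : ∃ k', k = k' + 1 := ⟨k - 1, by omega⟩
    exact U.cheb_nonneg s t k' hst hM b a
  rw [hwv, map_mul, Module.End.mul_apply]
  refine sign_comb _ _ fun j => ?_
  obtain ⟨u, b⟩ := j
  by_cases e1 : u = if Even k then s else t
  · rw [e1, g1]
    exact Or.inr ⟨n1 b, ih _ (by omega) v _ b d2 rfl⟩
  by_cases e2 : u = if Even k then t else s
  · rw [e2, g2]
    exact Or.inr ⟨n2 b, ih _ (by omega) v _ b d1 rfl⟩
  refine Or.inl (g3 _ ?_ ?_)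
  · by_cases hk2 : Even k
    · simpa [hk2] using e1
    · simpa [hk2] using e2
  · by_cases hk2 : Even k
    · simpa [hk2] using e2
    · simpa [hk2] using e1

theorem dat_exists (cs : CoxeterSystem M W) : Nonempty (Dat cs) := by
  obtain ⟨U⟩ := unf_exists M
  obtain ⟨rho, hrho⟩ := rho_exists cs U
  obtain ⟨fr, hfr⟩ := fr_exists cs U
  obtain ⟨a₀⟩ := U.ne
  have hp := U.pf_pos a₀
  have hz : ∀ s t a b, ((U.A s t a b).toNat : ℤ) = U.A s t a b := fun s t a b =>
    Int.toNat_of_nonneg (U.A_nonneg s t a b)
  refine ⟨{ I := U.I, mu := fun i j => (U.A i.1 j.1 i.2 j.2).toNat, mu_symm := ?_, mu_lab := ?_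
            pf := U.pf, pf_pos := U.pf_pos, c := U.c, c_symm := ?_, c_nonneg := ?_, c_self := ?_
            eig := ?_, rho := rho, fr := fr, rho_simple := ?_, fr_simple := hfr
            sign := sign_thm cs U rho hrho }⟩
  · intro i j
    rw [U.A_comm i.1, U.A_symm]
  · intro i j h
    rw [h, U.A_self]
    rfl
  · intro s t
    have h1 := U.eig s t a₀
    have h2 := U.eig t s a₀
    rw [U.A_comm t s, h1] at h2
    exact mul_right_cancel₀ hp.ne' h2
  · intro s t
    have h1 := U.eig s t a₀
    have h2 : 0 ≤ U.c s t * U.pf a₀ := by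
      rw [← h1]
      exact Finset.sum_nonneg fun b _ =>
        mul_nonneg (by exact_mod_cast U.A_nonneg s t a₀ b) (U.pf_pos b).le
    exact nonneg_of_mul_nonneg_left h2 hp
  · intro s
    have h1 := U.eig s s a₀
    rw [U.A_self] at h1
    simp only [Matrix.zero_apply, Int.cast_zero, zero_mul, Finset.sum_const_zero] at h1
    exact (mul_eq_zero.1 h1.symm).resolve_right hp.ne'
  · intro s t a
    rw [← U.eig s t a]
    refine Finset.sum_congr rfl fun b _ => ?_
    rw [← Int.cast_natCast, hz]
  · intro s x j
    simp only [hz]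
    exact hrho s x j

end Vale.Agent.P203
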