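import Vale.Agent.P203.TopDefs

namespace Vale.Agent.P203

open Function

variable {α : Type}

theorem geo_pathConnected {R : α → α → Prop} {P : Set α} (h : WC R P) :
    PathConnectedSpace (geo R P) := by
  classical
  obtain ⟨⟨a, ha⟩, h⟩ := h
  refine ⟨⟨⟨Pi.single a 1, fun b => ?_, ?_, ?_, ?_, ?_⟩⟩, fun x y => ?_⟩
  · by_cases hb : b = a
    · subst hb; simp
    · simp [hb]
  · rw [Pi.support_single_of_ne one_ne_zero]; exact Set.finite_singleton a
  · rw [Pi.support_single_of_ne one_ne_zero]; exact Set.singleton_subset_iff.2 ha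
  · rw [Pi.support_single_of_ne one_ne_zero]; exact Set.pairwise_singleton _ _
  · rw [finsum_eq_single _ a fun b hb => by simp [hb]]; simp
  · obtain ⟨F', -, h2, h3, c, ⟨H⟩⟩ := h (support x.1 ∪ support y.1) (x.2.2.1.union y.2.2.1)
      (Set.union_subset x.2.2.2.1 y.2.2.2.1)
    have j1 : Joined x (ginc R h2 c) :=
      ⟨(H.evalAt ⟨x.1, x.2.1, x.2.2.1, Set.subset_union_left, x.2.2.2.2⟩).map
        (ginc R h2).continuous⟩
    have j2 : Joined y (ginc R h2 c) :=
      ⟨(H.evalAt ⟨y.1, y.2.1, y.2.2.1, Set.subset_union_right, y.2.2.2.2⟩).map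
        (ginc R h2).continuous⟩
    exact j1.trans j2.symm

open unitInterval in
/-- A free nullhomotopy which is constant along the boundary gives a based nullhomotopy. -/
theorem pi_null {X : Type} [TopologicalSpace X] {n : ℕ} {x : X} (f : GenLoop (Fin n) X x)
    (K : C(I × (Fin n → I), X)) (γ : C(I, X)) (hγ : γ 0 = x) (h0 : ∀ y, K (0, y) = f y)
    (h1 : ∀ y, K (1, y) = γ 1) (hb : ∀ t, ∀ y ∈ Cube.boundary (Fin n), K (t, y) = γ t) :
    GenLoop.Homotopic f GenLoop.const := by
  let pr : ℝ → I := Set.projIcc 0 1 zero_le_one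
  have hpr : Continuous pr := continuous_projIcc
  have pr0 : ∀ s, s ≤ 0 → pr s = 0 := fun s hs => Set.projIcc_of_le_left _ hs
  have pr1 : ∀ s, 1 ≤ s → pr s = 1 := fun s hs => Set.projIcc_of_right_le _ hs
  let ρ : (Fin n → I) → ℝ := fun y => ∏ i, (9 / 2 * (y i : ℝ) * (1 - y i))
  have hρ : Continuous ρ := by fun_prop
  have ρ0 : ∀ y ∈ Cube.boundary (Fin n), ρ y = 0 := by
    rintro y ⟨i, hi | hi⟩ <;> exact Finset.prod_eq_zero (Finset.mem_univ i) (by simp [hi])
  let r : I → (Fin n → I) → Fin n → I := fun t y i => pr (y i + 2 * t * (y i - 1 / 2))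
  have hr : Continuous fun z : I × (Fin n → I) => r z.1 z.2 := by fun_prop
  have r0 : ∀ y, r 0 y = y := fun y => by
    funext i
    simp [r, pr]
  have rb : ∀ t, ∀ y ∈ Cube.boundary (Fin n), r t y ∈ Cube.boundary (Fin n) := by
    rintro t y ⟨i, hi | hi⟩
    · exact ⟨i, Or.inl (pr0 _ (by simp [hi]; exact t.2.1))⟩
    · exact ⟨i, Or.inr (pr1 _ (by simp [hi]; linarith [t.2.1]))⟩
  have r1 : ∀ y, K (pr (ρ y), r 1 y) = γ (pr (ρ y)) := fun y => by
    by_cases h : r 1 y ∈ Cube.boundary (Fin n)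
    · exact hb _ _ h
    · have : 1 ≤ ρ y := Finset.one_le_prod fun i _ => by
        have a1 : 0 < (y i : ℝ) + 2 * (1 : I) * (y i - 1 / 2) := by
          by_contra hc
          exact h ⟨i, Or.inl (pr0 _ (not_lt.1 hc))⟩
        have a2 : (y i : ℝ) + 2 * (1 : I) * (y i - 1 / 2) < 1 := by
          by_contra hc
          exact h ⟨i, Or.inr (pr1 _ (not_lt.1 hc))⟩
        simp only [Set.Icc.coe_one] at a1 a2
        nlinarith
      rw [pr1 _ this, h1]
  let g : C(Fin n → I, X) := ⟨fun y => γ (pr (ρ y)), by fun_prop⟩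
  have A : f.1.HomotopicRel g (Cube.boundary (Fin n)) :=
    ⟨⟨⟨⟨fun z => K (pr (z.1 * ρ z.2), r z.1 z.2), by fun_prop⟩,
      fun y => by simp [r0, pr0, h0], fun y => by simpa [g] using r1 y⟩, fun t y hy => by
        have := h0 (r t y)
        rw [GenLoop.boundary f _ (rb t y hy)] at this
        simp [ρ0 y hy, pr0, this, GenLoop.boundary f y hy]⟩⟩
  have B : (GenLoop.const : GenLoop (Fin n) X x).1.HomotopicRel g (Cube.boundary (Fin n)) :=
    ⟨⟨⟨⟨fun z => γ (pr (z.1 * ρ z.2)), by fun_prop⟩,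
      fun y => by simp [pr0, hγ], fun y => by simp [g]⟩, fun t y hy => by
        simp [ρ0 y hy, pr0, hγ]⟩⟩
  exact A.trans B.symm

theorem pi_subsingleton {X : Type} [TopologicalSpace X] {n : ℕ} {x : X}
    (h : ∀ f : GenLoop (Fin n) X x, GenLoop.Homotopic f GenLoop.const) :
    Subsingleton (HomotopyGroup.Pi n X x) :=
  ⟨fun a b => Quotient.inductionOn₂ a b fun f g => Quotient.sound ((h f).trans (h g).symm)⟩

/-- All homotopy groups of a locally finite weakly contractible complex vanish. -/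
theorem geo_pi {R : α → α → Prop} {P : Set α} (h : WC R P)
    (hlf : ∀ a ∈ P, {b | b ∈ P ∧ R a b}.Finite) (n : ℕ) (x : geo R P) :
    Subsingleton (HomotopyGroup.Pi n (geo R P) x) := by
  refine pi_subsingleton fun f => ?_
  have hc : IsCompact (Set.range f.1) := isCompact_range f.1.continuous
  obtain ⟨t, ht⟩ := hc.elim_finite_subcover (fun a : P => {y : geo R P | y.1 a ≠ 0})
    (fun a => isOpen_ne_fun ((continuous_apply a.1).comp continuous_subtype_val)
      continuous_const) (fun y _ => by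
      by_contra hy
      have h1 : y.1 = 0 := funext fun a => by
        by_contra ha
        exact hy (Set.mem_iUnion.2 ⟨⟨a, y.2.2.2.1 ha⟩, ha⟩)
      have h2 := y.2.2.2.2.2
      rw [h1] at h2
      simp at h2)
  let F : Set α := support x.1 ∪ ⋃ a ∈ t, insert a.1 {b | b ∈ P ∧ R a b}
  have hF : F.Finite := x.2.2.1.union (t.finite_toSet.biUnion fun a _ => (hlf a a.2).insert _)
  have hFP : F ⊆ P := Set.union_subset x.2.2.2.1
    (Set.iUnion₂_subset fun a _ => Set.insert_subset a.2 fun b hb => hb.1)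
  have hf : ∀ y, (f.1 y).1 ∈ geo R F := fun y => by
    obtain ⟨a, ha, hy⟩ := Set.mem_iUnion₂.1 (ht ⟨y, rfl⟩)
    refine ⟨(f.1 y).2.1, (f.1 y).2.2.1, fun b hb => Or.inr (Set.mem_iUnion₂.2 ⟨a, ha, ?_⟩),
      (f.1 y).2.2.2.2⟩
    by_cases hab : b = a
    · exact Or.inl hab
    · exact Or.inr ⟨(f.1 y).2.2.2.1 hb, (f.1 y).2.2.2.2.1 hy hb (Ne.symm hab)⟩
  let f' : C(Fin n → unitInterval, geo R F) := ⟨fun y => ⟨(f.1 y).1, hf y⟩, by fun_prop⟩
  let x' : geo R F := ⟨x.1, x.2.1, x.2.2.1, Set.subset_union_left, x.2.2.2.2⟩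
  obtain ⟨F', -, h2, h3, c, ⟨H⟩⟩ := h.2 F hF hFP
  refine pi_null f ⟨fun z => ginc R h2 (H (z.1, f' z.2)), by fun_prop⟩
    ⟨fun t => ginc R h2 (H (t, x')), by fun_prop⟩ ?_ (fun y => ?_) (fun y => ?_) fun t y hy => ?_
  · exact congrArg (ginc R h2) (H.apply_zero x')
  · exact congrArg (ginc R h2) (H.apply_zero (f' y))
  · exact congrArg (ginc R h2) ((H.apply_one (f' y)).trans (H.apply_one x').symm)
  · have : f' y = x' := Subtype.ext (congrArg Subtype.val (f.2 y hy) :)
    exact congrArg (fun w => ginc R h2 (H (t, w))) this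

/-- Higher homotopy groups of the base of a covering. -/
theorem pi_of_cover {E X : Type} [TopologicalSpace E] [TopologicalSpace X] {p : E → X}
    (hp : IsCoveringMap p) (hs : Surjective p) (n : ℕ) (hn : 2 ≤ n)
    (h : ∀ e : E, Subsingleton (HomotopyGroup.Pi n E e)) (x : X) :
    Subsingleton (HomotopyGroup.Pi n X x) := by
  refine pi_subsingleton fun f => ?_
  obtain ⟨e, rfl⟩ := hs x
  have : Nontrivial (Fin n) := Fin.nontrivial_iff_two_le.2 hn
  have b0 : (0 : Fin n → unitInterval) ∈ Cube.boundary (Fin n) := ⟨⟨0, by omega⟩, Or.inl rfl⟩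
  let H : C(unitInterval × (Fin n → unitInterval), X) :=
    ⟨fun z => f.1 fun i => z.1 * z.2 i, by fun_prop⟩
  have H0 : ∀ y, H (0, y) = p (ContinuousMap.const _ e y) := fun y => by
    have := f.2 (fun _ => 0) b0
    simpa [H] using this
  let G := hp.liftHomotopy H _ H0
  have hG : ∀ z, p (G z) = H z := congrFun (hp.liftHomotopy_lifts H _ H0)
  let F : C(Fin n → unitInterval, E) := ⟨fun y => G (1, y), by fun_prop⟩
  have hF : ∀ y, p (F y) = f.1 y := fun y => (hG _).trans (by simp [H])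
  have F0 : F 0 = e := by
    have := hp.const_of_comp (g := fun t : unitInterval => G (t, 0)) (by fun_prop)
      (fun a a' => by simp [hG, H]) 1 0
    exact this.trans (hp.liftHomotopy_zero H _ H0 0)
  have face : ∀ (i : Fin n) (c : unitInterval), c = 0 ∨ c = 1 → ∀ y y' : Fin n → unitInterval,
      y i = c → y' i = c → F y = F y' := fun i c hc y y' hy hy' => by
    have := hp.const_of_comp (g := fun y : Fin n → unitInterval => F (update y i c)) (by fun_prop)
      (fun a a' => by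
        rw [hF, hF, f.2 _ ⟨i, by simpa using hc⟩, f.2 _ ⟨i, by simpa using hc⟩]) y y'
    rwa [← hy, update_eq_self, hy, ← hy', update_eq_self] at this
  have hFb : ∀ y ∈ Cube.boundary (Fin n), F y = e := by
    rintro y ⟨i, hi | hi⟩
    · exact (face i 0 (Or.inl rfl) y 0 hi rfl).trans F0
    · obtain ⟨j, hj⟩ := exists_ne i
      exact ((face i 1 (Or.inr rfl) y (update y j 0) hi (by rw [update_of_ne hj.symm, hi])).trans
        (face j 0 (Or.inl rfl) _ 0 (update_self _ _ _) rfl)).trans F0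
  have h1 : GenLoop.Homotopic (⟨F, hFb⟩ : GenLoop (Fin n) E e) GenLoop.const :=
    Quotient.exact ((h e).elim (Quotient.mk _ _) (Quotient.mk _ _))
  have h2 := ContinuousMap.HomotopicRel.comp_continuousMap h1 ⟨p, hp.continuous⟩
  have e1 : (⟨p, hp.continuous⟩ : C(E, X)).comp F = f.1 := ContinuousMap.ext hF
  show f.1.HomotopicRel _ _
  rw [← e1]
  exact h2

end Vale.Agent.P203
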