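import Vale.Agent.P203.SalAll
import Vale.Agent.P203.Cover
import Vale.Agent.P203.TopPi
import Vale.Agent.P203.Sign
import Vale.Agent.P203.CatEx
import Vale.Agent.P203.CoreEx

namespace Vale.Agent.P203

theorem salQ_aspherical {B W : Type} [Finite B] [Group W] {M : CoxeterMatrix B}
    (cs : CoxeterSystem M W) :
    PathConnectedSpace (SalQ cs) ∧
      ∀ n : ℕ, 2 ≤ n → ∀ x : SalQ cs, Subsingleton (HomotopyGroup.Pi n (SalQ cs) x) := by
  classical
  haveI := Fintype.ofFinite B
  obtain ⟨D⟩ := dat_exists cs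
  obtain ⟨K⟩ := cat_exists D.gr
  obtain ⟨C⟩ := core_of_cat K
  obtain ⟨p, hp, hs⟩ := C.exists_cover
  have hW := C.wc_SS Finset.univ 1
  haveI := geo_pathConnected hW
  refine ⟨hs.pathConnectedSpace hp.continuous, fun n hn x => ?_⟩
  exact pi_of_cover hp hs n hn (fun e => geo_pi hW C.SS_locallyFinite n e) x

end Vale.Agent.P203
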