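import Vale.Agent.P203.CoreDefs

namespace Vale.Agent.P203

variable {B W : Type} [Group W] {M : CoxeterMatrix B} [Fintype B] [DecidableEq B]
variable {cs : CoxeterSystem M W}

/-- A nonzero point of the standard cone of type `T`. -/
def Pt (T : Finset B) (a : B → ℝ) : Prop :=
  (∀ t, 0 ≤ a t) ∧ (∀ r ∉ T, a r = 0) ∧ ∃ t ∈ T, a t ≠ 0

/-- The piecewise linear function. -/
def Dv {G : Type} (T : Finset B) (p : G → B → ℝ) (x : G) (a : B → ℝ) : ℝ := ∑ t ∈ T, a t * p x t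

namespace Core

variable {D : Dat cs} (C : Core D)

/-- The properties of the slope function `p` on the coset `x₀ P T`. -/
structure GeoHyp (T : Finset B) (R : C.G → Prop) (p : C.G → B → ℝ) (x₀ : C.G) : Prop where
  down : ∀ x, ∀ s ∈ T, R (x * C.gen s) → R x
  supp : ∀ r ∉ T, p x₀ r = 0
  g1 : ∀ x s r, r ≠ s → p (x * C.gen s) r = p x r
  g2 : ∀ x, ∀ s ∈ T, ∑ u, D.c s u * p x u ≤ p (x * C.gen s) s + p x s
  g3 : ∀ x, ∀ s ∈ T, R (x * C.gen s * C.gen s) → 0 ≤ D.bf (p x) (al s)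
  g4 : ∀ z, ∀ t ∈ T, (∀ w ∈ WP cs T, R (z * C.lift w)) → R (z * C.gen t * C.gen t) →
    (∀ w ∈ WP cs T, D.bf (al t) (D.fr w (p (z * C.lift w))) ≤ 0) →
    ∀ w ∈ WP cs T, ∀ u, (u = t ∨ D.c t u ≠ 0) → D.fr w (p (z * C.lift w)) u = p z u

/-- The predicate `Q` is a property of points of the complex. -/
def PtInv (T : Finset B) (Q : C.G → (B → ℝ) → Prop) : Prop :=
  ∀ x a, ∀ s ∈ T, a s = 0 → (Q x a ↔ Q (x * C.gen s) a)

end Core

end Vale.Agent.P203
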