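import Vale.Agent.P203.ModelLES

namespace Vale.Agent.P203

variable {B : Type} {Γ : Gr B}

namespace Raw

private theorem cut_hyper {V : Type} [AddCommGroup V] [Module K2 V] [Module.Finite K2 V]
    (W Z : Submodule K2 V) (hWZ : W ≤ Z) (h : Module.finrank K2 W < Module.finrank K2 Z) :
    ∃ H : Submodule K2 V, W ≤ H ∧ H ≤ Z ∧ Module.finrank K2 H + 1 = Module.finrank K2 Z := by
  have hn : ¬ Z ≤ W := fun h' => by
    have := Submodule.finrank_mono h'
    omega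
  obtain ⟨v, hv, hvW⟩ := SetLike.not_le_iff_exists.1 hn
  obtain ⟨f, hf, hW⟩ := Submodule.exists_le_ker_of_notMem hvW
  refine ⟨Z ⊓ LinearMap.ker f, le_inf hWZ hW, inf_le_left, ?_⟩
  have h1 := finrank_rel f Z ⊥
  have e : Z.map f ⊔ ⊥ = ⊤ := by
    rw [sup_bot_eq, eq_top_iff]
    intro x _
    refine ⟨(x * (f v)⁻¹) • v, Z.smul_mem _ hv, ?_⟩
    rw [map_smul, smul_eq_mul, mul_assoc, inv_mul_cancel₀ hf, mul_one]
  rw [e, finrank_bot, finrank_top, Module.finrank_self, Submodule.comap_bot] at h1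
  omega

private def cutG (E : Raw Γ) (K : ℤ) (Y : ∀ i, Submodule K2 (E.F.V i)) : E.F.Gd :=
  fun i k => if k < K then E.top i k else if k = K then Y i else E.bot i k

private theorem cutG_lt (E : Raw Γ) {K k : ℤ} (Y : ∀ i, Submodule K2 (E.F.V i)) (i : Γ.N)
    (h : k < K) : cutG E K Y i k = E.top i k := if_pos h

private theorem cutG_eq (E : Raw Γ) (K : ℤ) (Y : ∀ i, Submodule K2 (E.F.V i)) (i : Γ.N) :
    cutG E K Y i K = Y i := by
  simp [cutG]

private theorem cutG_gt (E : Raw Γ) {K k : ℤ} (Y : ∀ i, Submodule K2 (E.F.V i)) (i : Γ.N)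
    (h : K < k) : cutG E K Y i k = E.bot i k := by
  simp [cutG, h.not_gt, h.ne']

private theorem cut_main {E : Raw Γ} (hE : E.Ok) (K : ℤ) (Y : ∀ i, Submodule K2 (E.F.V i))
    (hBY : ∀ i, E.Bd K i ≤ Y i) (hYZ : ∀ i, Y i ≤ E.Z K i)
    (hYa : ∀ i j e v, v ∈ Y i → E.F.a i j e v ∈ Y j) :
    ∃ A C : Raw Γ, A.Ok ∧ C.Ok ∧ SES A E C ∧ (∀ k, K < k → ∀ i, A.h k i = 0) ∧
      (∀ i, Y i ≤ E.Bd K i → A.h K i = 0) ∧ (∀ k, k < K → ∀ i, C.h k i = 0) ∧
      (∀ i, C.h K i = Module.finrank K2 (E.Z K i) - Module.finrank K2 (Y i)) ∧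
      ∀ k, K < k → ∀ i, C.h k i = E.h k i := by
  have hbY : ∀ i, E.bot i K ≤ Y i := fun i => le_sup_right.trans (hBY i)
  have hYt : ∀ i, Y i ≤ E.top i K := fun i => (hYZ i).trans inf_le_left
  have hb : ∀ i k, E.bot i k ≤ cutG E K Y i k := fun i k => by
    rcases lt_trichotomy k K with h | rfl | h
    · rw [cutG_lt E Y i h]; exact hE.le i k
    · rw [cutG_eq]; exact hbY i
    · rw [cutG_gt E Y i h]
  have ht : ∀ i k, cutG E K Y i k ≤ E.top i k := fun i k => by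
    rcases lt_trichotomy k K with h | rfl | h
    · rw [cutG_lt E Y i h]
    · rw [cutG_eq]; exact hYt i
    · rw [cutG_gt E Y i h]; exact hE.le i k
  have hfam : E.F.IsFam (cutG E K Y) := by
    refine ⟨fun i k v hv => ?_, fun i k v hv => ?_, fun i j e k v hv => ?_⟩
    · rcases lt_trichotomy k K with h | rfl | h
      · rw [cutG_lt E Y i h] at hv
        rcases lt_or_eq_of_le (Int.add_one_le_of_lt h) with h2 | h2
        · rw [cutG_lt E Y i h2]; exact hE.ft.d_mem i k v hv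
        · rw [h2, cutG_eq]
          refine hBY i (Submodule.mem_sup_left ⟨v, ?_, rfl⟩)
          have : K - 1 = k := by omega
          rw [this]; exact hv
      · rw [cutG_eq] at hv
        rw [cutG_gt E Y i (by omega)]
        exact (hYZ i hv).2
      · rw [cutG_gt E Y i h] at hv
        exact hb i _ (hE.fb.d_mem i k v hv)
    · rcases lt_or_ge K k with h | h
      · rw [cutG_gt E Y i h] at hv
        exact hb i _ (hE.fb.l_mem i k v hv)
      · rw [cutG_lt E Y i (by omega)]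
        exact hE.ft.l_mem i k v (ht i k hv)
    · rcases lt_trichotomy k K with h | rfl | h
      · rw [cutG_lt E Y _ h] at hv ⊢; exact hE.ft.a_mem i j e k v hv
      · rw [cutG_eq] at hv ⊢; exact hYa i j e v hv
      · rw [cutG_gt E Y _ h] at hv ⊢; exact hE.fb.a_mem i j e k v hv
  obtain ⟨n, hn⟩ := hE.bdd
  have hA : (⟨E.F, cutG E K Y, E.bot⟩ : Raw Γ).Ok :=
    ⟨hE.good, hfam, hE.fb, hb, n, fun i k hk =>
      le_antisymm ((ht i k).trans (hn i k hk).le) (hb i k)⟩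
  have hC : (⟨E.F, E.top, cutG E K Y⟩ : Raw Γ).Ok :=
    ⟨hE.good, hE.ft, hfam, ht, n, fun i k hk =>
      le_antisymm ((hn i k hk).le.trans (hb i k)) (ht i k)⟩
  refine ⟨_, _, hA, hC, ⟨E.F, E.bot, cutG E K Y, E.top, rfl, rfl, rfl⟩, fun k hk i => ?_,
    fun i hi => ?_, fun k hk i => ?_, fun i => ?_, fun k hk i => ?_⟩
  · refine (hA.h_eq_zero_iff k i).2 fun v hv => ?_
    have h1 : v ∈ cutG E K Y i k := hv.1
    rw [cutG_gt E Y i hk] at h1
    exact Submodule.mem_sup_right h1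
  · refine (hA.h_eq_zero_iff K i).2 fun v hv => ?_
    have h1 : v ∈ cutG E K Y i K := hv.1
    rw [cutG_eq] at h1
    show v ∈ (cutG E K Y i (K - 1)).map (E.F.d i) ⊔ E.bot i K
    rw [cutG_lt E Y i (by omega)]
    exact hi h1
  · refine (hC.h_eq_zero_iff k i).2 fun v hv => ?_
    refine Submodule.mem_sup_right ?_
    show v ∈ cutG E K Y i k
    rw [cutG_lt E Y i hk]
    exact hv.1
  · have e1 : (⟨E.F, E.top, cutG E K Y⟩ : Raw Γ).Z K i = E.Z K i := by
      show E.top i K ⊓ (cutG E K Y i (K + 1)).comap (E.F.d i) = _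
      rw [cutG_gt E Y i (by omega)]; rfl
    have e2 : (⟨E.F, E.top, cutG E K Y⟩ : Raw Γ).Bd K i = Y i := by
      show (E.top i (K - 1)).map (E.F.d i) ⊔ cutG E K Y i K = _
      rw [cutG_eq]
      exact sup_eq_right.2 (le_sup_left.trans (hBY i))
    unfold h
    rw [e1, e2]
  · have e1 : (⟨E.F, E.top, cutG E K Y⟩ : Raw Γ).Z k i = E.Z k i := by
      show E.top i k ⊓ (cutG E K Y i (k + 1)).comap (E.F.d i) = _
      rw [cutG_gt E Y i (by omega)]; rfl
    have e2 : (⟨E.F, E.top, cutG E K Y⟩ : Raw Γ).Bd k i = E.Bd k i := by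
      show (E.top i (k - 1)).map (E.F.d i) ⊔ cutG E K Y i k = _
      rw [cutG_gt E Y i hk]; rfl
    unfold h
    rw [e1, e2]

theorem Ok.trunc {E : Raw Γ} (hE : E.Ok) (K : ℤ) :
    ∃ A C : Raw Γ, A.Ok ∧ C.Ok ∧ SES A E C ∧ (∀ k, K ≤ k → ∀ j, A.h k j = 0) ∧
      ∀ k, k < K → ∀ j, C.h k j = 0 := by
  obtain ⟨A, C, hA, hC, hS, h1, h2, h3, -, -⟩ := cut_main hE K (E.Bd K) (fun _ => le_rfl)
    (fun i => hE.bd_le_z K i) (fun i j e v hv => hE.a_bd K i j e hv)
  refine ⟨A, C, hA, hC, hS, fun k hk j => ?_, h3⟩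
  rcases hk.lt_or_eq with hk | rfl
  · exact h1 k hk j
  · exact h2 j le_rfl

theorem Ok.peel {E : Raw Γ} (hE : E.Ok) (K : ℤ) (j : Γ.N)
    (hK : ∀ k, K < k → ∀ i, E.h k i = 0) (hb : E.b K j ≠ 0) :
    ∃ A C : Raw Γ, A.Ok ∧ C.Ok ∧ SES A E C ∧ (∀ k, K < k → ∀ i, A.h k i = 0) ∧
      ∀ k i, C.h k i = if k = K ∧ i = j then 1 else 0 := by
  have := hE.good.fd j
  obtain ⟨H, h1, h2, h3⟩ := cut_hyper (E.In K j) (E.Z K j) (hE.in_le_z K j) (by
    unfold b at hb; omega)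
  have hI : ∀ i, E.In K i ≤ Function.update (E.Z K) j H i := fun i => by
    by_cases hi : i = j
    · subst hi; rw [Function.update_self]; exact h1
    · rw [Function.update_of_ne hi]; exact hE.in_le_z K i
  have hZ : ∀ i, Function.update (E.Z K) j H i ≤ E.Z K i := fun i => by
    by_cases hi : i = j
    · subst hi; rw [Function.update_self]; exact h2
    · rw [Function.update_of_ne hi]
  obtain ⟨A, C, hA, hC, hS, g1, -, g3, g4, g5⟩ := cut_main hE K (Function.update (E.Z K) j H)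
    (fun i => (Ok.bd_le_in K i).trans (hI i)) hZ (fun i i' e v hv => by
      refine hI i' (Submodule.mem_sup_left ?_)
      exact Submodule.mem_iSup_of_mem i (Submodule.mem_iSup_of_mem e ⟨v, hZ i hv, rfl⟩))
  refine ⟨A, C, hA, hC, hS, g1, fun k i => ?_⟩
  rcases lt_trichotomy k K with h | rfl | h
  · rw [g3 k h i, if_neg (fun h' => h.ne h'.1)]
  · rw [g4 i]
    by_cases hi : i = j
    · subst hi
      rw [Function.update_self, if_pos ⟨rfl, rfl⟩]
      omega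
    · rw [Function.update_of_ne hi, if_neg (fun h' => hi h'.2)]
      omega
  · rw [g5 k h i, hK k h i, if_neg (fun h' => h.ne' h'.1)]

theorem Ok.nil {E : Raw Γ} (hE : E.Ok) (k : ℤ) (hb : ∀ j, E.b k j = 0) (j : Γ.N) :
    E.h k j = 0 := by
  have h1 : ∀ i, E.Z k i ≤ E.In k i := fun i => by
    have := hE.good.fd i
    have h0 := hb i
    unfold b at h0
    exact (Submodule.eq_of_le_of_finrank_le (hE.in_le_z k i) (by omega)).ge
  have h2 : ∀ (n : ℕ) i, E.Z k i ≤ E.F.Phi^[n] (fun _ => ⊤) i ⊔ E.Bd k i := by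
    intro n
    induction n with
    | zero => intro i; simp
    | succ n ih =>
      intro i
      refine (h1 i).trans (sup_le ?_ le_sup_right)
      rw [Function.iterate_succ_apply']
      refine iSup_le fun i' => iSup_le fun e => ?_
      rintro _ ⟨v, hv, rfl⟩
      obtain ⟨u, hu, w, hw, rfl⟩ := Submodule.mem_sup.1 (ih i' hv)
      rw [map_add]
      exact Submodule.add_mem_sup
        (Submodule.mem_iSup_of_mem i' (Submodule.mem_iSup_of_mem e ⟨u, hu, rfl⟩))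
        (hE.a_bd k i' i e hw)
  obtain ⟨n, hn⟩ := hE.good.nil
  refine (hE.h_eq_zero_iff k j).2 ?_
  have := h2 n j
  rw [hn, bot_sup_eq] at this
  exact this

theorem oct {A' A C' E C : Raw Γ} (hC' : C'.Ok) (hC : C.Ok) (h' : SES A' A C') (h : SES A E C) :
    ∃ C'' : Raw Γ, C''.Ok ∧ SES A' E C'' ∧ SES C' C'' C := by
  obtain ⟨F', G₀', G₁', G₂', rfl, rfl, rfl⟩ := h'
  obtain ⟨F, G₀, G₁, G₂, hA, rfl, rfl⟩ := h
  cases hA
  obtain ⟨n, hn⟩ := hC'.bdd
  obtain ⟨m, hm⟩ := hC.bdd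
  refine ⟨⟨F', G₂, G₁'⟩, ⟨hC.good, hC.ft, hC'.fb, fun i k => (hC'.le i k).trans (hC.le i k),
    max n m, fun i k hk => ?_⟩, ⟨F', G₀', G₁', G₂, rfl, rfl, rfl⟩,
    ⟨F', G₁', G₂', G₂, rfl, rfl, rfl⟩⟩
  have h1 : (n : ℤ) < |k| := lt_of_le_of_lt (by exact_mod_cast le_max_left n m) hk
  have h2 : (m : ℤ) < |k| := lt_of_le_of_lt (by exact_mod_cast le_max_right n m) hk
  exact (hm i k h2).trans (hn i k h1)

theorem exists_simple (j : Γ.N) :
    ∃ E : Raw Γ, E.Ok ∧ ∀ k i, E.h k i = if k = 0 ∧ i = j then 1 else 0 := by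
  let F : Pre Γ := { V := fun _ => K2, d := fun _ => 0, l := fun _ => 0, a := fun _ _ _ => 0 }
  have hfam : ∀ G : F.Gd, F.IsFam G := fun G =>
    ⟨fun _ _ _ _ => zero_mem _, fun _ _ _ _ => zero_mem _, fun _ _ _ _ _ _ => zero_mem _⟩
  have hgood : F.Good := by
    refine ⟨fun _ => inferInstanceAs (Module.Finite K2 K2), fun _ _ => rfl, fun _ _ _ _ => rfl,
      fun i v => ?_, 1, ?_⟩
    · rw [Pre.inn_apply]
      simp [F]
    · funext i
      simp [Pre.Phi, F]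
  let T : F.Gd := fun i k => if k = 0 ∧ i = j then ⊤ else ⊥
  refine ⟨⟨F, T, fun _ _ => ⊥⟩, ⟨hgood, hfam _, hfam _, fun _ _ => bot_le, 0, fun i k hk => ?_⟩,
    fun k i => ?_⟩
  · refine if_neg fun h => ?_
    rw [h.1] at hk
    simp at hk
  · have e1 : (⟨F, T, fun _ _ => ⊥⟩ : Raw Γ).Z k i = T i k := by
      show T i k ⊓ (⊥ : Submodule K2 K2).comap (0 : K2 →ₗ[K2] K2) = _
      simp
    have e2 : (⟨F, T, fun _ _ => ⊥⟩ : Raw Γ).Bd k i = ⊥ := by
      show (T i (k - 1)).map (0 : K2 →ₗ[K2] K2) ⊔ ⊥ = _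
      simp
    unfold h
    rw [e1, e2, finrank_bot]
    by_cases hki : k = 0 ∧ i = j
    · have e3 : T i k = ⊤ := if_pos hki
      rw [e3, if_pos hki, finrank_top]
      exact Module.finrank_self K2
    · have e3 : T i k = ⊥ := if_neg hki
      rw [e3, if_neg hki, finrank_bot]

end Raw

end Vale.Agent.P203
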