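import Vale.Agent.P203.CatDefs

namespace Vale.Agent.P203

open LinearMap

variable {B : Type} {Γ : Gr B}

abbrev K2 : Type := ZMod 2

theorem add_self2 {V : Type} [AddCommGroup V] [Module K2 V] (v : V) : v + v = 0 := by
  rw [← two_smul K2 v, show (2 : K2) = 0 from rfl, zero_smul]

/-- Reversal of an oriented edge. -/
def Gr.rev (Γ : Gr B) {i j : Γ.N} (e : Fin (Γ.mu i j)) : Fin (Γ.mu j i) :=
  Fin.cast (Γ.mu_symm i j) e

@[simp] theorem Gr.rev_rev (Γ : Gr B) {i j : Γ.N} (e : Fin (Γ.mu i j)) :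
    Γ.rev (Γ.rev e) = e := rfl

theorem Gr.lab_ne (Γ : Gr B) {i j : Γ.N} (e : Fin (Γ.mu i j)) : Γ.lab i ≠ Γ.lab j := fun h => by
  have h1 := e.2
  have h2 := Γ.mu_lab i j h
  omega

/-- Ungraded operator data: differential `d`, homotopy `l`, edge maps `a`. -/
structure Pre (Γ : Gr B) : Type 1 where
  V : Γ.N → Type
  [acg : ∀ i, AddCommGroup (V i)]
  [mod : ∀ i, Module K2 (V i)]
  d : ∀ i, V i →ₗ[K2] V i
  l : ∀ i, V i →ₗ[K2] V i
  a : ∀ i j, Fin (Γ.mu i j) → (V i →ₗ[K2] V j)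

attribute [instance] Pre.acg Pre.mod

namespace Pre

variable (F : Pre Γ)

/-- The sum of the spaces at the neighbours of `i`. -/
abbrev NV (i : Γ.N) : Type := ∀ j, Fin (Γ.mu i j) → F.V j

def inn (i : Γ.N) : F.NV i →ₗ[K2] F.V i :=
  ∑ j, ∑ e : Fin (Γ.mu i j), F.a j i (Γ.rev e) ∘ₗ (proj e) ∘ₗ (proj j)

def out (i : Γ.N) : F.V i →ₗ[K2] F.NV i := pi fun j => pi fun e => F.a i j e

def dN (i : Γ.N) : F.NV i →ₗ[K2] F.NV i :=
  pi fun j => pi fun e => F.d j ∘ₗ (proj e) ∘ₗ (proj j)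

theorem inn_apply (i : Γ.N) (f : F.NV i) :
    F.inn i f = ∑ j, ∑ e : Fin (Γ.mu i j), F.a j i (Γ.rev e) (f j e) := by
  simp [inn]

@[simp] theorem out_apply (i : Γ.N) (v : F.V i) (j) (e) : F.out i v j e = F.a i j e v := rfl

@[simp] theorem dN_apply (i : Γ.N) (f : F.NV i) (j) (e) : F.dN i f j e = F.d j (f j e) := rfl

/-- The span of the images of the edge maps. -/
def Phi (X : ∀ i, Submodule K2 (F.V i)) : ∀ i, Submodule K2 (F.V i) :=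
  fun j => ⨆ i, ⨆ e : Fin (Γ.mu i j), (X i).map (F.a i j e)

/-- The relations of the dg preprojective algebra, finiteness and nilpotency. -/
structure Good : Prop where
  fd : ∀ i, Module.Finite K2 (F.V i)
  dd : ∀ i v, F.d i (F.d i v) = 0
  da : ∀ i j e v, F.d j (F.a i j e v) = F.a i j e (F.d i v)
  rel : ∀ i v, F.d i (F.l i v) + F.l i (F.d i v) + F.inn i (F.out i v) = 0
  nil : ∃ n : ℕ, F.Phi^[n] (fun _ => ⊤) = fun _ => ⊥

/-- Gradings: families of subspaces. -/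
abbrev Gd : Type := ∀ i, ℤ → Submodule K2 (F.V i)

structure IsFam (G : F.Gd) : Prop where
  d_mem : ∀ i k v, v ∈ G i k → F.d i v ∈ G i (k + 1)
  l_mem : ∀ i k v, v ∈ G i k → F.l i v ∈ G i (k - 1)
  a_mem : ∀ i j e k v, v ∈ G i k → F.a i j e v ∈ G j k

/-- The degree `k` part of the neighbour space. -/
def gN (G : F.Gd) (i : Γ.N) (k : ℤ) : Submodule K2 (F.NV i) :=
  Submodule.pi Set.univ fun j => Submodule.pi Set.univ fun _ => G j k

theorem mem_gN {G : F.Gd} {i : Γ.N} {k : ℤ} {f : F.NV i} :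
    f ∈ F.gN G i k ↔ ∀ j e, f j e ∈ G j k := by
  simp [gN, Submodule.mem_pi]

variable [DecidableEq B] (s : B)

def phi (i : Γ.N) : F.V i →ₗ[K2] F.V i × F.NV i :=
  if Γ.lab i = s then (F.l i).prod (F.out i) else inl K2 _ _

def ev (i j : Γ.N) (e : Fin (Γ.mu i j)) : F.V i × F.NV i →ₗ[K2] F.V j :=
  if Γ.lab i = s then (proj e) ∘ₗ (proj j) ∘ₗ snd K2 _ _ else F.a i j e ∘ₗ fst K2 _ _

/-- The twist that raises degrees. -/
def up : Pre Γ where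
  V i := F.V i × F.NV i
  d i := if Γ.lab i = s then
      (F.d i ∘ₗ fst K2 _ _ + F.inn i ∘ₗ snd K2 _ _).prod (F.dN i ∘ₗ snd K2 _ _)
    else inl K2 _ _ ∘ₗ F.d i ∘ₗ fst K2 _ _
  l i := if Γ.lab i = s then F.phi s i ∘ₗ fst K2 _ _ else inl K2 _ _ ∘ₗ F.l i ∘ₗ fst K2 _ _
  a i j e := F.phi s j ∘ₗ F.ev s i j e

def upG (G : F.Gd) : (F.up s).Gd := fun i k =>
  if Γ.lab i = s then (G i (k - 1)).prod (F.gN G i k) else (G i k).prod ⊥

def psi (i : Γ.N) : F.V i × F.NV i →ₗ[K2] F.V i :=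
  if Γ.lab i = s then F.l i ∘ₗ fst K2 _ _ + F.inn i ∘ₗ snd K2 _ _ else fst K2 _ _

def co (i j : Γ.N) (e : Fin (Γ.mu i j)) : F.V i →ₗ[K2] F.V j × F.NV j :=
  if Γ.lab j = s then
    inr K2 _ _ ∘ₗ single K2 (fun i' => Fin (Γ.mu j i') → F.V i') i ∘ₗ
      single K2 (fun _ => F.V i) (Γ.rev e)
  else inl K2 _ _ ∘ₗ F.a i j e

/-- The twist that lowers degrees. -/
def dn : Pre Γ where
  V i := F.V i × F.NV i
  d i := if Γ.lab i = s then
      (F.d i ∘ₗ fst K2 _ _).prod (F.out i ∘ₗ fst K2 _ _ + F.dN i ∘ₗ snd K2 _ _)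
    else inl K2 _ _ ∘ₗ F.d i ∘ₗ fst K2 _ _
  l i := if Γ.lab i = s then inl K2 _ _ ∘ₗ F.psi s i else inl K2 _ _ ∘ₗ F.l i ∘ₗ fst K2 _ _
  a i j e := F.co s i j e ∘ₗ F.psi s i

def dnG (G : F.Gd) : (F.dn s).Gd := fun i k =>
  if Γ.lab i = s then (G i (k + 1)).prod (F.gN G i k) else (G i k).prod ⊥

end Pre

/-- Strict morphisms. -/
structure PHom (F F' : Pre Γ) where
  f : ∀ i, F.V i →ₗ[K2] F'.V i
  f_d : ∀ i v, f i (F.d i v) = F'.d i (f i v)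
  f_l : ∀ i v, f i (F.l i v) = F'.l i (f i v)
  f_a : ∀ i j e v, f j (F.a i j e v) = F'.a i j e (f i v)

/-- A dg module presented as a subquotient `top / bot`. -/
structure Raw (Γ : Gr B) : Type 1 where
  F : Pre Γ
  top : F.Gd
  bot : F.Gd

namespace Raw

variable (E : Raw Γ)

structure Ok : Prop where
  good : E.F.Good
  ft : E.F.IsFam E.top
  fb : E.F.IsFam E.bot
  le : ∀ i k, E.bot i k ≤ E.top i k
  bdd : ∃ n : ℕ, ∀ i (k : ℤ), (n : ℤ) < |k| → E.top i k = E.bot i k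

/-- Cocycles. -/
def Z (k : ℤ) (i : Γ.N) : Submodule K2 (E.F.V i) :=
  E.top i k ⊓ (E.bot i (k + 1)).comap (E.F.d i)

/-- Coboundaries. -/
def Bd (k : ℤ) (i : Γ.N) : Submodule K2 (E.F.V i) :=
  (E.top i (k - 1)).map (E.F.d i) ⊔ E.bot i k

/-- Coboundaries together with the images of cocycles under incoming edges. -/
def In (k : ℤ) (i : Γ.N) : Submodule K2 (E.F.V i) := E.F.Phi (E.Z k) i ⊔ E.Bd k i

noncomputable def h (k : ℤ) (i : Γ.N) : ℕ :=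
  Module.finrank K2 (E.Z k i) - Module.finrank K2 (E.Bd k i)

noncomputable def b (k : ℤ) (i : Γ.N) : ℕ :=
  Module.finrank K2 (E.Z k i) - Module.finrank K2 (E.In k i)

def SES (A E C : Raw Γ) : Prop :=
  ∃ (F : Pre Γ) (G₀ G₁ G₂ : F.Gd), A = ⟨F, G₁, G₀⟩ ∧ E = ⟨F, G₂, G₀⟩ ∧ C = ⟨F, G₂, G₁⟩

def Iso (X Y : Raw Γ) : Prop :=
  ∃ f : PHom X.F Y.F, ∀ i k, (X.top i k).map (f.f i) ⊔ Y.bot i k = Y.top i k ∧
    X.top i k ⊓ (Y.bot i k).comap (f.f i) = X.bot i k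

variable [DecidableEq B] (s : B)

def up : Raw Γ := ⟨E.F.up s, E.F.upG s E.top, E.F.upG s E.bot⟩

def dn : Raw Γ := ⟨E.F.dn s, E.F.dnG s E.top, E.F.dnG s E.bot⟩

end Raw

end Vale.Agent.P203
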