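import Vale.Agent.P203.ModelDefs

namespace Vale.Agent.P203

variable {B : Type} {Γ : Gr B}

private theorem les_aux_rn {V V' : Type} [AddCommGroup V] [Module K2 V] [AddCommGroup V']
    [Module K2 V'] [Module.Finite K2 V] (f : V →ₗ[K2] V') (X : Submodule K2 V) :
    Module.finrank K2 X = Module.finrank K2 (X ⊓ LinearMap.ker f : Submodule K2 V) +
      Module.finrank K2 (X.map f) := by
  have h := LinearMap.finrank_range_add_finrank_ker (f.domRestrict X)
  rw [LinearMap.range_domRestrict, LinearMap.ker_domRestrict] at h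
  have h2 := Submodule.finrank_map_subtype_eq X ((LinearMap.ker f).comap X.subtype)
  rw [Submodule.map_comap_subtype] at h2
  omega

/-- Rank-nullity relative to a subspace. -/
theorem finrank_rel {V V' : Type} [AddCommGroup V] [Module K2 V] [AddCommGroup V'] [Module K2 V']
    [Module.Finite K2 V] [Module.Finite K2 V'] (f : V →ₗ[K2] V') (X : Submodule K2 V)
    (Y : Submodule K2 V') :
    Module.finrank K2 X + Module.finrank K2 Y =
      Module.finrank K2 (X ⊓ Y.comap f : Submodule K2 V) +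
        Module.finrank K2 (X.map f ⊔ Y : Submodule K2 V') := by
  have h1 := les_aux_rn (Y.mkQ ∘ₗ f) X
  have h2 := les_aux_rn Y.mkQ (X.map f ⊔ Y)
  have e1 : LinearMap.ker (Y.mkQ ∘ₗ f) = Y.comap f := by
    rw [LinearMap.ker_comp, Submodule.ker_mkQ]
  have e2 : (X.map f ⊔ Y) ⊓ LinearMap.ker Y.mkQ = Y := by
    rw [Submodule.ker_mkQ]; exact inf_eq_right.2 le_sup_right
  have e3 : (X.map f ⊔ Y).map Y.mkQ = X.map (Y.mkQ ∘ₗ f) := by
    rw [Submodule.map_sup, Submodule.mkQ_map_self, sup_bot_eq, Submodule.map_comp]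
  rw [e1] at h1
  rw [e2, e3] at h2
  omega

namespace Raw

theorem Ok.bd_le_in {E : Raw Γ} (k : ℤ) (i : Γ.N) : E.Bd k i ≤ E.In k i := le_sup_right

theorem Ok.bd_le_z {E : Raw Γ} (hE : E.Ok) (k : ℤ) (i : Γ.N) : E.Bd k i ≤ E.Z k i := by
  refine sup_le ?_ ?_
  · rintro _ ⟨v, hv, rfl⟩
    refine ⟨?_, ?_⟩
    · have := hE.ft.d_mem i (k - 1) v hv
      rwa [sub_add_cancel] at this
    · show E.F.d i (E.F.d i v) ∈ E.bot i (k + 1)
      rw [hE.good.dd]; exact zero_mem _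
  · intro v hv
    exact ⟨hE.le i k hv, hE.fb.d_mem i k v hv⟩

theorem Ok.a_z {E : Raw Γ} (hE : E.Ok) (k : ℤ) (i j : Γ.N) (e : Fin (Γ.mu i j)) {v : E.F.V i}
    (hv : v ∈ E.Z k i) : E.F.a i j e v ∈ E.Z k j := by
  refine ⟨hE.ft.a_mem i j e k v hv.1, ?_⟩
  show E.F.d j (E.F.a i j e v) ∈ E.bot j (k + 1)
  rw [hE.good.da]
  exact hE.fb.a_mem i j e (k + 1) _ hv.2

theorem Ok.a_bd {E : Raw Γ} (hE : E.Ok) (k : ℤ) (i j : Γ.N) (e : Fin (Γ.mu i j)) {v : E.F.V i}
    (hv : v ∈ E.Bd k i) : E.F.a i j e v ∈ E.Bd k j := by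
  obtain ⟨_, ⟨u, hu, rfl⟩, w, hw, rfl⟩ := Submodule.mem_sup.1 hv
  rw [map_add, ← hE.good.da]
  exact Submodule.add_mem_sup ⟨_, hE.ft.a_mem i j e _ u hu, rfl⟩ (hE.fb.a_mem i j e k w hw)

theorem Ok.in_le_z {E : Raw Γ} (hE : E.Ok) (k : ℤ) (i : Γ.N) : E.In k i ≤ E.Z k i := by
  refine sup_le ?_ (hE.bd_le_z k i)
  refine iSup_le fun i' => iSup_le fun e => ?_
  rintro _ ⟨v, hv, rfl⟩
  exact hE.a_z k i' i e hv

theorem Ok.h_eq_zero_iff {E : Raw Γ} (hE : E.Ok) (k : ℤ) (i : Γ.N) :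
    E.h k i = 0 ↔ E.Z k i ≤ E.Bd k i := by
  have := hE.good.fd i
  unfold h
  constructor
  · intro h0
    have := Submodule.eq_of_le_of_finrank_le (hE.bd_le_z k i) (by omega)
    exact this.ge
  · intro h0
    have := Submodule.finrank_mono h0
    omega

theorem Ok.h_bdd {E : Raw Γ} (hE : E.Ok) :
    ∃ n : ℕ, ∀ k : ℤ, (n : ℤ) < |k| → ∀ j, E.h k j = 0 := by
  obtain ⟨n, hn⟩ := hE.bdd
  refine ⟨n, fun k hk j => (hE.h_eq_zero_iff k j).2 ?_⟩
  intro v hv
  have h1 : v ∈ E.bot j k := by rw [← hn j k hk]; exact hv.1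
  exact Submodule.mem_sup_right h1

theorem les {A E C : Raw Γ} (hA : A.Ok) (hE : E.Ok) (hC : C.Ok) (h : SES A E C) :
    ∃ α β γ : ℤ → Γ.N → ℕ, ∀ k j,
      A.h k j = α k j + γ (k - 1) j ∧ E.h k j = α k j + β k j ∧ C.h k j = β k j + γ k j := by
  obtain ⟨F, G₀, G₁, G₂, rfl, rfl, rfl⟩ := h
  set A : Raw Γ := ⟨F, G₁, G₀⟩ with hAd
  set E : Raw Γ := ⟨F, G₂, G₀⟩ with hEd
  set C : Raw Γ := ⟨F, G₂, G₁⟩ with hCd
  have h01 : ∀ i k, G₀ i k ≤ G₁ i k := hA.le
  have h12 : ∀ i k, G₁ i k ≤ G₂ i k := hC.le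
  let ZA : ℤ → ∀ j, Submodule K2 (F.V j) := fun k j => A.Z k j
  let BA : ℤ → ∀ j, Submodule K2 (F.V j) := fun k j => A.Bd k j
  let ZE : ℤ → ∀ j, Submodule K2 (F.V j) := fun k j => E.Z k j
  let BE : ℤ → ∀ j, Submodule K2 (F.V j) := fun k j => E.Bd k j
  let ZC : ℤ → ∀ j, Submodule K2 (F.V j) := fun k j => C.Z k j
  let BC : ℤ → ∀ j, Submodule K2 (F.V j) := fun k j => C.Bd k j
  have mZA : ∀ k j v, v ∈ ZA k j ↔ v ∈ G₁ j k ∧ F.d j v ∈ G₀ j (k + 1) := fun _ _ _ => Iff.rfl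
  have mZE : ∀ k j v, v ∈ ZE k j ↔ v ∈ G₂ j k ∧ F.d j v ∈ G₀ j (k + 1) := fun _ _ _ => Iff.rfl
  have mZC : ∀ k j v, v ∈ ZC k j ↔ v ∈ G₂ j k ∧ F.d j v ∈ G₁ j (k + 1) := fun _ _ _ => Iff.rfl
  have dBA : ∀ k j, BA k j = (G₁ j (k - 1)).map (F.d j) ⊔ G₀ j k := fun _ _ => rfl
  have dBE : ∀ k j, BE k j = (G₂ j (k - 1)).map (F.d j) ⊔ G₀ j k := fun _ _ => rfl
  have dBC : ∀ k j, BC k j = (G₂ j (k - 1)).map (F.d j) ⊔ G₁ j k := fun _ _ => rfl
  have bzA : ∀ k j, BA k j ≤ ZA k j := fun k j => hA.bd_le_z k j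
  have bzE : ∀ k j, BE k j ≤ ZE k j := fun k j => hE.bd_le_z k j
  have bzC : ∀ k j, BC k j ≤ ZC k j := fun k j => hC.bd_le_z k j
  have bAE : ∀ k j, BA k j ≤ BE k j := fun k j => by
    rw [dBA, dBE]; exact sup_le_sup_right (Submodule.map_mono (h12 _ _)) _
  have zAE : ∀ k j, ZA k j ≤ ZE k j := fun k j v hv =>
    (mZE k j v).2 ⟨h12 _ _ ((mZA k j v).1 hv).1, ((mZA k j v).1 hv).2⟩
  have hdd : ∀ j v, F.d j (F.d j v) = 0 := hE.good.dd
  have d1 : ∀ j k v, v ∈ G₁ j k → F.d j v ∈ G₁ j (k + 1) := hA.ft.d_mem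
  refine ⟨fun k j => Module.finrank K2 (ZA k j ⊔ BE k j : Submodule K2 (F.V j)) -
      Module.finrank K2 (BE k j),
    fun k j => Module.finrank K2 (ZE k j) -
      Module.finrank K2 (ZA k j ⊔ BE k j : Submodule K2 (F.V j)),
    fun k j => Module.finrank K2 (ZA (k + 1) j ⊓ BE (k + 1) j : Submodule K2 (F.V j)) -
      Module.finrank K2 (BA (k + 1) j), fun k j => ?_⟩
  have : Module.Finite K2 (F.V j) := hE.good.fd j
  have eA : A.h k j = Module.finrank K2 (ZA k j) - Module.finrank K2 (BA k j) := rfl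
  have eE : E.h k j = Module.finrank K2 (ZE k j) - Module.finrank K2 (BE k j) := rfl
  have eC : C.h k j = Module.finrank K2 (ZC k j) - Module.finrank K2 (BC k j) := rfl
  have m1 : Module.finrank K2 (BE k j) ≤
      Module.finrank K2 (ZA k j ⊔ BE k j : Submodule K2 (F.V j)) :=
    Submodule.finrank_mono le_sup_right
  have m2 : Module.finrank K2 (ZA k j ⊔ BE k j : Submodule K2 (F.V j)) ≤
      Module.finrank K2 (ZE k j) := Submodule.finrank_mono (sup_le (zAE k j) (bzE k j))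
  have m3 : ∀ k, Module.finrank K2 (BA k j) ≤
      Module.finrank K2 (ZA k j ⊓ BE k j : Submodule K2 (F.V j)) := fun k =>
    Submodule.finrank_mono (le_inf (bzA k j) (bAE k j))
  refine ⟨?_, ?_, ?_⟩
  · have h1 := Submodule.finrank_sup_add_finrank_inf_eq (ZA k j) (BE k j)
    have h2 := m3 k
    have e : k - 1 + 1 = k := sub_add_cancel k 1
    beta_reduce
    rw [e]
    omega
  · beta_reduce
    omega
  · have h1 := finrank_rel (F.d j) (ZC k j) (BA (k + 1) j)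
    have c1 : ZC k j ⊓ (BA (k + 1) j).comap (F.d j) = ZE k j ⊔ BC k j := by
      apply le_antisymm
      · rintro v ⟨hv1, hv2⟩
        have hv2' : F.d j v ∈ (G₁ j (k + 1 - 1)).map (F.d j) ⊔ G₀ j (k + 1) := hv2
        rw [add_sub_cancel_right] at hv2'
        obtain ⟨_, ⟨u, hu, rfl⟩, w, hw, hs⟩ := Submodule.mem_sup.1 hv2'
        have : v = (v - u) + u := by abel
        rw [this]
        refine Submodule.add_mem_sup ((mZE k j _).2 ⟨sub_mem ((mZC k j v).1 hv1).1 (h12 _ _ hu),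
          ?_⟩) ?_
        · rw [map_sub, ← hs]; simpa using hw
        · rw [dBC]; exact Submodule.mem_sup_right hu
      · refine sup_le ?_ ?_
        · intro v hv
          obtain ⟨hv1, hv2⟩ := (mZE k j v).1 hv
          refine ⟨(mZC k j v).2 ⟨hv1, h01 _ _ hv2⟩, ?_⟩
          show F.d j v ∈ BA (k + 1) j
          rw [dBA]; exact Submodule.mem_sup_right hv2
        · intro v hv
          refine ⟨bzC k j hv, ?_⟩
          show F.d j v ∈ BA (k + 1) j
          rw [dBC] at hv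
          obtain ⟨_, ⟨u, -, rfl⟩, w, hw, rfl⟩ := Submodule.mem_sup.1 hv
          rw [map_add, hdd, zero_add, dBA, add_sub_cancel_right]
          exact Submodule.mem_sup_left ⟨w, hw, rfl⟩
    have c2 : (ZC k j).map (F.d j) ⊔ BA (k + 1) j = ZA (k + 1) j ⊓ BE (k + 1) j := by
      apply le_antisymm
      · refine sup_le ?_ (le_inf (bzA _ j) (bAE _ j))
        rintro _ ⟨v, hv, rfl⟩
        obtain ⟨hv1, hv2⟩ := (mZC k j v).1 hv
        refine ⟨(mZA _ j _).2 ⟨hv2, by rw [hdd]; exact zero_mem _⟩, ?_⟩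
        show F.d j v ∈ BE (k + 1) j
        rw [dBE, add_sub_cancel_right]
        exact Submodule.mem_sup_left ⟨v, hv1, rfl⟩
      · rintro w ⟨hw1, hw2⟩
        have hw2' : w ∈ (G₂ j (k + 1 - 1)).map (F.d j) ⊔ G₀ j (k + 1) := hw2
        rw [add_sub_cancel_right] at hw2'
        obtain ⟨_, ⟨v, hv, rfl⟩, g, hg, rfl⟩ := Submodule.mem_sup.1 hw2'
        refine Submodule.add_mem_sup ⟨v, (mZC k j v).2 ⟨hv, ?_⟩, rfl⟩ ?_
        · have := sub_mem ((mZA _ j _).1 hw1).1 (h01 _ _ hg)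
          simpa using this
        · rw [dBA]; exact Submodule.mem_sup_right hg
    have c3 : ZE k j ⊓ BC k j = ZA k j ⊔ BE k j := by
      apply le_antisymm
      · rintro w ⟨hw1, hw2⟩
        have hw2' : w ∈ (G₂ j (k - 1)).map (F.d j) ⊔ G₁ j k := hw2
        obtain ⟨_, ⟨v, hv, rfl⟩, g, hg, rfl⟩ := Submodule.mem_sup.1 hw2'
        rw [add_comm]
        refine Submodule.add_mem_sup ((mZA k j g).2 ⟨hg, ?_⟩) ?_
        · have := ((mZE k j _).1 hw1).2
          rwa [map_add, hdd, zero_add] at this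
        · rw [dBE]; exact Submodule.mem_sup_left ⟨v, hv, rfl⟩
      · refine sup_le (le_inf (zAE k j) ?_) (le_inf (bzE k j) ?_)
        · intro v hv
          rw [dBC]; exact Submodule.mem_sup_right ((mZA k j v).1 hv).1
        · rw [dBE, dBC]; exact sup_le_sup_left (h01 _ _) _
    have h2 := Submodule.finrank_sup_add_finrank_inf_eq (ZE k j) (BC k j)
    rw [c1, c2] at h1
    rw [c3] at h2
    have h3 := m3 (k + 1)
    beta_reduce
    omega

theorem iso_h {X Y : Raw Γ} (hX : X.Ok) (hY : Y.Ok) (h : Iso X Y) : X.h = Y.h := by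
  obtain ⟨f, hf⟩ := h
  funext k i
  have := hX.good.fd i
  have := hY.good.fd i
  have fb : ∀ k v, v ∈ X.bot i k → f.f i v ∈ Y.bot i k := fun k v hv => by
    rw [← (hf i k).2] at hv; exact hv.2
  have ft : ∀ k v, v ∈ X.top i k → f.f i v ∈ Y.top i k := fun k v hv => by
    rw [← (hf i k).1]; exact Submodule.mem_sup_left ⟨v, hv, rfl⟩
  have bf : ∀ k v, v ∈ X.top i k → f.f i v ∈ Y.bot i k → v ∈ X.bot i k := fun k v h1 h2 => by
    rw [← (hf i k).2]; exact ⟨h1, h2⟩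
  have key : ∀ W : Submodule K2 (X.F.V i), X.bot i k ≤ W → W ≤ X.top i k →
      W ⊓ (Y.bot i k).comap (f.f i) = X.bot i k := fun W h1 h2 =>
    le_antisymm (fun v hv => bf k v (h2 hv.1) hv.2) (fun v hv => ⟨h1 hv, fb k v hv⟩)
  have h1 := finrank_rel (f.f i) (X.Z k i) (Y.bot i k)
  have h2 := finrank_rel (f.f i) (X.Bd k i) (Y.bot i k)
  rw [key _ (le_sup_right.trans (hX.bd_le_z k i)) inf_le_left] at h1
  rw [key (X.Bd k i) le_sup_right ((hX.bd_le_z k i).trans inf_le_left)] at h2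
  have c1 : (X.Z k i).map (f.f i) ⊔ Y.bot i k = Y.Z k i := by
    apply le_antisymm
    · refine sup_le ?_ (le_sup_right.trans (hY.bd_le_z k i))
      rintro _ ⟨v, hv, rfl⟩
      refine ⟨ft k v hv.1, ?_⟩
      show Y.F.d i (f.f i v) ∈ Y.bot i (k + 1)
      rw [← f.f_d]; exact fb _ _ hv.2
    · intro w hw
      have hw1 : w ∈ Y.top i k := hw.1
      have hw2 : Y.F.d i w ∈ Y.bot i (k + 1) := hw.2
      rw [← (hf i k).1] at hw1
      obtain ⟨_, ⟨v, hv, rfl⟩, g, hg, rfl⟩ := Submodule.mem_sup.1 hw1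
      refine Submodule.add_mem_sup ⟨v, ⟨hv, ?_⟩, rfl⟩ hg
      refine bf _ _ (hX.ft.d_mem i k v hv) ?_
      rw [f.f_d]
      have := sub_mem hw2 (hY.fb.d_mem i k g hg)
      simpa using this
  have c2 : (X.Bd k i).map (f.f i) ⊔ Y.bot i k = Y.Bd k i := by
    apply le_antisymm
    · refine sup_le ?_ le_sup_right
      rintro _ ⟨v, hv, rfl⟩
      obtain ⟨_, ⟨u, hu, rfl⟩, w, hw, rfl⟩ := Submodule.mem_sup.1 hv
      rw [map_add, f.f_d]
      exact Submodule.add_mem_sup ⟨_, ft _ u hu, rfl⟩ (fb k w hw)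
    · refine sup_le ?_ le_sup_right
      rintro _ ⟨w, hw, rfl⟩
      have hw1 : w ∈ Y.top i (k - 1) := hw
      rw [← (hf i (k - 1)).1] at hw1
      obtain ⟨_, ⟨v, hv, rfl⟩, g, hg, rfl⟩ := Submodule.mem_sup.1 hw1
      rw [map_add, ← f.f_d]
      refine Submodule.add_mem_sup ⟨_, Submodule.mem_sup_left ⟨v, hv, rfl⟩, rfl⟩ ?_
      have := hY.fb.d_mem i (k - 1) g hg
      rwa [sub_add_cancel] at this
  rw [c1] at h1
  rw [c2] at h2
  unfold h
  omega

theorem Ok.b_le {E : Raw Γ} (hE : E.Ok) (k : ℤ) (j : Γ.N) : E.b k j ≤ E.h k j := by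
  have := hE.good.fd j
  have := Submodule.finrank_mono (Ok.bd_le_in (E := E) k j)
  unfold b h
  omega

private theorem les_aux_sum {V ι : Type} [AddCommGroup V] [Module K2 V]
    (P : ι → Submodule K2 V) (W : Submodule K2 V) (c : ι → ℕ)
    (hP : ∀ t (Y : Submodule K2 V), W ≤ Y →
      Module.finrank K2 (P t ⊔ Y : Submodule K2 V) ≤ Module.finrank K2 Y + c t)
    (s : Finset ι) :
    Module.finrank K2 (s.sup P ⊔ W : Submodule K2 V) ≤ Module.finrank K2 W + ∑ t ∈ s, c t := by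
  classical
  induction s using Finset.induction_on with
  | empty => rw [Finset.sup_empty, bot_sup_eq]; simp
  | insert t s ht ih =>
    rw [Finset.sup_insert, Finset.sum_insert ht, sup_assoc]
    have := hP t (s.sup P ⊔ W) le_sup_right
    omega

theorem Ok.le_b {E : Raw Γ} (hE : E.Ok) (k : ℤ) (j : Γ.N) :
    E.h k j ≤ ∑ i, Γ.mu j i * E.h k i + E.b k j := by
  have := hE.good.fd j
  have key := les_aux_sum (ι := Σ i, Fin (Γ.mu i j))
    (fun t => (E.Z k t.1).map (E.F.a t.1 j t.2)) (E.Bd k j) (fun t => E.h k t.1) (by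
      rintro ⟨i, e⟩ Y hY
      have := hE.good.fd i
      have h1 := finrank_rel (E.F.a i j e) (E.Z k i) Y
      have h2 : Module.finrank K2 (E.Bd k i) ≤ Module.finrank K2
          (E.Z k i ⊓ Y.comap (E.F.a i j e) : Submodule K2 (E.F.V i)) :=
        Submodule.finrank_mono fun v hv => ⟨hE.bd_le_z k i hv, hY (hE.a_bd k i j e hv)⟩
      have h3 := Submodule.finrank_mono (hE.bd_le_z k i)
      show Module.finrank K2 ((E.Z k i).map (E.F.a i j e) ⊔ Y : Submodule K2 (E.F.V j)) ≤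
        Module.finrank K2 Y + E.h k i
      unfold h
      omega) Finset.univ
  have e1 : (Finset.univ.sup fun t : Σ i, Fin (Γ.mu i j) =>
      (E.Z k t.1).map (E.F.a t.1 j t.2)) = E.F.Phi (E.Z k) j := by
    rw [Finset.sup_univ_eq_iSup, iSup_sigma]
    rfl
  have e2 : ∑ t : Σ i, Fin (Γ.mu i j), E.h k t.1 = ∑ i, Γ.mu j i * E.h k i := by
    rw [Fintype.sum_sigma]
    refine Finset.sum_congr rfl fun i _ => ?_
    simp [Γ.mu_symm j i]
  rw [e1, e2] at key
  have h3 := Submodule.finrank_mono (hE.in_le_z k j)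
  have e3 : Module.finrank K2 (E.In k j) =
      Module.finrank K2 (E.F.Phi (E.Z k) j ⊔ E.Bd k j : Submodule K2 (E.F.V j)) := rfl
  have e4 : E.h k j = Module.finrank K2 (E.Z k j) - Module.finrank K2 (E.Bd k j) := rfl
  have e5 : E.b k j = Module.finrank K2 (E.Z k j) - Module.finrank K2 (E.In k j) := rfl
  omega

end Raw

end Vale.Agent.P203
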