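import Vale.Agent.P203.ModelDefs

namespace Vale.Agent.P203

open LinearMap

variable {B : Type} {Γ : Gr B}

namespace Pre

variable {F : Pre Γ}

theorem Good.tw_d_inn (hF : F.Good) (i : Γ.N) (f : F.NV i) :
    F.d i (F.inn i f) = F.inn i (F.dN i f) := by
  simp only [inn_apply, map_sum, hF.da, dN_apply]

theorem Good.tw_dN_out (hF : F.Good) (i : Γ.N) (v : F.V i) :
    F.dN i (F.out i v) = F.out i (F.d i v) := by
  funext j e
  exact hF.da i j e v

theorem Good.tw_dN_dN (hF : F.Good) (i : Γ.N) (f : F.NV i) : F.dN i (F.dN i f) = 0 := by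
  funext j e
  exact hF.dd j _

theorem Good.tw_rel (hF : F.Good) (i : Γ.N) (v : F.V i) :
    F.d i (F.l i v) + F.inn i (F.out i v) = F.l i (F.d i v) := by
  have h := (hF.rel i v).trans (add_self2 (F.l i (F.d i v))).symm
  rw [add_right_comm] at h
  exact add_right_cancel h

theorem Good.tw_rel' (hF : F.Good) (i : Γ.N) (v : F.V i) :
    F.l i (F.d i v) + F.inn i (F.out i v) = F.d i (F.l i v) := by
  rw [← hF.tw_rel, add_assoc, add_self2, add_zero]

theorem Good.tw_fd (hF : F.Good) (i : Γ.N) : Module.Finite K2 (F.V i × F.NV i) := by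
  have := hF.fd
  infer_instance

theorem IsFam.tw_inn {G : F.Gd} (hG : F.IsFam G) {i : Γ.N} {k : ℤ} {f : F.NV i}
    (hf : f ∈ F.gN G i k) : F.inn i f ∈ G i k := by
  rw [inn_apply]
  exact Submodule.sum_mem _ fun j _ => Submodule.sum_mem _ fun e _ =>
    hG.a_mem _ _ _ _ _ (F.mem_gN.1 hf j e)

theorem IsFam.tw_out {G : F.Gd} (hG : F.IsFam G) {i : Γ.N} {k : ℤ} {v : F.V i}
    (hv : v ∈ G i k) : F.out i v ∈ F.gN G i k :=
  F.mem_gN.2 fun _ _ => hG.a_mem _ _ _ _ _ hv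

theorem IsFam.tw_dN {G : F.Gd} (hG : F.IsFam G) {i : Γ.N} {k : ℤ} {f : F.NV i}
    (hf : f ∈ F.gN G i k) : F.dN i f ∈ F.gN G i (k + 1) :=
  F.mem_gN.2 fun j e => hG.d_mem _ _ _ (F.mem_gN.1 hf j e)

theorem tw_gN_mono {G G' : F.Gd} {k : ℤ} (h : ∀ j, G j k ≤ G' j k) (i : Γ.N) :
    F.gN G i k ≤ F.gN G' i k := fun _ hf => F.mem_gN.2 fun j e => h j (F.mem_gN.1 hf j e)

theorem tw_gN_congr {G G' : F.Gd} {k : ℤ} (h : ∀ j, G j k = G' j k) (i : Γ.N) :
    F.gN G i k = F.gN G' i k :=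
  le_antisymm (tw_gN_mono (fun j => (h j).le) i) (tw_gN_mono (fun j => (h j).ge) i)

end Pre

namespace PHom

variable {F F' : Pre Γ} (f : PHom F F')

/-- The induced map of neighbour spaces. -/
def twN (i : Γ.N) : F.NV i →ₗ[K2] F'.NV i :=
  pi fun j => pi fun e => f.f j ∘ₗ (proj e) ∘ₗ (proj j)

@[simp] theorem twN_apply (i : Γ.N) (g : F.NV i) (j) (e) : f.twN i g j e = f.f j (g j e) := rfl

theorem tw_inn (i : Γ.N) (g : F.NV i) : f.f i (F.inn i g) = F'.inn i (f.twN i g) := by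
  simp only [Pre.inn_apply, map_sum, f.f_a, twN_apply]

theorem tw_out (i : Γ.N) (v : F.V i) : f.twN i (F.out i v) = F'.out i (f.f i v) := by
  funext j e
  exact f.f_a i j e v

theorem tw_dN (i : Γ.N) (g : F.NV i) : f.twN i (F.dN i g) = F'.dN i (f.twN i g) := by
  funext j e
  exact f.f_d j _

theorem tw_sup {T : F.Gd} {S T' : F'.Gd} {k : ℤ} (h : ∀ j, (T j k).map (f.f j) ⊔ S j k = T' j k)
    (i : Γ.N) : (F.gN T i k).map (f.twN i) ⊔ F'.gN S i k = F'.gN T' i k := by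
  refine le_antisymm (sup_le ?_ (Pre.tw_gN_mono (fun j => (h j) ▸ le_sup_right) i)) fun g hg => ?_
  · rintro _ ⟨g, hg, rfl⟩
    exact F'.mem_gN.2 fun j e =>
      (h j).le (Submodule.mem_sup_left ⟨_, F.mem_gN.1 hg j e, rfl⟩)
  · have : ∀ j e, ∃ x ∈ T j k, ∃ y ∈ S j k, f.f j x + y = g j e := fun j e => by
      obtain ⟨_, ⟨x, hx, rfl⟩, y, hy, e⟩ := Submodule.mem_sup.1 ((h j).ge (F'.mem_gN.1 hg j e))
      exact ⟨x, hx, y, hy, e⟩
    choose x hx y hy e using this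
    exact Submodule.mem_sup.2 ⟨_, ⟨x, F.mem_gN.2 hx, rfl⟩, y, F'.mem_gN.2 hy,
      funext fun j => funext fun e' => e j e'⟩

theorem tw_inf {T S : F.Gd} {S' : F'.Gd} {k : ℤ} (h : ∀ j, T j k ⊓ (S' j k).comap (f.f j) = S j k)
    (i : Γ.N) : F.gN T i k ⊓ (F'.gN S' i k).comap (f.twN i) = F.gN S i k := by
  ext g
  simp only [Submodule.mem_inf, Submodule.mem_comap, Pre.mem_gN, twN_apply, ← h, forall_and]

end PHom

end Vale.Agent.P203
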