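import Vale.Agent.P203.MorseJoin
import Vale.Agent.P203.CombAll
import Vale.Agent.P203.Val
import Vale.Agent.P203.CoxPF

namespace Vale.Agent.P203

variable {B W : Type} [Group W] {M : CoxeterMatrix B} [Fintype B] [DecidableEq B]
variable {cs : CoxeterSystem M W}

theorem ma_split {D : Dat cs} {T : Finset B} (h : ¬ D.Irr T) :
    ∃ T₁ T₂, T = T₁ ∪ T₂ ∧ T₁ ⊂ T ∧ T₂ ⊂ T ∧ D.Orth T₁ T₂ ∧ D.Orth T₂ T₁ := by
  unfold Dat.Irr at h
  push Not at h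
  obtain ⟨T₁, h1, ⟨s, hs⟩, h3, h4⟩ := h
  refine ⟨T₁, T \ T₁, (Finset.union_sdiff_of_subset h1).symm, h1.ssubset_of_ne h3,
    Finset.sdiff_ssubset h1 ⟨s, hs⟩, fun a ha b hb => ?_, fun b hb a ha => ?_⟩ <;>
    rw [Finset.mem_sdiff] at hb
  · exact ⟨fun e => hb.2 (e ▸ ha), h4 a ha b hb.1 hb.2⟩
  · exact ⟨fun e => hb.2 (e ▸ ha), (D.c_symm _ _).trans (h4 a ha b hb.1 hb.2)⟩

namespace Core

variable {D : Dat cs} (C : Core D)

theorem ma_good_inv (F : Fam C) (K : ℤ) (κ : B → ℝ) (x : C.G) {s t : B} (h : s ≠ t) :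
    F.good K κ (x * C.gen s) t ↔ F.good K κ x t :=
  F.good_off (T := {s}) (by simpa using C.gen_mem (Finset.mem_singleton_self s)) K κ
    (by simpa using h.symm)

/-- Descending links. -/
theorem ma_link {T : Finset B} (ih : ∀ T' ⊂ T, C.WcS T') {F : Fam C} {K : ℤ} {κ : B → ℝ}
    {x₀ x : C.G} (hA : F.Adm T K κ x₀) (hx : x₀⁻¹ * x ∈ C.P T) {J : Finset B} (hJ : J ⊆ T)
    (hne : J.Nonempty) (hh : ∀ j ∈ J, F.hor K κ x j) {Good : C.G → B → Prop}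
    (hG : ∀ y, ∀ t ∈ T, Good y t ↔ F.good K κ y t) {y : C.G} (hy : x₀⁻¹ * y ∈ C.P T) {u : B}
    (hu : u ∈ T) (hg : Good y u) : WC Cmp (C.XX x (T \ J) Good) := by
  rw [C.XX_congr (C.P_refl _ x) fun y _ t ht => hG y t (Finset.mem_sdiff.1 ht).1]
  refine ih _ (Finset.sdiff_ssubset hJ hne) F K κ x ((hA.coset hx).link hJ hh) ?_
  rw [C.XX_nonempty_iff]
  by_contra hc
  push Not at hc
  exact (C.conn_min_all T).2 F K κ x (hA.coset hx) J hJ hne hh hc y (C.P_trans (C.P_symm hx) hy)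
    u hu ((hG y u hu).1 hg)

theorem wcS_red {T : Finset B} (h : ¬ D.Irr T) (ih : ∀ T' ⊂ T, C.WcS T') : C.WcS T := by
  intro F K κ x₀ hA hne
  obtain ⟨x, hx, t, ht, hg⟩ := C.XX_nonempty_iff.1 hne
  have key : ∀ T₁ T₂, T = T₁ ∪ T₂ → T₁ ⊂ T → D.Orth T₁ T₂ → t ∈ T₁ →
      WC Cmp (C.XX x₀ T (F.good K κ)) := by
    rintro T₁ T₂ rfl h1 hO h2
    rw [C.XX_congr hx fun _ _ _ _ => Iff.rfl]
    exact C.wc_join hO (fun x s _ t _ hst => C.ma_good_inv F K κ x hst)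
      (ih T₁ h1 F K κ x ((hA.coset hx).orth hO)
        (C.XX_nonempty_iff.2 ⟨x, C.P_refl _ _, t, h2, hg⟩))
  obtain ⟨T₁, T₂, e, h1, h2, h3, h4⟩ := ma_split h
  rcases Finset.mem_union.1 (e ▸ ht : t ∈ T₁ ∪ T₂) with h5 | h5
  · exact key T₁ T₂ e h1 h3 h5
  · exact key T₂ T₁ (e.trans (Finset.union_comm _ _)) h2 h4 h5

theorem wcS_sph {T : Finset B} (hT : Sph cs T) (ih : ∀ T' ⊂ T, C.WcS T') : C.WcS T := by
  intro F K κ x₀ hA hne
  obtain ⟨x₁, hx₁, t₁, ht₁, hg⟩ := C.XX_nonempty_iff.1 hne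
  obtain ⟨ρ, r1, r2, r3⟩ := D.exists_rho hT
  obtain ⟨val, v1, v2, v3, v4, v5⟩ := F.exists_val_sph r1 r2 r3 hA
  have hV : {l | ∃ x, x₀⁻¹ * x ∈ C.P T ∧ ∃ t ∈ T, val x t = l}.IsWF :=
    v2.mono fun l ⟨x, _, h⟩ => ⟨x, h⟩
  have hVn : {l | ∃ x, x₀⁻¹ * x ∈ C.P T ∧ ∃ t ∈ T, val x t = l}.Nonempty :=
    ⟨_, x₁, hx₁, t₁, ht₁, rfl⟩
  obtain ⟨xm, hxm, tm, htm, hm⟩ := hV.min_mem hVn
  have hmin : ∀ x, x₀⁻¹ * x ∈ C.P T → ∀ t ∈ T, val xm tm ≤ val x t := fun x hx t ht =>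
    hm ▸ hV.min_le hVn ⟨x, hx, t, ht, rfl⟩
  have h0 : val xm tm < toLex (0, 0) := (hmin x₁ hx₁ t₁ ht₁).trans_lt ((v4 x₁ t₁ ht₁).2 hg)
  have hP := C.morse_cells x₀ T val (fun x s _ t _ => v1 x s t) v2 (· ≤ val xm tm)
    (· < toLex (0, 0)) (fun _ _ => le_trans) (fun _ _ => lt_of_le_of_lt)
    (fun _ h => lt_of_le_of_lt h h0) fun x hx J hJ hne l h1 h2 hl => by
      obtain ⟨j, hj⟩ := hne
      obtain rfl := hl j hj
      obtain ⟨-, κ', a1, a2, a3⟩ := v5 x j (hJ hj) h1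
      refine C.ma_link ih a1 hx hJ ⟨j, hj⟩ (fun i hi => ?_) a2 hxm htm (not_le.1 h2)
      obtain rfl := v3 _ _ _ (hJ hi) _ (hJ hj) (hl i hi)
      exact a3 x rfl
  rw [← C.XX_congr (C.P_refl _ x₀) fun y _ t ht => v4 y t ht]
  refine hP.wc_up (C.XX_mono fun _ _ _ _ h => lt_of_le_of_lt h h0) ?_
  have htype : ∀ x, x₀⁻¹ * x ∈ C.P T → ∀ t ∈ T, val x t ≤ val xm tm → t = tm :=
    fun x hx t ht h => v3 _ _ _ ht _ htm (h.antisymm (hmin x hx t ht))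
  obtain ⟨⟨κ', a1, a2⟩, -⟩ := v5 xm tm htm h0
  refine wc_max (c := C.cell xm (T.erase tm)) (C.mem_XX.2 ⟨_, _, rfl, Finset.erase_ssubset htm,
    hxm, fun u hu hu' => by rw [show u = tm by simpa [hu] using hu']⟩) fun σ hσ => ?_
  obtain ⟨y, S, rfl, b1, b2, b3⟩ := C.mem_XX.1 hσ
  obtain ⟨t, ht, ht'⟩ := Finset.exists_of_ssubset b1
  obtain rfl := htype y b2 t ht (b3 t ht ht')
  refine C.cell_le.2 ⟨fun u hu => Finset.mem_erase.2 ⟨fun e => ht' (e ▸ hu), b1.subset hu⟩, ?_⟩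
  have hc := (C.conn_min_all T).1 F K κ' x₀ a1 xm y t t hxm b2 ht ht ((a2 _ _ ht).1 le_rfl)
    ((a2 _ _ ht).1 (b3 t ht ht'))
  have : ∀ v, C.Conn T (F.good K κ') (xm, t) v → v.2 = t ∧ xm⁻¹ * v.1 ∈ C.P (T.erase t) := by
    intro v hv
    induction hv with
    | refl => exact ⟨rfl, C.P_refl _ _⟩
    | tail _ hadj ih' =>
      obtain ⟨-, c2, -, c4, z, c5, c6⟩ := hadj
      rw [ih'.1] at c5
      have c7 := C.P_trans ih'.2 c5
      have c8 := htype _ (C.P_trans hxm (C.P_trans (C.P_mono (Finset.erase_subset _ _) c7)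
        (C.P_symm (C.P_mono (Finset.erase_subset _ _) c6)))) _ c2 ((a2 _ _ c2).2 c4)
      rw [c8] at c6
      exact ⟨c8, C.P_trans c7 (C.P_symm c6)⟩
  exact (this _ hc).2

theorem artS_irr {T : Finset B} (hT : ¬ Sph cs T) (hI : D.Irr T) (ih : ∀ T' ⊂ T, C.WcS T') :
    C.ArtS T := by
  have hne : T.Nonempty := Finset.nonempty_iff_ne_empty.2 fun e => hT (e ▸ sph_empty)
  obtain ⟨δ, d1, d2, d3⟩ := D.exists_delta hT hI
  obtain ⟨F, hF⟩ := C.exists_special d1 d2 d3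
  have hA := hF.adm subset_rfl
  obtain ⟨val, v1, v2, v3, v4, v5⟩ := F.exists_val d1 d2 d3 hA
  obtain ⟨t₀, ht₀⟩ := hne
  have hP := C.morse_cells 1 T val (fun x s _ t _ => v1 x s t) v2 (· ≤ toLex (0, 0))
    (fun _ => True) (fun _ _ => le_trans) (fun _ _ _ _ => trivial) (fun _ _ => trivial)
    fun x hx J hJ hne l _ h2 hl => by
      obtain ⟨j, hj⟩ := hne
      obtain rfl := hl j hj
      obtain ⟨K', κ', a1, a2, a3⟩ := v5 x j (hJ hj) (not_le.1 h2).le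
      exact C.ma_link ih a1 hx hJ ⟨j, hj⟩ (fun i hi => (a3 x i (hJ hi)).1 (hl i hi)) a2
        (C.P_refl _ _) ht₀ (((v4 1 t₀ ht₀).2 (hF.hor t₀)).trans_lt (not_le.1 h2))
  refine C.artS_of_one (hP.wc_up (C.XX_mono fun _ _ _ _ _ => trivial) ?_)
  have hno := (C.conn_min_all T).2 F 0 δ 1 hA T subset_rfl ⟨t₀, ht₀⟩ (fun j _ => hF.hor j)
    fun _ _ u hu => absurd hu (by simp)
  refine wc_min (c := C.cell 1 ∅) (C.mem_XX.2 ⟨_, _, rfl, Finset.empty_ssubset.2 ⟨t₀, ht₀⟩,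
    C.P_refl _ _, fun u hu _ => ((v4 1 u hu).2 (hF.hor u)).le⟩) fun σ hσ => ?_
  obtain ⟨y, S, rfl, b1, b2, b3⟩ := C.mem_XX.1 hσ
  have key : ∀ J : Finset B, J ⊆ T \ S → y ∈ C.P (T \ J) := by
    intro J
    induction J using Finset.induction_on with
    | empty => simpa using b2
    | insert t J htJ ih' =>
      intro hJ
      obtain ⟨c1, c2⟩ := Finset.mem_sdiff.1 (hJ (Finset.mem_insert_self _ _))
      rw [Finset.sdiff_insert]
      exact C.baseS_all hF _ Finset.sdiff_subset y (ih' ((Finset.subset_insert _ _).trans hJ)) t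
        (Finset.mem_sdiff.2 ⟨c1, htJ⟩) ((v4 y t c1).1 ((b3 t c1 c2).eq_of_not_lt
          fun h => hno y b2 t c1 ((v3 y t c1).1 h)))
  have := key _ subset_rfl
  rw [Finset.sdiff_sdiff_eq_self b1.subset] at this
  exact C.cell_le.2 ⟨Finset.empty_subset _, by simpa using this⟩

theorem wcS_non {T : Finset B} (hT : ¬ Sph cs T) (hI : D.Irr T) (ih : ∀ T' ⊂ T, C.WcS T') :
    C.WcS T := by
  intro F K κ x₀ hA hne
  obtain ⟨x₁, hx₁, t₁, ht₁, hg⟩ := C.XX_nonempty_iff.1 hne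
  obtain ⟨δ, d1, d2, d3⟩ := D.exists_delta hT hI
  obtain ⟨val, v1, v2, v3, -, v5⟩ := F.exists_val d1 d2 d3 hA
  have hP := C.morse_cells x₀ T val (fun x s _ t _ => v1 x s t) v2 (· < toLex (K, 0))
    (fun _ => True) (fun _ _ => lt_of_le_of_lt) (fun _ _ _ _ => trivial) (fun _ _ => trivial)
    fun x hx J hJ hne l _ h2 hl => by
      obtain ⟨j, hj⟩ := hne
      obtain rfl := hl j hj
      obtain ⟨K', κ', a1, a2, a3⟩ := v5 x j (hJ hj) (not_lt.1 h2)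
      exact C.ma_link ih a1 hx hJ ⟨j, hj⟩ (fun i hi => (a3 x i (hJ hi)).1 (hl i hi)) a2
        hx₁ ht₁ (((v3 x₁ t₁ ht₁).2 hg).trans_le (not_lt.1 h2))
  rw [C.XX_congr (C.P_refl _ x₀) fun y _ t ht => v3 y t ht] at hP
  exact hP.wc_down (C.XX_mono fun _ _ _ _ _ => trivial) hne (C.artS_irr hT hI ih x₀)

theorem wcS_all (T : Finset B) : C.WcS T := by
  induction T using Finset.strongInduction with
  | H T ih =>
    by_cases hI : D.Irr T
    · by_cases hT : Sph cs T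
      · exact C.wcS_sph hT ih
      · exact C.wcS_non hT hI ih
    · exact C.wcS_red hI ih

theorem artS_all {T : Finset B} (hT : ¬ Sph cs T) : C.ArtS T := by
  induction T using Finset.strongInduction with
  | H T ih =>
    by_cases hI : D.Irr T
    · exact C.artS_irr hT hI fun T' _ => C.wcS_all T'
    · obtain ⟨T₁, T₂, e, h1, h2, h3, h4⟩ := ma_split hI
      intro x₀
      by_cases h5 : Sph cs T₁
      · rw [e, Finset.union_comm]
        exact C.wc_join h4 (fun _ _ _ _ _ _ => Iff.rfl)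
          (ih T₂ h2 (fun h6 => hT (e ▸ D.sph_union h3 h5 h6)) x₀)
      · rw [e]
        exact C.wc_join h3 (fun _ _ _ _ _ _ => Iff.rfl) (ih T₁ h1 h5 x₀)

end Core

end Vale.Agent.P203
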