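import Vale.Agent.P203.MorseM

namespace Vale.Agent.P203

variable {B W : Type} [Group W] {M : CoxeterMatrix B} [Fintype B] [DecidableEq B]
variable {cs : CoxeterSystem M W}

theorem mj_wc_map {α β : Type} [PartialOrder α] [PartialOrder β] {P : Set α} {f : α → β}
    (h : ∀ a ∈ P, ∀ b ∈ P, (f a ≤ f b ↔ a ≤ b)) : WC Cmp P ↔ WC Cmp (f '' P) :=
  wc_map (fun a ha b hb e => le_antisymm ((h a ha b hb).1 e.le) ((h b hb a ha).1 e.ge))
    fun a ha b hb _ => or_congr (h a ha b hb).symm (h b hb a ha).symm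

namespace Core

variable {D : Dat cs} (C : Core D)

theorem wc_pure {T₁ T₂ : Finset B} (hO : D.Orth T₁ T₂) {Good : C.G → B → Prop}
    (hinv : ∀ x, ∀ s ∈ T₁ ∪ T₂, ∀ t ∈ T₁, s ≠ t → (Good (x * C.gen s) t ↔ Good x t)) (x₀ : C.G) :
    WC Cmp (C.XX x₀ T₁ Good) ↔ WC Cmp (C.XX x₀ (T₁ ∪ T₂) fun x t => Good x t ∧ t ∈ T₁) := by
  let f : Finset B × Set C.G → Finset B × Set C.G := fun σ =>
    (σ.1 ∪ T₂, {y | ∃ a ∈ σ.2, a⁻¹ * y ∈ C.P T₂})
  have hd : ∀ t ∈ T₁, t ∉ T₂ := fun t h1 h2 => (hO t h1 t h2).1 rfl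
  have hf : ∀ x S, S ⊆ T₁ → f (C.cell x S) = C.cell x (S ∪ T₂) := fun x S hS => by
    refine Prod.ext rfl (Set.ext fun y => ⟨fun ⟨a, h1, h2⟩ => C.P_trans
      (C.P_mono Finset.subset_union_left h1) (C.P_mono Finset.subset_union_right h2), fun h => ?_⟩)
    obtain ⟨a, ha, b, hb, e⟩ := C.P_union (fun s hs => hO s (hS hs)) h
    refine ⟨x * a, by simpa [cell, cos] using ha, ?_⟩
    rwa [mul_inv_rev, mul_assoc, e, inv_mul_cancel_left]
  rw [mj_wc_map (f := f)]
  · refine iff_of_eq (congrArg _ (Set.ext fun σ => ⟨?_, fun h => ?_⟩))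
    · rintro ⟨τ, hτ, rfl⟩
      obtain ⟨x, S, rfl, h1, h2, h3⟩ := C.mem_XX.1 hτ
      obtain ⟨t, ht, ht'⟩ := Finset.exists_of_ssubset h1
      refine C.mem_XX.2 ⟨x, S ∪ T₂, (hf x S h1.subset).symm, ?_,
        C.P_mono Finset.subset_union_left h2, fun u hu hu' => ?_⟩
      · exact (Finset.ssubset_iff_of_subset (Finset.union_subset_union_left h1.subset)).2
          ⟨t, Finset.mem_union_left _ ht, by simp [ht', hd t ht]⟩
      · rw [Finset.mem_union, not_or] at hu'
        have := (Finset.mem_union.1 hu).resolve_right hu'.2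
        exact ⟨h3 u this hu'.1, this⟩
    · obtain ⟨x, S, rfl, h1, h2, h3⟩ := C.mem_XX.1 h
      obtain ⟨a, ha, b, hb, e⟩ := C.P_union hO h2
      have h4 : T₂ ⊆ S := fun t ht => by
        by_contra hc
        exact hd t (h3 t (Finset.mem_union_right _ ht) hc).2 ht
      have h5 : (x₀ * a)⁻¹ * x ∈ C.P T₂ := by rwa [mul_inv_rev, mul_assoc, e, inv_mul_cancel_left]
      have h6 : S ∩ T₁ ∪ T₂ = S := by
        ext t
        have := @h4 t
        have := @h1.1 t
        simp only [Finset.mem_union, Finset.mem_inter] at *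
        tauto
      obtain ⟨t, ht, ht'⟩ := Finset.exists_of_ssubset h1
      refine ⟨C.cell (x₀ * a) (S ∩ T₁), C.mem_XX.2 ⟨_, _, rfl, ?_, by simpa using ha,
        fun u hu hu' => ?_⟩, ?_⟩
      · exact (Finset.ssubset_iff_of_subset Finset.inter_subset_right).2
          ⟨t, (h3 t ht ht').2, by simp [ht']⟩
      · have h7 := C.const_of_gen (f := fun z => Good z u) (fun z s hs => propext
          (hinv z s (Finset.mem_union_right _ hs) u hu fun e => hd u hu (e ▸ hs))) h5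
        exact h7 ▸ (h3 u (Finset.mem_union_left _ hu) fun h => hu' (by simp [h, hu])).1
      · rw [hf _ _ Finset.inter_subset_right, h6, C.cell_eq (C.P_mono h4 h5)]
  · intro a ha b hb
    obtain ⟨x, S, rfl, h1, h2, -⟩ := C.mem_XX.1 ha
    obtain ⟨y, S', rfl, h3, h4, -⟩ := C.mem_XX.1 hb
    rw [hf _ _ h1.subset, hf _ _ h3.subset, C.cell_le, C.cell_le]
    exact ⟨fun h => ⟨fun t ht => (Finset.mem_union.1 (h.1 (Finset.mem_union_left _ ht))).resolve_right
        (hd t (h1.subset ht)), C.P_inter hO h3.subset (C.P_trans (C.P_symm h4) h2) h.2⟩,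
      fun h => ⟨Finset.union_subset_union_left h.1, C.P_mono Finset.subset_union_left h.2⟩⟩

theorem wc_join {T₁ T₂ : Finset B} (hO : D.Orth T₁ T₂) {Good : C.G → B → Prop}
    (hinv : ∀ x, ∀ s ∈ T₁ ∪ T₂, ∀ t ∈ T₁ ∪ T₂, s ≠ t → (Good (x * C.gen s) t ↔ Good x t))
    {x₀ : C.G} (h : WC Cmp (C.XX x₀ T₁ Good)) : WC Cmp (C.XX x₀ (T₁ ∪ T₂) Good) := by
  classical
  let val : C.G → B → ℕ := fun x t => if Good x t then (if t ∈ T₁ then 0 else 1) else 2
  have v0 : ∀ x t, val x t < 1 ↔ Good x t ∧ t ∈ T₁ := fun x t => by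
    by_cases h1 : Good x t <;> by_cases h2 : t ∈ T₁ <;> simp [val, h1, h2]
  have v1 : ∀ x t, val x t < 2 ↔ Good x t := fun x t => by
    by_cases h1 : Good x t <;> by_cases h2 : t ∈ T₁ <;> simp [val, h1, h2]
  have h0 := (C.wc_pure hO (fun x s hs t ht => hinv x s hs t (Finset.mem_union_left _ ht)) x₀).1 h
  have hP := C.morse_cells x₀ (T₁ ∪ T₂) val
    (fun x s hs t ht hst => by simp only [val, hinv x s hs t ht hst])
    (Set.IsWF.of_wellFoundedLT _) (· < 1) (· < 2) (fun _ _ => lt_of_le_of_lt)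
    (fun _ _ => lt_of_le_of_lt) (fun _ h => by omega) fun x hx J hJ _ l h1 h2 hl => by
      obtain rfl : l = 1 := by omega
      have hJ' : ∀ j ∈ J, j ∉ T₁ := fun j hj h' => by
        have h3 := hl j hj
        have h4 := (v1 x j).1 (by omega)
        have h5 := (v0 x j).2 ⟨h4, h'⟩
        omega
      have e : (T₁ ∪ T₂) \ J = T₁ ∪ (T₂ \ J) := by
        ext t
        have := hJ' t
        simp only [Finset.mem_union, Finset.mem_sdiff]
        tauto
      rw [e, C.XX_congr (C.P_refl _ x) fun y _ t _ => v0 y t,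
        ← C.wc_pure (fun s hs t ht => hO s hs t (Finset.mem_sdiff.1 ht).1) fun y s hs t ht =>
          hinv y s (Finset.union_subset_union_right Finset.sdiff_subset hs) t
            (Finset.mem_union_left _ ht),
        C.wc_pure hO fun x s hs t ht => hinv x s hs t (Finset.mem_union_left _ ht),
        ← C.XX_congr hx fun _ _ _ _ => Iff.rfl]
      exact h0
  rw [C.XX_congr (C.P_refl _ x₀) fun y _ t _ => v0 y t,
    C.XX_congr (C.P_refl _ x₀) fun y _ t _ => v1 y t] at hP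
  exact hP.wc_up (C.XX_mono fun _ _ _ _ h => h.1) h0

theorem artS_of_one {T : Finset B} (h : WC Cmp (C.XX 1 T fun _ _ => True)) : C.ArtS T := by
  intro x₀
  let f : Finset B × Set C.G → Finset B × Set C.G := fun σ => (σ.1, {y | x₀⁻¹ * y ∈ σ.2})
  have hf : ∀ x S, f (C.cell x S) = C.cell (x₀ * x) S := fun x S =>
    Prod.ext rfl (Set.ext fun y => by simp [f, cell, cos, mul_assoc])
  rw [mj_wc_map (f := f)] at h
  · convert h using 1
    ext σ
    constructor
    · intro hσ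
      obtain ⟨x, S, rfl, h1, h2, -⟩ := C.mem_XX.1 hσ
      exact ⟨C.cell (x₀⁻¹ * x) S, C.mem_XX.2 ⟨_, _, rfl, h1, by simpa using h2,
        fun _ _ _ => trivial⟩, by rw [hf, mul_inv_cancel_left]⟩
    · rintro ⟨τ, hτ, rfl⟩
      obtain ⟨x, S, rfl, h1, h2, -⟩ := C.mem_XX.1 hτ
      exact C.mem_XX.2 ⟨_, _, (hf x S).symm, h1, by simpa using h2, fun _ _ _ => trivial⟩
  · intro a ha b hb
    obtain ⟨x, S, rfl, -⟩ := C.mem_XX.1 ha
    obtain ⟨y, S', rfl, -⟩ := C.mem_XX.1 hb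
    rw [hf, hf, C.cell_le, C.cell_le]
    simp [mul_assoc]

end Core

end Vale.Agent.P203
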