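import Vale.Agent.P203.TopAux

namespace Vale.Agent.P203

open Function

variable {α : Type}

theorem off_squeeze {X : Type} [TopologicalSpace X] {f m : X → ℝ} (hm : Continuous m)
    (hb : ∀ x, |f x| ≤ 2 * m x) (hf : Continuous fun x : {x // m x ≠ 0} => f x.1) :
    Continuous f := by
  rw [continuous_iff_continuousAt]
  intro x
  by_cases hx : m x = 0
  · have h0 : f x = 0 := by
      have := hb x
      rw [hx, mul_zero] at this
      exact abs_nonpos_iff.1 this
    rw [ContinuousAt, h0]
    refine squeeze_zero_norm hb ?_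
    have : Filter.Tendsto (fun y => 2 * m y) (nhds x) (nhds (2 * m x)) :=
      (continuous_const.mul hm).continuousAt
    rwa [hx, mul_zero] at this
  · have ho : IsOpen {x | m x ≠ 0} := isOpen_ne_fun hm continuous_const
    have hon : ContinuousOn f {x | m x ≠ 0} := continuousOn_iff_continuous_domRestrict.2 hf
    exact hon.continuousAt (ho.mem_nhds hx)

open Classical in
/-- the part of `x` on `L` -/
noncomputable def offB (L : Set α) (x : α → ℝ) : α → ℝ := fun v => if v ∈ L then x v else 0

open Classical in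
/-- the part of `x` off `L` and `q` -/
noncomputable def offA (L : Set α) (q : α) (x : α → ℝ) : α → ℝ :=
  fun v => if v ∈ L ∨ v = q then 0 else x v

theorem continuous_offB (L : Set α) : Continuous (offB L) := by
  refine continuous_pi (fun v => ?_)
  unfold offB
  split_ifs <;> fun_prop

theorem continuous_offA (L : Set α) (q : α) : Continuous (offA L q) := by
  refine continuous_pi (fun v => ?_)
  unfold offA
  split_ifs <;> fun_prop

theorem off_decomp [DecidableEq α] {L : Set α} {q : α} (hq : q ∉ L) (x : α → ℝ) :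
    offA L q x + x q • (Pi.single q (1:ℝ) : α → ℝ) + offB L x = x := by
  funext v
  simp only [offA, offB, Pi.add_apply, Pi.smul_apply, smul_eq_mul]
  by_cases hv : v = q
  · subst hv; simp [hq]
  · by_cases hL : v ∈ L <;> simp [hv, hL]

theorem offB_nonneg {L : Set α} {x : α → ℝ} (hx : ∀ v, 0 ≤ x v) (v : α) : 0 ≤ offB L x v := by
  unfold offB
  split_ifs
  · exact hx v
  · exact le_rfl

theorem offA_nonneg {L : Set α} {q : α} {x : α → ℝ} (hx : ∀ v, 0 ≤ x v) (v : α) :
    0 ≤ offA L q x v := by
  unfold offA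
  split_ifs
  · exact le_rfl
  · exact hx v

theorem offB_ne {L : Set α} {x : α → ℝ} {v : α} (h : offB L x v ≠ 0) : v ∈ L ∧ x v ≠ 0 := by
  unfold offB at h
  split_ifs at h with h'
  · exact ⟨h', h⟩
  · exact absurd rfl h

theorem offA_ne {L : Set α} {q : α} {x : α → ℝ} {v : α} (h : offA L q x v ≠ 0) :
    v ∉ L ∧ v ≠ q ∧ x v ≠ 0 := by
  unfold offA at h
  split_ifs at h with h'
  · exact absurd rfl h
  · push Not at h'
    exact ⟨h'.1, h'.2, h⟩

theorem off_norm_mem {R : α → α → Prop} {F L : Set α} (hF : F.Finite) {x : α → ℝ}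
    (hx : x ∈ geo R F) (hm : ∑ v ∈ hF.toFinset, offB L x v ≠ 0) :
    (∑ v ∈ hF.toFinset, offB L x v)⁻¹ • offB L x ∈ geo R (F ∩ L) := by
  have hs : ∀ v, ((∑ v ∈ hF.toFinset, offB L x v)⁻¹ • offB L x) v ≠ 0 → v ∈ L ∧ x v ≠ 0 :=
    fun v hv => offB_ne (right_ne_zero_of_mul hv)
  refine ⟨fun v => mul_nonneg (inv_nonneg.2 (Finset.sum_nonneg fun v _ => offB_nonneg hx.1 v))
      (offB_nonneg hx.1 v), hx.2.1.subset (fun v hv => (hs v hv).2),
    fun v hv => ⟨hx.2.2.1 (hs v hv).2, (hs v hv).1⟩,
    fun a ha b hb hab => hx.2.2.2.1 (hs a ha).2 (hs b hb).2 hab, ?_⟩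
  rw [finsum_eq_sum_of_support_subset (s := hF.toFinset) _
    (fun v hv => by simpa using hx.2.2.1 (hs v hv).2)]
  simp only [Pi.smul_apply, smul_eq_mul]
  rw [← Finset.mul_sum, inv_mul_cancel₀ hm]

theorem off_mem [DecidableEq α] {R : α → α → Prop} (hR : ∀ a b, R a b → R b a) {F L L₁ : Set α}
    (hF : F.Finite) (hL₁ : L₁.Finite) (hL₁L : L₁ ⊆ L) {q : α} (hq : q ∉ L) (hLq : ∀ b ∈ L, R b q)
    (hjoin : ∀ p ∈ F, p ≠ q → R p q → p ∉ L → ∀ b ∈ L, R p b) {x g : α → ℝ} (hx : x ∈ geo R F)
    (hxq : x q ≠ 0) (hg : g ∈ geo R L₁) {u w : ℝ} (hu : 0 ≤ u) (hw : 0 ≤ w)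
    (huw : u + w = x q + ∑ v ∈ hF.toFinset, offB L x v) :
    offA L q x + u • (Pi.single q (1:ℝ) : α → ℝ) + w • g ∈ geo R (F ∪ L₁) := by
  have hqF : q ∈ F := hx.2.2.1 hxq
  have hs : ∀ v, (offA L q x + u • (Pi.single q (1:ℝ) : α → ℝ) + w • g) v ≠ 0 →
      offA L q x v ≠ 0 ∨ v = q ∨ g v ≠ 0 := fun v hv => by
    by_contra h
    push Not at h
    exact hv (by simp [h.1, h.2.1, h.2.2])
  have hA : ∀ v, offA L q x v ≠ 0 → R v q := fun v hv =>
    hx.2.2.2.1 (offA_ne hv).2.2 hxq (offA_ne hv).2.1
  have hAg : ∀ v b, offA L q x v ≠ 0 → g b ≠ 0 → R v b := fun v b hv hb =>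
    hjoin v (hx.2.2.1 (offA_ne hv).2.2) (offA_ne hv).2.1 (hA v hv) (offA_ne hv).1 b
      (hL₁L (hg.2.2.1 hb))
  have hsub : support (offA L q x + u • (Pi.single q (1:ℝ) : α → ℝ) + w • g) ⊆ F ∪ L₁ := by
    intro v hv
    rcases hs v hv with h | h | h
    · exact Or.inl (hx.2.2.1 (offA_ne h).2.2)
    · exact Or.inl (h ▸ hqF)
    · exact Or.inr (hg.2.2.1 h)
  refine ⟨fun v => ?_, (hF.union hL₁).subset hsub, hsub, fun a ha b hb hab => ?_, ?_⟩
  · have h1 := offA_nonneg (L := L) (q := q) hx.1 v
    have h2 := hg.1 v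
    have h3 : 0 ≤ (Pi.single q (1:ℝ) : α → ℝ) v := by
      by_cases hv : v = q <;> simp [hv]
    simp only [Pi.add_apply, Pi.smul_apply, smul_eq_mul]
    positivity
  · rcases hs a ha with h | h | h <;> rcases hs b hb with h' | h' | h'
    · exact hx.2.2.2.1 (offA_ne h).2.2 (offA_ne h').2.2 hab
    · exact h' ▸ hA a h
    · exact hAg a b h h'
    · exact h ▸ hR _ _ (hA b h')
    · exact absurd (h.trans h'.symm) hab
    · exact h ▸ hR _ _ (hLq b (hL₁L (hg.2.2.1 h')))
    · exact hR _ _ (hAg b a h' h)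
    · exact h' ▸ hLq a (hL₁L (hg.2.2.1 h))
    · exact hg.2.2.2.1 h h' hab
  · rw [finsum_eq_sum_of_support_subset (s := (hF.union hL₁).toFinset) _ (by simpa using hsub)]
    have e1 : ∑ v ∈ (hF.union hL₁).toFinset, g v = 1 :=
      geo_sum hg (fun v hv => by simpa using Or.inr (hg.2.2.1 hv))
    have e2 : ∑ v ∈ (hF.union hL₁).toFinset, x v = 1 :=
      geo_sum hx (fun v hv => by simpa using Or.inl (hx.2.2.1 hv))
    have e3 : ∑ v ∈ (hF.union hL₁).toFinset, (Pi.single q (1:ℝ) : α → ℝ) v = 1 := by
      rw [Finset.sum_pi_single']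
      simp [hqF]
    have e4 : ∑ v ∈ (hF.union hL₁).toFinset, offB L x v = ∑ v ∈ hF.toFinset, offB L x v := by
      symm
      refine Finset.sum_subset (fun v hv => by simpa using Or.inl (by simpa using hv))
        (fun v _ hv => ?_)
      by_contra h
      exact hv (by simpa using hx.2.2.1 (offB_ne h).2)
    rw [← off_decomp hq x] at e2
    simp only [Pi.add_apply, Pi.smul_apply, smul_eq_mul, Finset.sum_add_distrib,
      ← Finset.mul_sum] at e2 ⊢
    rw [e3, e4] at e2
    rw [e1, e3]
    linarith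

/-- Coning off one vertex `q` of a finite complex `F` whose link is a join with a factor contained
in the weakly contractible set `L`. -/
theorem cone_off {R : α → α → Prop} (hR : ∀ a b, R a b → R b a) {F L : Set α} (hF : F.Finite)
    {q : α} (hq : q ∉ L) (hL : WC R L) (hLq : ∀ b ∈ L, R b q)
    (hjoin : ∀ p ∈ F, p ≠ q → R p q → p ∉ L → ∀ b ∈ L, R p b) :
    ∃ L₁ : Set α, L₁.Finite ∧ L₁ ⊆ L ∧
      ∃ r : C(geo R F, geo R ((F \ {q}) ∪ L₁)),
        (∀ x : geo R F, x.1 q = 0 → (r x).1 = x.1) ∧
        (ginc R (Set.subset_union_left : F ⊆ F ∪ L₁)).Homotopic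
          ((ginc R (Set.union_subset_union_left L₁ Set.sdiff_subset)).comp r) := by
  classical
  obtain ⟨L₁, hL₁, hL₁L, hsub, c, ⟨H⟩⟩ := hL.2 (F ∩ L) (hF.subset Set.inter_subset_left)
    Set.inter_subset_right
  refine ⟨L₁, hL₁, hL₁L, ?_⟩
  let m : geo R F → ℝ := fun x => ∑ v ∈ hF.toFinset, offB L x.1 v
  have hmc : Continuous m :=
    continuous_finsetSum _ (fun v _ => (continuous_apply v).comp
      ((continuous_offB L).comp continuous_subtype_val))
  have hm0 : ∀ x, 0 ≤ m x := fun x => Finset.sum_nonneg fun v _ => offB_nonneg x.2.1 v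
  let τ : unitInterval × geo R F → unitInterval := fun p =>
    Set.projIcc 0 1 zero_le_one (min 1 (p.2.1 q / m p.2) * min 1 (2 * (p.1 : ℝ)))
  let G : unitInterval × geo R F → geo R L₁ := fun p =>
    if h : m p.2 = 0 then c else H (τ p, ⟨(m p.2)⁻¹ • offB L p.2.1, off_norm_mem hF p.2.2 h⟩)
  have hG0 : ∀ p, τ p = 0 → m p.2 • (G p).1 = offB L p.2.1 := by
    intro p hp
    by_cases h : m p.2 = 0
    · rw [h, zero_smul]
      funext v
      by_contra h'
      have h1 : offB L p.2.1 v ≠ 0 := fun h'' => h' h''.symm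
      have hv : v ∈ hF.toFinset := by simpa using p.2.2.2.2.1 (offB_ne h1).2
      exact h1 ((Finset.sum_eq_zero_iff_of_nonneg (fun v _ => offB_nonneg p.2.2.1 v)).1 h v hv)
    · simp only [G, dif_neg h, hp, H.apply_zero]
      change m p.2 • ((m p.2)⁻¹ • offB L p.2.1) = _
      rw [smul_smul, mul_inv_cancel₀ h, one_smul]
  have hG1 : ∀ p, m p.2 ≤ p.2.1 q → 1 ≤ 2 * (p.1 : ℝ) → G p = c := by
    intro p h1 h2
    by_cases h : m p.2 = 0
    · simp only [G, dif_pos h]
    · have hpos : 0 < m p.2 := lt_of_le_of_ne (hm0 _) (Ne.symm h)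
      have : τ p = 1 := by
        simp only [τ]
        rw [min_eq_left ((one_le_div hpos).2 h1), min_eq_left h2, one_mul, Set.projIcc_right]
        rfl
      simp only [G, dif_neg h, this, H.apply_one]
      rfl
  let w : unitInterval × geo R F → ℝ := fun p => m p.2 + p.2.1 q * max 0 (2 * (p.1 : ℝ) - 1)
  have hsc : Continuous fun x : geo R F => x.1 q := (continuous_apply q).comp continuous_subtype_val
  have hwc : Continuous w :=
    (hmc.comp continuous_snd).add ((hsc.comp continuous_snd).mul (by fun_prop))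
  have hw0 : ∀ p, 0 ≤ w p := fun p =>
    add_nonneg (hm0 _) (mul_nonneg (p.2.2.1 q) (le_max_left _ _))
  have hWc : Continuous fun p => w p • (G p).1 := by
    refine continuous_pi (fun v => ?_)
    have hE : Continuous fun p => w p * ((G p).1 v - c.1 v) := by
      refine off_squeeze (m := fun p : unitInterval × geo R F => m p.2) (hmc.comp continuous_snd)
        (fun p => ?_) ?_
      · have hd : |(G p).1 v - c.1 v| ≤ 1 := by
          have := (G p).2.1 v
          have := c.2.1 v
          have := geo_le_one (G p).2 v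
          have := geo_le_one c.2 v
          rw [abs_le]; constructor <;> linarith
        have hmp := hm0 p.2
        have hsp := p.2.2.1 q
        rw [abs_mul, abs_of_nonneg (hw0 p)]
        by_cases h : m p.2 ≤ p.2.1 q ∧ 1 ≤ 2 * (p.1 : ℝ)
        · rw [hG1 p h.1 h.2]; simp [hmp]
        · have hw : w p ≤ 2 * m p.2 := by
            simp only [w]
            rcases le_total (2 * (p.1 : ℝ)) 1 with h' | h'
            · rw [max_eq_left (by linarith)]; linarith
            · have h1 : p.2.1 q ≤ m p.2 := by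
                by_contra h''
                exact h ⟨le_of_lt (not_le.1 h''), h'⟩
              have h2 : max 0 (2 * (p.1 : ℝ) - 1) ≤ 1 := max_le zero_le_one (by linarith [p.1.2.2])
              have := mul_le_mul_of_nonneg_left h2 hsp
              linarith
          calc w p * |(G p).1 v - c.1 v| ≤ w p * 1 := mul_le_mul_of_nonneg_left hd (hw0 p)
            _ ≤ _ := by linarith
      · have hGc : Continuous fun p : {p : unitInterval × geo R F // m p.2 ≠ 0} => G p.1 := by
          have hmi : Continuous fun p : {p : unitInterval × geo R F // m p.2 ≠ 0} => (m p.1.2)⁻¹ :=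
            (hmc.comp (continuous_snd.comp continuous_subtype_val)).inv₀ (fun p => p.2)
          have : (fun p : {p : unitInterval × geo R F // m p.2 ≠ 0} => G p.1) = fun p =>
              H (τ p.1, ⟨(m p.1.2)⁻¹ • offB L p.1.2.1, off_norm_mem hF p.1.2.2 p.2⟩) := by
            funext p
            simp only [G, dif_neg p.2]
          rw [this]
          refine H.continuous.comp (Continuous.prodMk ?_ (Continuous.subtype_mk ?_ _))
          · refine continuous_projIcc.comp ?_
            simp only [div_eq_mul_inv]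
            have := hsc.comp (continuous_snd.comp
              (continuous_subtype_val (p := fun p : unitInterval × geo R F => m p.2 ≠ 0)))
            refine Continuous.mul (continuous_const.min (this.mul hmi)) (by fun_prop)
          · exact hmi.smul ((continuous_offB L).comp (by fun_prop))
        refine (hwc.comp continuous_subtype_val).mul (Continuous.sub ?_ continuous_const)
        exact (continuous_apply v).comp (continuous_subtype_val.comp hGc)
    have := hE.add (hwc.mul (continuous_const (y := c.1 v)))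
    refine this.congr (fun p => ?_)
    simp only [Pi.add_apply, Pi.mul_apply, Pi.smul_apply, smul_eq_mul]
    ring
  let K : unitInterval × geo R F → α → ℝ := fun p =>
    offA L q p.2.1 + (p.2.1 q * min 1 (2 - 2 * (p.1 : ℝ))) • (Pi.single q (1:ℝ) : α → ℝ) +
      w p • (G p).1
  have hKc : Continuous K := by
    refine Continuous.add (Continuous.add ((continuous_offA L q).comp (by fun_prop)) ?_) hWc
    exact ((hsc.comp continuous_snd).mul (by fun_prop)).smul continuous_const
  have hK0 : ∀ p : unitInterval × geo R F, p.2.1 q = 0 → K p = p.2.1 := by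
    intro p hp
    have hτ : τ p = 0 := by
      simp only [τ, hp, zero_div]
      rw [min_eq_right zero_le_one, zero_mul, Set.projIcc_left]
      rfl
    have := hG0 p hτ
    simp only [K, w, hp, zero_mul, add_zero, this]
    have h2 := off_decomp hq p.2.1
    rwa [hp] at h2
  have hKm : ∀ p, K p ∈ geo R (F ∪ L₁) := by
    intro p
    by_cases hp : p.2.1 q = 0
    · rw [hK0 p hp]; exact geo_mono R Set.subset_union_left p.2.2
    · refine off_mem hR hF hL₁ hL₁L hq hLq hjoin p.2.2 hp (G p).2
        (mul_nonneg (p.2.2.1 q) (le_min zero_le_one (by linarith [p.1.2.2]))) (hw0 p) ?_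
      simp only [w, m]
      rcases le_total (2 * (p.1 : ℝ)) 1 with h' | h'
      · rw [max_eq_left (by linarith), min_eq_left (by linarith)]; ring
      · rw [max_eq_right (by linarith), min_eq_right (by linarith)]; ring
  have hK1 : ∀ x : geo R F, K (1, x) ∈ geo R ((F \ {q}) ∪ L₁) := by
    intro x
    have h := hKm (1, x)
    have hq0 : K (1, x) q = 0 := by
      have : (G (1, x)).1 q = 0 := by
        by_contra h'
        exact hq (hL₁L ((G (1, x)).2.2.2.1 h'))
      simp [K, offA, this]
    refine ⟨h.1, h.2.1, fun v hv => ?_, h.2.2.2⟩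
    rcases h.2.2.1 hv with h' | h'
    · exact Or.inl ⟨h', fun h'' => hv (by rw [Set.mem_singleton_iff.1 h'']; exact hq0)⟩
    · exact Or.inr h'
  refine ⟨⟨fun x => ⟨K (1, x), hK1 x⟩, (hKc.comp (by fun_prop)).subtype_mk _⟩,
    fun x hx => hK0 (1, x) hx, geo_homotopic K hKc hKm (fun x => ?_) (fun x => rfl)⟩
  have hτ : τ (0, x) = 0 := by
    simp only [τ, Set.Icc.coe_zero, mul_zero]
    rw [min_eq_right zero_le_one, mul_zero, Set.projIcc_left]
    rfl
  have := hG0 (0, x) hτ
  simp only [K, w, Set.Icc.coe_zero, mul_zero, sub_zero, zero_sub]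
  rw [max_eq_left (by norm_num), min_eq_left (by norm_num), mul_zero, add_zero, mul_one, this]
  exact off_decomp hq x.1

end Vale.Agent.P203
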