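import Vale.Agent.P203.TopCone
import Vale.Agent.P203.TopOff

namespace Vale.Agent.P203

open Function

variable {α β : Type}

/-- The elements added before `q`. -/
def Bef {Λ : Type} [LT Λ] (P Q : Set α) (φ : α → Λ) (q : α) : Set α :=
  {p | p ∈ Q ∧ (p ∈ P ∨ φ p < φ q)}

/-- The finite set `F` can be pushed into `P` inside `Q`. -/
def MorsePushF (R : α → α → Prop) (P Q F : Set α) : Prop :=
  ∃ F' : Set α, F'.Finite ∧ F' ⊆ Q ∧ ∃ h : F ⊆ F',
    ∃ r : C(geo R F, geo R (F' ∩ P)),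
      (∀ x : geo R F, support x.1 ⊆ P → (r x).1 = x.1) ∧
      (ginc R h).Homotopic ((ginc R Set.inter_subset_left).comp r)

theorem morse_base {R : α → α → Prop} {P Q F : Set α} (hF : F.Finite) (hQ : F ⊆ Q) (hP : F ⊆ P) :
    MorsePushF R P Q F :=
  ⟨F, hF, hQ, subset_rfl, ginc R (Set.subset_inter subset_rfl hP), fun _ _ => rfl,
    ContinuousMap.Homotopic.refl _⟩

theorem morse_step {R : α → α → Prop} (hR : ∀ a b, R a b → R b a) {P Q F L : Set α}
    (hF : F.Finite) (hQ : F ⊆ Q) {q : α} (hqP : q ∉ P) (hq : q ∉ L) (hL : WC R L)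
    (hLq : ∀ b ∈ L, R b q) (hjoin : ∀ p ∈ F, p ≠ q → R p q → p ∉ L → ∀ b ∈ L, R p b)
    (ih : ∀ L₁ : Set α, L₁.Finite → L₁ ⊆ L → MorsePushF R P Q ((F \ {q}) ∪ L₁)) :
    MorsePushF R P Q F := by
  obtain ⟨L₁, h1, h2, r, hr, hH⟩ := cone_off hR hF hq hL hLq hjoin
  obtain ⟨F', h3, h4, h5, r', hr', hH'⟩ := ih L₁ h1 h2
  have i1 : F' ∩ P ⊆ (F' ∪ F) ∩ P := Set.inter_subset_inter_left _ Set.subset_union_left
  have i2 : F ∪ L₁ ⊆ F' ∪ F := Set.union_subset Set.subset_union_right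
    ((Set.subset_union_right.trans h5).trans Set.subset_union_left)
  refine ⟨F' ∪ F, h3.union hF, Set.union_subset h4 hQ, Set.subset_union_right,
    (ginc R i1).comp (r'.comp r), fun x hx => ?_, ?_⟩
  · have e : (r x).1 = x.1 := hr x (by
      by_contra h
      exact hqP (hx h))
    exact (hr' (r x) (by rw [e]; exact hx)).trans e
  · have a1 := (ContinuousMap.Homotopic.refl (ginc R i2)).comp hH
    have a2 := (ContinuousMap.Homotopic.refl
      (ginc R (Set.subset_union_left : F' ⊆ F' ∪ F))).comp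
        (hH'.comp (ContinuousMap.Homotopic.refl r))
    exact a1.trans a2

/-- Discrete Morse lemma for flag complexes. -/
theorem push_morse {Λ : Type} [LinearOrder Λ] {R : α → α → Prop} (hR : ∀ a b, R a b → R b a)
    {P Q : Set α} (hPQ : P ⊆ Q) (φ : α → Λ) (hwf : (φ '' (Q \ P)).IsWF)
    (hne : ∀ p ∈ Q \ P, ∀ q ∈ Q \ P, p ≠ q → R p q → φ p ≠ φ q)
    (hlk : ∀ q ∈ Q \ P, ∃ L : Set α, L ⊆ Bef P Q φ q ∧ WC R L ∧ (∀ b ∈ L, R b q) ∧
      ∀ p ∈ Bef P Q φ q, R p q → p ∉ L → ∀ b ∈ L, R p b) : Push R P Q := by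
  have low : ∀ lam : Λ, (∀ mu ∈ φ '' (Q \ P), mu < lam → ∀ F : Set α, F.Finite → F ⊆ Q →
      (∀ p ∈ F \ P, φ p ≤ mu) → MorsePushF R P Q F) → ∀ F : Set α, F.Finite → F ⊆ Q →
      (∀ p ∈ F \ P, φ p < lam) → MorsePushF R P Q F := by
    intro lam ih F hF hQ hlt
    rcases (F \ P).eq_empty_or_nonempty with h | h
    · exact morse_base hF hQ (Set.sdiff_eq_empty.1 h)
    · obtain ⟨p, hp, hmax⟩ := Set.exists_max_image _ φ (hF.subset Set.sdiff_subset) h
      exact ih _ ⟨p, ⟨hQ hp.1, hp.2⟩, rfl⟩ (hlt p hp) F hF hQ hmax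
  have main : ∀ lam ∈ φ '' (Q \ P), ∀ F : Set α, F.Finite → F ⊆ Q →
      (∀ p ∈ F \ P, φ p ≤ lam) → MorsePushF R P Q F := by
    intro lam hlam
    refine Set.WellFoundedOn.induction hwf hlam (P := fun lam => ∀ F : Set α, F.Finite → F ⊆ Q →
      (∀ p ∈ F \ P, φ p ≤ lam) → MorsePushF R P Q F) fun lam _ ih => ?_
    have inner : ∀ k : ℕ, ∀ F : Set α, F.Finite → F ⊆ Q → (∀ p ∈ F \ P, φ p ≤ lam) →
        {p | p ∈ F \ P ∧ φ p = lam}.ncard = k → MorsePushF R P Q F := by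
      intro k
      induction k with
      | zero =>
        intro F hF hQ hle hk
        rw [Set.ncard_eq_zero (hF.subset fun p hp => hp.1.1)] at hk
        refine low lam ih F hF hQ fun p hp => lt_of_le_of_ne (hle p hp) fun h => ?_
        exact (Set.eq_empty_iff_forall_notMem.1 hk) p ⟨hp, h⟩
      | succ k ihk =>
        intro F hF hQ hle hk
        obtain ⟨q, hq, hql⟩ := Set.nonempty_of_ncard_ne_zero (by rw [hk]; exact k.succ_ne_zero)
        have hqQ : q ∈ Q \ P := ⟨hQ hq.1, hq.2⟩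
        obtain ⟨L, hL1, hL2, hL3, hL4⟩ := hlk q hqQ
        refine morse_step hR hF hQ hq.2 (fun h => ?_) hL2 hL3 (fun p hp hpq hr => ?_)
          fun L₁ h1 h2 => ?_
        · exact (hL1 h).2.elim hq.2 (lt_irrefl _)
        · refine hL4 p ⟨hQ hp, ?_⟩ hr
          by_cases hpP : p ∈ P
          · exact Or.inl hpP
          · exact Or.inr (lt_of_le_of_ne (hql ▸ hle p ⟨hp, hpP⟩) (hne p ⟨hQ hp, hpP⟩ q hqQ hpq hr))
        · have hlt : ∀ p ∈ L₁, p ∉ P → φ p < lam := fun p hp hpP =>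
            hql ▸ (hL1 (h2 hp)).2.resolve_left hpP
          refine ihk _ ((hF.subset Set.sdiff_subset).union h1)
            (Set.union_subset (Set.sdiff_subset.trans hQ) fun p hp => (hL1 (h2 hp)).1)
            (fun p hp => hp.1.elim (fun h => hle p ⟨h.1, hp.2⟩) fun h => (hlt p h hp.2).le) ?_
          have e : {p | p ∈ ((F \ {q}) ∪ L₁) \ P ∧ φ p = lam}
              = {p | p ∈ F \ P ∧ φ p = lam} \ {q} := by
            ext p
            constructor
            · rintro ⟨⟨h | h, hp⟩, hl⟩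
              · exact ⟨⟨⟨h.1, hp⟩, hl⟩, h.2⟩
              · exact absurd hl (hlt p h hp).ne
            · rintro ⟨⟨h, hl⟩, hp⟩
              exact ⟨⟨Or.inl ⟨h.1, hp⟩, h.2⟩, hl⟩
          have hqm : q ∈ {p | p ∈ F \ P ∧ φ p = lam} := ⟨hq, hql⟩
          rw [e, Set.ncard_sdiff_singleton_of_mem hqm, hk]
          rfl
    exact fun F hF hQ hle => inner _ F hF hQ hle rfl
  intro F hF hQ
  rcases (F \ P).eq_empty_or_nonempty with h | h
  · exact morse_base hF hQ (Set.sdiff_eq_empty.1 h)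
  · obtain ⟨p, hp, hmax⟩ := Set.exists_max_image _ φ (hF.subset Set.sdiff_subset) h
    exact main _ ⟨p, ⟨hQ hp.1, hp.2⟩, rfl⟩ F hF hQ hmax

/-- Discrete Morse lemma for posets: for each new element either the earlier elements above it or
the earlier elements below it form a weakly contractible poset. -/
theorem push_poset {Λ : Type} [LinearOrder Λ] [PartialOrder α]
    {P Q : Set α} (hPQ : P ⊆ Q) (φ : α → Λ) (hwf : (φ '' (Q \ P)).IsWF)
    (hne : ∀ p ∈ Q \ P, ∀ q ∈ Q \ P, p < q → φ p ≠ φ q)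
    (hlk : ∀ q ∈ Q \ P, WC Cmp {p | p ∈ Bef P Q φ q ∧ q < p} ∨
      WC Cmp {p | p ∈ Bef P Q φ q ∧ p < q}) : Push Cmp P Q := by
  refine push_morse cmp_symm hPQ φ hwf (fun p hp q hq hpq h => ?_) fun q hq => ?_
  · rcases h with h | h
    · exact hne p hp q hq (lt_of_le_of_ne h hpq)
    · exact (hne q hq p hp (lt_of_le_of_ne h hpq.symm)).symm
  · rcases hlk q hq with h | h
    · refine ⟨_, fun p hp => hp.1, h, fun b hb => Or.inr hb.2.le, fun p hp hc hn b hb => ?_⟩
      rcases hc with hc | hc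
      · exact Or.inl (hc.trans hb.2.le)
      · rcases hc.eq_or_lt with rfl | hc
        · exact Or.inl hb.2.le
        · exact absurd ⟨hp, hc⟩ hn
    · refine ⟨_, fun p hp => hp.1, h, fun b hb => Or.inl hb.2.le, fun p hp hc hn b hb => ?_⟩
      rcases hc with hc | hc
      · rcases hc.eq_or_lt with rfl | hc
        · exact Or.inr hb.2.le
        · exact absurd ⟨hp, hc⟩ hn
      · exact Or.inr (hb.2.le.trans hc)

/-- Quillen's fibre lemma. -/
theorem wc_quillen [PartialOrder α] [PartialOrder β] {P : Set α} {Q : Set β} (f : α → β)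
    (hmaps : Set.MapsTo f P Q) (hmono : ∀ a ∈ P, ∀ b ∈ P, a ≤ b → f a ≤ f b)
    (ra : α → ℕ) (hra : ∀ a ∈ P, ∀ b ∈ P, a < b → ra a < ra b)
    (rb : β → ℕ) (n : ℕ) (hrb : ∀ a ∈ Q, ∀ b ∈ Q, a < b → rb a < rb b) (hn : ∀ a ∈ Q, rb a ≤ n)
    (hfib : ∀ q ∈ Q, WC Cmp {p | p ∈ P ∧ f p ≤ q}) (hQ : WC Cmp Q) : WC Cmp P := by
  let R : α ⊕ β → α ⊕ β → Prop := fun x y => match x, y with
    | .inl a, .inl b => Cmp a b
    | .inr a, .inr b => Cmp a b
    | .inl a, .inr b => f a ≤ b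
    | .inr b, .inl a => f a ≤ b
  have hR : ∀ x y, R x y → R y x := by
    rintro (a | a) (b | b) h
    exacts [cmp_symm _ _ h, h, h, cmp_symm _ _ h]
  have hl : ∀ S : Set α, WC Cmp S ↔ WC R (Sum.inl '' S) := fun S =>
    wc_map Sum.inl_injective.injOn fun _ _ _ _ _ => Iff.rfl
  have hr : ∀ S : Set β, WC Cmp S ↔ WC R (Sum.inr '' S) := fun S =>
    wc_map Sum.inr_injective.injOn fun _ _ _ _ _ => Iff.rfl
  have hA : Push R (Sum.inr '' Q) (Sum.inl '' P ∪ Sum.inr '' Q) := by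
    refine push_morse hR Set.subset_union_right (Sum.elim ra fun _ => 0)
      (Set.IsWF.of_wellFoundedLT _) ?_ ?_
    · rintro _ ⟨⟨a, ha, rfl⟩ | h, h'⟩
      · rintro _ ⟨⟨b, hb, rfl⟩ | h, h'⟩ hab hc
        · have hab' : a ≠ b := fun e => hab (congrArg _ e)
          rcases hc with hc | hc
          · exact (hra a ha b hb (lt_of_le_of_ne hc hab')).ne
          · exact (hra b hb a ha (lt_of_le_of_ne hc hab'.symm)).ne'
        · exact absurd h h'
      · exact absurd h h'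
    · rintro _ ⟨⟨a, ha, rfl⟩ | h, h'⟩
      · refine ⟨Sum.inr '' {b | b ∈ Q ∧ f a ≤ b}, ?_,
          (hr _).1 (wc_min (c := f a) ⟨hmaps ha, le_rfl⟩ fun p hp => hp.2), ?_, ?_⟩
        · rintro _ ⟨b, hb, rfl⟩
          exact ⟨Or.inr ⟨b, hb.1, rfl⟩, Or.inl ⟨b, hb.1, rfl⟩⟩
        · rintro _ ⟨b, hb, rfl⟩
          exact hb.2
        · rintro _ ⟨⟨c, hc, rfl⟩ | ⟨c, hc, rfl⟩, h2⟩ hca hn _ ⟨b, hb, rfl⟩
          · have h3 : ra c < ra a := h2.resolve_left (by simp)
            have h4 : c ≤ a := by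
              rcases hca with h | h
              · exact h
              · rcases h.eq_or_lt with rfl | h
                · exact le_rfl
                · exact absurd (hra a ha c hc h) h3.not_gt
            exact (hmono c hc a ha h4).trans hb.2
          · exact absurd ⟨c, ⟨hc, hca⟩, rfl⟩ hn
      · exact absurd h h'
  have hB : Push R (Sum.inl '' P) (Sum.inl '' P ∪ Sum.inr '' Q) := by
    refine push_morse hR Set.subset_union_left (Sum.elim (fun _ => 0) fun b => n - rb b)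
      (Set.IsWF.of_wellFoundedLT _) ?_ ?_
    · rintro _ ⟨h | ⟨a, ha, rfl⟩, h'⟩
      · exact absurd h h'
      · rintro _ ⟨h | ⟨b, hb, rfl⟩, h'⟩ hab hc
        · exact absurd h h'
        · have hab' : a ≠ b := fun e => hab (congrArg _ e)
          have h1 := hn a ha
          have h2 := hn b hb
          show n - rb a ≠ n - rb b
          rcases hc with hc | hc
          · have := hrb a ha b hb (lt_of_le_of_ne hc hab')
            omega
          · have := hrb b hb a ha (lt_of_le_of_ne hc hab'.symm)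
            omega
    · rintro _ ⟨h | ⟨a, ha, rfl⟩, h'⟩
      · exact absurd h h'
      · refine ⟨Sum.inl '' {p | p ∈ P ∧ f p ≤ a}, ?_, (hl _).1 (hfib a ha), ?_, ?_⟩
        · rintro _ ⟨b, hb, rfl⟩
          exact ⟨Or.inl ⟨b, hb.1, rfl⟩, Or.inl ⟨b, hb.1, rfl⟩⟩
        · rintro _ ⟨b, hb, rfl⟩
          exact hb.2
        · rintro _ ⟨⟨c, hc, rfl⟩ | ⟨c, hc, rfl⟩, h2⟩ hca hn' _ ⟨b, hb, rfl⟩
          · exact absurd ⟨c, ⟨hc, hca⟩, rfl⟩ hn'
          · have h3 : n - rb c < n - rb a := h2.resolve_left (by simp)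
            have h4 : a ≤ c := by
              rcases hca with h | h
              · rcases h.eq_or_lt with rfl | h
                · exact le_rfl
                · have := hrb c hc a ha h
                  omega
              · exact h
            exact hb.2.trans h4
  obtain ⟨q, hq⟩ := hQ.1
  obtain ⟨p, hp⟩ := (hfib q hq).1
  exact (hl P).2 (hB.wc_down Set.subset_union_left ⟨_, p, hp.1, rfl⟩
    (hA.wc_up Set.subset_union_right ((hr Q).1 hQ)))

end Vale.Agent.P203
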