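import Vale.Agent.P203.CellDefs
import Vale.Agent.P203.CoreBasic
import Vale.Agent.P203.TopMorse

namespace Vale.Agent.P203

variable {B W : Type} [Group W] {M : CoxeterMatrix B} [Fintype B] [DecidableEq B]
variable {cs : CoxeterSystem M W}

theorem mm_isWF_lex {Λ : Type} [LinearOrder Λ] {S : Set Λ} (hS : S.IsWF) :
    {p : Λ ×ₗ ℕ | (ofLex p).1 ∈ S}.IsWF := by
  have h := InvImage.wf (fun p : {p : Λ ×ₗ ℕ | (ofLex p).1 ∈ S} =>
    ((⟨(ofLex p.1).1, p.2⟩ : S), (ofLex p.1).2)) (WellFounded.prod_lex hS (wellFounded_lt (α := ℕ)))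
  refine Subrelation.wf (fun {a b} hab => ?_) h
  rcases Prod.Lex.lt_iff.1 (show a.1 < b.1 from hab) with h1 | h1
  · exact Prod.lex_def.2 (Or.inl h1)
  · exact Prod.lex_def.2 (Or.inr ⟨Subtype.ext h1.1, h1.2⟩)

namespace Core

variable {D : Dat cs} (C : Core D)

/-- The cell of type `S` of the chamber `x`. -/
def cell (x : C.G) (S : Finset B) : Finset B × Set C.G := (S, C.cos x S)

theorem P_trans {T : Finset B} {x y z : C.G} (h : x⁻¹ * y ∈ C.P T) (h' : y⁻¹ * z ∈ C.P T) :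
    x⁻¹ * z ∈ C.P T := by
  simpa [mul_assoc] using mul_mem h h'

theorem P_symm {T : Finset B} {x y : C.G} (h : x⁻¹ * y ∈ C.P T) : y⁻¹ * x ∈ C.P T := by
  simpa using inv_mem h

theorem P_refl (T : Finset B) (x : C.G) : x⁻¹ * x ∈ C.P T := by simp [one_mem]

theorem cell_le {x y : C.G} {S S' : Finset B} :
    C.cell x S ≤ C.cell y S' ↔ S ⊆ S' ∧ y⁻¹ * x ∈ C.P S' :=
  ⟨fun h => ⟨h.1, h.2 (C.P_refl S x)⟩,
    fun h => ⟨h.1, fun _ hz => C.P_trans h.2 (C.P_mono h.1 hz)⟩⟩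

theorem cell_eq {x y : C.G} {S : Finset B} (h : x⁻¹ * y ∈ C.P S) : C.cell y S = C.cell x S :=
  le_antisymm (C.cell_le.2 ⟨subset_rfl, h⟩) (C.cell_le.2 ⟨subset_rfl, C.P_symm h⟩)

theorem cell_lt {x y : C.G} {S S' : Finset B} :
    C.cell x S < C.cell y S' ↔ S ⊂ S' ∧ y⁻¹ * x ∈ C.P S' := by
  constructor
  · intro h
    obtain ⟨h1, h2⟩ := C.cell_le.1 h.le
    refine ⟨h1.ssubset_of_ne ?_, h2⟩
    rintro rfl
    exact h.ne (C.cell_eq h2)
  · exact fun h => lt_of_le_of_ne (C.cell_le.2 ⟨h.1.subset, h.2⟩) fun e =>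
      h.1.ne (congrArg Prod.fst e)

theorem mem_XX {x₀ : C.G} {T : Finset B} {Good : C.G → B → Prop} {σ : Finset B × Set C.G} :
    σ ∈ C.XX x₀ T Good ↔
      ∃ x S, C.cell x S = σ ∧ S ⊂ T ∧ x₀⁻¹ * x ∈ C.P T ∧ ∀ t ∈ T, t ∉ S → Good x t :=
  ⟨fun ⟨h1, x, h2, h3, h4⟩ => ⟨x, σ.1, Prod.ext rfl h3.symm, h1, h2, h4⟩,
    by rintro ⟨x, S, rfl, h1, h2, h3⟩; exact ⟨h1, x, h2, rfl, h3⟩⟩

theorem XX_mono {x₀ : C.G} {T : Finset B} {Good Good' : C.G → B → Prop}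
    (hG : ∀ x, x₀⁻¹ * x ∈ C.P T → ∀ t ∈ T, Good x t → Good' x t) :
    C.XX x₀ T Good ⊆ C.XX x₀ T Good' :=
  fun _ ⟨h1, x, h2, h3, h4⟩ => ⟨h1, x, h2, h3, fun t ht h => hG x h2 t ht (h4 t ht h)⟩

theorem XX_congr {x₀ x₁ : C.G} {T : Finset B} (h : x₀⁻¹ * x₁ ∈ C.P T)
    {Good Good' : C.G → B → Prop}
    (hG : ∀ x, x₀⁻¹ * x ∈ C.P T → ∀ t ∈ T, (Good x t ↔ Good' x t)) :
    C.XX x₀ T Good = C.XX x₁ T Good' := by
  ext σ
  constructor
  · rintro ⟨h1, x, h2, h3, h4⟩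
    exact ⟨h1, x, C.P_trans (C.P_symm h) h2, h3, fun t ht h' => (hG x h2 t ht).1 (h4 t ht h')⟩
  · rintro ⟨h1, x, h2, h3, h4⟩
    exact ⟨h1, x, C.P_trans h h2, h3,
      fun t ht h' => (hG x (C.P_trans h h2) t ht).2 (h4 t ht h')⟩

theorem XX_nonempty_iff {x₀ : C.G} {T : Finset B} {Good : C.G → B → Prop} :
    (C.XX x₀ T Good).Nonempty ↔ ∃ x, x₀⁻¹ * x ∈ C.P T ∧ ∃ t ∈ T, Good x t := by
  constructor
  · rintro ⟨σ, h1, x, h2, -, h4⟩
    obtain ⟨t, ht, ht'⟩ := Finset.exists_of_ssubset h1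
    exact ⟨x, h2, t, ht, h4 t ht ht'⟩
  · rintro ⟨x, h, t, ht, hg⟩
    refine ⟨_, C.mem_XX.2 ⟨x, T.erase t, rfl, Finset.erase_ssubset ht, h, fun u hu hu' => ?_⟩⟩
    rwa [show u = t by simpa [hu] using hu']

theorem mm_inv {X : Type} {T : Finset B} {val : C.G → B → X}
    (hinv : ∀ x, ∀ s ∈ T, ∀ t ∈ T, s ≠ t → val (x * C.gen s) t = val x t) {S : Finset B}
    (hS : S ⊆ T) {x y : C.G} (h : x⁻¹ * y ∈ C.P S) {t : B} (ht : t ∈ T) (ht' : t ∉ S) :
    val y t = val x t :=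
  C.const_of_gen (f := fun z => val z t)
    (fun z s hs => hinv z s (hS hs) t ht fun e => ht' (e ▸ hs)) h

/-- The mixed faces of a horizontal cell. -/
theorem mm_horiz {Λ : Type} [LinearOrder Λ] {T S : Finset B} (hS : S ⊆ T) {val : C.G → B → Λ}
    (hinv : ∀ x, ∀ s ∈ T, ∀ t ∈ T, s ≠ t → val (x * C.gen s) t = val x t) {x : C.G} {l : Λ}
    (h : WC Cmp (C.XX x S fun y t => val y t < l)) :
    WC Cmp {σ | ∃ y S', C.cell y S' = σ ∧ S' ⊂ S ∧ x⁻¹ * y ∈ C.P S ∧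
      (∀ t ∈ S, t ∉ S' → val y t ≤ l) ∧ ∃ t ∈ S, t ∉ S' ∧ val y t < l} := by
  classical
  have hsub : C.XX x S (fun y t => val y t < l) ⊆ {σ | ∃ y S', C.cell y S' = σ ∧ S' ⊂ S ∧
      x⁻¹ * y ∈ C.P S ∧ (∀ t ∈ S, t ∉ S' → val y t ≤ l) ∧ ∃ t ∈ S, t ∉ S' ∧ val y t < l} :=
    fun σ hσ => by
    obtain ⟨y, S', rfl, h1, h2, h3⟩ := C.mem_XX.1 hσ
    obtain ⟨t, ht, ht'⟩ := Finset.exists_of_ssubset h1
    exact ⟨y, S', rfl, h1, h2, fun u hu hu' => (h3 u hu hu').le, t, ht, ht', h3 t ht ht'⟩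
  refine (push_poset hsub (fun σ => σ.1.card) (Set.IsWF.of_wellFoundedLT _) ?_ ?_).wc_up hsub h
  · rintro _ ⟨⟨y, S', rfl, -⟩, -⟩ _ ⟨⟨z, S'', rfl, -⟩, -⟩ hlt
    exact (Finset.card_lt_card (C.cell_lt.1 hlt).1).ne
  · rintro _ ⟨⟨y, S', rfl, h1, h2, -, t, ht, ht', hv⟩, hn⟩
    have hm : C.cell y (S.filter fun u => u ∈ S' ∨ ¬ val y u < l)
        ∈ C.XX x S fun y t => val y t < l := by
      refine C.mem_XX.2 ⟨y, _, rfl, Finset.filter_ssubset.2 ⟨t, ht, by simp [ht', hv]⟩, h2,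
        fun u hu hu' => ?_⟩
      by_contra hc
      exact hu' (Finset.mem_filter.2 ⟨hu, Or.inr hc⟩)
    have hle : S' ⊆ S.filter fun u => u ∈ S' ∨ ¬ val y u < l := fun u hu =>
      Finset.mem_filter.2 ⟨h1.subset hu, Or.inl hu⟩
    refine Or.inl (wc_min (c := C.cell y (S.filter fun u => u ∈ S' ∨ ¬ val y u < l))
      ⟨⟨hsub hm, Or.inl hm⟩, C.cell_lt.2 ⟨hle.ssubset_of_ne fun e => hn ?_, C.P_refl _ _⟩⟩ ?_)
    · rwa [← e] at hm
    · rintro p ⟨⟨⟨z, S₃, rfl, -⟩, hp⟩, hlt⟩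
      have hp' := hp.resolve_right (Finset.card_lt_card (C.cell_lt.1 hlt).1).not_gt
      obtain ⟨z', S₄, e, h3, -, h5⟩ := C.mem_XX.1 hp'
      rw [← e] at hlt ⊢
      obtain ⟨h6, h7⟩ := C.cell_lt.1 hlt
      refine C.cell_le.2 ⟨fun u hu => ?_, h7⟩
      obtain ⟨hu1, hu2 | hu2⟩ := Finset.mem_filter.1 hu
      · exact h6.subset hu2
      · by_contra hc
        rw [C.mm_inv hinv (h3.subset.trans hS) h7 (hS hu1) hc] at hu2
        exact hu2 (h5 u hu1 hc)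

theorem mm_lam {Λ : Type} [LinearOrder Λ] {T : Finset B} (hT : T.Nonempty) {val : C.G → B → Λ}
    (hinv : ∀ x, ∀ s ∈ T, ∀ t ∈ T, s ≠ t → val (x * C.gen s) t = val x t) :
    ∃ lam : Finset B × Set C.G → Λ, ∀ x S, S ⊂ T →
      (∀ t ∈ T, t ∉ S → val x t ≤ lam (C.cell x S)) ∧
        ∃ t ∈ T, t ∉ S ∧ val x t = lam (C.cell x S) := by
  have : ∀ σ : Finset B × Set C.G, ∃ l : Λ, ∀ x S, C.cell x S = σ → S ⊂ T →
      (∀ t ∈ T, t ∉ S → val x t ≤ l) ∧ ∃ t ∈ T, t ∉ S ∧ val x t = l := by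
    intro σ
    by_cases h : ∃ x S, C.cell x S = σ ∧ S ⊂ T
    · obtain ⟨x, S, rfl, hS⟩ := h
      obtain ⟨t, ht, hm⟩ := Finset.exists_max_image (T \ S) (val x)
        (Finset.sdiff_nonempty.2 hS.not_subset)
      rw [Finset.mem_sdiff] at ht
      refine ⟨val x t, fun y S' e _ => ?_⟩
      obtain rfl : S' = S := congrArg Prod.fst e
      have hy := (C.cell_le.1 e.le).2
      exact ⟨fun u hu hu' => (C.mm_inv hinv hS.subset hy hu hu').trans_le
        (hm u (Finset.mem_sdiff.2 ⟨hu, hu'⟩)), t, ht.1, ht.2, C.mm_inv hinv hS.subset hy ht.1 ht.2⟩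
    · exact ⟨val 1 hT.choose, fun x S e hS => absurd ⟨x, S, e, hS⟩ h⟩
  choose lam h using this
  exact ⟨lam, fun x S hS => h _ x S rfl hS⟩

/-- Morse lemma on Artin complexes. -/
theorem morse_cells {Λ : Type} [LinearOrder Λ] (x₀ : C.G) (T : Finset B) (val : C.G → B → Λ)
    (hinv : ∀ x, ∀ s ∈ T, ∀ t ∈ T, s ≠ t → val (x * C.gen s) t = val x t)
    (hwf : {l | ∃ x, ∃ t ∈ T, val x t = l}.IsWF) (base top : Λ → Prop)
    (hb : ∀ a b, a ≤ b → base b → base a) (ht : ∀ a b, a ≤ b → top b → top a)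
    (hbt : ∀ a, base a → top a)
    (hdl : ∀ x, x₀⁻¹ * x ∈ C.P T → ∀ J ⊆ T, J.Nonempty → ∀ l, top l → ¬ base l →
      (∀ j ∈ J, val x j = l) → WC Cmp (C.XX x (T \ J) fun y t => val y t < l)) :
    Push Cmp (C.XX x₀ T fun y t => base (val y t)) (C.XX x₀ T fun y t => top (val y t)) := by
  classical
  rcases T.eq_empty_or_nonempty with rfl | hT
  · exact fun F hF hQ => morse_base hF hQ fun σ hσ => absurd (hQ hσ).1 (by simp)
  obtain ⟨lam, hlam⟩ := C.mm_lam hT hinv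
  have hmem : ∀ p : Λ → Prop, (∀ a b, a ≤ b → p b → p a) → ∀ x S,
      (C.cell x S ∈ C.XX x₀ T fun y t => p (val y t)) ↔
        S ⊂ T ∧ x₀⁻¹ * x ∈ C.P T ∧ p (lam (C.cell x S)) := by
    intro p hp x S
    constructor
    · intro h
      obtain ⟨y, S', e, h1, h2, h3⟩ := C.mem_XX.1 h
      obtain rfl : S' = S := congrArg Prod.fst e
      obtain ⟨t, h4, h5, h6⟩ := (hlam y S' h1).2
      exact ⟨h1, C.P_trans h2 (C.P_mono h1.subset (C.cell_le.1 e.ge).2),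
        by rw [← e, ← h6]; exact h3 t h4 h5⟩
    · exact fun h => C.mem_XX.2 ⟨x, S, rfl, h.1, h.2.1,
        fun t h1 h2 => hp _ _ ((hlam x S h.1).1 t h1 h2) h.2.2⟩
  let mix : Finset B × Set C.G → Prop := fun σ =>
    ∃ x ∈ σ.2, ∃ t ∈ T, t ∉ σ.1 ∧ val x t < lam σ
  have hmix : ∀ x S, S ⊂ T → (mix (C.cell x S) ↔ ∃ t ∈ T, t ∉ S ∧ val x t < lam (C.cell x S)) :=
    fun x S hS => ⟨fun ⟨y, hy, t, h1, h2, h3⟩ =>
      ⟨t, h1, h2, (C.mm_inv hinv hS.subset hy h1 h2).symm.trans_lt h3⟩,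
      fun h => ⟨x, C.P_refl _ _, h⟩⟩
  let k : Finset B × Set C.G → ℕ := fun σ =>
    if mix σ then σ.1.card else Fintype.card B + 1 + (Fintype.card B - σ.1.card)
  have hk1 : ∀ x S, mix (C.cell x S) → k (C.cell x S) = S.card := fun x S h => if_pos h
  have hk2 : ∀ x S, ¬ mix (C.cell x S) →
      k (C.cell x S) = Fintype.card B + 1 + (Fintype.card B - S.card) := fun x S h => if_neg h
  have hanti : ∀ x S y S', S' ⊂ T → C.cell x S < C.cell y S' →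
      lam (C.cell y S') ≤ lam (C.cell x S) := fun x S y S' hS h => by
    obtain ⟨h1, h2⟩ := C.cell_lt.1 h
    obtain ⟨t, h4, h5, h6⟩ := (hlam y S' hS).2
    rw [← h6, ← C.mm_inv hinv hS.subset h2 h4 h5]
    exact (hlam x S (h1.trans hS)).1 t h4 fun h7 => h5 (h1.subset h7)
  refine push_poset (C.XX_mono fun x _ t _ => hbt _) (fun σ => toLex (lam σ, k σ))
    ((mm_isWF_lex hwf).mono ?_) ?_ ?_
  · rintro _ ⟨σ, ⟨hσ, -⟩, rfl⟩
    obtain ⟨x, S, rfl, h1, -⟩ := C.mem_XX.1 hσ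
    obtain ⟨t, h4, -, h6⟩ := (hlam x S h1).2
    exact ⟨x, t, h4, h6⟩
  · rintro p ⟨hp, -⟩ q ⟨hq, -⟩ hlt e
    obtain ⟨x, S, rfl, -⟩ := C.mem_XX.1 hp
    obtain ⟨y, S', rfl, -⟩ := C.mem_XX.1 hq
    have h1 : S.card < S'.card := Finset.card_lt_card (C.cell_lt.1 hlt).1
    have h2 : S'.card ≤ Fintype.card B := Finset.card_le_univ _
    have h3 : k (C.cell x S) = k (C.cell y S') := congrArg (fun p => (ofLex p).2) e
    by_cases a1 : mix (C.cell x S) <;> by_cases a2 : mix (C.cell y S') <;>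
      simp only [hk1, hk2, a1, a2, not_false_eq_true] at h3 <;> omega
  · rintro q ⟨hq, hq'⟩
    obtain ⟨x, S, rfl, -⟩ := C.mem_XX.1 hq
    obtain ⟨h1, h2, h3⟩ := (hmem top ht x S).1 hq
    have h4 : ¬ base (lam (C.cell x S)) := fun h => hq' ((hmem base hb x S).2 ⟨h1, h2, h⟩)
    have hc : S.card ≤ Fintype.card B := Finset.card_le_univ _
    by_cases hm : mix (C.cell x S)
    · obtain ⟨t, h5, h6, h7⟩ := (hmix x S h1).1 hm
      set S' := T.filter fun u => u ∈ S ∨ ¬ val x u < lam (C.cell x S) with hS'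
      have a1 : S' ⊂ T := Finset.filter_ssubset.2 ⟨t, h5, by simp [h6, h7]⟩
      have a2 : lam (C.cell x S') < lam (C.cell x S) := by
        obtain ⟨u, b1, b2, b3⟩ := (hlam x S' a1).2
        rw [← b3]
        by_contra hc
        exact b2 (Finset.mem_filter.2 ⟨b1, Or.inr hc⟩)
      have a3 : S ⊆ S' := fun u hu => Finset.mem_filter.2 ⟨h1.subset hu, Or.inl hu⟩
      refine Or.inl (wc_min (c := C.cell x S')
        ⟨⟨(hmem top ht x S').2 ⟨a1, h2, ht _ _ a2.le h3⟩, Or.inr (Prod.Lex.lt_iff.2 (Or.inl a2))⟩,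
          C.cell_lt.2 ⟨a3.ssubset_of_ne fun e => ?_, C.P_refl _ _⟩⟩ ?_)
      · rw [← e] at a2
        exact a2.false
      · rintro p ⟨⟨hp, hp'⟩, hlt⟩
        obtain ⟨y, S₃, rfl, b1, -⟩ := C.mem_XX.1 hp
        obtain ⟨b2, b3⟩ := C.cell_lt.1 hlt
        have b4 : lam (C.cell y S₃) < lam (C.cell x S) := by
          rcases hp' with h | h
          · exact lt_of_not_ge fun h' => h4 (hb _ _ h' ((hmem base hb y S₃).1 h).2.2)
          · refine (Prod.Lex.lt_iff.1 h).resolve_right fun h' => ?_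
            have c1 : k (C.cell y S₃) < k (C.cell x S) := h'.2
            have c2 : S.card < S₃.card := Finset.card_lt_card b2
            by_cases a2 : mix (C.cell y S₃) <;>
              simp only [hk1, hk2, hm, a2, not_false_eq_true] at c1 <;> omega
        refine C.cell_le.2 ⟨fun u hu => ?_, b3⟩
        obtain ⟨hu1, hu2 | hu2⟩ := Finset.mem_filter.1 hu
        · exact b2.subset hu2
        · by_contra hc
          rw [C.mm_inv hinv b1.subset b3 hu1 hc] at hu2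
          exact hu2 (((hlam y S₃ b1).1 u hu1 hc).trans_lt b4)
    · have a1 : ∀ t ∈ T, t ∉ S → val x t = lam (C.cell x S) := fun t h5 h6 =>
        ((hlam x S h1).1 t h5 h6).antisymm
          (not_lt.1 fun h => hm ((hmix x S h1).2 ⟨t, h5, h6, h⟩))
      have a2 := hdl x h2 (T \ S) Finset.sdiff_subset (Finset.sdiff_nonempty.2 h1.not_subset) _ h3
        h4 fun j hj => a1 j (Finset.mem_sdiff.1 hj).1 (Finset.mem_sdiff.1 hj).2
      rw [Finset.sdiff_sdiff_eq_self h1.subset] at a2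
      refine Or.inr ?_
      convert C.mm_horiz h1.subset hinv a2 using 1
      ext p
      constructor
      · rintro ⟨⟨hp, hp'⟩, hlt⟩
        obtain ⟨y, S', rfl, b1, -⟩ := C.mem_XX.1 hp
        obtain ⟨b2, b3⟩ := C.cell_lt.1 hlt
        have b4 := hanti _ _ _ _ h1 hlt
        have b5 := (Prod.Lex.lt_iff.1 (hp'.resolve_left fun h =>
          h4 (hb _ _ b4 ((hmem base hb y S').1 h).2.2))).resolve_left b4.not_gt
        have b6 : lam (C.cell y S') = lam (C.cell x S) := b5.1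
        have b7 : k (C.cell y S') < k (C.cell x S) := b5.2
        have b8 : mix (C.cell y S') := by
          by_contra hc'
          have := Finset.card_lt_card b2
          rw [hk2 _ _ hc', hk2 _ _ hm] at b7
          omega
        obtain ⟨t, c1, c2, c3⟩ := (hmix y S' b1).1 b8
        refine ⟨y, S', rfl, b2, b3, fun u hu hu' => b6 ▸ (hlam y S' b1).1 u (h1.subset hu) hu',
          t, ?_, c2, b6 ▸ c3⟩
        by_contra hc'
        rw [C.mm_inv hinv h1.subset b3 c1 hc', a1 t c1 hc', b6] at c3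
        exact c3.false
      · rintro ⟨y, S', rfl, b2, b3, b4, t, c1, c2, c3⟩
        have hlt := C.cell_lt.2 ⟨b2, b3⟩
        have b1 := b2.trans h1
        have b6 : lam (C.cell y S') = lam (C.cell x S) := by
          refine le_antisymm ?_ (hanti _ _ _ _ h1 hlt)
          obtain ⟨u, d1, d2, d3⟩ := (hlam y S' b1).2
          rw [← d3]
          by_cases hu : u ∈ S
          · exact b4 u hu d2
          · exact ((C.mm_inv hinv h1.subset b3 d1 hu).trans (a1 u d1 hu)).le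
        refine ⟨⟨(hmem top ht y S').2 ⟨b1, C.P_trans h2 (C.P_mono h1.subset b3), b6 ▸ h3⟩,
          Or.inr (Prod.Lex.lt_iff.2 (Or.inr ⟨b6, ?_⟩))⟩, hlt⟩
        show k (C.cell y S') < k (C.cell x S)
        have := Finset.card_lt_card b2
        rw [hk1 _ _ ((hmix y S' b1).2 ⟨t, h1.subset c1, c2, b6 ▸ c3⟩), hk2 _ _ hm]
        omega

end Core

end Vale.Agent.P203
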