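import Vale.Agent.P203.NumBasic

namespace Vale.Agent.P203

variable {B W : Type} [Group W] {M : CoxeterMatrix B} [Fintype B] [DecidableEq B]
variable {cs : CoxeterSystem M W}

namespace Cat

variable {D : Dat cs} (C : Cat D.gr)

theorem na_S_ge {S : C.Ob} {k : ℤ} {j : B × D.I} (hS : C.IsS S k j) : C.Ge S k :=
  fun k' hk i => by rw [hS, if_neg fun h => absurd h.1 (by omega)]

theorem na_S_le {S : C.Ob} {k : ℤ} {j : B × D.I} (hS : C.IsS S k j) : C.Le S k :=
  fun k' hk i => by rw [hS, if_neg fun h => absurd h.1 (by omega)]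

theorem na_S_hv {S : C.Ob} {k : ℤ} {j : B × D.I} (hS : C.IsS S k j) : C.hv S k = D.e j := by
  funext i
  simp only [hv, Dat.e, hS k i, true_and, Pi.single_apply]
  split_ifs <;> simp

theorem na_S_cl {S : C.Ob} {k : ℤ} {j : B × D.I} (hS : C.IsS S k j) :
    C.cl S = ((Int.negOnePow k : ℤˣ) : ℤ) • D.e j := by
  rw [C.cl_one (C.na_S_ge hS) (C.na_S_le hS), C.na_S_hv hS]

omit [Fintype B] [DecidableEq B] in
theorem na_cancel {ι : Type} {k : ℤ} {x y : ι → ℤ}
    (h : ((Int.negOnePow k : ℤˣ) : ℤ) • x = ((Int.negOnePow k : ℤˣ) : ℤ) • y) : x = y :=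
  smul_right_injective _ (Units.ne_zero _) h

omit [Fintype B] [DecidableEq B] in
theorem na_pred {ι : Type} (k : ℤ) (x : ι → ℤ) :
    ((Int.negOnePow (k - 1) : ℤˣ) : ℤ) • x = ((Int.negOnePow k : ℤˣ) : ℤ) • (-x) := by
  simp [Int.negOnePow_sub]

theorem na_hv_nonneg (E : C.Ob) (k : ℤ) : 0 ≤ C.hv E k := fun _ => Int.natCast_nonneg _

/-- Truncation with additivity. -/
theorem na_trunc (E : C.Ob) (K : ℤ) : ∃ A Q, C.SES A E Q ∧ C.Le A (K - 1) ∧ C.Ge Q K ∧
    ∀ k j, C.h E k j = C.h A k j + C.h Q k j := by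
  obtain ⟨A, Q, h1, h2, h3⟩ := C.trunc E K
  refine ⟨A, Q, h1, fun k hk => h2 k (by omega), h3, fun k j => C.nb_add h1 k j ?_ ?_⟩
  · by_cases hk : K ≤ k
    · exact Or.inl (h2 k hk j)
    · exact Or.inr (h3 _ (by omega) j)
  · by_cases hk : K ≤ k
    · exact Or.inl (h2 _ (by omega) j)
    · exact Or.inr (h3 _ (by omega) j)

theorem na_zero_of_act {E : C.Ob} {g : List (B × Bool)} (h : ∀ k j, C.h (C.act E g) k j = 0) :
    ∀ k j, C.h E k j = 0 := by
  rw [← (C.eqv_invRev g E).h_eq]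
  exact C.zero_act h _

/-- The two-term property of a word. -/
def NaAP (ω : List B) : Prop :=
  (∀ E K, C.Le E K → C.Le (C.act E (upw ω)) (K + 1)) ∧
    ∀ E K, C.Ge E K → C.Ge (C.act E (dnw ω)) (K - 1)

theorem na_dich {ω : List B} (hω : C.NaAP ω) {S : C.Ob} {k : ℤ} {j : B × D.I}
    (hS : C.IsS S k j) :
    (C.Ge (C.act S (dnw ω)) k ∧ C.Le (C.act S (dnw ω)) k ∧
      C.hv (C.act S (dnw ω)) k = D.rho (cs.wordProd ω) (D.e j)) ∨
    (C.Ge (C.act S (dnw ω)) (k - 1) ∧ C.Le (C.act S (dnw ω)) (k - 1) ∧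
      C.hv (C.act S (dnw ω)) (k - 1) = -D.rho (cs.wordProd ω) (D.e j)) := by
  have x1 := hω.2 S k (C.na_S_ge hS)
  have x2 := C.le_dnw (C.na_S_le hS) ω
  have x3 := C.cl_dnw S ω
  rw [C.na_S_cl hS, map_smul] at x3
  obtain ⟨A, Q, h1, h2, h3, h4⟩ := C.na_trunc (C.act S (dnw ω)) k
  have a1 : C.Ge A (k - 1) := fun k' hk i => by
    have := h4 k' i
    rw [x1 k' hk] at this
    omega
  have q1 : C.Le Q k := fun k' hk i => by
    have := h4 k' i
    rw [x2 k' hk] at this
    omega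
  have h5 := C.ses_act h1 (upw ω)
  have e := (C.eqv_dnw_upw ω S).h_eq
  have a2 := C.ge_upw a1 ω
  have a3 := hω.1 A _ h2
  have q2 := C.ge_upw h3 ω
  have q3 := hω.1 Q _ q1
  have key : ∀ k' i, C.h S k' i = C.h (C.act A (upw ω)) k' i + C.h (C.act Q (upw ω)) k' i := by
    intro k' i
    rw [← e]
    refine C.nb_add h5 k' i ?_ ?_
    · by_cases hk : k < k'
      · exact Or.inl (a3 _ (by omega) i)
      · exact Or.inr (q2 _ (by omega) i)
    · by_cases hk : k ≤ k'
      · exact Or.inl (a3 _ (by omega) i)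
      · exact Or.inr (q2 _ (by omega) i)
  by_cases h6 : C.h (C.act A (upw ω)) k j = 0
  · have h7 : ∀ k' i, C.h A k' i = 0 := C.na_zero_of_act (g := upw ω) fun k' i => by
      have := key k' i
      rw [hS] at this
      split_ifs at this with h
      · rw [h.1, h.2, h6]
      · omega
    have h8 : C.Ge (C.act S (dnw ω)) k := fun k' hk i => by rw [h4, h7, h3 k' hk]
    refine Or.inl ⟨h8, x2, na_cancel (k := k) ?_⟩
    rw [← x3, C.cl_one h8 x2]
  · have h7 : ∀ k' i, C.h Q k' i = 0 := C.na_zero_of_act (g := upw ω) fun k' i => by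
      have := key k' i
      rw [hS] at this
      split_ifs at this with h
      · rw [h.1, h.2] at this ⊢
        omega
      · omega
    have h8 : C.Le (C.act S (dnw ω)) (k - 1) := fun k' hk i => by rw [h4, h7, h2 k' hk]
    refine Or.inr ⟨x1, h8, neg_eq_iff_eq_neg.1 (na_cancel (k := k) ?_)⟩
    rw [← x3, C.cl_one x1 h8, na_pred]

theorem na_pos {ω : List B} (hω : C.NaAP ω) {S : C.Ob} {k : ℤ} {j : B × D.I}
    (hS : C.IsS S k j) (h : 0 ≤ D.rho (cs.wordProd ω) (D.e j)) :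
    C.Ge (C.act S (dnw ω)) k ∧ C.Le (C.act S (dnw ω)) k ∧
      C.hv (C.act S (dnw ω)) k = D.rho (cs.wordProd ω) (D.e j) := by
  refine (C.na_dich hω hS).resolve_right fun h' => D.rho_e_ne (cs.wordProd ω) j ?_
  have h1 := C.na_hv_nonneg (C.act S (dnw ω)) (k - 1)
  rw [h'.2.2] at h1
  exact le_antisymm (neg_nonneg.1 h1) h

theorem na_neg {ω : List B} (hω : C.NaAP ω) {S : C.Ob} {k : ℤ} {j : B × D.I}
    (hS : C.IsS S k j) (h : D.rho (cs.wordProd ω) (D.e j) ≤ 0) :
    C.Ge (C.act S (dnw ω)) (k - 1) ∧ C.Le (C.act S (dnw ω)) (k - 1) ∧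
      C.hv (C.act S (dnw ω)) (k - 1) = -D.rho (cs.wordProd ω) (D.e j) := by
  refine (C.na_dich hω hS).resolve_left fun h' => D.rho_e_ne (cs.wordProd ω) j ?_
  have h1 := C.na_hv_nonneg (C.act S (dnw ω)) k
  rw [h'.2.2] at h1
  exact le_antisymm h h1

omit [Fintype B] [DecidableEq B] in
theorem na_red {ω : List B} {s : B} (h : cs.IsReduced (ω ++ [s])) :
    cs.IsReduced ω ∧ cs.length (cs.wordProd ω) < cs.length (cs.wordProd ω * cs.simple s) := by
  unfold CoxeterSystem.IsReduced at h ⊢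
  rw [cs.wordProd_append, cs.wordProd_singleton, List.length_append, List.length_singleton] at h
  have h1 := cs.length_wordProd_le ω
  have h2 := cs.length_mul_simple (cs.wordProd ω) s
  omega

theorem na_ap {ω : List B} (hω : cs.IsReduced ω) : C.NaAP ω := by
  induction ω using List.reverseRecOn with
  | nil => exact ⟨fun E K h k hk => h k (by omega), fun E K h k hk => h k (by omega)⟩
  | append_singleton ω s ih =>
    obtain ⟨h1, h2⟩ := na_red hω
    have ap := ih h1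
    have hp : ∀ j : B × D.I, j.1 = s → 0 ≤ D.rho (cs.wordProd ω) (D.e j) := fun j hj =>
      D.sign_pos (by rw [hj]; exact h2)
    constructor
    · intro E K h
      have e : upw (ω ++ [s]) = upw ω ++ [(s, true)] := by simp [upw]
      rw [e, act_append, act_cons_true, act_nil]
      have h3 := ap.1 E K h
      rw [C.le_up_iff h3]
      intro j hj
      by_contra hb
      obtain ⟨A, S, h4, h5, h6, -⟩ := C.nb_peel h3 hb
      obtain ⟨-, -, h7⟩ := C.na_pos ap h6 (hp j hj)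
      refine D.rho_e_ne (cs.wordProd ω) j ?_
      rw [← h7]
      funext i
      have h8 := C.nb_quo (C.ses_act h4 (dnw ω)) (K + 1) i
      rw [(C.eqv_upw_dnw ω E).h_eq, h _ (by omega), C.le_dnw h5 ω _ (by omega)] at h8
      simp only [hv, Pi.zero_apply]
      omega
    · intro E K h
      have e : dnw (ω ++ [s]) = (s, false) :: dnw ω := by simp [dnw]
      rw [e, act_cons_false]
      have h3 := C.ge_dn h s
      obtain ⟨A, Q, h4, h5, h6, h7⟩ := C.na_trunc (C.dn s E) K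
      intro k hk i
      have h8 := C.nb_mid (C.ses_act h4 (dnw ω)) k i
      rw [ap.2 Q K h6 k hk, C.dev (E := A) fun S k₁ j hS hA => ?_] at h8
      · omega
      have h9 : C.h (C.dn s E) k₁ j ≠ 0 := by
        rw [h7]
        omega
      have h10 : k₁ = K - 1 := by
        by_contra h'
        rcases lt_or_gt_of_ne h' with h'' | h''
        · exact h9 (h3 _ h'' j)
        · exact hA (h5 _ h'' j)
      have h11 : j.1 = s := by
        by_contra h'
        rw [C.dn_off s E _ j h', h _ (by omega)] at h9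
        exact h9 rfl
      exact (C.na_pos ap hS (hp j h11)).1 k (by omega) i

theorem ap_up {ω : List B} (hω : cs.IsReduced ω) {E : C.Ob} {K : ℤ} (h : C.Le E K) :
    C.Le (C.act E (upw ω)) (K + 1) := by
  exact (C.na_ap hω).1 E K h

theorem ap_dn {ω : List B} (hω : cs.IsReduced ω) {E : C.Ob} {K : ℤ} (h : C.Ge E K) :
    C.Ge (C.act E (dnw ω)) (K - 1) := by
  exact (C.na_ap hω).2 E K h

theorem dich_pos {ω : List B} (hω : cs.IsReduced ω) {S : C.Ob} {k : ℤ} {j : B × D.I}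
    (hS : C.IsS S k j) (h : 0 ≤ D.rho (cs.wordProd ω) (D.e j)) :
    C.Ge (C.act S (dnw ω)) k ∧ C.Le (C.act S (dnw ω)) k := by
  have h1 := C.na_pos (C.na_ap hω) hS h
  exact ⟨h1.1, h1.2.1⟩

theorem dich_neg {ω : List B} (hω : cs.IsReduced ω) {S : C.Ob} {k : ℤ} {j : B × D.I}
    (hS : C.IsS S k j) (h : D.rho (cs.wordProd ω) (D.e j) ≤ 0) :
    C.Ge (C.act S (dnw ω)) (k - 1) ∧ C.Le (C.act S (dnw ω)) (k - 1) := by
  have h1 := C.na_neg (C.na_ap hω) hS h
  exact ⟨h1.1, h1.2.1⟩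

end Cat

end Vale.Agent.P203
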