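import Vale.Agent.P203.NumDefs
import Vale.Agent.P203.Cox

namespace Vale.Agent.P203

variable {B W : Type} [Group W] {M : CoxeterMatrix B} [Fintype B] [DecidableEq B]
variable {cs : CoxeterSystem M W}

namespace Cat

variable {D : Dat cs} (C : Cat D.gr)

theorem nb_on {s : B} (E : C.Ob) (k : ℤ) {j : B × D.I} (hj : j.1 = s) :
    C.h (C.up s E) k j + C.h E k j =
      ∑ i : B × D.I, D.mu j i * C.h E k i + C.b E k j + C.b E (k - 1) j :=
  C.up_on s E k j hj

theorem nb_off {s : B} (E : C.Ob) (k : ℤ) {j : B × D.I} (hj : j.1 ≠ s) :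
    C.h (C.up s E) k j = C.h E k j :=
  C.up_off s E k j hj

theorem nb_le_b (E : C.Ob) (k : ℤ) (j : B × D.I) :
    C.h E k j ≤ ∑ i : B × D.I, D.mu j i * C.h E k i + C.b E k j :=
  C.le_b E k j

theorem nb_mid {A E Q : C.Ob} (h : C.SES A E Q) (k : ℤ) (j : B × D.I) :
    C.h E k j ≤ C.h A k j + C.h Q k j := by
  obtain ⟨α, β, γ, H⟩ := C.les A E Q h
  have := H k j
  omega

theorem nb_sub {A E Q : C.Ob} (h : C.SES A E Q) (k : ℤ) (j : B × D.I) :
    C.h A k j ≤ C.h E k j + C.h Q (k - 1) j := by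
  obtain ⟨α, β, γ, H⟩ := C.les A E Q h
  have := H k j
  have := H (k - 1) j
  omega

theorem nb_quo {A E Q : C.Ob} (h : C.SES A E Q) (k : ℤ) (j : B × D.I) :
    C.h Q k j ≤ C.h E k j + C.h A (k + 1) j := by
  obtain ⟨α, β, γ, H⟩ := C.les A E Q h
  have := H k j
  have := H (k + 1) j
  rw [add_sub_cancel_right] at this
  omega

theorem nb_add {A E Q : C.Ob} (h : C.SES A E Q) (k : ℤ) (j : B × D.I)
    (h1 : C.h A k j = 0 ∨ C.h Q (k - 1) j = 0) (h2 : C.h A (k + 1) j = 0 ∨ C.h Q k j = 0) :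
    C.h E k j = C.h A k j + C.h Q k j := by
  obtain ⟨α, β, γ, H⟩ := C.les A E Q h
  have := H k j
  have := H (k - 1) j
  have := H (k + 1) j
  rw [add_sub_cancel_right] at this
  omega

theorem nb_shift {s : B} {E : C.Ob} {k : ℤ} {j : B × D.I} (hj : j.1 = s)
    (h1 : ∀ i : B × D.I, i.1 ≠ s → D.mu j i * C.h E k i = 0)
    (h2 : ∀ i : B × D.I, i.1 ≠ s → D.mu j i * C.h E (k - 1) i = 0) :
    C.h (C.up s E) k j = C.h E (k - 1) j := by
  have e : ∀ k', (∀ i : B × D.I, i.1 ≠ s → D.mu j i * C.h E k' i = 0) →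
      ∑ i : B × D.I, D.mu j i * C.h E k' i = 0 := fun k' h =>
    Finset.sum_eq_zero fun i _ => by
      by_cases hi : i.1 = s
      · rw [D.mu_lab j i (hj.trans hi.symm), zero_mul]
      · exact h i hi
  have a1 := C.nb_on E k hj
  have a2 := C.nb_le_b E k j
  have a3 := C.nb_le_b E (k - 1) j
  have a4 := C.b_le E k j
  have a5 := C.b_le E (k - 1) j
  rw [e k h1] at a1 a2
  rw [e _ h2] at a3
  omega

theorem nb_zero_up {E : C.Ob} (h : ∀ k j, C.h E k j = 0) (s : B) (k : ℤ) (j : B × D.I) :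
    C.h (C.up s E) k j = 0 := by
  by_cases hj : j.1 = s
  · rw [C.nb_shift hj (fun i _ => by rw [h, mul_zero]) (fun i _ => by rw [h, mul_zero]), h]
  · rw [C.nb_off E k hj, h]

theorem nb_up_dn (s : B) (E : C.Ob) (k : ℤ) (j : B × D.I) :
    C.h (C.up s (C.dn s E)) k j = C.h E k j := by
  obtain ⟨A, Q, h1, h2, h3⟩ := C.inv1 s E
  rw [C.nb_add h1 k j (Or.inr (h3 _ _)) (Or.inr (h3 _ _)), h3, C.iso_h _ _ h2, add_zero]

theorem nb_dn_off {s : B} (E : C.Ob) (k : ℤ) {j : B × D.I} (hj : j.1 ≠ s) :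
    C.h (C.dn s E) k j = C.h E k j := by
  rw [← C.nb_off (C.dn s E) k hj, nb_up_dn]

theorem nb_shift_dn {s : B} {E : C.Ob} {k : ℤ} {j : B × D.I} (hj : j.1 = s)
    (h1 : ∀ i : B × D.I, i.1 ≠ s → D.mu j i * C.h E k i = 0)
    (h2 : ∀ i : B × D.I, i.1 ≠ s → D.mu j i * C.h E (k + 1) i = 0) :
    C.h (C.dn s E) k j = C.h E (k + 1) j := by
  rw [← C.nb_up_dn s E (k + 1) j, C.nb_shift hj, add_sub_cancel_right]
  · intro i hi
    rw [C.nb_dn_off E _ hi, h2 i hi]
  · intro i hi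
    rw [add_sub_cancel_right, C.nb_dn_off E _ hi, h1 i hi]

theorem nb_zero_dn {E : C.Ob} (h : ∀ k j, C.h E k j = 0) (s : B) (k : ℤ) (j : B × D.I) :
    C.h (C.dn s E) k j = 0 := by
  by_cases hj : j.1 = s
  · rw [C.nb_shift_dn hj (fun i _ => by rw [h, mul_zero]) (fun i _ => by rw [h, mul_zero]), h]
  · rw [C.nb_dn_off E k hj, h]

theorem nb_iso_act {X Y : C.Ob} (h : C.Iso X Y) (g : List (B × Bool)) :
    C.Iso (C.act X g) (C.act Y g) := by
  induction g generalizing X Y with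
  | nil => exact h
  | cons x g ih =>
    obtain ⟨s, _ | _⟩ := x
    · exact ih (C.iso_dn s _ _ h)
    · exact ih (C.iso_up s _ _ h)

theorem ses_act {A E Q : C.Ob} (h : C.SES A E Q) (g : List (B × Bool)) :
    C.SES (C.act A g) (C.act E g) (C.act Q g) := by
  induction g generalizing A E Q with
  | nil => exact h
  | cons x g ih =>
    obtain ⟨s, _ | _⟩ := x
    · exact ih (C.ses_dn s _ _ _ h)
    · exact ih (C.ses_up s _ _ _ h)

theorem zero_act {E : C.Ob} (h : ∀ k j, C.h E k j = 0) (g : List (B × Bool)) :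
    ∀ k j, C.h (C.act E g) k j = 0 := by
  induction g generalizing E with
  | nil => exact h
  | cons x g ih =>
    obtain ⟨s, _ | _⟩ := x
    · exact ih (C.nb_zero_dn h s)
    · exact ih (C.nb_zero_up h s)

theorem Eqv.h_eq {C : Cat D.gr} {X Y : C.Ob} (h : C.Eqv X Y) : C.h X = C.h Y := h []

theorem Eqv.act {C : Cat D.gr} {X Y : C.Ob} (h : C.Eqv X Y) (g : List (B × Bool)) :
    C.Eqv (C.act X g) (C.act Y g) := by
  intro g'
  rw [← act_append, ← act_append]
  exact h _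

theorem Eqv.nb_trans {C : Cat D.gr} {X Y Z : C.Ob} (h : C.Eqv X Y) (h' : C.Eqv Y Z) :
    C.Eqv X Z := fun g => (h g).trans (h' g)

theorem Eqv.nb_symm {C : Cat D.gr} {X Y : C.Ob} (h : C.Eqv X Y) : C.Eqv Y X :=
  fun g => (h g).symm

theorem eqv_dn_up (s : B) (E : C.Ob) : C.Eqv (C.dn s (C.up s E)) E := by
  obtain ⟨A, Q, h1, h2, h3⟩ := C.inv2 s E
  intro g
  funext k j
  have h4 := C.zero_act h3 g
  rw [C.nb_add (C.ses_act h1 g) k j (Or.inl (h4 _ _)) (Or.inl (h4 _ _)), h4, zero_add,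
    C.iso_h _ _ (C.nb_iso_act h2 g)]

theorem eqv_up_dn (s : B) (E : C.Ob) : C.Eqv (C.up s (C.dn s E)) E := by
  obtain ⟨A, Q, h1, h2, h3⟩ := C.inv1 s E
  intro g
  funext k j
  have h4 := C.zero_act h3 g
  rw [C.nb_add (C.ses_act h1 g) k j (Or.inr (h4 _ _)) (Or.inr (h4 _ _)), h4, add_zero,
    C.iso_h _ _ (C.nb_iso_act h2 g)]

theorem nb_invRev (g : List (B × Bool)) (E : C.Ob) :
    C.Eqv (C.act (C.act E g) (FreeGroup.invRev g)) E := by
  induction g generalizing E with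
  | nil => exact fun _ => rfl
  | cons x g ih =>
    rw [FreeGroup.invRev_cons, act_append]
    obtain ⟨s, _ | _⟩ := x
    · exact ((ih (C.dn s E)).act [(s, true)]).nb_trans (C.eqv_up_dn s E)
    · exact ((ih (C.up s E)).act [(s, false)]).nb_trans (C.eqv_dn_up s E)

omit [Fintype B] [DecidableEq B] in
theorem nb_invRev_upw (ω : List B) : FreeGroup.invRev (upw ω) = dnw ω := by
  simp [FreeGroup.invRev, upw, dnw, Function.comp_def]

omit [Fintype B] [DecidableEq B] in
theorem nb_invRev_dnw (ω : List B) : FreeGroup.invRev (dnw ω) = upw ω := by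
  rw [← nb_invRev_upw, FreeGroup.invRev_invRev]

theorem eqv_upw_dnw (ω : List B) (E : C.Ob) : C.Eqv (C.act (C.act E (upw ω)) (dnw ω)) E := by
  have h := C.nb_invRev (upw ω) E
  rwa [nb_invRev_upw] at h

theorem eqv_dnw_upw (ω : List B) (E : C.Ob) : C.Eqv (C.act (C.act E (dnw ω)) (upw ω)) E := by
  have h := C.nb_invRev (dnw ω) E
  rwa [nb_invRev_dnw] at h

theorem eqv_invRev (g : List (B × Bool)) (E : C.Ob) :
    C.Eqv (C.act (C.act E g) (FreeGroup.invRev g)) E := by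
  exact C.nb_invRev g E

theorem dn_off (s : B) (E : C.Ob) (k : ℤ) (j : B × D.I) (hj : j.1 ≠ s) :
    C.h (C.dn s E) k j = C.h E k j := by
  exact C.nb_dn_off E k hj

theorem act_off {T : Finset B} {g : List (B × Bool)} (hg : ∀ x ∈ g, x.1 ∈ T) (E : C.Ob) (k : ℤ)
    (j : B × D.I) (hj : j.1 ∉ T) : C.h (C.act E g) k j = C.h E k j := by
  induction g generalizing E with
  | nil => rfl
  | cons x g ih =>
    have hx : j.1 ≠ x.1 := fun h => hj (h ▸ hg x List.mem_cons_self)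
    have ih' := fun E => ih (fun y hy => hg y (List.mem_cons_of_mem _ hy)) E
    obtain ⟨s, _ | _⟩ := x
    · rw [act_cons_false, ih', C.nb_dn_off E k hx]
    · rw [act_cons_true, ih', C.nb_off E k hx]

theorem ge_up {E : C.Ob} {K : ℤ} (h : C.Ge E K) (s : B) : C.Ge (C.up s E) K := by
  intro k hk j
  by_cases hj : j.1 = s
  · rw [C.nb_shift hj (fun i _ => by rw [h k hk, mul_zero])
      (fun i _ => by rw [h _ (by omega), mul_zero]), h _ (by omega)]
  · rw [C.nb_off E k hj, h k hk]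

theorem le_up {E : C.Ob} {K : ℤ} (h : C.Le E K) (s : B) : C.Le (C.up s E) (K + 1) := by
  intro k hk j
  by_cases hj : j.1 = s
  · rw [C.nb_shift hj (fun i _ => by rw [h k (by omega), mul_zero])
      (fun i _ => by rw [h _ (by omega), mul_zero]), h _ (by omega)]
  · rw [C.nb_off E k hj, h k (by omega)]

theorem le_dn {E : C.Ob} {K : ℤ} (h : C.Le E K) (s : B) : C.Le (C.dn s E) K := by
  intro k hk j
  by_cases hj : j.1 = s
  · rw [C.nb_shift_dn hj (fun i _ => by rw [h k hk, mul_zero])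
      (fun i _ => by rw [h _ (by omega), mul_zero]), h _ (by omega)]
  · rw [C.nb_dn_off E k hj, h k hk]

theorem ge_dn {E : C.Ob} {K : ℤ} (h : C.Ge E K) (s : B) : C.Ge (C.dn s E) (K - 1) := by
  intro k hk j
  by_cases hj : j.1 = s
  · rw [C.nb_shift_dn hj (fun i _ => by rw [h k (by omega), mul_zero])
      (fun i _ => by rw [h _ (by omega), mul_zero]), h _ (by omega)]
  · rw [C.nb_dn_off E k hj, h k (by omega)]

theorem ge_upw {E : C.Ob} {K : ℤ} (h : C.Ge E K) (ω : List B) : C.Ge (C.act E (upw ω)) K := by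
  induction ω generalizing E with
  | nil => exact h
  | cons s ω ih => exact ih (C.ge_up h s)

theorem le_dnw {E : C.Ob} {K : ℤ} (h : C.Le E K) (ω : List B) : C.Le (C.act E (dnw ω)) K := by
  unfold dnw
  induction ω.reverse generalizing E with
  | nil => exact h
  | cons s ω ih => exact ih (C.le_dn h s)

theorem nb_b_le_up (E : C.Ob) (k : ℤ) (j : B × D.I) :
    C.b E k j ≤ C.h (C.up j.1 E) (k + 1) j := by
  have a1 := C.nb_on E (k + 1) (j := j) rfl
  have a2 := C.nb_le_b E (k + 1) j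
  rw [add_sub_cancel_right] at a1
  omega

theorem le_up_iff {E : C.Ob} {K : ℤ} (h : C.Le E K) (s : B) :
    C.Le (C.up s E) K ↔ ∀ j : B × D.I, j.1 = s → C.b E K j = 0 := by
  constructor
  · intro h' j hj
    have h1 := C.nb_b_le_up E K j
    rw [hj, h' (K + 1) (by omega)] at h1
    omega
  · intro h' k hk j
    by_cases hj : j.1 = s
    · have a1 := C.nb_on E k hj
      have a2 := C.b_le E k j
      have a3 := C.b_le E (k - 1) j
      rw [Finset.sum_eq_zero fun i _ => by rw [h k hk, mul_zero]] at a1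
      rw [h k hk] at a2
      by_cases hk' : k - 1 = K
      · rw [hk', h' j hj] at a1
        omega
      · rw [h _ (by omega)] at a3
        omega
    · rw [C.nb_off E k hj, h k hk]

theorem b_le_up (E : C.Ob) (k : ℤ) (j : B × D.I) : C.b E k j ≤ C.h (C.up j.1 E) (k + 1) j := by
  exact C.nb_b_le_up E k j

theorem up_supp {E : C.Ob} {s : B} (h : ∀ k j, j.1 ≠ s → C.h E k j = 0) (k : ℤ) (j : B × D.I) :
    C.h (C.up s E) k j = C.h E (k - 1) j := by
  by_cases hj : j.1 = s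
  · exact C.nb_shift hj (fun i hi => by rw [h _ i hi, mul_zero])
      (fun i hi => by rw [h _ i hi, mul_zero])
  · rw [C.nb_off E k hj, h _ j hj, h _ j hj]

theorem dn_supp {E : C.Ob} {s : B} (h : ∀ k j, j.1 ≠ s → C.h E k j = 0) (k : ℤ) (j : B × D.I) :
    C.h (C.dn s E) k j = C.h E (k + 1) j := by
  by_cases hj : j.1 = s
  · exact C.nb_shift_dn hj (fun i hi => by rw [h _ i hi, mul_zero])
      (fun i hi => by rw [h _ i hi, mul_zero])
  · rw [C.nb_dn_off E k hj, h _ j hj, h _ j hj]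

/-- Objects supported far away are not changed. -/
theorem act_far {Far T : Finset B} (hO : D.Orth Far T) {E : C.Ob}
    (h : ∀ k j, j.1 ∉ Far → C.h E k j = 0) {g : List (B × Bool)} (hg : ∀ x ∈ g, x.1 ∈ T) :
    C.h (C.act E g) = C.h E := by
  induction g generalizing E with
  | nil => rfl
  | cons x g ih =>
    have hx := hg x List.mem_cons_self
    have hF : ∀ j : B × D.I, j.1 = x.1 → j.1 ∉ Far := fun j hj hj' => (hO _ hj' _ hx).1 hj
    have hm : ∀ j : B × D.I, j.1 = x.1 → ∀ k, ∀ i : B × D.I, i.1 ≠ x.1 →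
        D.mu j i * C.h E k i = 0 := fun j hj k i _ => by
      by_cases hi : i.1 ∈ Far
      · have h1 := D.mu_eq_zero (hO _ hi _ hx).2 i.2 j.2
        rw [← hj] at h1
        rw [D.mu_symm, show D.mu i j = 0 from h1, zero_mul]
      · rw [h k i hi, mul_zero]
    have key : ∀ E' : C.Ob, C.h E' = C.h E → C.h (C.act E' g) = C.h E := fun E' hE => by
      rw [ih (E := E') (fun k j hj => by rw [hE, h k j hj])
        (fun y hy => hg y (List.mem_cons_of_mem _ hy)), hE]
    obtain ⟨s, _ | _⟩ := x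
    · refine key (C.dn s E) (funext fun k => funext fun j => ?_)
      by_cases hj : j.1 = s
      · rw [C.nb_shift_dn hj (hm j hj _) (hm j hj _), h _ j (hF j hj), h _ j (hF j hj)]
      · exact C.nb_dn_off E k hj
    · refine key (C.up s E) (funext fun k => funext fun j => ?_)
      by_cases hj : j.1 = s
      · rw [C.nb_shift hj (hm j hj _) (hm j hj _), h _ j (hF j hj), h _ j (hF j hj)]
      · exact C.nb_off E k hj

theorem nb_top {E : C.Ob} (h : ¬ ∀ k j, C.h E k j = 0) :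
    ∃ K j, C.Le E K ∧ C.b E K j ≠ 0 := by
  obtain ⟨n, hn⟩ := C.bdd E
  obtain ⟨K, hK, hK'⟩ := Int.exists_greatest_of_bdd (P := fun k => ¬ ∀ j, C.h E k j = 0)
    ⟨n, fun k hk => by
      by_contra hk'
      exact hk (hn k (lt_of_lt_of_le (not_le.1 hk') (le_abs_self k)))⟩
    (by
      by_contra h'
      exact h fun k => by_contra fun h'' => h' ⟨k, h''⟩)
  have h1 : ¬ ∀ j, C.b E K j = 0 := fun h' => hK (C.nil E K h')
  obtain ⟨j, hj⟩ := not_forall.1 h1
  exact ⟨K, j, fun k hk => by_contra fun h' => absurd (hK' k h') (by omega), hj⟩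

theorem nb_peel {E : C.Ob} {K : ℤ} {j : B × D.I} (h : C.Le E K) (hb : C.b E K j ≠ 0) :
    ∃ A S, C.SES A E S ∧ C.Le A K ∧ C.IsS S K j ∧ ∀ k i, C.h E k i = C.h A k i + C.h S k i := by
  obtain ⟨A, S, h1, h2, h3⟩ := C.peel E K j h hb
  have h4 : C.IsS S K j := h3
  refine ⟨A, S, h1, h2, h4, fun k i => C.nb_add h1 k i ?_ ?_⟩
  · by_cases hk : k - 1 = K
    · exact Or.inl (h2 k (by omega) i)
    · exact Or.inr (by rw [h4, if_neg fun h => hk h.1])
  · by_cases hk : k = K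
    · exact Or.inl (h2 _ (by omega) i)
    · exact Or.inr (by rw [h4, if_neg fun h => hk h.1])

theorem nb_ind {P : C.Ob → Prop} (h0 : ∀ E, (∀ k j, C.h E k j = 0) → P E)
    (hs : ∀ A E S k j, C.SES A E S → C.IsS S k j → C.Le A k →
      (∀ k' i, C.h E k' i = C.h A k' i + C.h S k' i) → P A → P E) (E : C.Ob) : P E := by
  obtain ⟨n, hn⟩ := C.bdd E
  induction hm : ∑ k ∈ Finset.Icc (-(n : ℤ)) n, ∑ j : B × D.I, C.h E k j
    using Nat.strong_induction_on generalizing E with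
  | _ m ih =>
  by_cases h : ∀ k j, C.h E k j = 0
  · exact h0 E h
  obtain ⟨K, j, hK, hb⟩ := C.nb_top h
  obtain ⟨A, S, h1, h2, h3, h4⟩ := C.nb_peel hK hb
  have h5 : C.h A K j < C.h E K j := by
    rw [h4, h3, if_pos ⟨rfl, rfl⟩]
    omega
  have h6 : ∀ k i, C.h A k i ≤ C.h E k i := fun k i => by
    rw [h4]
    omega
  refine hs A E S K j h1 h3 h2 h4 (ih _ ?_ A (fun k hk i => ?_) rfl)
  · rw [← hm]
    refine Finset.sum_lt_sum (fun k _ => Finset.sum_le_sum fun i _ => h6 k i) ⟨K, ?_,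
      Finset.sum_lt_sum (fun i _ => h6 K i) ⟨j, Finset.mem_univ _, h5⟩⟩
    rw [Finset.mem_Icc, ← abs_le]
    by_contra h'
    rw [hn K (not_le.1 h') j] at h5
    omega
  · have := h6 k i
    rw [hn k hk i] at this
    omega

/-- Devissage for vanishing. -/
theorem dev {E : C.Ob} {g : List (B × Bool)} {k' : ℤ} {i : B × D.I}
    (h : ∀ S k j, C.IsS S k j → C.h E k j ≠ 0 → C.h (C.act S g) k' i = 0) :
    C.h (C.act E g) k' i = 0 := by
  revert h
  refine C.nb_ind (P := fun E => (∀ S k j, C.IsS S k j → C.h E k j ≠ 0 →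
    C.h (C.act S g) k' i = 0) → C.h (C.act E g) k' i = 0) (fun E h0 _ => C.zero_act h0 g k' i)
    (fun A E S k j h1 hS _ h2 ih h => ?_) E
  have a1 := C.nb_mid (C.ses_act h1 g) k' i
  rw [ih fun S' k₁ j₁ hS' h' => h S' k₁ j₁ hS' (by rw [h2]; omega),
    h S k j hS (by rw [h2, hS k j, if_pos ⟨rfl, rfl⟩]; omega)] at a1
  omega

/-- Devissage for triviality. -/
theorem dev2 {g : List (B × Bool)} (h : ∀ S k j, C.IsS S k j → C.h (C.act S g) = C.h S) :
    C.Triv g := by
  refine C.nb_ind (fun E h0 => ?_) (fun A E S k j h1 hS hA h2 ih => ?_)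
  · funext k j
    rw [C.zero_act h0 g, h0]
  · funext k' i
    have h3 := h S k j hS
    rw [C.nb_add (C.ses_act h1 g) k' i, ih, h3, h2]
    · rw [ih, h3]
      by_cases hk : k' - 1 = k
      · exact Or.inl (hA _ (by omega) i)
      · exact Or.inr (by rw [hS, if_neg fun h => hk h.1])
    · rw [ih, h3]
      by_cases hk : k' = k
      · exact Or.inl (hA _ (by omega) i)
      · exact Or.inr (by rw [hS, if_neg fun h => hk h.1])

theorem nb_chi {n : ℕ} {f : ℤ → ℕ} (h : ∀ k : ℤ, (n : ℤ) < |k| → f k = 0) :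
    ∑ᶠ k : ℤ, ((Int.negOnePow k : ℤˣ) : ℤ) * f k =
      ∑ k ∈ Finset.Icc (-(n : ℤ)) n, ((Int.negOnePow k : ℤˣ) : ℤ) * f k := by
  refine finsum_eq_sum_of_support_subset _ fun k hk => ?_
  rw [Finset.mem_coe, Finset.mem_Icc, ← abs_le]
  by_contra h'
  exact hk (by simp [h k (not_le.1 h')])

theorem nb_chi_shift (f : ℤ → ℕ) :
    ∑ᶠ k : ℤ, ((Int.negOnePow k : ℤˣ) : ℤ) * f (k - 1) =
      -∑ᶠ k : ℤ, ((Int.negOnePow k : ℤˣ) : ℤ) * f k := by
  rw [← finsum_neg_distrib]
  refine finsum_eq_of_bijective (Equiv.subRight (1 : ℤ)) (Equiv.bijective _) fun k => ?_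
  simp [Int.negOnePow_sub]

theorem nb_tel {n : ℕ} {f : ℤ → ℕ} (h : ∀ k : ℤ, (n : ℤ) ≤ |k| + 1 → f k = 0) :
    ∑ k ∈ Finset.Icc (-(n : ℤ)) n, ((Int.negOnePow k : ℤˣ) : ℤ) * f (k - 1) =
      -∑ k ∈ Finset.Icc (-(n : ℤ)) n, ((Int.negOnePow k : ℤˣ) : ℤ) * f k := by
  rw [← nb_chi (f := fun k => f (k - 1)), ← nb_chi, nb_chi_shift]
  · intro k hk
    exact h k (by omega)
  · intro k hk
    refine h _ ?_
    have := abs_sub_abs_le_abs_sub k 1
    rw [abs_one] at this
    omega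

theorem nb_cl_congr {X Y : C.Ob} (h : C.h X = C.h Y) : C.cl X = C.cl Y := by
  unfold cl
  rw [h]

theorem nb_cl_up (s : B) (E : C.Ob) : C.cl (C.up s E) = D.rho (cs.simple s) (C.cl E) := by
  funext j
  rw [D.rho_simple]
  split_ifs with hj
  · obtain ⟨n, hn⟩ := C.bdd E
    obtain ⟨m, hm⟩ := C.bdd (C.up s E)
    have e1 : ∀ i, C.cl E i = ∑ k ∈ Finset.Icc (-((n + m + 2 : ℕ) : ℤ)) (n + m + 2 : ℕ),
        ((Int.negOnePow k : ℤˣ) : ℤ) * C.h E k i := fun i =>
      nb_chi (f := fun k => C.h E k i) fun k hk => hn k (by omega) i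
    have e2 : C.cl (C.up s E) j = ∑ k ∈ Finset.Icc (-((n + m + 2 : ℕ) : ℤ)) (n + m + 2 : ℕ),
        ((Int.negOnePow k : ℤˣ) : ℤ) * C.h (C.up s E) k j :=
      nb_chi (f := fun k => C.h (C.up s E) k j) fun k hk => hm k (by omega) j
    have e3 := nb_tel (n := n + m + 2) (f := fun k => C.b E k j) fun k hk => by
      have := C.b_le E k j
      rw [hn k (by omega) j] at this
      omega
    have e4 : ∀ k, (C.h (C.up s E) k j : ℤ) = -(C.h E k j : ℤ) +
        ∑ i : B × D.I, (D.mu j i : ℤ) * C.h E k i + C.b E k j + C.b E (k - 1) j := fun k => by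
      have := congrArg (Nat.cast : ℕ → ℤ) (C.nb_on E k hj)
      push_cast at this
      linarith
    simp only [e1, e2, e4, mul_add, Finset.sum_add_distrib, mul_neg, Finset.sum_neg_distrib,
      Finset.mul_sum, e3]
    rw [Finset.sum_comm, add_neg_cancel_right]
    congr 1
    exact Finset.sum_congr rfl fun _ _ => Finset.sum_congr rfl fun _ _ => by ring
  · unfold cl
    simp only [C.nb_off E _ hj]

theorem nb_cl_dn (s : B) (E : C.Ob) : C.cl (C.dn s E) = D.rho (cs.simple s) (C.cl E) := by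
  rw [← C.nb_cl_congr (C.eqv_up_dn s E).h_eq, nb_cl_up, ← D.cox_rho_mul,
    cs.simple_mul_simple_self, map_one, Module.End.one_apply]

theorem nb_cl_add {A E Q : C.Ob} (h : C.SES A E Q) : C.cl E = C.cl A + C.cl Q := by
  funext j
  obtain ⟨α, β, γ, H⟩ := C.les A E Q h
  obtain ⟨n, hn⟩ := C.bdd E
  obtain ⟨m, hm⟩ := C.bdd A
  obtain ⟨l, hl⟩ := C.bdd Q
  have e : ∀ X : C.Ob, (∀ k : ℤ, ((n + m + l + 2 : ℕ) : ℤ) < |k| → C.h X k j = 0) →
      C.cl X j = ∑ k ∈ Finset.Icc (-((n + m + l + 2 : ℕ) : ℤ)) (n + m + l + 2 : ℕ),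
        ((Int.negOnePow k : ℤˣ) : ℤ) * C.h X k j := fun X hX =>
    nb_chi (f := fun k => C.h X k j) hX
  have e3 := nb_tel (n := n + m + l + 2) (f := fun k => γ k j) fun k hk => by
    have := (H k j).2.2
    rw [hl k (by omega) j] at this
    omega
  rw [Pi.add_apply, e E fun k hk => hn k (by omega) j, e A fun k hk => hm k (by omega) j,
    e Q fun k hk => hl k (by omega) j]
  generalize n + m + l + 2 = N at e3
  simp only [fun k => (H k j).1, fun k => (H k j).2.1, fun k => (H k j).2.2, Nat.cast_add,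
    mul_add, Finset.sum_add_distrib, e3]
  ring

theorem cl_act (E : C.Ob) (g : List (B × Bool)) :
    C.cl (C.act E g) = D.rho (cs.wordProd (g.map Prod.fst))⁻¹ (C.cl E) := by
  induction g generalizing E with
  | nil => simp
  | cons x g ih =>
    rw [List.map_cons, cs.wordProd_cons, mul_inv_rev, cs.inv_simple, D.cox_rho_mul]
    obtain ⟨s, _ | _⟩ := x
    · rw [act_cons_false, ih, nb_cl_dn]
    · rw [act_cons_true, ih, nb_cl_up]

theorem cl_upw (E : C.Ob) (ω : List B) :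
    C.cl (C.act E (upw ω)) = D.rho (cs.wordProd ω)⁻¹ (C.cl E) := by
  rw [cl_act]
  simp [upw, Function.comp_def]

theorem cl_dnw (E : C.Ob) (ω : List B) :
    C.cl (C.act E (dnw ω)) = D.rho (cs.wordProd ω) (C.cl E) := by
  rw [cl_act]
  simp [dnw, Function.comp_def]

theorem cl_one {E : C.Ob} {k : ℤ} (h : C.Ge E k) (h' : C.Le E k) :
    C.cl E = ((Int.negOnePow k : ℤˣ) : ℤ) • C.hv E k := by
  funext j
  unfold cl
  rw [finsum_eq_single _ k]
  · simp [hv]
  · intro k' hk'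
    rcases lt_or_gt_of_ne hk' with h1 | h1
    · simp [h k' h1]
    · simp [h' k' h1]

theorem cl_two {E : C.Ob} {k : ℤ} (h : C.Ge E (k - 1)) (h' : C.Le E k) :
    C.cl E = ((Int.negOnePow k : ℤˣ) : ℤ) • (C.hv E k - C.hv E (k - 1)) := by
  funext j
  unfold cl
  rw [finsum_eq_sum_of_support_subset _ (s := {k, k - 1}), Finset.sum_pair (by omega)]
  · simp [hv, Int.negOnePow_sub]
    ring
  · intro k' hk'
    by_contra h1
    simp only [Finset.coe_insert, Finset.coe_singleton, Set.mem_insert_iff, Set.mem_singleton_iff,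
      not_or] at h1
    rcases lt_or_gt_of_ne h1.1 with h2 | h2
    · exact hk' (by simp [h k' (by omega)])
    · exact hk' (by simp [h' k' h2])

/-- Removing the far away cohomology in high degrees. -/
theorem red {Far T : Finset B} (hO : D.Orth Far T) {E : C.Ob} {K : ℤ} (h : LeH Far (C.h E) K) :
    ∃ A, C.Le A K ∧ ∀ g : List (B × Bool), (∀ x ∈ g, x.1 ∈ T) → ∀ k j, j.1 ∉ Far →
      C.h (C.act A g) k j = C.h (C.act E g) k j := by
  obtain ⟨A, Q, h1, h2, h3⟩ := C.trunc E (K + 1)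
  refine ⟨A, fun k hk => h2 k (by omega), fun g hg k j hj => ?_⟩
  have h4 : ∀ k (j : B × D.I), j.1 ∉ Far → C.h Q k j = 0 := fun k j hj => by
    by_cases hk : k < K + 1
    · exact h3 k hk j
    · have := C.nb_quo h1 k j
      rw [h k (by omega) j hj, h2 _ (by omega)] at this
      omega
  have h5 : ∀ k, C.h (C.act Q g) k j = 0 := fun k => by rw [C.act_far hO h4 hg, h4 k j hj]
  rw [C.nb_add (C.ses_act h1 g) k j (Or.inr (h5 _)) (Or.inr (h5 _)), h5, add_zero]

end Cat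

end Vale.Agent.P203
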