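import Vale.Agent.P203.CatDefs
import Vale.Agent.P203.DatDefs

namespace Vale.Agent.P203

variable {B W : Type} [Group W] {M : CoxeterMatrix B} [Fintype B] [DecidableEq B]
variable {cs : CoxeterSystem M W}

/-- The unfolded graph. -/
abbrev Dat.gr (D : Dat cs) : Gr B := ⟨B × D.I, Prod.fst, D.mu, D.mu_symm, D.mu_lab⟩

/-- Vanishing above degree `K` away from the labels in `Far`. -/
def LeH {I : Type} (Far : Finset B) (h : ℤ → B × I → ℕ) (K : ℤ) : Prop :=
  ∀ k, K < k → ∀ j, j.1 ∉ Far → h k j = 0

/-- The positive word. -/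
def upw (ω : List B) : List (B × Bool) := ω.map fun s => (s, true)

/-- The inverse of the positive word. -/
def dnw (ω : List B) : List (B × Bool) := ω.reverse.map fun s => (s, false)

namespace Cat

variable {D : Dat cs} (C : Cat D.gr)

/-- Apply the twists of a word from left to right. -/
def act : C.Ob → List (B × Bool) → C.Ob
  | E, [] => E
  | E, x :: g => act (if x.2 then C.up x.1 E else C.dn x.1 E) g

def Le (E : C.Ob) (K : ℤ) : Prop := ∀ k, K < k → ∀ j, C.h E k j = 0

def Ge (E : C.Ob) (K : ℤ) : Prop := ∀ k, k < K → ∀ j, C.h E k j = 0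

/-- One dimensional cohomology at vertex `j` in degree `k`. -/
def IsS (E : C.Ob) (k : ℤ) (j : B × D.I) : Prop :=
  ∀ k' i, C.h E k' i = if k' = k ∧ i = j then 1 else 0

def Eqv (X Y : C.Ob) : Prop := ∀ g, C.h (C.act X g) = C.h (C.act Y g)

/-- The dimension vector in degree `k`. -/
def hv (E : C.Ob) (k : ℤ) : B × D.I → ℤ := fun j => C.h E k j

/-- The class in the Grothendieck group. -/
noncomputable def cl (E : C.Ob) : B × D.I → ℤ :=
  fun j => ∑ᶠ k : ℤ, ((Int.negOnePow k : ℤˣ) : ℤ) * C.h E k j

/-- Words acting trivially on all dimension vectors. -/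
def Triv (g : List (B × Bool)) : Prop := ∀ E, C.h (C.act E g) = C.h E

@[simp] theorem act_nil (E : C.Ob) : C.act E [] = E := rfl

@[simp] theorem act_cons_true (E : C.Ob) (s : B) (g : List (B × Bool)) :
    C.act E ((s, true) :: g) = C.act (C.up s E) g := rfl

@[simp] theorem act_cons_false (E : C.Ob) (s : B) (g : List (B × Bool)) :
    C.act E ((s, false) :: g) = C.act (C.dn s E) g := rfl

theorem act_append (E : C.Ob) (g g' : List (B × Bool)) :
    C.act E (g ++ g') = C.act (C.act E g) g' := by
  induction g generalizing E with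
  | nil => rfl
  | cons x g ih => exact ih _

end Cat

end Vale.Agent.P203
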