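import Vale.Agent.P203.NumAp

namespace Vale.Agent.P203

variable {B W : Type} [Group W] {M : CoxeterMatrix B} [Fintype B] [DecidableEq B]
variable {cs : CoxeterSystem M W}

namespace Cat

variable {D : Dat cs} (C : Cat D.gr)

omit [Fintype B] in
theorem nl_upw {T : Finset B} {ω : List B} (hT : ∀ s ∈ ω, s ∈ T) : ∀ x ∈ upw ω, x.1 ∈ T := by
  intro x hx
  obtain ⟨s, hs, rfl⟩ := List.mem_map.1 hx
  exact hT s hs

omit [Fintype B] [DecidableEq B] in
theorem nl_dnw {T : Finset B} {ω : List B} (hT : ∀ s ∈ ω, s ∈ T) : ∀ x ∈ dnw ω, x.1 ∈ T := by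
  intro x hx
  obtain ⟨s, hs, rfl⟩ := List.mem_map.1 hx
  exact hT s (List.mem_reverse.1 hs)

theorem lc_abs {T : Finset B} {ω : List B} (hω : cs.IsReduced ω) (hT : ∀ s ∈ ω, s ∈ T)
    {E : C.Ob} {K : ℤ} (h : C.Le E K) (hs : ∀ s ∈ T, C.Le (C.up s E) K) :
    C.Le (C.act E (upw ω)) K := by
  have h1 := C.ap_up hω h
  obtain ⟨A, Q, h2, h3, h4, h5⟩ := C.na_trunc (C.act E (upw ω)) (K + 1)
  rw [add_sub_cancel_right] at h3
  have h6 := C.ses_act h2 (dnw ω)
  have e := C.eqv_upw_dnw ω E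
  have x1 := C.ap_dn hω h4
  rw [add_sub_cancel_right] at x1
  have a1 := C.le_dnw h3 ω
  have x2 : C.Le (C.act Q (dnw ω)) K := fun k hk j => by
    have := C.nb_quo h6 k j
    rw [e.h_eq, h k hk, a1 _ (by omega)] at this
    omega
  have x3 : ∀ j : B × D.I, j.1 ∉ T → C.h (C.act Q (dnw ω)) K j = 0 := fun j hj => by
    rw [C.act_off (nl_dnw hT) Q K j hj, h4 K (by omega)]
  have x4 : ∀ j, C.h (C.act Q (dnw ω)) K j = 0 := C.nil _ K fun j => by
    by_cases hj : j.1 ∈ T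
    · have b1 := C.b_le_up (C.act Q (dnw ω)) K j
      have b2 := C.nb_quo (C.ses_up j.1 _ _ _ h6) (K + 1) j
      have b3 : C.h (C.up j.1 (C.act (C.act E (upw ω)) (dnw ω))) = C.h (C.up j.1 E) :=
        e [(j.1, true)]
      rw [b3, hs _ hj _ (by omega), C.le_up a1 j.1 _ (by omega)] at b2
      omega
    · have := C.b_le (C.act Q (dnw ω)) K j
      rw [x3 j hj] at this
      omega
  have x5 : ∀ k j, C.h Q k j = 0 := C.na_zero_of_act (g := dnw ω) fun k j => by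
    rcases lt_trichotomy k K with h' | h' | h'
    · exact x1 k h' j
    · rw [h', x4]
    · exact x2 k h' j
  intro k hk j
  rw [h5, x5, h3 k hk]

theorem lc_rel {Far T : Finset B} (hO : D.Orth Far T) {ω : List B} (hω : cs.IsReduced ω)
    (hT : ∀ s ∈ ω, s ∈ T) {E : C.Ob} {K : ℤ} (h : LeH Far (C.h E) K)
    (hs : ∀ s ∈ T, LeH Far (C.h (C.up s E)) K) : LeH Far (C.h (C.act E (upw ω))) K := by
  obtain ⟨A, h1, h2⟩ := C.red hO h
  have h3 : ∀ s ∈ T, C.Le (C.up s A) K := fun s hs' k hk j => by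
    by_cases hj : j.1 ∈ Far
    · rw [C.nb_off A k (hO _ hj _ hs').1, h1 k hk]
    · exact (h2 [(s, true)] (by simpa using hs') k j hj).trans (hs s hs' k hk j hj)
  intro k hk j hj
  rw [← h2 _ (nl_upw hT) k j hj]
  exact C.lc_abs hω hT h1 h3 k hk j

theorem down_rel {Far : Finset B} {s : B} (hO : D.Orth Far {s}) {E : C.Ob} {K : ℤ}
    (h : LeH Far (C.h (C.up s E)) K) : LeH Far (C.h E) K := by
  obtain ⟨A, h1, h2⟩ := C.red hO h
  intro k hk j hj
  rw [← (C.eqv_dn_up s E).h_eq]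
  exact (h2 [(s, false)] (by simp) k j hj).symm.trans (C.le_dn h1 s k hk j)

theorem r1_rel {Far : Finset B} {s : B} (hO : D.Orth Far {s}) {E : C.Ob} {K : ℤ}
    (h : LeH Far (C.h (C.up s (C.up s E))) K) (j : B × D.I) (hj : j.1 = s) :
    C.h (C.up s E) K j ≤ C.h E K j := by
  have h1 := C.fac s E K j hj
  have h2 := C.b_le_up (C.up s E) K j
  rw [hj, h (K + 1) (by omega) j fun h' => (hO _ h' s (by simp)).1 hj] at h2
  omega

theorem clear_rel {Far T : Finset B} (hO : D.Orth Far T) {ω : List B} (hω : cs.IsReduced ω)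
    (hT : ∀ s ∈ ω, s ∈ T) (h0 : IsW0 cs T (cs.wordProd ω)) {E : C.Ob} {K : ℤ}
    (h : LeH Far (C.h E) K) (hK : ∀ j : B × D.I, j.1 ∉ Far → j.1 ∉ T → C.h E K j = 0) :
    LeH Far (C.h (C.act E (dnw ω))) (K - 1) := by
  intro k' hk' i hi
  refine C.dev fun S k j hS hE => ?_
  by_cases hj : j.1 ∈ Far
  · rw [C.act_far hO (fun k₁ j₁ hj₁ => by
      rw [hS, if_neg fun h' => hj₁ (by rw [h'.2]; exact hj)]) (nl_dnw hT), hS,
      if_neg fun h' => hi (by rw [h'.2]; exact hj)]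
  · rcases lt_trichotomy k K with h' | h' | h'
    · exact C.le_dnw (C.na_S_le hS) ω k' (by omega) i
    · have hT' : j.1 ∈ T := by_contra fun h'' => hE (by rw [h', hK j hj h''])
      exact (C.dich_neg hω hS (D.sign_neg (h0.2 _ hT'))).2 k' (by omega) i
    · exact absurd (h k h' j hj) hE

end Cat

end Vale.Agent.P203
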