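import Vale.Agent.P203.SalSph
import Vale.Agent.P203.MorseAll

namespace Vale.Agent.P203

variable {B W : Type} [Group W] {M : CoxeterMatrix B} [Fintype B] [DecidableEq B]
variable {cs : CoxeterSystem M W}

namespace Core

variable {D : Dat cs} (C : Core D)

theorem sal_cos_subset {x y : C.G} {T T' : Finset B} (hT : T ⊆ T') :
    C.cos x T ⊆ C.cos y T' ↔ y⁻¹ * x ∈ C.P T' := by
  constructor
  · intro h
    exact h (show x⁻¹ * x ∈ C.P T by simp)
  · intro h z hz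
    have := (C.P T').mul_mem h (C.P_mono hT hz)
    simpa [cos, mul_assoc] using this

theorem wc_SS (T : Finset B) (x₀ : C.G) : WC C.scmp (C.SS x₀ T) := by
  induction T using Finset.strongInduction generalizing x₀ with
  | H T ih =>
  by_cases hT : Sph cs T
  · exact C.wc_SS_sph hT x₀
  refine wc_quillen (α := C.SP) (P := C.SS x₀ T) (Q := C.XX x₀ T fun _ _ => True)
    (fun a : C.G × Finset B => (a.2, C.cos a.1 a.2)) ?_ ?_
    (fun a : C.G × Finset B => a.2.card) ?_ (fun σ => σ.1.card) (Fintype.card B) ?_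
    (fun σ _ => Finset.card_le_univ _) ?_ (C.artS_all hT x₀)
  · rintro ⟨x, T'⟩ ⟨h1, h2, h3⟩
    refine ⟨⟨h2, fun h => hT (Sph.mono h h3)⟩, x, h1, rfl, fun _ _ _ => trivial⟩
  · rintro ⟨x, T'⟩ _ ⟨y, T''⟩ _ ⟨h1, w, hw, _, h3⟩
    refine ⟨h1, (C.sal_cos_subset h1).2 ?_⟩
    simp only at h3 hw
    subst h3
    simpa using C.lift_mem hw
  · intro a _ b _ h
    exact C.sph_card_lt h.le h.ne
  · rintro ⟨T₁, S₁⟩ ⟨_, x, _, h1, _⟩ ⟨T₂, S₂⟩ ⟨_, y, _, h2, _⟩ h
    simp only at h1 h2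
    subst h1 h2
    refine Finset.card_lt_card ⟨h.le.1, fun h' => h.ne ?_⟩
    have e : T₁ = T₂ := Finset.Subset.antisymm h.le.1 h'
    subst e
    have h3 := (C.sal_cos_subset (Finset.Subset.refl T₁)).1 h.le.2
    have h4 : x⁻¹ * y ∈ C.P T₁ := by simpa using (C.P T₁).inv_mem h3
    exact Prod.ext rfl (Set.Subset.antisymm h.le.2 ((C.sal_cos_subset (Finset.Subset.refl _)).2 h4))
  · rintro ⟨T₁, S₁⟩ ⟨h0, x, hx, h1, _⟩
    simp only at h1 h0
    subst h1
    have : {p : C.SP | p ∈ C.SS x₀ T ∧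
        (fun a : C.G × Finset B => (a.2, C.cos a.1 a.2)) p ≤ (T₁, C.cos x T₁)} = C.SS x T₁ := by
      ext ⟨y, T'⟩
      constructor
      · rintro ⟨⟨_, _, h3⟩, h4, h5⟩
        exact ⟨(C.sal_cos_subset h4).1 h5, h4, h3⟩
      · rintro ⟨h3, h4, h5⟩
        refine ⟨⟨?_, h4.trans h0.subset, h5⟩, h4, (C.sal_cos_subset h4).2 h3⟩
        have := (C.P T).mul_mem hx (C.P_mono h0.subset h3)
        simpa [mul_assoc] using this
    exact (congrArg (WC C.scmp) this).mpr (ih T₁ h0 x)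

end Core

end Vale.Agent.P203
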