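import Vale.Agent.P203.CellDefs
import Vale.Agent.P203.CoreBasic

namespace Vale.Agent.P203

variable {B W : Type} [Group W] {M : CoxeterMatrix B} [Fintype B] [DecidableEq B]
variable {cs : CoxeterSystem M W}

namespace Core

variable {D : Dat cs} (C : Core D)

theorem sle_refl (a : C.G × Finset B) : C.sle a a :=
  ⟨subset_rfl, 1, one_mem _, fun t _ => by simp, by rw [C.lift_one, mul_one]⟩

theorem sle_trans {a b c : C.G × Finset B} (h : C.sle a b) (h' : C.sle b c) : C.sle a c := by
  obtain ⟨h1, w, hw, hmin, he⟩ := h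
  obtain ⟨h1', v, hv, hmin', he'⟩ := h'
  refine ⟨h1.trans h1', v * w, mul_mem hv (WP_mono h1' hw), D.min_mul h1 hmin' hw hmin, ?_⟩
  rw [C.lift_mul (D.length_add hmin' hw), he, he', mul_assoc]

theorem sle_eq_of_snd {a b : C.G × Finset B} (h : C.sle a b) (h' : a.2 = b.2) : a = b := by
  obtain ⟨-, w, hw, hmin, he⟩ := h
  have : w = 1 := by
    by_contra hne
    obtain ⟨s, hs, hlt⟩ := D.exists_desc hw hne
    exact absurd (hmin s (h' ▸ hs)) (not_lt.2 hlt.le)
  rw [this, C.lift_one, mul_one] at he
  exact Prod.ext he h'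

theorem sle_antisymm {a b : C.G × Finset B} (h : C.sle a b) (h' : C.sle b a) : a = b :=
  C.sle_eq_of_snd h (Finset.Subset.antisymm h.1 h'.1)

/-- The Salvetti cover as a partial order. -/
def SP : Type := C.G × Finset B

instance : PartialOrder C.SP where
  le := C.sle
  le_refl := C.sle_refl
  le_trans := fun _ _ _ => C.sle_trans
  le_antisymm := fun _ _ => C.sle_antisymm

theorem cmp_eq : (Cmp : C.SP → C.SP → Prop) = C.scmp := rfl

end Core

end Vale.Agent.P203
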