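import Vale.Agent.P203.SalBasic
import Vale.Agent.P203.Gars
import Vale.Agent.P203.TopMorse

namespace Vale.Agent.P203

variable {B W : Type} [Group W] {M : CoxeterMatrix B} [Fintype B] [DecidableEq B]
variable {cs : CoxeterSystem M W}

namespace Core

variable {D : Dat cs} (C : Core D)

theorem sph_sle_same {b : C.G} {T T' : Finset B} (h : T ⊆ T') : C.sle (b, T) (b, T') :=
  ⟨h, 1, (WP cs T').one_mem, fun t _ => by simp, by simp [C.lift_one]⟩

theorem sph_card_lt {a a' : C.G × Finset B} (h : C.sle a a') (hne : a ≠ a') :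
    a.2.card < a'.2.card :=
  Finset.card_lt_card ⟨h.1, fun h' => hne (C.sle_eq_of_snd h (Finset.Subset.antisymm h.1 h'))⟩

theorem sph_general {Z : Set C.G} {y : C.G} (hy : y ∈ Z) (L : C.G → Finset B) (d : C.G → ℕ)
    (hLy : L y = ∅)
    (hface : ∀ b ∈ Z, b ≠ y → WC C.scmp {a | C.sle a (b, L b) ∧ a.1 ≠ b})
    (hsub : ∀ b ∈ Z, ∀ a, C.sle a (b, L b) → a.1 ≠ b → a.1 ∈ Z ∧ a.2 ⊆ L a.1 ∧ d a.1 < d b) :
    WC C.scmp {a | a.1 ∈ Z ∧ a.2 ⊆ L a.1} := by
  have hd : ∀ a a' : C.G × Finset B, a'.1 ∈ Z → a'.2 ⊆ L a'.1 → C.sle a a' → a.1 ≠ a'.1 →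
      d a.1 < d a'.1 := fun a a' h1 h2 h3 h4 =>
    (hsub a'.1 h1 a (C.sle_trans h3 (C.sph_sle_same h2)) h4).2.2
  let P : Set C.SP := {(y, ∅)}
  let Q : Set C.SP := {a : C.G × Finset B | a.1 ∈ Z ∧ a.2 ⊆ L a.1}
  have hPQ : P ⊆ Q := by
    rintro a rfl
    exact ⟨hy, Finset.empty_subset _⟩
  let φ : C.SP → ℕ ×ₗ ℕ := fun a : C.G × Finset B =>
    toLex (d a.1, Fintype.card B - a.2.card)
  have hc : ∀ a : C.G × Finset B, a.2.card ≤ Fintype.card B := fun a => Finset.card_le_univ _
  have hpush : Push Cmp P Q := by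
    refine push_poset hPQ φ (Set.IsWF.of_wellFoundedLT _) ?_ ?_
    · intro p _ q _ hpq h
      have h1 := C.sph_card_lt (a := p) (a' := q) hpq.le hpq.ne
      have h2 : Fintype.card B - p.2.card = Fintype.card B - q.2.card :=
        congrArg (fun x : ℕ ×ₗ ℕ => (ofLex x).2) h
      have := hc p
      have := hc q
      omega
    · rintro ⟨b, T⟩ ⟨⟨hb, hT⟩, hq⟩
      have hby : b ≠ y := by
        rintro rfl
        apply hq
        have : T = ∅ := Finset.subset_empty.1 (hLy ▸ hT)
        subst this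
        rfl
      by_cases hTL : T = L b
      · right
        have : {p : C.SP | p ∈ Bef P Q φ (b, T) ∧ p < (b, T)} =
            {a : C.G × Finset B | C.sle a (b, L b) ∧ a.1 ≠ b} := by
          ext p
          constructor
          · rintro ⟨⟨_, hp⟩, hlt⟩
            refine ⟨hTL ▸ hlt.le, fun h => ?_⟩
            rcases hp with hp | hp
            · have : p.1 = y := by rw [hp]
              exact hby (h.symm.trans this)
            · have h1 := C.sph_card_lt (a := p) (a' := (b, T)) hlt.le hlt.ne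
              rcases Prod.Lex.lt_iff.1 hp with h2 | h2
              · have h3 : d p.1 < d b := h2
                rw [h] at h3
                exact lt_irrefl _ h3
              · have h3 : Fintype.card B - p.2.card < Fintype.card B - T.card := h2.2
                have h4 : p.2.card < T.card := h1
                omega
          · rintro ⟨h1, h2⟩
            obtain ⟨h3, h4, h5⟩ := hsub b hb p h1 h2
            refine ⟨⟨⟨h3, h4⟩, Or.inr (Prod.Lex.lt_iff.2 (Or.inl h5))⟩, ?_⟩
            refine lt_of_le_of_ne (show C.sle p (b, T) from hTL ▸ h1) fun h => h2 ?_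
            rw [h]
        rw [this]
        exact hface b hb hby
      · left
        have hlt : T.card < (L b).card := Finset.card_lt_card ⟨hT, fun h =>
          hTL (Finset.Subset.antisymm hT h)⟩
        refine wc_max (c := ((b, L b) : C.G × Finset B)) ⟨⟨⟨hb, le_rfl⟩, Or.inr ?_⟩, ?_⟩ ?_
        · refine Prod.Lex.lt_iff.2 (Or.inr ⟨rfl, ?_⟩)
          have := hc (b, L b)
          show Fintype.card B - (L b).card < Fintype.card B - T.card
          simp only at this
          omega
        · exact lt_of_le_of_ne (C.sph_sle_same hT) fun h => hTL (congrArg Prod.snd h)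
        · rintro ⟨b', T'⟩ ⟨⟨⟨hb', hT'⟩, hp⟩, hq'⟩
          have h1 := C.sph_card_lt (a := (b, T)) (a' := (b', T')) hq'.le hq'.ne
          have hbb : b = b' := by
            by_contra hne
            have h2 : d b < d b' := hd (b, T) (b', T') hb' hT' hq'.le hne
            rcases hp with hp | hp
            · have : T' = ∅ := congrArg Prod.snd hp
              subst this
              simp at h1
            · rcases Prod.Lex.lt_iff.1 hp with h3 | h3
              · have h4 : d b' < d b := h3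
                omega
              · have h4 : d b' = d b := h3.1
                omega
          subst hbb
          exact C.sph_sle_same hT'
  exact Push.wc_up hPQ hpush (wc_min (α := C.SP) (c := ((y, ∅) : C.G × Finset B)) rfl
    (by rintro p rfl; exact C.sle_refl _))

theorem sph_pos (b : C.G) (w : W) : (C.pi b)⁻¹ * C.pi (b * C.lift w) = w := by
  simp [C.pi_lift]

/-- The faces of a cell that do not contain its bottom vertex. -/
theorem wc_faces {T : Finset B} (hT : Sph cs T) (hne : T.Nonempty) (b : C.G) :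
    WC C.scmp {a | C.sle a (b, T) ∧ a.1 ≠ b} := by
  induction T using Finset.strongInduction generalizing b with
  | H T ih =>
  obtain ⟨w₀, h0⟩ := D.exists_w0 hT
  let ps : C.G → W := fun x => (C.pi b)⁻¹ * C.pi x
  have hps : ∀ w, ps (b * C.lift w) = w := C.sph_pos b
  let L : C.G → Finset B := fun x =>
    T.filter fun s => cs.length (ps x) < cs.length (ps x * cs.simple s)
  have hL : ∀ w s, s ∈ L (b * C.lift w) ↔ s ∈ T ∧ cs.length w < cs.length (w * cs.simple s) := by
    intro w s
    simp only [L, Finset.mem_filter, hps]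
  have hle : ∀ w ∈ WP cs T, cs.length w ≤ cs.length w₀ := fun w hw => by
    have := D.w0_add h0 hw
    omega
  have hne1 : ∀ w, b * C.lift w = b ↔ w = 1 := by
    intro w
    constructor
    · intro h
      have := hps w
      rw [h] at this
      simpa [ps] using this.symm
    · rintro rfl
      simp [C.lift_one]
  have key := C.sph_general (Z := {x | ∃ w ∈ WP cs T, w ≠ 1 ∧ x = b * C.lift w})
    (y := b * C.lift w₀) ?_ L (fun x => cs.length w₀ - cs.length (ps x)) ?_ ?_ ?_
  · have : {a : C.G × Finset B | C.sle a (b, T) ∧ a.1 ≠ b} =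
        {a | a.1 ∈ {x | ∃ w ∈ WP cs T, w ≠ 1 ∧ x = b * C.lift w} ∧ a.2 ⊆ L a.1} := by
      ext ⟨x, T'⟩
      constructor
      · rintro ⟨⟨h1, w, hw, h2, h3⟩, h4⟩
        simp only at h1 h2 h3 h4 hw
        subst h3
        exact ⟨⟨w, hw, fun h => h4 ((hne1 w).2 h), rfl⟩, fun s hs => (hL w s).2 ⟨h1 hs, h2 s hs⟩⟩
      · rintro ⟨⟨w, hw, h1, h3⟩, h2⟩
        simp only at h3 h2
        subst h3
        exact ⟨⟨fun s hs => ((hL w s).1 (h2 hs)).1, w, hw, fun s hs => ((hL w s).1 (h2 hs)).2,
          rfl⟩, fun h => h1 ((hne1 w).1 h)⟩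
    rw [this]
    exact key
  · refine ⟨w₀, h0.1, ?_, rfl⟩
    rintro rfl
    obtain ⟨t, ht⟩ := hne
    have := h0.2 t ht
    simp at this
  · refine Finset.eq_empty_of_forall_notMem fun s hs => ?_
    obtain ⟨h1, h2⟩ := (hL w₀ s).1 hs
    have := h0.2 s h1
    omega
  · rintro x ⟨w, hw, h1, rfl⟩ h2
    have hsub : L (b * C.lift w) ⊆ T := Finset.filter_subset _ _
    refine ih _ ⟨hsub, fun h => ?_⟩ (hT.mono hsub) ?_ _
    · obtain ⟨s, hs, h3⟩ := D.exists_desc hw h1
      have := ((hL w s).1 (h hs)).2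
      omega
    · by_contra h3
      apply h2
      have hw0 : IsW0 cs T w := ⟨hw, fun t ht => by
        rcases length_lt_or (cs := cs) w t with h4 | h4
        · exact absurd ⟨t, (hL w t).2 ⟨ht, h4⟩⟩ h3
        · exact h4⟩
      have e1 := D.w0_add h0 hw
      have e2 := D.w0_add hw0 h0.1
      have e3 : w⁻¹ * w₀ = 1 := cs.length_eq_zero_iff.1 (by omega)
      rw [inv_mul_eq_one.1 e3]
  · rintro x ⟨w, hw, h1, rfl⟩ ⟨x', T'⟩ ⟨h2, v, hv, h3, h4⟩ h5
    simp only at h2 hv h3 h4 h5
    have hsub : L (b * C.lift w) ⊆ T := Finset.filter_subset _ _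
    have hmin : ∀ t ∈ L (b * C.lift w), cs.length w < cs.length (w * cs.simple t) :=
      fun t ht => ((hL w t).1 ht).2
    have hadd := D.length_add hmin hv
    have hx : x' = b * C.lift (w * v) := by rw [C.lift_mul hadd, h4, mul_assoc]
    have hv1 : v ≠ 1 := by
      rintro rfl
      apply h5
      rw [h4, C.lift_one, mul_one]
    have hvl : cs.length v ≠ 0 := fun h => hv1 (cs.length_eq_zero_iff.1 h)
    have hwv : w * v ∈ WP cs T := (WP cs T).mul_mem hw (WP_mono hsub hv)
    subst hx
    refine ⟨⟨w * v, hwv, fun h => ?_, rfl⟩, fun s hs => (hL _ s).2 ⟨hsub (h2 hs),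
      D.min_mul h2 hmin hv h3 s hs⟩, ?_⟩
    · rw [h] at hadd
      simp only [CoxeterSystem.length_one] at hadd
      omega
    · have := hle _ hwv
      simp only [hps]
      omega

/-- Deligne's theorem for the cover. -/
theorem wc_SS_sph {T : Finset B} (hT : Sph cs T) (x₀ : C.G) : WC C.scmp (C.SS x₀ T) := by
  classical
  refine wc_of_directed ⟨(x₀, ∅), by simp [SS, sph_empty]⟩ fun F hF hFS => ?_
  have hw : ∀ T' : Finset B, ∃ w₀, T' ⊆ T → IsW0 cs T' w₀ := fun T' => by
    by_cases h : T' ⊆ T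
    · obtain ⟨w₀, h0⟩ := D.exists_w0 (hT.mono h)
      exact ⟨w₀, fun _ => h0⟩
    · exact ⟨1, fun h' => absurd h' h⟩
  choose w0 hw0 using hw
  obtain ⟨y, hy0, hy⟩ := C.exists_upper_finite hT x₀
    (hF.image fun a => a.1 * C.lift (w0 a.2)) (by
      rintro _ ⟨a, ha, rfl⟩
      have h1 := hFS ha
      rw [← mul_assoc]
      exact (C.P T).mul_mem h1.1 (C.P_mono h1.2.1 (C.lift_mem (hw0 _ h1.2.1).1)))
  obtain ⟨d, hd⟩ := C.exists_height hT y
  let L : C.G → Finset B := fun b => T.filter fun s => C.Pos T (b * C.gen s) y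
  have hL : ∀ b s, s ∈ L b ↔ s ∈ T ∧ C.Pos T (b * C.gen s) y := fun b s => Finset.mem_filter
  refine ⟨{a | a.1 ∈ {b | C.Pos T b y} ∧ a.2 ⊆ L a.1}, ?_, ?_, ?_⟩
  · intro a ha
    have h1 := hFS ha
    have h0 := hw0 _ h1.2.1
    have h2 := hy _ ⟨a, ha, rfl⟩
    refine ⟨(C.pos_lift (WP_mono h1.2.1 h0.1) a.1).trans h2, fun s hs => ?_⟩
    refine (hL _ _).2 ⟨h1.2.1 hs, Pos.trans ?_ h2⟩
    have h3 := D.w0_add h0 (simple_mem_WP hs)
    have h4 : C.lift (w0 a.2) = C.gen s * C.lift ((cs.simple s)⁻¹ * w0 a.2) := by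
      rw [← C.lift_simple, ← C.lift_mul (by rw [mul_inv_cancel_left]; exact h3.symm),
        mul_inv_cancel_left]
    simp only
    rw [h4, ← mul_assoc]
    exact C.pos_lift (WP_mono h1.2.1 ((WP cs a.2).mul_mem
      ((WP cs a.2).inv_mem (simple_mem_WP hs)) h0.1)) _
  · rintro a ⟨h1, h2⟩
    have h3 : a.2 ⊆ T := h2.trans (Finset.filter_subset _ _)
    refine ⟨?_, h3, hT.mono h3⟩
    have h4 := (C.P T).mul_mem hy0 ((C.P T).inv_mem (Pos.mem h1))
    simpa [mul_assoc] using h4
  · refine C.sph_general (y := y) (Pos.refl C T y) L d ?_ ?_ ?_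
    · exact Finset.eq_empty_of_forall_notMem fun s hs =>
        C.not_pos_self ((hL _ _).1 hs).1 y ((hL _ _).1 hs).2
    · intro b hb hby
      have hsub : L b ⊆ T := Finset.filter_subset _ _
      refine C.wc_faces (hT.mono hsub) ?_ b
      rcases Pos.cases hb with h | ⟨s, hs, h⟩
      · exact absurd h hby
      · exact ⟨s, (hL _ _).2 ⟨hs, h⟩⟩
    · rintro b hb ⟨x', T'⟩ ⟨h2, v, hv, h3, h4⟩ h5
      simp only at h2 hv h3 h4 h5
      have hsub : L b ⊆ T := Finset.filter_subset _ _
      have hall : ∀ w ∈ WP cs (L b), C.Pos T (b * C.lift w) y := fun w hw =>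
        C.pos_lift_of hT hsub hb (fun s hs => ((hL _ _).1 hs).2) hw
      subst h4
      refine ⟨hall v hv, fun s hs => (hL _ _).2 ⟨hsub (h2 hs), ?_⟩, ?_⟩
      · rw [mul_assoc, ← C.lift_mul_simple _ _ (h3 s hs)]
        exact hall _ ((WP cs _).mul_mem hv (simple_mem_WP (h2 hs)))
      · have hind : v = 1 ∨ d (b * C.lift v) < d b := by
          refine D.WP_induction (p := fun v => v = 1 ∨ d (b * C.lift v) < d b) (Or.inl rfl)
            (fun w hw s hs hl hp => Or.inr ?_) hv
          have h6 := hall _ ((WP cs _).mul_mem hw (simple_mem_WP hs))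
          rw [C.lift_mul_simple _ _ hl, ← mul_assoc] at h6 ⊢
          have h7 := hd _ s (hsub hs) h6
          rcases hp with rfl | hp
          · simpa [C.lift_one] using h7
          · omega
        rcases hind with rfl | h
        · exact absurd (by simp [C.lift_one]) h5
        · exact h

end Core

end Vale.Agent.P203
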