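import Mathlib

namespace Vale.Agent.P203

open Function

variable {B W : Type} [Group W] {M : CoxeterMatrix B}

/-- The standard parabolic subgroup `W_T`. -/
def WP (cs : CoxeterSystem M W) (T : Finset B) : Subgroup W :=
  Subgroup.closure (cs.simple '' (T : Set B))

/-- `T` is spherical: `W_T` is finite. -/
def Sph (cs : CoxeterSystem M W) (T : Finset B) : Prop :=
  (WP cs T : Set W).Finite

/-- The Salvetti order on pairs `(u, T)`: `(u, T) ≤ (v, R)` iff `T ⊆ R`, `v⁻¹ u ∈ W_R`, and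
`v⁻¹ u` has minimal length in the coset `v⁻¹ u W_T`. -/
def salLE (cs : CoxeterSystem M W) (a b : W × Finset B) : Prop :=
  a.2 ⊆ b.2 ∧ b.1⁻¹ * a.1 ∈ WP cs b.2 ∧
    ∀ v ∈ WP cs a.2, cs.length (b.1⁻¹ * a.1) ≤ cs.length (b.1⁻¹ * a.1 * v)

/-- The geometric realization of the Salvetti poset `{(u, T) : T spherical}`: barycentric
coordinate functions supported on a finite chain. -/
abbrev Sal (cs : CoxeterSystem M W) : Type :=
  {x : W × Finset B → ℝ // (∀ c, 0 ≤ x c) ∧ (support x).Finite ∧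
    (∀ c ∈ support x, Sph cs c.2) ∧ IsChain (salLE cs) (support x) ∧ ∑ᶠ c, x c = 1}

/-- The Salvetti complex `X(W, S)`: the quotient of `Sal` by the action `w (u, T) = (w u, T)`. -/
abbrev SalQ (cs : CoxeterSystem M W) : Type :=
  Quot fun x y : Sal cs => ∃ w : W, ∀ u T, y.1 (w * u, T) = x.1 (u, T)

end Vale.Agent.P203
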