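import Vale.Agent.P203.TopDefs

namespace Vale.Agent.P203

open Function Set

variable {α β γ : Type}

theorem mem_geo_finset {R : α → α → Prop} {F : Finset α} {x : α → ℝ} : x ∈ geo R F ↔
    (∀ v, 0 ≤ x v) ∧ (∀ v, x v ≠ 0 → v ∈ F) ∧ (support x).Pairwise R ∧ ∑ v ∈ F, x v = 1 := by
  constructor
  · rintro ⟨h1, -, h2, h3, h4⟩
    refine ⟨h1, fun v hv => h2 hv, h3, ?_⟩
    rw [← h4, finsum_eq_sum_of_support_subset _ h2]
  · rintro ⟨h1, h2, h3, h4⟩
    refine ⟨h1, F.finite_toSet.subset (fun v hv => h2 v hv), fun v hv => h2 v hv, h3, ?_⟩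
    rw [← h4, finsum_eq_sum_of_support_subset _ (fun v hv => h2 v hv)]

theorem geo_sum {R : α → α → Prop} {F : Set α} {x : α → ℝ} (hx : x ∈ geo R F) {G : Finset α}
    (hG : support x ⊆ G) : ∑ v ∈ G, x v = 1 := by
  rw [← hx.2.2.2.2, finsum_eq_sum_of_support_subset _ hG]

theorem geo_le_one {R : α → α → Prop} {F : Set α} {x : α → ℝ} (hx : x ∈ geo R F) (v : α) :
    x v ≤ 1 := by
  by_cases hv : x v = 0
  · rw [hv]; exact zero_le_one
  · rw [← geo_sum hx (G := hx.2.1.toFinset) (by simp)]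
    exact Finset.single_le_sum (fun i _ => hx.1 i) (by simpa using hv)

theorem geo_single [DecidableEq α] {R : α → α → Prop} {X : Set α} {v : α} (hv : v ∈ X) :
    (Pi.single v (1:ℝ) : α → ℝ) ∈ geo R X := by
  have h : ∀ u, (Pi.single v (1:ℝ) : α → ℝ) u ≠ 0 → u = v := fun u hu => by
    by_contra h; exact hu (by simp [h])
  refine geo_mono R (F := ({v} : Finset α)) (by simpa using hv) (mem_geo_finset.2 ⟨fun u => ?_,
    fun u hu => by simpa using h u hu, fun a ha b hb hab => ?_, by simp⟩)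
  · by_cases hu : u = v
    · simp [hu]
    · simp [hu]
  · exact absurd ((h a ha).trans (h b hb).symm) hab

/-- convex combination of two points whose supports are mutually adjacent -/
theorem geo_comb {R : α → α → Prop} (hs : ∀ a b, R a b → R b a) {X : Set α} {x y : α → ℝ}
    (hx : x ∈ geo R X) (hy : y ∈ geo R X) (hxy : ∀ a b, x a ≠ 0 → y b ≠ 0 → a ≠ b → R a b) {t : ℝ}
    (ht : t ∈ Icc (0:ℝ) 1) : (1 - t) • x + t • y ∈ geo R X := by
  have hsupp : ∀ v, ((1 - t) • x + t • y) v ≠ 0 → x v ≠ 0 ∨ y v ≠ 0 := fun v hv => by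
    by_contra h
    push Not at h
    exact hv (by simp [h.1, h.2])
  refine ⟨fun v => ?_, (hx.2.1.union hy.2.1).subset (fun v hv => hsupp v hv), fun v hv => ?_,
    fun a ha b hb hab => ?_, ?_⟩
  · have := hx.1 v
    have := hy.1 v
    have h1 : 0 ≤ 1 - t := by linarith [ht.2]
    have h2 := ht.1
    simp only [Pi.add_apply, Pi.smul_apply, smul_eq_mul]
    positivity
  · rcases hsupp v hv with h | h
    · exact hx.2.2.1 h
    · exact hy.2.2.1 h
  · rcases hsupp a ha with h | h <;> rcases hsupp b hb with h' | h'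
    · exact hx.2.2.2.1 h h' hab
    · exact hxy a b h h' hab
    · exact hs _ _ (hxy b a h' h hab.symm)
    · exact hy.2.2.2.1 h h' hab
  · simp only [Pi.add_apply, Pi.smul_apply, smul_eq_mul]
    rw [finsum_add_distrib, ← mul_finsum, ← mul_finsum, hx.2.2.2.2, hy.2.2.2.2]
    · ring
    · exact hx.2.1.subset (fun v hv => right_ne_zero_of_mul hv)
    · exact hy.2.1.subset (fun v hv => right_ne_zero_of_mul hv)

/-- A homotopy into a realization from a coordinatewise formula. -/
theorem geo_homotopic {E : Type} [TopologicalSpace E] {R : α → α → Prop} {X : Set α}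
    {a b : C(E, geo R X)} (H : unitInterval × E → α → ℝ) (hc : Continuous H)
    (hm : ∀ p, H p ∈ geo R X) (h0 : ∀ x, H (0, x) = (a x).1) (h1 : ∀ x, H (1, x) = (b x).1) :
    a.Homotopic b :=
  ⟨⟨⟨fun p => ⟨H p, hm p⟩, hc.subtype_mk _⟩, fun x => Subtype.ext (h0 x),
    fun x => Subtype.ext (h1 x)⟩⟩

theorem geo_line {E : Type} [TopologicalSpace E] {R : α → α → Prop} (hs : ∀ a b, R a b → R b a)
    {X : Set α} {a b : C(E, geo R X)}
    (h : ∀ x u v, (a x).1 u ≠ 0 → (b x).1 v ≠ 0 → u ≠ v → R u v) : a.Homotopic b := by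
  refine geo_homotopic (fun p => (1 - (p.1 : ℝ)) • (a p.2).1 + (p.1 : ℝ) • (b p.2).1) (by fun_prop)
    (fun p => geo_comb hs (a p.2).2 (b p.2).2 (h p.2) p.1.2) (fun x => by simp) (fun x => by simp)

open Classical in
/-- push-forward of a point along a vertex map -/
noncomputable def gmp (F : Finset α) (f : α → β) (x : α → ℝ) : β → ℝ :=
  fun w => ∑ a ∈ F, if f a = w then x a else 0

theorem continuous_gmp (F : Finset α) (f : α → β) : Continuous (gmp F f) := by
  refine continuous_pi (fun w => ?_)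
  unfold gmp
  refine continuous_finsetSum _ (fun a _ => ?_)
  split_ifs
  · fun_prop
  · fun_prop

theorem gmp_ne {F : Finset α} {f : α → β} {x : α → ℝ} {w : β} (h : gmp F f x w ≠ 0) :
    ∃ a ∈ F, x a ≠ 0 ∧ f a = w := by
  obtain ⟨a, ha, h⟩ := Finset.exists_ne_zero_of_sum_ne_zero h
  split_ifs at h with h'
  · exact ⟨a, ha, h, h'⟩
  · exact absurd rfl h

theorem gmp_mem {R : α → α → Prop} {R' : β → β → Prop} {F : Finset α} {f : α → β} {G : Set β}
    (hG : ∀ a ∈ F, f a ∈ G)
    (hf : ∀ a ∈ F, ∀ b ∈ F, f a ≠ f b → R a b → R' (f a) (f b)) {x : α → ℝ} (hx : x ∈ geo R F) :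
    gmp F f x ∈ geo R' G := by
  classical
  refine geo_mono R' (F := (F.image f : Finset β)) (by
    intro b hb
    obtain ⟨a, ha, rfl⟩ := Finset.mem_image.1 hb
    exact hG a ha) ?_
  obtain ⟨h2, h1, h4, h3⟩ := mem_geo_finset.1 hx
  refine mem_geo_finset.2 ⟨fun w => ?_, fun w hw => ?_, fun u hu v hv huv => ?_, ?_⟩
  · refine Finset.sum_nonneg (fun a _ => ?_)
    split_ifs
    · exact h2 a
    · exact le_rfl
  · obtain ⟨a, ha, -, rfl⟩ := gmp_ne hw
    exact Finset.mem_image_of_mem _ ha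
  · obtain ⟨a, ha, hxa, rfl⟩ := gmp_ne hu
    obtain ⟨b, hb, hxb, rfl⟩ := gmp_ne hv
    exact hf a ha b hb huv (h4 hxa hxb (fun h => huv (by rw [h])))
  · unfold gmp
    rw [Finset.sum_comm, ← h3]
    refine Finset.sum_congr rfl (fun a ha => ?_)
    rw [Finset.sum_eq_single (f a)]
    · simp
    · intro b _ hb
      rw [if_neg (Ne.symm hb)]
    · intro h
      exact absurd (Finset.mem_image_of_mem _ ha) h

theorem gmp_gmp {F : Finset α} {G : Finset β} {f : α → β} {g : β → γ} (h : ∀ a ∈ F, f a ∈ G)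
    (x : α → ℝ) : gmp G g (gmp F f x) = gmp F (g ∘ f) x := by
  classical
  funext c
  unfold gmp
  have : ∀ b ∈ G, (if g b = c then ∑ a ∈ F, (if f a = b then x a else 0) else 0) =
      ∑ a ∈ F, if f a = b then (if g b = c then x a else 0) else 0 := by
    intro b _
    split_ifs with hb
    · rfl
    · simp
  rw [Finset.sum_congr rfl this, Finset.sum_comm]
  refine Finset.sum_congr rfl (fun a ha => ?_)
  rw [Finset.sum_eq_single (f a)]
  · simp
  · intro b _ hb
    rw [if_neg (Ne.symm hb)]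
  · intro h'
    exact absurd (h a ha) h'

theorem gmp_id {F : Finset α} {f : α → α} (hf : ∀ a ∈ F, f a = a) {x : α → ℝ}
    (hx : support x ⊆ F) : gmp F f x = x := by
  classical
  funext c
  unfold gmp
  rw [Finset.sum_eq_single c]
  · by_cases hc : c ∈ F
    · rw [if_pos (hf c hc)]
    · have : x c = 0 := by
        by_contra h
        exact hc (hx h)
      simp [this]
  · intro b hb hbc
    rw [if_neg (by rw [hf b hb]; exact hbc)]
  · intro hc
    have : x c = 0 := by
      by_contra h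
      exact hc (hx h)
    simp [this]

/-- push-forward as a continuous map of realizations -/
noncomputable def gmpC {R : α → α → Prop} {R' : β → β → Prop} {F : Set α} (hF : F.Finite)
    (f : α → β) {G : Set β} (hG : ∀ a ∈ F, f a ∈ G)
    (hf : ∀ a ∈ F, ∀ b ∈ F, f a ≠ f b → R a b → R' (f a) (f b)) : C(geo R F, geo R' G) :=
  ⟨fun x => ⟨gmp hF.toFinset f x.1, gmp_mem (R := R) (fun a ha => hG a (by simpa using ha))
      (fun a ha b hb => hf a (by simpa using ha) b (by simpa using hb)) (by simp)⟩,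
    ((continuous_gmp _ _).comp continuous_subtype_val).subtype_mk _⟩

/-- Domination: if `g ∘ f` is contiguous to the identity and `P'` is weakly contractible,
so is `P`. -/
theorem wc_of_dom {R : α → α → Prop} {R' : β → β → Prop} {P : Set α} {P' : Set β}
    (f : α → β) (g : β → α) (hgX : ∀ a ∈ P', g a ∈ P) (hfX : ∀ a ∈ P, f a ∈ P')
    (hf : ∀ a ∈ P, ∀ b ∈ P, f a ≠ f b → R a b → R' (f a) (f b))
    (hg : ∀ a ∈ P', ∀ b ∈ P', g a ≠ g b → R' a b → R (g a) (g b))
    (hgf : (∀ a ∈ P, g (f a) = a) ∨ ((∀ a b, R a b → R b a) ∧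
      ∀ a ∈ P, ∀ b ∈ P, (a = b ∨ R a b) → a ≠ g (f b) → R a (g (f b))))
    (h : WC R' P') : WC R P := by
  classical
  refine ⟨by obtain ⟨a, ha⟩ := h.1; exact ⟨g a, hgX a ha⟩, fun F hFf hF => ?_⟩
  obtain ⟨F', hF'f, hF', hsub, H⟩ := h.2 (f '' F) (hFf.image f) (by
    rintro _ ⟨b, hb, rfl⟩
    exact hfX b (hF hb))
  refine ⟨F ∪ g '' F', hFf.union (hF'f.image g), ?_, subset_union_left, ?_⟩
  · rintro a (ha | ⟨b, hb, rfl⟩)
    · exact hF ha
    · exact hgX b (hF' hb)
  let φ : C(geo R F, geo R' (f '' F)) := gmpC hFf f (fun a ha => mem_image_of_mem f ha)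
    (fun a ha b hb => hf a (hF ha) b (hF hb))
  let ψ : C(geo R' F', geo R (F ∪ g '' F')) := gmpC hF'f g
    (fun a ha => Or.inr (mem_image_of_mem g ha)) (fun a ha b hb => hg a (hF' ha) b (hF' hb))
  obtain ⟨c, hc⟩ := (H.comp_left φ).comp_right ψ
  have hval : ∀ x : geo R F, ((ψ.comp ((ginc R' hsub).comp φ)) x).1 =
      gmp hFf.toFinset (g ∘ f) x.1 := fun x =>
    gmp_gmp (fun a ha => by simpa using hsub (mem_image_of_mem f (by simpa using ha))) x.1
  refine ⟨c, ContinuousMap.Homotopic.trans ?_ hc⟩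
  rcases hgf with hgf | ⟨hs, hgf⟩
  · have : ginc R (subset_union_left : F ⊆ F ∪ g '' F') = ψ.comp ((ginc R' hsub).comp φ) := by
      ext1 x
      apply Subtype.ext
      rw [hval, gmp_id (F := hFf.toFinset) (f := g ∘ f) (x := x.1) (fun a ha => hgf a (hF (by simpa using ha))) (by simpa using x.2.2.2.1)]
      rfl
    rw [this]
  · refine geo_line hs (fun x u v hu hv huv => ?_)
    rw [hval] at hv
    obtain ⟨a, -, ha, rfl⟩ := gmp_ne hv
    have hu' : x.1 u ≠ 0 := hu
    refine hgf u (hF (x.2.2.2.1 hu')) a (hF (x.2.2.2.1 ha)) ?_ huv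
    by_cases hua : u = a
    · exact Or.inl hua
    · exact Or.inr (x.2.2.2.2.1 hu' ha hua)

end Vale.Agent.P203
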