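import Vale.Agent.P203.TopAux

namespace Vale.Agent.P203

open Function

variable {α β : Type}

/-- A cone is weakly contractible. -/
theorem wc_cone {R : α → α → Prop} (hR : ∀ a b, R a b → R b a) {P : Set α} {c : α} (hc : c ∈ P)
    (h : ∀ p ∈ P, p ≠ c → R p c) : WC R P := by
  classical
  refine ⟨⟨c, hc⟩, fun F hFf hF => ⟨insert c F, hFf.insert c, Set.insert_subset hc hF,
    Set.subset_insert _ _, ⟨Pi.single c 1, geo_single (Set.mem_insert _ _)⟩, ?_⟩⟩
  refine geo_line hR (fun x u v hu hv huv => ?_)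
  have hv' : v = c := by
    by_contra h'
    exact hv (by simp [h'])
  subst hv'
  have hu' : x.1 u ≠ 0 := hu
  exact h u (hF (x.2.2.2.1 hu')) huv

theorem wc_min [PartialOrder α] {P : Set α} {c : α} (hc : c ∈ P) (h : ∀ p ∈ P, c ≤ p) :
    WC Cmp P :=
  wc_cone cmp_symm hc fun p hp _ => Or.inr (h p hp)

theorem wc_max [PartialOrder α] {P : Set α} {c : α} (hc : c ∈ P) (h : ∀ p ∈ P, p ≤ c) :
    WC Cmp P :=
  wc_cone cmp_symm hc fun p hp _ => Or.inl (h p hp)

/-- Invariance under isomorphism of flag complexes. -/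
theorem wc_map {R : α → α → Prop} {R' : β → β → Prop} {P : Set α} {f : α → β}
    (hf : Set.InjOn f P) (hR : ∀ a ∈ P, ∀ b ∈ P, a ≠ b → (R a b ↔ R' (f a) (f b))) :
    WC R P ↔ WC R' (f '' P) := by
  classical
  rcases P.eq_empty_or_nonempty with rfl | hne
  · simp [WC]
  have : Nonempty α := ⟨hne.choose⟩
  have hi := hf.bijOn_image.invOn_invFunOn
  have hm : ∀ a ∈ f '' P, Function.invFunOn f P a ∈ P := fun a ha => Function.invFunOn_mem ha
  have h1 : ∀ a ∈ P, ∀ b ∈ P, f a ≠ f b → R a b → R' (f a) (f b) := fun a ha b hb hab h =>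
    (hR a ha b hb (fun h' => hab (by rw [h']))).1 h
  have h2 : ∀ a ∈ f '' P, ∀ b ∈ f '' P, Function.invFunOn f P a ≠ Function.invFunOn f P b →
      R' a b → R (Function.invFunOn f P a) (Function.invFunOn f P b) := fun a ha b hb hab h => by
    rw [hR _ (hm a ha) _ (hm b hb) hab, hi.2 ha, hi.2 hb]; exact h
  exact ⟨wc_of_dom (Function.invFunOn f P) f (fun a ha => Set.mem_image_of_mem f ha) hm h2 h1
      (Or.inl fun a ha => hi.2 ha),
    wc_of_dom f (Function.invFunOn f P) hm (fun a ha => Set.mem_image_of_mem f ha) h1 h2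
      (Or.inl fun a ha => hi.1 ha)⟩

theorem wc_of_directed {R : α → α → Prop} {P : Set α} (hne : P.Nonempty)
    (h : ∀ F : Set α, F.Finite → F ⊆ P → ∃ P' : Set α, F ⊆ P' ∧ P' ⊆ P ∧ WC R P') : WC R P := by
  refine ⟨hne, fun F hFf hF => ?_⟩
  obtain ⟨Y, h1, h2, h3⟩ := h F hFf hF
  obtain ⟨F', hF'f, hF', H⟩ := h3.2 F hFf h1
  exact ⟨F', hF'f, hF'.trans h2, H⟩

theorem Push.wc_up {R : α → α → Prop} {P Q : Set α} (hPQ : P ⊆ Q) (h : Push R P Q)
    (hP : WC R P) : WC R Q := by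
  refine ⟨hP.1.mono hPQ, fun F hFf hF => ?_⟩
  obtain ⟨F', hF'f, hF', hsub, r, -, H⟩ := h F hFf hF
  obtain ⟨F'', hF''f, hF'', hsub', H'⟩ := hP.2 (F' ∩ P) (hF'f.subset Set.inter_subset_left)
    Set.inter_subset_right
  refine ⟨F' ∪ F'', hF'f.union hF''f, Set.union_subset hF' (hF''.trans hPQ),
    hsub.trans Set.subset_union_left, ?_⟩
  obtain ⟨c, hc⟩ := (H'.comp_left r).comp_right
    (ginc R (Set.subset_union_right : F'' ⊆ F' ∪ F''))
  have H2 := (ContinuousMap.Homotopic.refl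
    (ginc R (Set.subset_union_left : F' ⊆ F' ∪ F''))).comp H
  exact ⟨c, ContinuousMap.Homotopic.trans H2 hc⟩

theorem Push.wc_down {R : α → α → Prop} {P Q : Set α} (hPQ : P ⊆ Q) (h : Push R P Q)
    (hne : P.Nonempty) (hQ : WC R Q) : WC R P := by
  refine ⟨hne, fun F hFf hF => ?_⟩
  obtain ⟨F₁, hF₁f, hF₁, hsub, H⟩ := hQ.2 F hFf (hF.trans hPQ)
  obtain ⟨F', hF'f, hF', hsub', r, hr, -⟩ := h F₁ hF₁f hF₁
  have hs : F ⊆ F' ∩ P := Set.subset_inter (hsub.trans hsub') hF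
  refine ⟨F' ∩ P, hF'f.subset Set.inter_subset_left, Set.inter_subset_right, hs, ?_⟩
  have : ginc R hs = r.comp (ginc R hsub) := by
    ext1 x
    apply Subtype.ext
    exact (hr (ginc R hsub x) (x.2.2.2.1.trans hF)).symm
  rw [this]
  exact H.comp_right r

end Vale.Agent.P203
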