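import Vale.Agent.P203.DatDefs

namespace Vale.Agent.P203

open Function

/-- Adjacency matrix of the path with `L + 1` nodes. -/
def uxP (L : ℕ) : Matrix (Fin (L + 1)) (Fin (L + 1)) ℤ := fun a c =>
  (if ((c : ℕ) : ℤ) = ((a : ℕ) : ℤ) - 1 then 1 else 0) +
    (if ((c : ℕ) : ℤ) = ((a : ℕ) : ℤ) + 1 then 1 else 0)

theorem ux_pick {R : Type} [CommRing R] (L : ℕ) (H : ℤ → R) (h1 : H (-1) = 0)
    (h2 : H (L + 1) = 0) (z : ℤ) (hz1 : -1 ≤ z) (hz2 : z ≤ L + 1) :
    ∑ c : Fin (L + 1), (if ((c : ℕ) : ℤ) = z then (1 : R) else 0) * H (c : ℕ) = H z := by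
  by_cases h : 0 ≤ z ∧ z ≤ L
  · have hlt : z.toNat < L + 1 := by omega
    rw [Finset.sum_eq_single (⟨z.toNat, hlt⟩ : Fin (L + 1))]
    · have : ((z.toNat : ℕ) : ℤ) = z := by omega
      simp only [this, if_true, one_mul]
    · intro c _ hc
      rw [if_neg, zero_mul]
      intro hcz
      apply hc
      apply Fin.ext
      show (c : ℕ) = z.toNat
      omega
    · intro h; exact absurd (Finset.mem_univ _) h
  · have h0 : H z = 0 := by
      rcases (by omega : z = -1 ∨ z = L + 1) with rfl | rfl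
      · exact h1
      · exact h2
    rw [h0]
    refine Finset.sum_eq_zero (fun c _ => ?_)
    have := c.2
    rw [if_neg (by omega), zero_mul]

theorem ux_sum {R : Type} [CommRing R] (L : ℕ) (H : ℤ → R) (h1 : H (-1) = 0)
    (h2 : H (L + 1) = 0) (a : Fin (L + 1)) :
    ∑ c : Fin (L + 1), ((uxP L a c : ℤ) : R) * H (c : ℕ) =
      H (((a : ℕ) : ℤ) - 1) + H (((a : ℕ) : ℤ) + 1) := by
  have ha := a.2
  rw [← ux_pick L H h1 h2 (((a : ℕ) : ℤ) - 1) (by omega) (by omega),
    ← ux_pick L H h1 h2 (((a : ℕ) : ℤ) + 1) (by omega) (by omega), ← Finset.sum_add_distrib]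
  refine Finset.sum_congr rfl (fun c _ => ?_)
  unfold uxP
  push_cast
  ring

/-- The fusion rule at level `L`. -/
def uxG (L k : ℕ) (a b : ℤ) : ℤ :=
  if a ≤ b + k ∧ b ≤ a + k ∧ (k : ℤ) ≤ a + b ∧ k + a + b ≤ 2 * L ∧ (k + a + b) % 2 = 0 then 1
  else 0

theorem uxG_rec (L k : ℕ) (hk : k + 1 ≤ L) (a b : ℤ) (ha : 0 ≤ a) (ha' : a ≤ L) (hb : 0 ≤ b)
    (hb' : b ≤ L) :
    uxG L (k + 2) a b = uxG L (k + 1) (a - 1) b + uxG L (k + 1) (a + 1) b - uxG L k a b := by
  unfold uxG
  push_cast
  split_ifs <;> omega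

theorem ux_cheb (L : ℕ) : ∀ k, k ≤ L + 1 → ∀ a b : Fin (L + 1),
    cheb (uxP L) k a b = uxG L k (a : ℕ) (b : ℕ) := by
  intro k
  induction k using Nat.strong_induction_on with
  | _ k ih =>
    intro hk a b
    have ha := a.2
    have hb := b.2
    match k, ih, hk with
    | 0, _, _ =>
      simp only [cheb, Matrix.one_apply, uxG, Fin.ext_iff]
      push_cast
      split_ifs <;> omega
    | 1, _, _ =>
      simp only [cheb, uxP, uxG]
      push_cast
      split_ifs <;> omega
    | k + 2, ih, hk =>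
      have h1 := ih (k + 1) (by omega) (by omega)
      have h0 := ih k (by omega) (by omega)
      simp only [cheb, Matrix.sub_apply, Matrix.mul_apply, h1, h0]
      have hs := ux_sum (R := ℤ) L (fun z => uxG L (k + 1) z (b : ℕ))
        (by unfold uxG; rw [if_neg (by omega)]) (by unfold uxG; rw [if_neg (by omega)]) a
      simp only [Int.cast_id] at hs
      rw [hs, uxG_rec L k (by omega) _ _ (by omega) (by omega) (by omega) (by omega)]

theorem ux_cheb_two (k : ℕ) :
    cheb (2 : Matrix (Fin (0 + 1)) (Fin (0 + 1)) ℤ) k = ((k + 1 : ℕ) : Matrix _ _ ℤ) := by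
  induction k using Nat.strong_induction_on with
  | _ k ih =>
    match k, ih with
    | 0, _ => simp [cheb]
    | 1, _ => simp only [cheb]; norm_num
    | k + 2, ih =>
      simp only [cheb]
      rw [ih (k + 1) (by omega), ih k (by omega), two_mul, sub_eq_iff_eq_add, ← Nat.cast_add,
        ← Nat.cast_add]
      congr 1
      omega

/-- One tensor factor for each label `m`. -/
theorem ux_fac (m : ℕ) : ∃ n : ℕ, ∃ P : Matrix (Fin (n + 1)) (Fin (n + 1)) ℤ,
    ∃ pf : Fin (n + 1) → ℝ, ∃ c : ℝ, (∀ a b, 0 ≤ P a b) ∧ (∀ a b, P a b = P b a) ∧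
      (m = 1 → P = 0) ∧ (∀ a, 0 < pf a) ∧ (∀ a, ∑ b, (P a b : ℝ) * pf b = c * pf a) ∧
      (∀ k, (m = 0 ∨ k + 2 ≤ m) → ∀ a b, 0 ≤ cheb P k a b) ∧
      (2 ≤ m → cheb P (m - 1) = 0) := by
  match m with
  | 0 =>
    refine ⟨0, 2, fun _ => 1, 2, ?_, ?_, ?_, ?_, ?_, ?_, ?_⟩
    · intro a b
      rw [Subsingleton.elim (α := Fin 1) a b]
      simp [Matrix.ofNat_apply]
    · intro a b
      rw [Subsingleton.elim (α := Fin 1) a b]
    · intro h; omega
    · intro a; exact one_pos
    · intro a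
      rw [Subsingleton.elim (α := Fin 1) a 0]
      simp [Matrix.ofNat_apply]
    · intro k _ a b
      rw [ux_cheb_two, Subsingleton.elim (α := Fin 1) a b, Matrix.natCast_apply]
      simp only [if_true]
      positivity
    · intro h; omega
  | 1 =>
    refine ⟨0, 0, fun _ => 1, 0, ?_, ?_, ?_, ?_, ?_, ?_, ?_⟩
    · intro a b; simp
    · intro a b; simp
    · intro _; rfl
    · intro a; exact one_pos
    · intro a; simp
    · intro k hk; omega
    · intro h; omega
  | L + 2 =>
    have hL : (0 : ℝ) < (L : ℝ) + 2 := by positivity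
    let θ : ℝ := Real.pi / ((L : ℝ) + 2)
    have hθ : 0 < θ := div_pos Real.pi_pos hL
    have hθ2 : ((L : ℝ) + 2) * θ = Real.pi := by
      simp only [θ]; field_simp
    refine ⟨L, uxP L, fun a => Real.sin ((((a : ℕ) : ℝ) + 1) * θ), 2 * Real.cos θ,
      ?_, ?_, ?_, ?_, ?_, ?_, ?_⟩
    · intro a b
      unfold uxP
      split_ifs <;> norm_num
    · intro a b
      unfold uxP
      split_ifs <;> omega
    · intro h; omega
    · intro a
      refine Real.sin_pos_of_pos_of_lt_pi (by positivity) ?_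
      rw [← hθ2]
      refine mul_lt_mul_of_pos_right ?_ hθ
      have : ((a : ℕ) : ℝ) < ((L + 1 : ℕ) : ℝ) := by exact_mod_cast a.2
      push_cast at this
      linarith
    · intro a
      have hs := ux_sum (R := ℝ) L (fun z => Real.sin (((z : ℝ) + 1) * θ)) (by simp)
        (by
          push_cast
          rw [show ((L : ℝ) + 1 + 1) = (L : ℝ) + 2 by ring, hθ2, Real.sin_pi]) a
      simp only [Int.cast_natCast] at hs
      rw [hs]
      push_cast
      rw [show (((a : ℕ) : ℝ) - 1 + 1) * θ = (((a : ℕ) : ℝ) + 1) * θ - θ by ring,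
        show (((a : ℕ) : ℝ) + 1 + 1) * θ = (((a : ℕ) : ℝ) + 1) * θ + θ by ring,
        Real.sin_sub, Real.sin_add]
      ring
    · intro k hk a b
      rw [ux_cheb L k (by omega)]
      unfold uxG
      split_ifs <;> norm_num
    · intro _
      ext a b
      rw [ux_cheb L _ (by omega)]
      unfold uxG
      rw [if_neg (by omega)]
      rfl

section Lift

variable {S : Type} [Fintype S] [DecidableEq S] {J : S → Type} [∀ m, Fintype (J m)]
  [∀ m, DecidableEq (J m)]

/-- A matrix acting on one coordinate of a product. -/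
def uxL (m : S) (Q : Matrix (J m) (J m) ℤ) : Matrix (∀ m', J m') (∀ m', J m') ℤ := fun x y =>
  if y = update x m (y m) then Q (x m) (y m) else 0

theorem uxL_sum {R : Type} [CommRing R] (m : S) (Q : Matrix (J m) (J m) ℤ) (x : ∀ m', J m')
    (F : (∀ m', J m') → R) :
    ∑ y, ((uxL m Q x y : ℤ) : R) * F y = ∑ j, ((Q (x m) j : ℤ) : R) * F (update x m j) := by
  have h1 : ∀ j, ((Q (x m) j : ℤ) : R) * F (update x m j) =
      ∑ y, if y = update x m j then ((Q (x m) j : ℤ) : R) * F y else 0 := by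
    intro j
    simp
  simp only [h1]
  rw [Finset.sum_comm]
  refine Finset.sum_congr rfl (fun y _ => ?_)
  rw [Finset.sum_eq_single (y m)]
  · unfold uxL
    split_ifs <;> simp
  · intro j _ hj
    rw [if_neg]
    intro h
    apply hj
    rw [h]
    simp
  · intro h; exact absurd (Finset.mem_univ _) h

theorem uxL_iff (m : S) (x y : ∀ m', J m') :
    y = update x m (y m) ↔ ∀ m', m' ≠ m → y m' = x m' := by
  rw [eq_update_iff]
  simp

theorem uxL_mul (m : S) (Q Q' : Matrix (J m) (J m) ℤ) :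
    uxL m Q * uxL m Q' = uxL m (Q * Q') := by
  ext x z
  have h := uxL_sum (R := ℤ) m Q x (fun y => uxL m Q' y z)
  simp only [Int.cast_id] at h
  rw [Matrix.mul_apply, h]
  simp only [uxL, update_idem, update_self, Matrix.mul_apply]
  split_ifs <;> simp

theorem uxL_one (m : S) : uxL (J := J) m 1 = 1 := by
  ext x y
  simp only [uxL, Matrix.one_apply]
  by_cases h : x = y
  · subst h; simp
  · rw [if_neg h]
    split_ifs with h1 h2
    · exfalso
      apply h
      rw [h1, ← h2]
      simp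
    · rfl
    · rfl

theorem uxL_sub (m : S) (Q Q' : Matrix (J m) (J m) ℤ) :
    uxL m Q - uxL m Q' = uxL m (Q - Q') := by
  ext x y
  simp only [uxL, Matrix.sub_apply]
  split_ifs <;> simp

theorem uxL_zero (m : S) : uxL (J := J) m 0 = 0 := by
  ext x y
  simp [uxL]

theorem uxL_cheb (m : S) (Q : Matrix (J m) (J m) ℤ) (k : ℕ) :
    cheb (uxL m Q) k = uxL m (cheb Q k) := by
  induction k using Nat.strong_induction_on with
  | _ k ih =>
    match k, ih with
    | 0, _ => simp only [cheb, uxL_one]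
    | 1, _ => simp only [cheb]
    | k + 2, ih =>
      simp only [cheb]
      rw [ih (k + 1) (by omega), ih k (by omega), uxL_mul, uxL_sub]

theorem uxL_nonneg (m : S) (Q : Matrix (J m) (J m) ℤ) (h : ∀ a b, 0 ≤ Q a b)
    (x y : ∀ m', J m') : 0 ≤ uxL m Q x y := by
  unfold uxL
  split_ifs
  · exact h _ _
  · exact le_rfl

theorem uxL_symm (m : S) (Q : Matrix (J m) (J m) ℤ) (h : ∀ a b, Q a b = Q b a)
    (x y : ∀ m', J m') : uxL m Q x y = uxL m Q y x := by
  unfold uxL
  have : y = update x m (y m) ↔ x = update y m (x m) := by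
    rw [uxL_iff, uxL_iff]
    exact ⟨fun h m' hm => (h m' hm).symm, fun h m' hm => (h m' hm).symm⟩
  by_cases h1 : y = update x m (y m)
  · rw [if_pos h1, if_pos (this.1 h1), h]
  · rw [if_neg h1, if_neg (fun h2 => h1 (this.2 h2))]

theorem uxL_eig (m : S) (Q : Matrix (J m) (J m) ℤ) (pf : ∀ m', J m' → ℝ) (c : ℝ)
    (h : ∀ a, ∑ b, (Q a b : ℝ) * pf m b = c * pf m a) (x : ∀ m', J m') :
    ∑ y, (uxL m Q x y : ℝ) * ∏ m', pf m' (y m') = c * ∏ m', pf m' (x m') := by
  rw [uxL_sum m Q x (fun y => ∏ m', pf m' (y m'))]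
  have h1 : ∀ j, ∏ m', pf m' (update x m j m') =
      pf m j * ∏ m' ∈ Finset.univ.erase m, pf m' (x m') := by
    intro j
    rw [← Finset.mul_prod_erase _ _ (Finset.mem_univ m), update_self]
    congr 1
    refine Finset.prod_congr rfl (fun m' hm => ?_)
    rw [update_of_ne (Finset.ne_of_mem_erase hm)]
  simp only [h1, ← mul_assoc]
  rw [← Finset.sum_mul, h, ← Finset.mul_prod_erase _ _ (Finset.mem_univ m), mul_assoc]

end Lift

theorem unf_exists {B : Type} [Fintype B] [DecidableEq B] (M : CoxeterMatrix B) :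
    Nonempty (Unf M) := by
  choose n P pf c h1 h2 h3 h4 h5 h6 h7 using ux_fac
  let S : Finset ℕ := Finset.univ.image (fun p : B × B => M p.1 p.2)
  let lab : B → B → S := fun s t =>
    ⟨M s t, Finset.mem_image.2 ⟨(s, t), Finset.mem_univ _, rfl⟩⟩
  let T : S → Matrix (∀ m : S, Fin (n m + 1)) (∀ m : S, Fin (n m + 1)) ℤ := fun m =>
    uxL (J := fun m : S => Fin (n m + 1)) m (P m)
  refine ⟨{
    I := ∀ m : S, Fin (n m + 1)
    A := fun s t => T (lab s t)
    A_nonneg := fun s t => uxL_nonneg _ _ (h1 _)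
    A_comm := fun s t => congrArg T (Subtype.ext (M.symmetric s t))
    A_symm := fun s t => uxL_symm _ _ (h2 _)
    A_self := fun s => ?_
    pf := fun x => ∏ m : S, pf m (x m)
    pf_pos := fun x => Finset.prod_pos (fun m _ => h4 _ _)
    c := fun s t => c (M s t)
    eig := fun s t x => uxL_eig (J := fun m : S => Fin (n m + 1)) (lab s t) (P (M s t))
      (fun m => pf m) (c (M s t)) (h5 _) x
    cheb_nonneg := fun s t k _ hk a b => ?_
    cheb_zero := fun s t hst h0 => ?_ }⟩
  · have : P (lab s s) = 0 := h3 _ (M.diagonal s)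
    simp only [T]
    rw [this, uxL_zero]
  · simp only [T]
    rw [uxL_cheb]
    exact uxL_nonneg (J := fun m : S => Fin (n m + 1)) (lab s t) _ (h6 _ k hk) a b
  · have h8 : M s t ≠ 1 := M.off_diagonal s t hst
    have : cheb (P (lab s t)) (M s t - 1) = 0 := h7 _ (by
      show 2 ≤ M s t
      omega)
    simp only [T]
    rw [uxL_cheb, this, uxL_zero]

end Vale.Agent.P203
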