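import Vale.Agent.P203.YGeo

namespace Vale.Agent.P203

open Function

variable {B W : Type} [Group W] {M : CoxeterMatrix B} [Fintype B] [DecidableEq B]
variable {cs : CoxeterSystem M W}

theorem yb_evd_cont (v : B → ℝ) : Continuous fun x : B → ℝ => evd x v := by
  change Continuous fun x : B → ℝ => ∑ s, x s * v s
  fun_prop

theorem yb_salLE_refl (a : W × Finset B) : salLE cs a a :=
  ⟨subset_rfl, by simp, fun v _ => by simp⟩

namespace Dat

variable (D : Dat cs)

theorem bump_nonneg (a : W × Finset B) (p : (B → ℝ) × (B → ℝ)) : 0 ≤ D.bump a p := by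
  unfold bump
  split_ifs
  · exact mul_nonneg (Finset.prod_nonneg fun _ _ => Finset.prod_nonneg fun _ _ => le_max_left _ _)
      (Finset.prod_nonneg fun _ _ => le_max_left _ _)
  · exact le_rfl

theorem bump_continuous (a : W × Finset B) : Continuous (D.bump a) := by
  unfold bump
  split_ifs
  · refine Continuous.mul (continuous_finsetProd _ fun w _ => continuous_finsetProd _ fun s _ =>
      continuous_const.max (Continuous.sub ((yb_evd_cont _).comp continuous_fst)
        (continuous_finsetSum _ fun w' _ => continuous_finsetSum _ fun t _ =>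
          ((yb_evd_cont _).comp continuous_fst).abs)))
      (continuous_finsetProd _ fun t _ => continuous_const.max ((yb_evd_cont _).comp continuous_snd))
  · exact continuous_const

theorem yb_evd (g u : W) (x v : B → ℝ) : evd (D.dact g x) (D.fr (g * u) v) = evd x (D.fr u v) := by
  rw [D.evd_dact, ← Module.End.mul_apply, ← map_mul, inv_mul_cancel_left]

theorem bump_dact (g u : W) (T : Finset B) (p : (B → ℝ) × (B → ℝ)) :
    D.bump (g * u, T) (D.dact g p.1, D.dact g p.2) = D.bump (u, T) p := by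
  unfold bump
  simp only [mul_assoc, D.yb_evd]

theorem yb_ne {a : W × Finset B} {p : (B → ℝ) × (B → ℝ)} (h : D.bump a p ≠ 0) :
    Sph cs a.2 ∧ (∀ w ∈ WP cs a.2, ∀ s ∉ a.2, 0 < evd p.1 (D.fr (a.1 * w) (al s)) ∧
      ∀ t ∈ a.2, |evd p.1 (D.fr (a.1 * w) (al t))| < evd p.1 (D.fr (a.1 * w) (al s))) ∧
      ∀ t ∈ a.2, 0 < evd p.2 (D.fr a.1 (al t)) := by
  unfold bump at h
  split_ifs at h with hs
  · have hmax : ∀ r : ℝ, max 0 r ≠ 0 → 0 < r := fun r hr => by
      by_contra h'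
      exact hr (max_eq_left (not_lt.1 h'))
    refine ⟨hs, fun w hw s hsT => ?_, fun t ht => hmax _
      (Finset.prod_ne_zero_iff.1 (right_ne_zero_of_mul h) t ht)⟩
    have hw' : w ∈ hs.toFinset := (Set.Finite.mem_toFinset hs).2 hw
    have h1 := hmax _ (Finset.prod_ne_zero_iff.1 (Finset.prod_ne_zero_iff.1
      (left_ne_zero_of_mul h) w hw') s (by simpa using hsT))
    have h2 : ∀ w' ∈ hs.toFinset, 0 ≤ ∑ t ∈ a.2, |evd p.1 (D.fr (a.1 * w') (al t))| :=
      fun w' _ => Finset.sum_nonneg fun _ _ => abs_nonneg _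
    refine ⟨by linarith [Finset.sum_nonneg h2], fun t ht => ?_⟩
    have h3 := Finset.single_le_sum h2 hw'
    have h4 := Finset.single_le_sum (f := fun t => |evd p.1 (D.fr (a.1 * w) (al t))|)
      (fun _ _ => abs_nonneg _) ht
    linarith
  · exact absurd rfl h

theorem bump_mem {a : W × Finset B} {p : (B → ℝ) × (B → ℝ)} (h : D.bump a p ≠ 0) :
    Sph cs a.2 ∧ p ∈ D.Uh a :=
  ⟨(D.yb_ne h).1, fun w hw s hs => ((D.yb_ne h).2.1 w hw s hs).1, (D.yb_ne h).2.2⟩

theorem yb_cham {a : W × Finset B} {p : (B → ℝ) × (B → ℝ)} (h : D.bump a p ≠ 0) :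
    ∃ w ∈ WP cs a.2, D.InCh Finset.univ (evd p.1) (a.1 * w) := by
  obtain ⟨w, hw, hin⟩ := D.cover (D.yb_ne h).1 (evd p.1 ∘ₗ D.fr a.1)
  refine ⟨w, hw, fun s _ => ?_⟩
  by_cases hs : s ∈ a.2
  · have := hin s hs
    rwa [LinearMap.comp_apply, ← Module.End.mul_apply, ← map_mul] at this
  · exact ((D.yb_ne h).2.1 w hw s hs).1.le

theorem yb_univ (w : W) : w ∈ WP cs (Finset.univ : Finset B) := by
  rw [WP_univ]; trivial

theorem yb_le {a b : W × Finset B} {p : (B → ℝ) × (B → ℝ)} (ha : D.bump a p ≠ 0)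
    (hb : D.bump b p ≠ 0) (hab : a.2 ⊆ b.2) : salLE cs a b := by
  obtain ⟨w, hw, hin⟩ := D.yb_cham ha
  obtain ⟨w', hw', hin'⟩ := D.yb_cham hb
  have h1 : (a.1 * w)⁻¹ * (b.1 * w') ∈ WP cs a.2 := by
    refine D.stab_ind (p := fun g => (a.1 * w)⁻¹ * g ∈ WP cs a.2) (fun u _ s _ hu h0 hp => ?_)
      (yb_univ _) (yb_univ _) hin hin' (by simp)
    have hs : s ∈ a.2 := by
      by_contra hs
      have := ((D.yb_ne ha).2.1 w hw s hs).1
      rw [D.stab_coord (yb_univ _) (yb_univ _) hin hu, h0] at this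
      exact lt_irrefl _ this
    rw [← mul_assoc]
    exact mul_mem hp (simple_mem_WP hs)
  have h2 : b.1⁻¹ * a.1 ∈ WP cs b.2 := by
    have := mul_mem (mul_mem hw' (inv_mem (WP_mono hab h1))) (inv_mem (WP_mono hab hw))
    simpa [mul_assoc] using this
  refine ⟨hab, h2, D.min_iff.2 fun t ht => ?_⟩
  rcases length_lt_or (cs := cs) (b.1⁻¹ * a.1) t with h | h
  · exact h
  · exfalso
    have h3 := (D.yb_ne ha).2.2 t ht
    have e : D.fr a.1 (al t) = D.fr b.1 (D.fr (b.1⁻¹ * a.1) (al t)) := by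
      rw [← Module.End.mul_apply, ← map_mul, mul_inv_cancel_left]
    rw [e, D.eval_supp (T := b.2) _ (fun r hr => by
      rw [D.fr_off h2 _ hr, al, Pi.single_eq_of_ne (fun h : r = t => hr (h ▸ hab ht))])] at h3
    refine absurd h3 (not_lt.2 (Finset.sum_nonpos fun s hs => ?_))
    exact mul_nonpos_of_nonpos_of_nonneg (D.fsign_neg h s) ((D.yb_ne hb).2.2 s hs).le

theorem bump_cmp {a b : W × Finset B} {p : (B → ℝ) × (B → ℝ)} (ha : D.bump a p ≠ 0)
    (hb : D.bump b p ≠ 0) : salLE cs a b ∨ salLE cs b a := by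
  by_cases h1 : a.2 ⊆ b.2
  · exact Or.inl (D.yb_le ha hb h1)
  by_cases h2 : b.2 ⊆ a.2
  · exact Or.inr (D.yb_le hb ha h2)
  exfalso
  obtain ⟨t, ht, ht'⟩ := Finset.not_subset.1 h1
  obtain ⟨s, hs, hs'⟩ := Finset.not_subset.1 h2
  obtain ⟨w, hw, hin⟩ := D.yb_cham ha
  obtain ⟨w', hw', hin'⟩ := D.yb_cham hb
  have k1 := ((D.yb_ne ha).2.1 w hw s hs').2 t ht
  have k2 := ((D.yb_ne hb).2.1 w' hw' t ht').2 s hs
  rw [← D.stab_coord (yb_univ _) (yb_univ _) hin hin',
    ← D.stab_coord (yb_univ _) (yb_univ _) hin hin'] at k2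
  linarith [le_abs_self (evd p.1 (D.fr (a.1 * w) (al t))),
    le_abs_self (evd p.1 (D.fr (a.1 * w) (al s)))]

theorem exists_bump (hD : D.Std) {p : (B → ℝ) × (B → ℝ)} (hp : p ∈ YSet M) :
    ∃ a, D.bump a p ≠ 0 := by
  obtain ⟨u, T, hT, h1, h2, h3⟩ := D.exists_cell hD hp
  have key : ∀ w ∈ WP cs T, ∀ r, evd p.1 (D.fr (u * w) (al r)) = evd p.1 (D.fr u (al r)) := by
    intro w hw
    refine D.WP_induction (p := fun w => ∀ r, evd p.1 (D.fr (u * w) (al r)) =
      evd p.1 (D.fr u (al r))) (by simp) (fun w _ s hs _ ih r => ?_) hw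
    rw [← mul_assoc, D.stab_step (T := T) ((ih s).trans (h2 s hs)), ih]
  refine ⟨(u, T), ?_⟩
  unfold bump
  rw [dif_pos hT]
  refine mul_ne_zero (Finset.prod_ne_zero_iff.2 fun w hw => Finset.prod_ne_zero_iff.2
    fun s hs => ?_) (Finset.prod_ne_zero_iff.2 fun t ht => (lt_max_of_lt_right (h3 t ht)).ne')
  have e : ∑ w' ∈ hT.toFinset, ∑ t ∈ T, |evd p.1 (D.fr (u * w') (al t))| = 0 :=
    Finset.sum_eq_zero fun w' hw' => Finset.sum_eq_zero fun t ht => by
      rw [key w' ((Set.Finite.mem_toFinset hT).1 hw'), h2 t ht, abs_zero]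
  simp only
  rw [e, sub_zero, key w ((Set.Finite.mem_toFinset hT).1 hw)]
  exact (lt_max_of_lt_right (h1 s (by simpa using hs))).ne'

theorem salLE_finite {a : W × Finset B} (ha : Sph cs a.2) :
    {b | Sph cs b.2 ∧ (salLE cs a b ∨ salLE cs b a)}.Finite := by
  have h1 : (⋃ T ∈ {T : Finset B | Sph cs T},
      (fun w => (a.1 * w⁻¹, T)) '' (WP cs T : Set W)).Finite :=
    (Set.toFinite _).biUnion (fun T hT => Set.Finite.image _ hT)
  have h2 : (⋃ T : Finset B, (fun w => (a.1 * w, T)) '' (WP cs a.2 : Set W)).Finite :=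
    Set.finite_iUnion (fun T => Set.Finite.image _ ha)
  refine (h1.union h2).subset ?_
  rintro b ⟨hb, ⟨-, hw, -⟩ | ⟨-, hw, -⟩⟩
  · exact Or.inl (Set.mem_biUnion hb ⟨_, hw, Prod.ext (by simp) rfl⟩)
  · exact Or.inr (Set.mem_iUnion.2 ⟨b.2, _, hw, Prod.ext (by simp) rfl⟩)

/-- Left translation of the vertices. -/
def ybE (g : W) : W × Finset B ≃ W × Finset B :=
  Equiv.prodCongr (Equiv.mulLeft g) (Equiv.refl _)

/-- The map to the Salvetti complex. -/
theorem exists_toSal (hD : D.Std) : ∃ Φ : C(YSp M, Sal cs),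
    (∀ p a, (Φ p).1 a ≠ 0 → p.1 ∈ D.Uh a) ∧
    ∀ (g : W) (p q : YSp M), q.1 = (D.dact g p.1.1, D.dact g p.1.2) →
      ∀ u T, (Φ q).1 (g * u, T) = (Φ p).1 (u, T) := by
  have hsub : ∀ {a₀ : W × Finset B} {p : (B → ℝ) × (B → ℝ)} (h : D.bump a₀ p ≠ 0),
      support (fun a => D.bump a p) ⊆ (salLE_finite (D.bump_mem h).1).toFinset := by
    intro a₀ p h a ha
    simpa using ⟨(D.bump_mem ha).1, D.bump_cmp h ha⟩
  have hfin : ∀ p : YSp M, (support (fun a => D.bump a p.1)).Finite := fun p => by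
    obtain ⟨a₀, h⟩ := D.exists_bump hD p.2
    exact (Finset.finite_toSet _).subset (hsub h)
  let S : YSp M → ℝ := fun p => ∑ᶠ a, D.bump a p.1
  have hS : ∀ p, 0 < S p := fun p => by
    obtain ⟨a₀, h⟩ := D.exists_bump hD p.2
    exact finsum_pos (fun a => D.bump_nonneg a _) ⟨a₀, (D.bump_nonneg _ _).lt_of_ne' h⟩ (hfin p)
  have hSc : Continuous S := by
    rw [continuous_iff_continuousAt]
    intro p₀
    obtain ⟨a₀, h⟩ := D.exists_bump hD p₀.2
    have hc : Continuous fun p : YSp M =>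
        ∑ a ∈ (salLE_finite (D.bump_mem h).1).toFinset, D.bump a p.1 :=
      continuous_finsetSum _ fun a _ => (D.bump_continuous a).comp continuous_subtype_val
    refine hc.continuousAt.congr ?_
    have ho : IsOpen {p : YSp M | D.bump a₀ p.1 ≠ 0} :=
      isOpen_ne_fun ((D.bump_continuous a₀).comp continuous_subtype_val) continuous_const
    filter_upwards [ho.mem_nhds h] with p hp
    exact (finsum_eq_sum_of_support_subset _ (hsub hp)).symm
  have hne : ∀ (p : YSp M) a, D.bump a p.1 / S p ≠ 0 → D.bump a p.1 ≠ 0 := fun p a h h' =>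
    h (by rw [h', zero_div])
  refine ⟨⟨fun p => ⟨fun a => D.bump a p.1 / S p,
    fun a => div_nonneg (D.bump_nonneg _ _) (hS p).le, (hfin p).subset (fun a ha => hne p a ha),
    fun a ha => (D.bump_mem (hne p a ha)).1,
    fun a ha b hb _ => D.bump_cmp (hne p a ha) (hne p b hb), ?_⟩, ?_⟩,
    fun p a ha => (D.bump_mem (hne p a ha)).2, fun g p q hq u T => ?_⟩
  · simp only [div_eq_mul_inv]
    rw [← finsum_mul]
    exact mul_inv_cancel₀ (hS p).ne'
  · exact Continuous.subtype_mk (continuous_pi fun a =>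
      ((D.bump_continuous a).comp continuous_subtype_val).div hSc (fun p => (hS p).ne')) _
  · have e : S q = S p := by
      simp only [S]
      rw [← finsum_comp_equiv (ybE g), hq]
      exact finsum_congr fun a => D.bump_dact g a.1 a.2 p.1
    change D.bump (g * u, T) q.1 / S q = D.bump (u, T) p.1 / S p
    rw [e, hq, D.bump_dact]

end Dat

end Vale.Agent.P203
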