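import Vale.Agent.P203.YDefs
import Vale.Agent.P203.Sign

namespace Vale.Agent.P203

/-- One tensor factor for each label, with the explicit eigenvalue. -/
theorem ydat_fac (m : ℕ) : ∃ n : ℕ, ∃ P : Matrix (Fin (n + 1)) (Fin (n + 1)) ℤ,
    ∃ pf : Fin (n + 1) → ℝ, ∃ c : ℝ, (∀ a b, 0 ≤ P a b) ∧ (∀ a b, P a b = P b a) ∧
      (m = 1 → P = 0) ∧ (∀ a, 0 < pf a) ∧ (∀ a, ∑ b, (P a b : ℝ) * pf b = c * pf a) ∧
      (∀ k, (m = 0 ∨ k + 2 ≤ m) → ∀ a b, 0 ≤ cheb P k a b) ∧
      (2 ≤ m → cheb P (m - 1) = 0) ∧ (m ≠ 1 → c = 2 * Real.cos (Real.pi / (m : ℝ))) := by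
  match m with
  | 0 =>
    refine ⟨0, 2, fun _ => 1, 2, ?_, ?_, ?_, ?_, ?_, ?_, ?_, fun _ => by simp⟩
    · intro a b
      rw [Subsingleton.elim (α := Fin 1) a b]
      simp [Matrix.ofNat_apply]
    · intro a b
      rw [Subsingleton.elim (α := Fin 1) a b]
    · intro h; omega
    · intro a; exact one_pos
    · intro a
      rw [Subsingleton.elim (α := Fin 1) a 0]
      simp [Matrix.ofNat_apply]
    · intro k _ a b
      rw [ux_cheb_two, Subsingleton.elim (α := Fin 1) a b, Matrix.natCast_apply]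
      simp only [if_true]
      positivity
    · intro h; omega
  | 1 =>
    refine ⟨0, 0, fun _ => 1, 0, ?_, ?_, ?_, ?_, ?_, ?_, ?_, fun h => absurd rfl h⟩
    · intro a b; simp
    · intro a b; simp
    · intro _; rfl
    · intro a; exact one_pos
    · intro a; simp
    · intro k hk; omega
    · intro h; omega
  | L + 2 =>
    have hL : (0 : ℝ) < (L : ℝ) + 2 := by positivity
    let θ : ℝ := Real.pi / ((L : ℝ) + 2)
    have hθ : 0 < θ := div_pos Real.pi_pos hL
    have hθ2 : ((L : ℝ) + 2) * θ = Real.pi := by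
      simp only [θ]; field_simp
    refine ⟨L, uxP L, fun a => Real.sin ((((a : ℕ) : ℝ) + 1) * θ), 2 * Real.cos θ,
      ?_, ?_, ?_, ?_, ?_, ?_, ?_, fun _ => by simp [θ]⟩
    · intro a b
      unfold uxP
      split_ifs <;> norm_num
    · intro a b
      unfold uxP
      split_ifs <;> omega
    · intro h; omega
    · intro a
      refine Real.sin_pos_of_pos_of_lt_pi (by positivity) ?_
      rw [← hθ2]
      refine mul_lt_mul_of_pos_right ?_ hθ
      have : ((a : ℕ) : ℝ) < ((L + 1 : ℕ) : ℝ) := by exact_mod_cast a.2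
      push_cast at this
      linarith
    · intro a
      have hs := ux_sum (R := ℝ) L (fun z => Real.sin (((z : ℝ) + 1) * θ)) (by simp)
        (by
          push_cast
          rw [show ((L : ℝ) + 1 + 1) = (L : ℝ) + 2 by ring, hθ2, Real.sin_pi]) a
      simp only [Int.cast_natCast] at hs
      rw [hs]
      push_cast
      rw [show (((a : ℕ) : ℝ) - 1 + 1) * θ = (((a : ℕ) : ℝ) + 1) * θ - θ by ring,
        show (((a : ℕ) : ℝ) + 1 + 1) * θ = (((a : ℕ) : ℝ) + 1) * θ + θ by ring,
        Real.sin_sub, Real.sin_add]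
      ring
    · intro k hk a b
      rw [ux_cheb L k (by omega)]
      unfold uxG
      split_ifs <;> norm_num
    · intro _
      ext a b
      rw [ux_cheb L _ (by omega)]
      unfold uxG
      rw [if_neg (by omega)]
      rfl

theorem ydat_unf {B : Type} [Fintype B] [DecidableEq B] (M : CoxeterMatrix B) :
    ∃ U : Unf M, ∀ s t, s ≠ t → U.c s t = 2 * Real.cos (Real.pi / (M s t : ℝ)) := by
  choose n P pf c h1 h2 h3 h4 h5 h6 h7 h9 using ydat_fac
  let S : Finset ℕ := Finset.univ.image (fun p : B × B => M p.1 p.2)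
  let lab : B → B → S := fun s t =>
    ⟨M s t, Finset.mem_image.2 ⟨(s, t), Finset.mem_univ _, rfl⟩⟩
  let T : S → Matrix (∀ m : S, Fin (n m + 1)) (∀ m : S, Fin (n m + 1)) ℤ := fun m =>
    uxL (J := fun m : S => Fin (n m + 1)) m (P m)
  refine ⟨{
    I := ∀ m : S, Fin (n m + 1)
    A := fun s t => T (lab s t)
    A_nonneg := fun s t => uxL_nonneg _ _ (h1 _)
    A_comm := fun s t => congrArg T (Subtype.ext (M.symmetric s t))
    A_symm := fun s t => uxL_symm _ _ (h2 _)
    A_self := fun s => ?_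
    pf := fun x => ∏ m : S, pf m (x m)
    pf_pos := fun x => Finset.prod_pos (fun m _ => h4 _ _)
    c := fun s t => c (M s t)
    eig := fun s t x => uxL_eig (J := fun m : S => Fin (n m + 1)) (lab s t) (P (M s t))
      (fun m => pf m) (c (M s t)) (h5 _) x
    cheb_nonneg := fun s t k _ hk a b => ?_
    cheb_zero := fun s t hst h0 => ?_ }, fun s t hst => h9 _ (M.off_diagonal s t hst)⟩
  · have : P (lab s s) = 0 := h3 _ (M.diagonal s)
    simp only [T]
    rw [this, uxL_zero]
  · simp only [T]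
    rw [uxL_cheb]
    exact uxL_nonneg (J := fun m : S => Fin (n m + 1)) (lab s t) _ (h6 _ k hk) a b
  · have h8 : M s t ≠ 1 := M.off_diagonal s t hst
    have : cheb (P (lab s t)) (M s t - 1) = 0 := h7 _ (by
      show 2 ≤ M s t
      omega)
    simp only [T]
    rw [uxL_cheb, this, uxL_zero]

variable {B W : Type} [Group W] {M : CoxeterMatrix B} [Fintype B] [DecidableEq B]

theorem dat_exists_std (cs : CoxeterSystem M W) : ∃ D : Dat cs, D.Std := by
  obtain ⟨U, hU⟩ := ydat_unf M
  obtain ⟨rho, hrho⟩ := rho_exists cs U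
  obtain ⟨fr, hfr⟩ := fr_exists cs U
  obtain ⟨a₀⟩ := U.ne
  have hp := U.pf_pos a₀
  have hz : ∀ s t a b, ((U.A s t a b).toNat : ℤ) = U.A s t a b := fun s t a b =>
    Int.toNat_of_nonneg (U.A_nonneg s t a b)
  refine ⟨{ I := U.I, mu := fun i j => (U.A i.1 j.1 i.2 j.2).toNat, mu_symm := ?_, mu_lab := ?_
            pf := U.pf, pf_pos := U.pf_pos, c := U.c, c_symm := ?_, c_nonneg := ?_, c_self := ?_
            eig := ?_, rho := rho, fr := fr, rho_simple := ?_, fr_simple := hfr
            sign := sign_thm cs U rho hrho }, hU⟩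
  · intro i j
    rw [U.A_comm i.1, U.A_symm]
  · intro i j h
    rw [h, U.A_self]
    rfl
  · intro s t
    have h1 := U.eig s t a₀
    have h2 := U.eig t s a₀
    rw [U.A_comm t s, h1] at h2
    exact mul_right_cancel₀ hp.ne' h2
  · intro s t
    have h1 := U.eig s t a₀
    have h2 : 0 ≤ U.c s t * U.pf a₀ := by
      rw [← h1]
      exact Finset.sum_nonneg fun b _ =>
        mul_nonneg (by exact_mod_cast U.A_nonneg s t a₀ b) (U.pf_pos b).le
    exact nonneg_of_mul_nonneg_left h2 hp
  · intro s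
    have h1 := U.eig s s a₀
    rw [U.A_self] at h1
    simp only [Matrix.zero_apply, Int.cast_zero, zero_mul, Finset.sum_const_zero] at h1
    exact (mul_eq_zero.1 h1.symm).resolve_right hp.ne'
  · intro s t a
    rw [← U.eig s t a]
    refine Finset.sum_congr rfl fun b _ => ?_
    rw [← Int.cast_natCast, hz]
  · intro s x j
    simp only [hz]
    exact hrho s x j

end Vale.Agent.P203
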