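import Vale.Agent.P203.YStmt
import Vale.Agent.P203.DatDefs

namespace Vale.Agent.P203

variable {B W : Type} [Group W] {M : CoxeterMatrix B} [Fintype B] [DecidableEq B]
variable {cs : CoxeterSystem M W}

/-- The functional with the given coordinates. -/
def evd (x : B → ℝ) : Module.Dual ℝ (B → ℝ) where
  toFun v := ∑ s, x s * v s
  map_add' v v' := by simp [mul_add, Finset.sum_add_distrib]
  map_smul' c v := by simp [Finset.mul_sum, mul_left_comm]

namespace Dat

variable (D : Dat cs)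

/-- The form is the canonical one. -/
def Std : Prop := ∀ s t, s ≠ t → D.c s t = 2 * Real.cos (Real.pi / (M s t : ℝ))

/-- The contragredient action in coordinates. -/
def dact (w : W) (x : B → ℝ) : B → ℝ := fun t => evd x (D.fr w⁻¹ (al t))

/-- The convex open sets attached to the cells. -/
def Uh (a : W × Finset B) : Set ((B → ℝ) × (B → ℝ)) :=
  {p | (∀ w ∈ WP cs a.2, ∀ s ∉ a.2, 0 < evd p.1 (D.fr (a.1 * w) (al s))) ∧
    ∀ t ∈ a.2, 0 < evd p.2 (D.fr a.1 (al t))}

open Classical in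
/-- The bump functions. -/
noncomputable def bump (a : W × Finset B) (p : (B → ℝ) × (B → ℝ)) : ℝ :=
  if h : Sph cs a.2 then
    (∏ w ∈ h.toFinset, ∏ s ∈ Finset.univ \ a.2, max 0 (evd p.1 (D.fr (a.1 * w) (al s)) -
      ∑ w' ∈ h.toFinset, ∑ t ∈ a.2, |evd p.1 (D.fr (a.1 * w') (al t))|)) *
      ∏ t ∈ a.2, max 0 (evd p.2 (D.fr a.1 (al t)))
  else 0

/-- The vertices of the embedded Salvetti complex. -/
def vert (a : W × Finset B) : (B → ℝ) × (B → ℝ) :=
  (D.dact a.1 fun s => if s ∈ a.2 then 0 else 1, D.dact a.1 fun _ => 1)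

end Dat

/-- The underlying set of `YSp`. -/
def YSet (M : CoxeterMatrix B) : Set ((B → ℝ) × (B → ℝ)) :=
  {p | p.1 ∈ interior (titsCone M) ∧ ∀ H ∈ reflHyp M, ¬ (p.1 ∈ H ∧ p.2 ∈ H)}

end Vale.Agent.P203
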