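import Mathlib
import Vale.Agent.P203.TopPi

namespace Vale.Agent.P203

variable {X Z : Type} [TopologicalSpace X] [TopologicalSpace Z]

theorem pi_of_dominated (φ : C(X, Z)) (ψ : C(Z, X))
    (h : (ContinuousMap.id X).Homotopic (ψ.comp φ)) (n : ℕ)
    (hZ : ∀ z : Z, Subsingleton (HomotopyGroup.Pi n Z z)) (x : X) :
    Subsingleton (HomotopyGroup.Pi n X x) := by
  obtain ⟨H⟩ := h
  refine pi_subsingleton fun f => ?_
  let g : GenLoop (Fin n) Z (φ x) := ⟨φ.comp f.1, fun y hy => congrArg φ (f.2 y hy)⟩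
  have h1 : GenLoop.Homotopic g GenLoop.const :=
    Quotient.exact ((hZ _).elim (Quotient.mk _ _) (Quotient.mk _ _))
  obtain ⟨K⟩ := h1
  let H1 : f.1.Homotopy (ψ.comp g.1) :=
    ⟨⟨fun z => H (z.1, f.1 z.2), by fun_prop⟩, fun y => H.apply_zero _, fun y => H.apply_one _⟩
  let H2 : (ψ.comp g.1).Homotopy (ContinuousMap.const _ (ψ (φ x))) :=
    ⟨⟨fun z => ψ (K z), by fun_prop⟩, fun y => congrArg ψ (K.apply_zero y),
      fun y => congrArg ψ (K.apply_one y)⟩
  let γ : Path x (ψ (φ x)) := ⟨⟨fun t => H (t, x), by fun_prop⟩, H.apply_zero _, H.apply_one _⟩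
  refine pi_null f (H1.trans H2).toContinuousMap (γ.trans (Path.refl _)).toContinuousMap
    (Path.source _) (fun y => (H1.trans H2).apply_zero y)
    (fun y => ((H1.trans H2).apply_one y).trans (Path.target _).symm) fun t y hy => ?_
  show (H1.trans H2) (t, y) = (γ.trans (Path.refl _)) t
  rw [ContinuousMap.Homotopy.trans_apply, Path.trans_apply]
  split_ifs with ht
  · exact congrArg (fun w => H (_, w)) (f.2 y hy)
  · exact congrArg ψ ((K.eq_fst _ hy).trans (g.2 y hy))

theorem pathConnected_of_dominated (φ : C(X, Z)) (ψ : C(Z, X))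
    (h : (ContinuousMap.id X).Homotopic (ψ.comp φ)) [PathConnectedSpace Z] :
    PathConnectedSpace X := by
  obtain ⟨H⟩ := h
  obtain ⟨z⟩ : Nonempty Z := inferInstance
  have j : ∀ x, Joined x (ψ (φ x)) := fun x =>
    ⟨⟨⟨fun t => H (t, x), by fun_prop⟩, H.apply_zero _, H.apply_one _⟩⟩
  refine ⟨⟨ψ z⟩, fun x y => (j x).trans (Joined.trans ?_ (j y).symm)⟩
  exact ⟨(PathConnectedSpace.somePath (φ x) (φ y)).map ψ.continuous⟩

end Vale.Agent.P203
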