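import Vale.Agent.P203.YBump

namespace Vale.Agent.P203

open Function

variable {B W : Type} [Group W] {M : CoxeterMatrix B} [Fintype B] [DecidableEq B]
variable {cs : CoxeterSystem M W}

theorem ye_evd_comm (x v : B → ℝ) : evd x v = evd v x :=
  Finset.sum_congr rfl fun _ _ => mul_comm _ _

namespace Dat

variable (D : Dat cs)

include D in
theorem ye_eq {a b : W × Finset B} (h : salLE cs a b) (h' : a.2 = b.2) : a = b := by
  have : b.1⁻¹ * a.1 = 1 := by
    by_contra hne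
    obtain ⟨s, hs, hlt⟩ := D.exists_desc h.2.1 hne
    exact absurd (D.min_iff.1 h.2.2 s (h' ▸ hs)) (not_lt.2 hlt.le)
  exact Prod.ext (inv_mul_eq_one.1 this).symm h'

theorem ye_x {a b : W × Finset B} (h : salLE cs a b) {w : W} (hw : w ∈ WP cs a.2) (s : B) :
    evd (D.vert b).1 (D.fr (a.1 * w) (al s)) = if s ∈ b.2 then 0 else 1 := by
  have hg : b.1⁻¹ * (a.1 * w) ∈ WP cs b.2 := by
    rw [← mul_assoc]; exact mul_mem h.2.1 (WP_mono h.1 hw)
  simp only [vert]
  rw [D.evd_dact, ← Module.End.mul_apply, ← map_mul]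
  change ∑ r, (if r ∈ b.2 then (0 : ℝ) else 1) * D.fr (b.1⁻¹ * (a.1 * w)) (al s) r = _
  have e : ∀ r, (if r ∈ b.2 then (0 : ℝ) else 1) * D.fr (b.1⁻¹ * (a.1 * w)) (al s) r =
      if r = s then (if s ∈ b.2 then 0 else 1) else 0 := by
    intro r
    by_cases hr : r ∈ b.2
    · rw [if_pos hr, zero_mul]
      split_ifs with h1 h2
      · rfl
      · exact absurd (h1 ▸ hr) h2
      · rfl
    · rw [if_neg hr, one_mul, D.fr_off hg _ hr]
      by_cases h1 : r = s
      · subst h1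
        simp [al, hr]
      · rw [if_neg h1, al, Pi.single_eq_of_ne h1]
  simp only [e, Finset.sum_ite_eq', Finset.mem_univ, if_true]

theorem ye_y {a b : W × Finset B} (h : salLE cs a b) {t : B} (ht : t ∈ a.2) :
    0 < evd (D.vert b).2 (D.fr a.1 (al t)) := by
  simp only [vert]
  rw [D.evd_dact, ← Module.End.mul_apply, ← map_mul]
  change 0 < ∑ r, (1 : ℝ) * D.fr (b.1⁻¹ * a.1) (al t) r
  have h1 := D.fsign_pos (D.min_iff.1 h.2.2 t ht)
  obtain ⟨r, hr⟩ := Function.ne_iff.1 (D.fr_al_ne (b.1⁻¹ * a.1) t)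
  simp only [one_mul]
  exact Finset.sum_pos' (fun r _ => h1 r) ⟨r, Finset.mem_univ _, lt_of_le_of_ne (h1 r) hr.symm⟩

theorem ye_mem (z : Sal cs) : ∃ a, z.1 a ≠ 0 ∧ (∑ᶠ b, z.1 b • D.vert b) ∈ D.Uh a := by
  obtain ⟨h0, hfin, -, hch, hsum⟩ := z.2
  have hne : hfin.toFinset.Nonempty := by
    by_contra hn
    rw [Finset.not_nonempty_iff_eq_empty] at hn
    rw [finsum_eq_sum_of_support_subset _ (s := hfin.toFinset) (by simp), hn] at hsum
    simp at hsum
  obtain ⟨a, ha, hmin⟩ := hfin.toFinset.exists_min_image (fun a => a.2.card) hne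
  have ha' : z.1 a ≠ 0 := by simpa using ha
  have hle : ∀ b ∈ hfin.toFinset, salLE cs a b := by
    intro b hb
    by_cases hab : a = b
    · exact hab ▸ yb_salLE_refl a
    · rcases hch ha' (by simpa using hb) hab with h | h
      · exact h
      · exact absurd (D.ye_eq h (Finset.eq_of_subset_of_card_le h.1 (hmin b hb))).symm hab
  refine ⟨a, ha', ?_⟩
  rw [finsum_eq_sum_of_support_subset _ (s := hfin.toFinset) (fun b hb => by
    have : z.1 b ≠ 0 := fun h => hb (by simp only [h, zero_smul])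
    simpa using this)]
  have hpos : 0 < z.1 a := lt_of_le_of_ne (h0 a) ha'.symm
  refine ⟨fun w hw s hs => ?_, fun t ht => ?_⟩
  · rw [ye_evd_comm, Prod.fst_sum, map_sum]
    refine Finset.sum_pos' (fun b hb => ?_) ⟨a, ha, ?_⟩
    · rw [Prod.smul_fst, map_smul, ye_evd_comm, D.ye_x (hle b hb) hw, smul_eq_mul]
      refine mul_nonneg (h0 b) ?_
      split_ifs <;> norm_num
    · rw [Prod.smul_fst, map_smul, ye_evd_comm, D.ye_x (hle a ha) hw, smul_eq_mul, if_neg hs,
        mul_one]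
      exact hpos
  · rw [ye_evd_comm, Prod.snd_sum, map_sum]
    refine Finset.sum_pos' (fun b hb => ?_) ⟨a, ha, ?_⟩
    · rw [Prod.smul_snd, map_smul, ye_evd_comm, smul_eq_mul]
      exact mul_nonneg (h0 b) (D.ye_y (hle b hb) ht).le
    · rw [Prod.smul_snd, map_smul, ye_evd_comm, smul_eq_mul]
      exact mul_pos hpos (D.ye_y (hle a ha) ht)

/-- The map from the Salvetti complex. -/
theorem exists_ofSal (hD : D.Std) : ∃ Ψ : C(Sal cs, YSp M),
    (∀ z : Sal cs, ∃ a, z.1 a ≠ 0 ∧ (Ψ z).1 ∈ D.Uh a) ∧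
    ∀ (g : W) (z z' : Sal cs), (∀ u T, z'.1 (g * u, T) = z.1 (u, T)) →
      (Ψ z').1 = (D.dact g (Ψ z).1.1, D.dact g (Ψ z).1.2) := by
  have hY : ∀ z : Sal cs, (∑ᶠ b, z.1 b • D.vert b) ∈ YSet M := fun z => by
    obtain ⟨a, ha, h⟩ := D.ye_mem z
    exact D.Uh_subset hD (z.2.2.2.1 a ha) h
  have hc : Continuous fun z : Sal cs => ∑ᶠ b, z.1 b • D.vert b := by
    rw [continuous_iff_continuousAt]
    intro z₀
    obtain ⟨a₀, ha₀, -⟩ := D.ye_mem z₀
    have hs := z₀.2.2.2.1 a₀ ha₀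
    have hc : Continuous fun z : Sal cs => ∑ b ∈ (salLE_finite hs).toFinset, z.1 b • D.vert b :=
      continuous_finsetSum _ fun b _ =>
        ((continuous_apply b).comp continuous_subtype_val).smul continuous_const
    refine hc.continuousAt.congr ?_
    have ho : IsOpen {z : Sal cs | z.1 a₀ ≠ 0} :=
      isOpen_ne_fun ((continuous_apply a₀).comp continuous_subtype_val) continuous_const
    filter_upwards [ho.mem_nhds ha₀] with z hz
    refine (finsum_eq_sum_of_support_subset _ (fun b hb => ?_)).symm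
    have hb' : z.1 b ≠ 0 := fun h => hb (by simp only [h, zero_smul])
    rw [Set.Finite.coe_toFinset]
    refine ⟨z.2.2.2.1 b hb', ?_⟩
    by_cases hab : a₀ = b
    · exact Or.inl (hab ▸ yb_salLE_refl a₀)
    · exact z.2.2.2.2.1 hz hb' hab
  refine ⟨⟨fun z => ⟨∑ᶠ b, z.1 b • D.vert b, hY z⟩, hc.subtype_mk _⟩, D.ye_mem,
    fun g z z' h => ?_⟩
  obtain ⟨L, hL⟩ := D.exists_dactL g
  change ∑ᶠ b, z'.1 b • D.vert b =
    (D.dact g (∑ᶠ b, z.1 b • D.vert b).1, D.dact g (∑ᶠ b, z.1 b • D.vert b).2)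
  have hf : (support fun b => z.1 b • D.vert b).Finite :=
    z.2.2.1.subset (fun b hb h => hb (by simp only [h, zero_smul]))
  rw [← hL, ← hL, ← finsum_comp_equiv (ybE g)]
  change _ = (L.prodMap L) (∑ᶠ b, z.1 b • D.vert b)
  rw [map_finsum (L.prodMap L) hf]
  refine finsum_congr fun b => ?_
  rw [map_smul]
  change z'.1 (g * b.1, b.2) • D.vert (g * b.1, b.2) = _
  rw [h]
  refine congrArg (z.1 b • ·) ?_
  simp only [vert, LinearMap.prodMap_apply, hL, D.dact_mul]

end Dat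

end Vale.Agent.P203
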