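import Vale.Agent.P203.YQuot
import Vale.Agent.P203.YDom
import Vale.Agent.P203.Final

namespace Vale.Agent.P203

theorem yq_aspherical {B : Type} [Finite B] (M : CoxeterMatrix B) :
    PathConnectedSpace (YQ M) ∧
      ∀ n : ℕ, 2 ≤ n → ∀ x : YQ M, Subsingleton (HomotopyGroup.Pi n (YQ M) x) := by
  classical
  have := Fintype.ofFinite B
  obtain ⟨φ, ψ, h⟩ := yq_dominated M.toCoxeterSystem
  obtain ⟨h1, h2⟩ := salQ_aspherical M.toCoxeterSystem
  exact ⟨pathConnected_of_dominated φ ψ h, fun n hn x => pi_of_dominated φ ψ h n (h2 n hn) x⟩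

end Vale.Agent.P203
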