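import Vale.Agent.P203.YDefs
import Vale.Agent.P203.CoxGeo

namespace Vale.Agent.P203

variable {B W : Type} [Group W] {M : CoxeterMatrix B} [Fintype B] [DecidableEq B]
variable {cs : CoxeterSystem M W}

namespace Dat

variable (D : Dat cs)

omit D in
theorem ygeo_evd_al (x : B → ℝ) (s : B) : evd x (al s) = x s := by
  show ∑ r, x r * al s r = x s
  simp [al, Pi.single_apply]

omit D [DecidableEq B] in
theorem ygeo_evd_lin (a b : ℝ) (x y v : B → ℝ) :
    evd (a • x + b • y) v = a * evd x v + b * evd y v := by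
  show ∑ r, (a • x + b • y) r * v r = a * ∑ r, x r * v r + b * ∑ r, y r * v r
  simp only [Finset.mul_sum, ← Finset.sum_add_distrib, Pi.add_apply, Pi.smul_apply, smul_eq_mul]
  exact Finset.sum_congr rfl fun r _ => by ring

omit D [DecidableEq B] in
theorem ygeo_evd_cont (v : B → ℝ) : Continuous fun x : B → ℝ => evd x v := by
  show Continuous fun x : B → ℝ => ∑ r, x r * v r
  fun_prop

theorem ygeo_sign (v : W) (s : B) : 0 ≤ D.fr v (al s) ∨ D.fr v (al s) ≤ 0 :=
  (length_lt_or (cs := cs) v s).imp D.fsign_pos D.fsign_neg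

omit D [Fintype B] [DecidableEq B] in
theorem ygeo_zero {S : Finset B} {β a : B → ℝ} (hβ : 0 ≤ β ∨ β ≤ 0) (ha : ∀ r ∈ S, 0 ≤ a r)
    (h : ∑ r ∈ S, β r * a r = 0) : ∀ r ∈ S, 0 < a r → β r = 0 := by
  intro r hr h1
  have h2 : β r * a r = 0 := by
    rcases hβ with h3 | h3
    · exact (Finset.sum_eq_zero_iff_of_nonneg fun r hr => mul_nonneg (h3 r) (ha r hr)).1 h r hr
    · exact (Finset.sum_eq_zero_iff_of_nonpos
        fun r hr => mul_nonpos_of_nonpos_of_nonneg (h3 r) (ha r hr)).1 h r hr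
  exact (mul_eq_zero.1 h2).resolve_right h1.ne'

theorem ygeo_supp {T : Finset B} {v : W} (hv : v ∈ WP cs T) {t : B} (ht : t ∈ T) :
    ∀ r ∉ T, D.fr v (al t) r = 0 := fun r hr => by
  rw [D.fr_off hv _ hr]
  exact Pi.single_eq_of_ne (fun h : r = t => hr (h ▸ ht)) _

theorem ygeo_cover {T : Finset B} (hT : Sph cs T) (x : B → ℝ) (u : W) :
    ∃ w ∈ WP cs T, ∀ t ∈ T, 0 ≤ evd x (D.fr (u * w) (al t)) := by
  obtain ⟨w, hw, h⟩ := D.cover hT (evd x ∘ₗ D.fr u)
  exact ⟨w, hw, fun t ht => by rw [geo_mul]; exact h t ht⟩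

theorem evd_dact (w : W) (x v : B → ℝ) : evd (D.dact w x) v = evd x (D.fr w⁻¹ v) := by
  rw [D.geo_eval (T := Finset.univ) _ fun r hr => absurd (Finset.mem_univ r) hr]
  exact Finset.sum_congr rfl fun r _ => mul_comm _ _

theorem dact_one (x : B → ℝ) : D.dact 1 x = x := by
  funext t
  rw [dact, inv_one, map_one]
  exact ygeo_evd_al x t

theorem dact_mul (u w : W) (x : B → ℝ) : D.dact (u * w) x = D.dact u (D.dact w x) := by
  funext t
  rw [dact, dact, evd_dact, mul_inv_rev, geo_mul]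

theorem exists_dactL (w : W) : ∃ L : (B → ℝ) →ₗ[ℝ] (B → ℝ), ∀ x, L x = D.dact w x := by
  refine ⟨⟨⟨D.dact w, fun x y => funext fun t => ?_⟩, fun c x => funext fun t => ?_⟩,
    fun _ => rfl⟩
  · simpa [dact] using ygeo_evd_lin 1 1 x y (D.fr w⁻¹ (al t))
  · simpa [dact] using ygeo_evd_lin c 0 x x (D.fr w⁻¹ (al t))

theorem wordAct_eq (hD : D.Std) (ω : List B) (x : B → ℝ) :
    wordAct M ω x = D.dact (cs.wordProd ω) x := by
  induction ω with
  | nil => rw [cs.wordProd_nil, dact_one]; rfl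
  | cons s ω ih =>
    rw [cs.wordProd_cons, dact_mul, ← ih]
    show dualRefl M s (wordAct M ω x) = _
    funext t
    rw [dact, cs.inv_simple, fr_simple', map_sub, map_smul, ygeo_evd_al, ygeo_evd_al, bf_al_al,
      dualRefl, gram, smul_eq_mul]
    split_ifs with h
    · rw [h, M.diagonal]; simp
    · rw [hD t s h]; ring

theorem ygeo_coord (w : W) (x : B → ℝ) (s : B) : evd (D.dact w x) (D.fr w (al s)) = x s := by
  rw [evd_dact, geo_inv_left, ygeo_evd_al]

theorem ygeo_dact_inv (w : W) (x : B → ℝ) :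
    D.dact w (fun s => evd x (D.fr w (al s))) = x := by
  have : (fun s => evd x (D.fr w (al s))) = D.dact w⁻¹ x := by
    funext s; rw [dact, inv_inv]
  rw [this, ← dact_mul, mul_inv_cancel, dact_one]

theorem ygeo_dact_cont (w : W) : Continuous (D.dact w) :=
  continuous_pi fun _ => ygeo_evd_cont _

theorem mem_titsCone (hD : D.Std) (x : B → ℝ) :
    x ∈ titsCone M ↔ ∃ w, D.InCh Finset.univ (evd x) w := by
  constructor
  · rintro ⟨ω, c, hc, rfl⟩
    refine ⟨cs.wordProd ω, fun s _ => ?_⟩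
    rw [D.wordAct_eq hD, ygeo_coord]
    exact hc s
  · rintro ⟨w, hw⟩
    obtain ⟨ω, rfl⟩ := cs.wordProd_surjective w
    exact ⟨ω, _, fun s => hw s (Finset.mem_univ s), by rw [D.wordAct_eq hD, ygeo_dact_inv]⟩

theorem mem_YSet (hD : D.Std) (p : (B → ℝ) × (B → ℝ)) :
    p ∈ YSet M ↔ p.1 ∈ interior (titsCone M) ∧
      ∀ w s, ¬ (evd p.1 (D.fr w (al s)) = 0 ∧ evd p.2 (D.fr w (al s)) = 0) := by
  have key : ∀ (ω : List B) (s : B) (y : B → ℝ), y ∈ wordAct M ω '' {x | x s = 0} ↔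
      evd y (D.fr (cs.wordProd ω) (al s)) = 0 := by
    intro ω s y
    constructor
    · rintro ⟨x, hx, rfl⟩
      rw [D.wordAct_eq hD, ygeo_coord]
      exact hx
    · intro h
      exact ⟨_, h, by rw [D.wordAct_eq hD, ygeo_dact_inv]⟩
  refine and_congr_right fun _ => ⟨fun h w s => ?_, ?_⟩
  · obtain ⟨ω, rfl⟩ := cs.wordProd_surjective w
    rw [← key, ← key]
    exact h _ ⟨ω, s, rfl⟩
  · rintro h _ ⟨ω, s, rfl⟩
    rw [key, key]
    exact h _ s

theorem dact_mem_YSet (hD : D.Std) (w : W) {p : (B → ℝ) × (B → ℝ)} (hp : p ∈ YSet M) :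
    (D.dact w p.1, D.dact w p.2) ∈ YSet M := by
  rw [D.mem_YSet hD] at hp ⊢
  refine ⟨?_, fun g s => ?_⟩
  · have h1 : D.dact w p.1 ∈ D.dact w⁻¹ ⁻¹' interior (titsCone M) := by
      rw [Set.mem_preimage, ← dact_mul, inv_mul_cancel, dact_one]
      exact hp.1
    refine interior_mono (fun y hy => ?_)
      (preimage_interior_subset_interior_preimage (D.ygeo_dact_cont w⁻¹) h1)
    obtain ⟨u, hu⟩ := (D.mem_titsCone hD _).1 hy
    refine (D.mem_titsCone hD _).2 ⟨w * u, fun s hs => ?_⟩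
    have h2 := hu s hs
    rwa [evd_dact, inv_inv, ← geo_mul] at h2
  · simp only [evd_dact, ← geo_mul]
    exact hp.2 _ s

theorem Uh_convex (a : W × Finset B) : Convex ℝ (D.Uh a) := by
  have key : ∀ (x y v : B → ℝ) (s t : ℝ), 0 ≤ s → 0 ≤ t → s + t = 1 → 0 < evd x v → 0 < evd y v →
      0 < evd (s • x + t • y) v := by
    intro x y v s t hs ht hst hx hy
    rw [ygeo_evd_lin]
    exact convex_Ioi (𝕜 := ℝ) (0 : ℝ) hx hy hs ht hst
  intro p hp q hq s t hs ht hst
  exact ⟨fun w hw r hr => key _ _ _ s t hs ht hst (hp.1 w hw r hr) (hq.1 w hw r hr),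
    fun r hr => key _ _ _ s t hs ht hst (hp.2 r hr) (hq.2 r hr)⟩

theorem ygeo_st_open {a : W × Finset B} (ha : Sph cs a.2) :
    IsOpen {x : B → ℝ | ∀ w ∈ WP cs a.2, ∀ s ∉ a.2, 0 < evd x (D.fr (a.1 * w) (al s))} := by
  refine isOpen_iff_mem_nhds.2 fun x hx => ?_
  refine (Filter.eventually_all_finite ha).2 fun w hw => Filter.eventually_all.2 fun s => ?_
  by_cases hs : s ∈ a.2
  · exact Filter.Eventually.of_forall fun _ h => absurd hs h
  · exact (continuousAt_const.eventually_lt (ygeo_evd_cont _).continuousAt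
      (hx w hw s hs)).mono fun _ h _ => h

theorem Uh_open {a : W × Finset B} (ha : Sph cs a.2) : IsOpen (D.Uh a) := by
  refine ((D.ygeo_st_open ha).preimage continuous_fst).inter (IsOpen.preimage continuous_snd
    (t := {y : B → ℝ | ∀ t ∈ a.2, 0 < evd y (D.fr a.1 (al t))}) ?_)
  refine isOpen_iff_mem_nhds.2 fun y hy => ?_
  exact (Filter.eventually_all_finset a.2).2 fun t ht =>
    continuousAt_const.eventually_lt (ygeo_evd_cont _).continuousAt (hy t ht)

theorem Uh_subset (hD : D.Std) {a : W × Finset B} (ha : Sph cs a.2) : D.Uh a ⊆ YSet M := by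
  have hch : ∀ x : B → ℝ, (∀ w ∈ WP cs a.2, ∀ s ∉ a.2, 0 < evd x (D.fr (a.1 * w) (al s))) →
      ∃ w ∈ WP cs a.2, D.InCh Finset.univ (evd x) (a.1 * w) := by
    intro x hx
    obtain ⟨w, hw, h⟩ := D.ygeo_cover ha x a.1
    refine ⟨w, hw, fun s _ => ?_⟩
    by_cases hs : s ∈ a.2
    · exact h s hs
    · exact (hx w hw s hs).le
  intro p hp
  rw [D.mem_YSet hD]
  refine ⟨interior_maximal (fun x hx => ?_) (D.ygeo_st_open ha) hp.1, fun g s ⟨h1, h2⟩ => ?_⟩
  · obtain ⟨w, -, h⟩ := hch x hx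
    exact (D.mem_titsCone hD x).2 ⟨_, h⟩
  · obtain ⟨w, hw, h⟩ := hch p.1 hp.1
    rw [← D.geo_inv_right (a.1 * w) (D.fr g (al s)), ← geo_mul _ _ g,
      D.geo_eval (T := Finset.univ) _ fun r hr => absurd (Finset.mem_univ r) hr] at h1
    have h3 := ygeo_zero (D.ygeo_sign _ s) h h1
    have h4 : ∀ r ∉ a.2, D.fr (a.1⁻¹ * g) (al s) r = 0 := fun r hr => by
      have h5 : a.1⁻¹ * g = w * ((a.1 * w)⁻¹ * g) := by group
      rw [h5, geo_mul, D.fr_off hw _ hr]
      exact h3 r (Finset.mem_univ r) (hp.1 w hw r hr)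
    rw [← D.geo_inv_right a.1 (D.fr g (al s)), ← geo_mul _ _ g, D.geo_eval _ h4] at h2
    have h6 := ygeo_zero (D.ygeo_sign _ s) (fun r hr => (hp.2 r hr).le) h2
    refine D.fr_al_ne (a.1⁻¹ * g) s (funext fun r => ?_)
    by_cases hr : r ∈ a.2
    · exact h6 r hr (hp.2 r hr)
    · exact h4 r hr

theorem ygeo_sph (hD : D.Std) {x : B → ℝ} (hx : x ∈ interior (titsCone M)) {u : W}
    {T : Finset B} (hT : ∀ t ∈ T, evd x (D.fr u (al t)) = 0) : Sph cs T := by
  obtain ⟨ε, hε, hmem⟩ : ∃ ε : ℝ, 0 < ε ∧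
      (1 : ℝ) • x + (-ε) • D.dact u (fun _ => 1) ∈ titsCone M := by
    have h1 : Continuous fun ε : ℝ => (1 : ℝ) • x + (-ε) • D.dact u (fun _ => 1) := by fun_prop
    have h2 : ∀ᶠ ε in nhds (0 : ℝ), (1 : ℝ) • x + (-ε) • D.dact u (fun _ => 1) ∈ titsCone M := by
      refine h1.continuousAt.eventually_mem ?_
      simpa using mem_interior_iff_mem_nhds.1 hx
    obtain ⟨ε, h3, h4⟩ :=
      ((h2.filter_mono nhdsWithin_le_nhds).and (self_mem_nhdsWithin (s := Set.Ioi 0))).exists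
    exact ⟨ε, h4, h3⟩
  obtain ⟨g, hg⟩ := (D.mem_titsCone hD _).1 hmem
  have key : ∀ v ∈ WP cs T, cs.length (g⁻¹ * u * v) + cs.length v ≤ cs.length (g⁻¹ * u) := by
    intro v hv
    refine D.WP_induction (p := fun v => cs.length (g⁻¹ * u * v) + cs.length v ≤
      cs.length (g⁻¹ * u)) (by simp) (fun v hv t ht hl ih => ?_) hv
    have h1 : cs.length (g⁻¹ * u * v * cs.simple t) < cs.length (g⁻¹ * u * v) := by
      refine (length_lt_or (cs := cs) _ t).resolve_left fun h2 => ?_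
      have h3 : 0 ≤ evd ((1 : ℝ) • x + (-ε) • D.dact u (fun _ => 1))
          (D.fr g (D.fr (g⁻¹ * u * v) (al t))) := by
        rw [D.geo_eval (T := Finset.univ) _ fun r hr => absurd (Finset.mem_univ r) hr]
        exact Finset.sum_nonneg fun r hr => mul_nonneg (D.fsign_pos h2 r) (hg r hr)
      rw [← geo_mul, show g * (g⁻¹ * u * v) = u * v by group, geo_mul, ygeo_evd_lin,
        D.geo_eval _ (D.ygeo_supp hv ht), D.geo_eval _ (D.ygeo_supp hv ht),
        Finset.sum_eq_zero fun r hr => by rw [hT r hr, mul_zero]] at h3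
      simp only [ygeo_coord] at h3
      have h4 : 0 ≤ ∑ r ∈ T, D.fr v (al t) r * 1 :=
        Finset.sum_nonneg fun r _ => mul_nonneg (D.fsign_pos hl r) zero_le_one
      have h5 : ∑ r ∈ T, D.fr v (al t) r * 1 = 0 := by nlinarith
      have h6 := ygeo_zero (a := fun _ => 1) (D.ygeo_sign v t) (fun _ _ => zero_le_one) h5
      refine D.fr_al_ne v t (funext fun r => ?_)
      by_cases hr : r ∈ T
      · exact h6 r hr one_pos
      · exact D.ygeo_supp hv ht r hr
    have h7 := cs.length_mul_le v (cs.simple t)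
    rw [cs.length_simple] at h7
    rw [← mul_assoc]
    omega
  refine ((List.finite_length_le B (cs.length (g⁻¹ * u))).image cs.wordProd).subset
    fun v hv => ?_
  obtain ⟨ω, h1, h2⟩ := cs.exists_isReduced v
  refine ⟨ω, ?_, h2.symm⟩
  have h3 := key v hv
  have h4 : cs.length v = ω.length := by rw [h2]; exact h1
  show ω.length ≤ _
  omega

/-- Points of `Y` have spherical stabilizers. -/
theorem exists_cell (hD : D.Std) {p : (B → ℝ) × (B → ℝ)} (hp : p ∈ YSet M) :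
    ∃ (u : W) (T : Finset B), Sph cs T ∧ (∀ s ∉ T, 0 < evd p.1 (D.fr u (al s))) ∧
      (∀ t ∈ T, evd p.1 (D.fr u (al t)) = 0) ∧ ∀ t ∈ T, 0 < evd p.2 (D.fr u (al t)) := by
  rw [D.mem_YSet hD] at hp
  obtain ⟨u, hu⟩ := (D.mem_titsCone hD _).1 (interior_subset hp.1)
  obtain ⟨T, hT⟩ : ∃ T : Finset B, ∀ s, s ∈ T ↔ evd p.1 (D.fr u (al s)) = 0 :=
    ⟨Finset.univ.filter fun s => evd p.1 (D.fr u (al s)) = 0, fun s => by simp⟩
  have hS : Sph cs T := D.ygeo_sph hD hp.1 fun t ht => (hT t).1 ht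
  obtain ⟨w, hw, h⟩ := D.ygeo_cover hS p.2 u
  have key : ∀ s, evd p.1 (D.fr (u * w) (al s)) = evd p.1 (D.fr u (al s)) := fun s => by
    rw [geo_mul, ← sub_eq_zero, ← map_sub, ← map_sub, D.geo_eval (T := T) _ fun r hr => by
      rw [Pi.sub_apply, D.fr_off hw _ hr, sub_self]]
    exact Finset.sum_eq_zero fun r hr => by rw [(hT r).1 hr, mul_zero]
  refine ⟨u * w, T, hS, fun s hs => ?_, fun t ht => ?_, fun t ht => ?_⟩
  · rw [key]
    exact lt_of_le_of_ne (hu s (Finset.mem_univ s)) fun h1 => hs ((hT s).2 h1.symm)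
  · rw [key, (hT t).1 ht]
  · exact lt_of_le_of_ne (h t ht) fun h1 => hp.2 (u * w) t ⟨by rw [key, (hT t).1 ht], h1.symm⟩

end Dat

end Vale.Agent.P203
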