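import Vale.Agent.P203.YEmb
import Vale.Agent.P203.YDat

namespace Vale.Agent.P203

variable {B W : Type} [Group W] {M : CoxeterMatrix B} [Fintype B] [DecidableEq B]

/-- `Y / W` is dominated by the Salvetti complex. -/
theorem yq_dominated (cs : CoxeterSystem M W) : ∃ (φ : C(YQ M, SalQ cs)) (ψ : C(SalQ cs, YQ M)),
    (ContinuousMap.id (YQ M)).Homotopic (ψ.comp φ) := by
  obtain ⟨D, hD⟩ := dat_exists_std cs
  obtain ⟨Φ, hΦ1, hΦ2⟩ := D.exists_toSal hD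
  obtain ⟨Ψ, hΨ1, hΨ2⟩ := D.exists_ofSal hD
  have rel : ∀ (g : W) (p q : YSp M), q.1 = (D.dact g p.1.1, D.dact g p.1.2) →
      ∃ ω : List B, q.1 = (wordAct M ω p.1.1, wordAct M ω p.1.2) := by
    intro g p q h
    obtain ⟨ω, rfl⟩ := cs.wordProd_surjective g
    exact ⟨ω, by rw [D.wordAct_eq hD, D.wordAct_eq hD]; exact h⟩
  have rel' : ∀ p q : YSp M, (∃ ω : List B, q.1 = (wordAct M ω p.1.1, wordAct M ω p.1.2)) →
      ∃ g : W, q.1 = (D.dact g p.1.1, D.dact g p.1.2) := by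
    rintro p q ⟨ω, h⟩
    exact ⟨cs.wordProd ω, by rw [← D.wordAct_eq hD, ← D.wordAct_eq hD]; exact h⟩
  have hmem : ∀ (t : unitInterval) (p : YSp M),
      (1 - (t : ℝ)) • p.1 + (t : ℝ) • (Ψ (Φ p)).1 ∈ YSet M := by
    intro t p
    obtain ⟨a, ha, h1⟩ := hΨ1 (Φ p)
    exact D.Uh_subset hD ((Φ p).2.2.2.1 a ha) (D.Uh_convex a (hΦ1 p a ha) h1
      (sub_nonneg.2 t.2.2) t.2.1 (sub_add_cancel _ _))
  let H : unitInterval × YSp M → YSp M := fun z =>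
    ⟨(1 - (z.1 : ℝ)) • z.2.1 + (z.1 : ℝ) • (Ψ (Φ z.2)).1, hmem z.1 z.2⟩
  have hH : Continuous H := by
    refine Continuous.subtype_mk ?_ _
    fun_prop
  have hHe : ∀ (t : unitInterval) (g : W) (p q : YSp M), q.1 = (D.dact g p.1.1, D.dact g p.1.2) →
      (H (t, q)).1 = (D.dact g (H (t, p)).1.1, D.dact g (H (t, p)).1.2) := by
    intro t g p q h
    obtain ⟨L, hL⟩ := D.exists_dactL g
    have h1 := hΨ2 g _ _ (hΦ2 g p q h)
    show (1 - (t : ℝ)) • q.1 + (t : ℝ) • (Ψ (Φ q)).1 =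
      (D.dact g ((1 - (t : ℝ)) • p.1.1 + (t : ℝ) • (Ψ (Φ p)).1.1),
        D.dact g ((1 - (t : ℝ)) • p.1.2 + (t : ℝ) • (Ψ (Φ p)).1.2))
    rw [h, h1]
    simp only [← hL, map_add, map_smul]
    rfl
  let φ : C(YQ M, SalQ cs) := ⟨Quot.map Φ fun p q h => by
      obtain ⟨g, hg⟩ := rel' p q h
      exact ⟨g, hΦ2 g p q hg⟩,
    continuous_quot_lift _ (continuous_quot_mk.comp Φ.continuous)⟩
  let ψ : C(SalQ cs, YQ M) := ⟨Quot.map Ψ fun z z' h => by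
      obtain ⟨g, hg⟩ := h
      exact rel g _ _ (hΨ2 g z z' hg),
    continuous_quot_lift _ (continuous_quot_mk.comp Ψ.continuous)⟩
  let K : unitInterval × YQ M → YQ M := fun z =>
    Quot.map (fun p => H (z.1, p)) (fun p q h => by
      obtain ⟨g, hg⟩ := rel' p q h
      exact rel g _ _ (hHe z.1 g p q hg)) z.2
  have hK : Continuous K :=
    isQuotientMap_quot_mk.continuous_lift_prod_right (continuous_quot_mk.comp hH)
  refine ⟨φ, ψ, ⟨⟨⟨K, hK⟩, ?_, ?_⟩⟩⟩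
  · rintro ⟨p⟩
    exact congrArg (Quot.mk _) (Subtype.ext (by simp [H]))
  · rintro ⟨p⟩
    exact congrArg (Quot.mk _) (Subtype.ext (by simp [H]))

end Vale.Agent.P203
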