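import Mathlib

namespace Vale.Agent.P203

variable {B : Type} (M : CoxeterMatrix B)

/-- The canonical bilinear form on simple roots, `-cos (π / m)`; for `m = ∞` (encoded as `0`) the
value is `-1`. -/
noncomputable def gram (s t : B) : ℝ := -Real.cos (Real.pi / (M s t : ℝ))

/-- The simple reflection `s` on `V*`, in the coordinates `x t = ⟨x, α_t⟩`. -/
noncomputable def dualRefl (s : B) (x : B → ℝ) : B → ℝ := fun t => x t - 2 * gram M t s * x s

/-- The action on `V*` of the element of `W` given by a word. -/
noncomputable def wordAct (ω : List B) (x : B → ℝ) : B → ℝ := ω.foldr (dualRefl M) x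

/-- The Tits cone: the union of the translates of the closed fundamental chamber. -/
def titsCone : Set (B → ℝ) := {x | ∃ (ω : List B) (c : B → ℝ), (∀ s, 0 ≤ c s) ∧ x = wordAct M ω c}

/-- The reflecting hyperplanes: the translates of the walls of the fundamental chamber. -/
def reflHyp : Set (Set (B → ℝ)) := {H | ∃ (ω : List B) (s : B), H = wordAct M ω '' {x | x s = 0}}

/-- The space `Y` of points `x + i y` with `x` in the interior of the Tits cone, off the
complexified reflecting hyperplanes. -/
abbrev YSp : Type :=
  {p : (B → ℝ) × (B → ℝ) // p.1 ∈ interior (titsCone M) ∧ ∀ H ∈ reflHyp M, ¬ (p.1 ∈ H ∧ p.2 ∈ H)}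

/-- The orbit space `Y / W`. -/
abbrev YQ : Type :=
  Quot fun p q : YSp M => ∃ ω : List B, q.1 = (wordAct M ω p.1.1, wordAct M ω p.1.2)

end Vale.Agent.P203
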